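import Mathlib

/-!
# P359: two-mode recursion (pair x fermion, pair x pair) in the plane

`R` is a symmetric bilinear form on `ℝ[X₀, X₁]` with `R (D A) A' = R A (S A')`, where
`D = p ∂₀ + q ∂₁` and `S = X₀ + X₁`. With `Z = q X₀ - p X₁` one has `D Z = 0`, `D S = p + q`, so
`R` is diagonal in the basis `S^j Z^n`.
-/

namespace Vale.Agent.P359.Heis

open MvPolynomial

noncomputable section

/-- `D = p ∂₀ + q ∂₁` -/
def D (p q : ℝ) : Derivation ℝ (MvPolynomial (Fin 2) ℝ) (MvPolynomial (Fin 2) ℝ) :=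
  p • pderiv 0 + q • pderiv 1

/-- `S = X₀ + X₁` -/
def S : MvPolynomial (Fin 2) ℝ := X 0 + X 1

/-- `Z = q X₀ - p X₁` -/
def Z (p q : ℝ) : MvPolynomial (Fin 2) ℝ := C q * X 0 - C p * X 1

lemma D_apply (p q : ℝ) (f : MvPolynomial (Fin 2) ℝ) :
    D p q f = C p * pderiv 0 f + C q * pderiv 1 f := by
  simp [D, smul_eq_C_mul]

lemma D_X0 (p q : ℝ) : D p q (X 0) = C p := by
  rw [D_apply]; simp

lemma D_X1 (p q : ℝ) : D p q (X 1) = C q := by
  rw [D_apply]; simp

lemma D_S (p q : ℝ) : D p q S = C (p + q) := by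
  simp [S, D_X0, D_X1]

lemma D_C (p q a : ℝ) : D p q (C a) = 0 := by
  rw [D_apply]; simp

lemma D_Z (p q : ℝ) : D p q (Z p q) = 0 := by
  unfold Z
  rw [map_sub, Derivation.leibniz, Derivation.leibniz, D_C, D_C, D_X0, D_X1]
  simp only [smul_eq_mul, mul_zero, add_zero]
  ring

lemma D_Z_pow (p q : ℝ) (n : ℕ) : D p q (Z p q ^ n) = 0 := by
  rw [Derivation.leibniz_pow, D_Z]; simp

lemma D_S_pow (p q : ℝ) (j : ℕ) : D p q (S ^ (j + 1)) = C ((j + 1 : ℕ) * (p + q) : ℝ) * S ^ j := by
  rw [Derivation.leibniz_pow, D_S]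
  simp only [Nat.add_sub_cancel, smul_eq_mul, nsmul_eq_mul, C_mul, map_natCast]
  ring

lemma D_SZ (p q : ℝ) (j n : ℕ) :
    D p q (S ^ (j + 1) * Z p q ^ n) = C ((j + 1 : ℕ) * (p + q) : ℝ) * (S ^ j * Z p q ^ n) := by
  rw [Derivation.leibniz, D_Z_pow, D_S_pow]
  simp only [smul_eq_mul, mul_zero, zero_add]
  ring

/-- `κ p q K m n = [z^n] (p+z)^K (q-z)^m` -/
def kap {R : Type*} [CommRing R] (p q : R) : ℕ → ℕ → ℕ → R
  | 0, 0, 0 => 1
  | 0, 0, _ + 1 => 0
  | 0, m + 1, 0 => q * kap p q 0 m 0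
  | 0, m + 1, n + 1 => q * kap p q 0 m (n + 1) - kap p q 0 m n
  | K + 1, m, 0 => p * kap p q K m 0
  | K + 1, m, n + 1 => p * kap p q K m (n + 1) + kap p q K m n

/-- `kap` vanishes beyond the degree -/
lemma kap_eq_zero {R : Type*} [CommRing R] (p q : R) :
    ∀ K m n : ℕ, K + m < n → kap p q K m n = 0
  | 0, 0, 0, h => by omega
  | 0, 0, _ + 1, _ => by rw [kap]
  | 0, m + 1, 0, h => by omega
  | 0, m + 1, n + 1, h => by
      rw [kap, kap_eq_zero p q 0 m (n + 1) (by omega), kap_eq_zero p q 0 m n (by omega)]; ring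
  | K + 1, m, 0, h => by omega
  | K + 1, m, n + 1, h => by
      rw [kap, kap_eq_zero p q K m (n + 1) (by omega), kap_eq_zero p q K m n (by omega)]; ring

lemma map_kap {R R' : Type*} [CommRing R] [CommRing R'] (f : R →+* R') (p q : R) :
    ∀ K m n : ℕ, f (kap p q K m n) = kap (f p) (f q) K m n
  | 0, 0, 0 => by simp [kap]
  | 0, 0, _ + 1 => by simp [kap]
  | 0, m + 1, 0 => by simp only [kap, map_mul, map_kap f p q 0 m 0]
  | 0, m + 1, n + 1 => by
      simp only [kap, map_sub, map_mul, map_kap f p q 0 m (n + 1), map_kap f p q 0 m n]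
  | K + 1, m, 0 => by simp only [kap, map_mul, map_kap f p q K m 0]
  | K + 1, m, n + 1 => by
      simp only [kap, map_add, map_mul, map_kap f p q K m (n + 1), map_kap f p q K m n]

/-- homogenisation -/
def hom {A : Type*} [CommRing A] (s z : A) (J : ℕ) (f : ℕ → A) : A :=
  ∑ n ∈ Finset.range (J + 1), f n * s ^ (J - n) * z ^ n

lemma hom_succ {A : Type*} [CommRing A] (s z : A) (J : ℕ) (f : ℕ → A) (hf : f (J + 1) = 0)
    (a b : A) (g : ℕ → A) (h0 : g 0 = a * f 0) (h1 : ∀ n, g (n + 1) = a * f (n + 1) + b * f n) :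
    hom s z (J + 1) g = (a * s + b * z) * hom s z J f := by
  unfold hom
  rw [Finset.sum_range_succ' _ (J + 1)]
  have e1 : ∀ n ∈ Finset.range (J + 1), g (n + 1) * s ^ (J + 1 - (n + 1)) * z ^ (n + 1)
      = a * (f (n + 1) * s ^ (J - n) * z ^ (n + 1)) + (b * z) * (f n * s ^ (J - n) * z ^ n) := by
    intro n _
    rw [h1, Nat.add_sub_add_right, pow_succ]
    ring
  rw [Finset.sum_congr rfl e1, Finset.sum_add_distrib, ← Finset.mul_sum, ← Finset.mul_sum,
    add_mul, mul_assoc a s]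
  have e2 : s * ∑ n ∈ Finset.range (J + 1), f n * s ^ (J - n) * z ^ n
      = (∑ n ∈ Finset.range (J + 1), f (n + 1) * s ^ (J - n) * z ^ (n + 1)) + f 0 * s ^ (J + 1) := by
    rw [Finset.mul_sum, Finset.sum_range_succ', Finset.sum_range_succ]
    rw [hf]
    have e3 : ∀ n ∈ Finset.range J, s * (f (n + 1) * s ^ (J - (n + 1)) * z ^ (n + 1))
        = f (n + 1) * s ^ (J - n) * z ^ (n + 1) := by
      intro n hn
      have hn' := Finset.mem_range.mp hn
      have : J - n = (J - (n + 1)) + 1 := by omega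
      rw [this, pow_succ]; ring
    rw [Finset.sum_congr rfl e3]
    simp only [Nat.sub_zero, pow_zero, mul_one, zero_mul, add_zero]
    ring
  rw [e2]
  rw [h0]
  simp only [Nat.sub_zero, pow_zero, mul_one]
  ring

lemma hom_kap {A : Type*} [CommRing A] (s z p q : A) :
    ∀ K m : ℕ, hom s z (K + m) (kap p q K m) = (p * s + z) ^ K * (q * s - z) ^ m
  | 0, 0 => by simp [hom, kap]
  | 0, m + 1 => by
      have := hom_succ s z (0 + m) (kap p q 0 m) (kap_eq_zero p q 0 m _ (by omega)) q (-1)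
        (kap p q 0 (m + 1)) (by rw [kap]) (by intro n; rw [kap]; ring)
      rw [hom_kap s z p q 0 m] at this
      rw [show 0 + (m + 1) = 0 + m + 1 by omega, this]
      ring
  | K + 1, m => by
      have := hom_succ s z (K + m) (kap p q K m) (kap_eq_zero p q K m _ (by omega)) p 1
        (kap p q (K + 1) m) (by rw [kap]) (by intro n; rw [kap]; ring)
      rw [hom_kap s z p q K m] at this
      rw [show K + 1 + m = K + m + 1 by omega, this]
      ring

/-- `(p+q)^(K+m) X₀^K X₁^m` in the basis `S^j Z^n` -/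
lemma monomial_expand (p q : ℝ) (K m : ℕ) :
    C ((p + q) ^ (K + m)) * (X 0 ^ K * X 1 ^ m : MvPolynomial (Fin 2) ℝ)
      = ∑ n ∈ Finset.range (K + m + 1), C (kap p q K m n) * (S ^ (K + m - n) * Z p q ^ n) := by
  have h := hom_kap (A := MvPolynomial (Fin 2) ℝ) S (Z p q) (C p) (C q) K m
  have h1 : C p * S + Z p q = C (p + q) * X 0 := by
    unfold S Z; rw [C_add]; ring
  have h2 : C q * S - Z p q = C (p + q) * X 1 := by
    unfold S Z; rw [C_add]; ring
  rw [h1, h2, mul_pow, mul_pow] at h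
  unfold hom at h
  rw [C_pow, pow_add]
  have h3 : C (p + q) ^ K * C (p + q) ^ m * (X 0 ^ K * X 1 ^ m : MvPolynomial (Fin 2) ℝ)
      = C (p + q) ^ K * X 0 ^ K * (C (p + q) ^ m * X 1 ^ m) := by ring
  rw [h3, ← h]
  refine Finset.sum_congr rfl fun n _ => ?_
  rw [← map_kap (C : ℝ →+* MvPolynomial (Fin 2) ℝ) p q K m n]
  ring

section Form

variable {p q : ℝ} {R : MvPolynomial (Fin 2) ℝ →ₗ[ℝ] MvPolynomial (Fin 2) ℝ →ₗ[ℝ] ℝ}

lemma form_C_mul_left (R : MvPolynomial (Fin 2) ℝ →ₗ[ℝ] MvPolynomial (Fin 2) ℝ →ₗ[ℝ] ℝ)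
    (a : ℝ) (f g : MvPolynomial (Fin 2) ℝ) : R (C a * f) g = a * R f g := by
  rw [← smul_eq_C_mul, map_smul, LinearMap.smul_apply, smul_eq_mul]

lemma form_C_mul_right (R : MvPolynomial (Fin 2) ℝ →ₗ[ℝ] MvPolynomial (Fin 2) ℝ →ₗ[ℝ] ℝ)
    (a : ℝ) (f g : MvPolynomial (Fin 2) ℝ) : R f (C a * g) = a * R f g := by
  rw [← smul_eq_C_mul, map_smul, smul_eq_mul]

lemma form_SZ (hD : ∀ f g, R (D p q f) g = R f (S * g)) (hs : ∀ f g, R f g = R g f)
    (n n' : ℕ) : ∀ j j' : ℕ, R (S ^ j * Z p q ^ n) (S ^ j' * Z p q ^ n')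
      = if j = j' then (p + q) ^ j * (Nat.factorial j : ℝ) * R (Z p q ^ n) (Z p q ^ n') else 0
  | 0, 0 => by simp
  | 0, j' + 1 => by
      have : S ^ (j' + 1) * Z p q ^ n' = S * (S ^ j' * Z p q ^ n') := by ring
      rw [this, ← hD, pow_zero, one_mul, D_Z_pow]
      simp
  | j + 1, 0 => by
      have : S ^ (j + 1) * Z p q ^ n = S * (S ^ j * Z p q ^ n) := by ring
      rw [hs, this, ← hD, pow_zero, one_mul, D_Z_pow]
      simp
  | j + 1, j' + 1 => by
      have : S ^ (j' + 1) * Z p q ^ n' = S * (S ^ j' * Z p q ^ n') := by ring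
      rw [this, ← hD, D_SZ, form_C_mul_left, form_SZ hD hs n n' j j']
      by_cases hj : j = j'
      · subst hj
        simp only [if_true, pow_succ, Nat.factorial_succ]
        push_cast
        ring
      · have : ¬ (j + 1 = j' + 1) := by omega
        simp [hj]

/-- the general formula -/
theorem form_monomial (hD : ∀ f g, R (D p q f) g = R f (S * g)) (hs : ∀ f g, R f g = R g f)
    (hg : ∀ n n', n ≠ n' → R (Z p q ^ n) (Z p q ^ n') = 0) (K m K' m' : ℕ)
    (hJ : K + m = K' + m') :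
    (p + q) ^ (2 * (K + m)) * R (X 0 ^ K * X 1 ^ m) (X 0 ^ K' * X 1 ^ m')
      = ∑ n ∈ Finset.range (K + m + 1), kap p q K m n * kap p q K' m' n *
          ((p + q) ^ (K + m - n) * (Nat.factorial (K + m - n) : ℝ)) * R (Z p q ^ n) (Z p q ^ n) := by
  have h1 : (p + q) ^ (2 * (K + m)) * R (X 0 ^ K * X 1 ^ m) (X 0 ^ K' * X 1 ^ m')
      = R (C ((p + q) ^ (K + m)) * (X 0 ^ K * X 1 ^ m))
          (C ((p + q) ^ (K' + m')) * (X 0 ^ K' * X 1 ^ m')) := by
    rw [form_C_mul_left, form_C_mul_right, ← hJ, two_mul, pow_add]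
    ring
  rw [h1, monomial_expand, monomial_expand, map_sum R, LinearMap.sum_apply]
  refine Finset.sum_congr rfl fun n hn => ?_
  rw [form_C_mul_left, map_sum]
  rw [Finset.sum_eq_single n]
  · rw [form_C_mul_right, form_SZ hD hs, ← hJ, if_pos rfl]
    ring
  · intro n' _ hne
    rw [form_C_mul_right, form_SZ hD hs]
    split_ifs
    · rw [hg n n' (Ne.symm hne)]; ring
    · ring
  · intro hn'
    rw [← hJ] at hn'
    exact absurd hn hn'

end Form

end

end Vale.Agent.P359.Heis

namespace Vale.Agent.P359.Heis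

open MvPolynomial

noncomputable section

section Arr

variable (a b : ℝ) (p : ℕ → ℕ → ℕ → ℕ → ℝ)

/-- the coefficient of the form on monomials -/
def bf (s t : Fin 2 →₀ ℕ) : ℝ :=
  if s 0 + s 1 = t 0 + t 1 then
    (Nat.factorial (s 0) : ℝ) * (Nat.factorial (s 1) : ℝ) * (Nat.factorial (t 0) : ℝ) *
      (Nat.factorial (t 1) : ℝ) * p (s 0) (s 1) (t 0) (t 1)
  else 0

/-- the bilinear form attached to an array -/
def frm : MvPolynomial (Fin 2) ℝ →ₗ[ℝ] MvPolynomial (Fin 2) ℝ →ₗ[ℝ] ℝ :=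
  (basisMonomials (Fin 2) ℝ).constr ℝ fun s =>
    (basisMonomials (Fin 2) ℝ).constr ℝ fun t => bf p s t

lemma frm_monomial (s t : Fin 2 →₀ ℕ) :
    frm p (monomial s 1) (monomial t 1) = bf p s t := by
  have h1 : (monomial s (1 : ℝ)) = basisMonomials (Fin 2) ℝ s := by simp
  have h2 : (monomial t (1 : ℝ)) = basisMonomials (Fin 2) ℝ t := by simp
  rw [h1, h2, frm, Module.Basis.constr_basis, Module.Basis.constr_basis]

lemma frm_symm (hs : ∀ K m K' m', p K m K' m' = p K' m' K m) (f g : MvPolynomial (Fin 2) ℝ) :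
    frm p f g = frm p g f := by
  have : frm p = (frm p).flip := by
    refine (basisMonomials (Fin 2) ℝ).ext fun s => (basisMonomials (Fin 2) ℝ).ext fun t => ?_
    simp only [coe_basisMonomials, LinearMap.flip_apply]
    rw [frm_monomial, frm_monomial, bf, bf, hs (s 0) (s 1) (t 0) (t 1)]
    by_cases h : s 0 + s 1 = t 0 + t 1
    · rw [if_pos h, if_pos h.symm]; ring
    · rw [if_neg h, if_neg (Ne.symm h)]
  rw [this, LinearMap.flip_apply, ← this]

/-- the recursion of the array: terms with index `K - 1` are absent when `K = 0` -/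
def Rec : Prop := ∀ K m K' m' : ℕ, K + m = K' + m' + 1 →
  (if K = 0 then 0 else a * p (K - 1) m K' m') + (if m = 0 then 0 else b * p K (m - 1) K' m')
    = (K' + 1 : ℝ) * p K m (K' + 1) m' + (m' + 1 : ℝ) * p K m K' (m' + 1)

lemma frm_rec (hr : Rec a b p) (f g : MvPolynomial (Fin 2) ℝ) :
    frm p (D a b f) g = frm p f (S * g) := by
  have key : (frm p).comp (D a b).toLinearMap
      = ((frm p).compl₂ (LinearMap.mulLeft ℝ S)) := by
    refine (basisMonomials (Fin 2) ℝ).ext fun s => (basisMonomials (Fin 2) ℝ).ext fun t => ?_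
    simp only [coe_basisMonomials, LinearMap.comp_apply, LinearMap.compl₂_apply,
      LinearMap.mulLeft_apply]
    have e1 : (D a b).toLinearMap (monomial s (1 : ℝ))
        = C (a * s 0) * monomial (s - Finsupp.single 0 1) 1
          + C (b * s 1) * monomial (s - Finsupp.single 1 1) 1 := by
      have : (D a b).toLinearMap (monomial s (1 : ℝ)) = D a b (monomial s (1 : ℝ)) := rfl
      rw [this, D_apply, pderiv_monomial, pderiv_monomial, C_mul_monomial, C_mul_monomial,
        C_mul_monomial, C_mul_monomial]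
      simp
    have e2 : S * monomial t (1 : ℝ) = monomial (t + Finsupp.single 0 1) 1
        + monomial (t + Finsupp.single 1 1) 1 := by
      rw [S, add_mul, X, X, monomial_mul, monomial_mul, add_comm (Finsupp.single 0 1) t,
        add_comm (Finsupp.single 1 1) t, mul_one]
    rw [e1, e2, map_add, LinearMap.add_apply, form_C_mul_left, form_C_mul_left, map_add,
      frm_monomial, frm_monomial, frm_monomial, frm_monomial]
    unfold bf
    simp only [Finsupp.coe_tsub, Finsupp.coe_add, Pi.sub_apply, Pi.add_apply,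
      Finsupp.single_eq_same, Finsupp.single_apply, Fin.isValue, one_ne_zero, zero_ne_one,
      if_false, Nat.sub_zero, add_zero]
    obtain ⟨K, hK⟩ : ∃ K, K = s 0 := ⟨_, rfl⟩
    obtain ⟨m, hm⟩ : ∃ m, m = s 1 := ⟨_, rfl⟩
    obtain ⟨K', hK'⟩ : ∃ K', K' = t 0 := ⟨_, rfl⟩
    obtain ⟨m', hm'⟩ : ∃ m', m' = t 1 := ⟨_, rfl⟩
    rw [← hK, ← hm, ← hK', ← hm']
    by_cases h : K + m = K' + m' + 1
    · have hr' := hr K m K' m' h
      have f1 : K + m = K' + 1 + m' := by omega
      have f2 : K + m = K' + (m' + 1) := by omega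
      rw [if_pos f1, if_pos f2]
      have g1 : a * (K : ℝ) * (if K - 1 + m = K' + m' then
            (Nat.factorial (K - 1) : ℝ) * (Nat.factorial m : ℝ) * (Nat.factorial K' : ℝ) *
              (Nat.factorial m' : ℝ) * p (K - 1) m K' m' else 0)
          = (Nat.factorial K : ℝ) * (Nat.factorial m : ℝ) * (Nat.factorial K' : ℝ) *
              (Nat.factorial m' : ℝ) * (if K = 0 then 0 else a * p (K - 1) m K' m') := by
        rcases K with _ | K
        · simp
        · have : K + 1 - 1 + m = K' + m' := by omega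
          rw [if_pos this, if_neg (Nat.succ_ne_zero K), Nat.factorial_succ K,
            Nat.add_sub_cancel]
          push_cast; ring
      have g2 : b * (m : ℝ) * (if K + (m - 1) = K' + m' then
            (Nat.factorial K : ℝ) * (Nat.factorial (m - 1) : ℝ) * (Nat.factorial K' : ℝ) *
              (Nat.factorial m' : ℝ) * p K (m - 1) K' m' else 0)
          = (Nat.factorial K : ℝ) * (Nat.factorial m : ℝ) * (Nat.factorial K' : ℝ) *
              (Nat.factorial m' : ℝ) * (if m = 0 then 0 else b * p K (m - 1) K' m') := by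
        rcases m with _ | m
        · simp
        · have : K + (m + 1 - 1) = K' + m' := by omega
          rw [if_pos this, if_neg (Nat.succ_ne_zero m), Nat.factorial_succ m,
            Nat.add_sub_cancel]
          push_cast; ring
      rw [g1, g2, ← mul_add, hr', Nat.factorial_succ, Nat.factorial_succ]
      push_cast
      ring
    · have f1 : ¬ (K + m = K' + 1 + m') := by omega
      have f2 : ¬ (K + m = K' + (m' + 1)) := by omega
      rw [if_neg f1, if_neg f2]
      have g1 : a * (K : ℝ) * (if K - 1 + m = K' + m' then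
            (Nat.factorial (K - 1) : ℝ) * (Nat.factorial m : ℝ) * (Nat.factorial K' : ℝ) *
              (Nat.factorial m' : ℝ) * p (K - 1) m K' m' else 0) = 0 := by
        rcases K with _ | K
        · simp
        · have : ¬ (K + 1 - 1 + m = K' + m') := by omega
          rw [if_neg this]; ring
      have g2 : b * (m : ℝ) * (if K + (m - 1) = K' + m' then
            (Nat.factorial K : ℝ) * (Nat.factorial (m - 1) : ℝ) * (Nat.factorial K' : ℝ) *
              (Nat.factorial m' : ℝ) * p K (m - 1) K' m' else 0) = 0 := by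
        rcases m with _ | m
        · simp
        · have : ¬ (K + (m + 1 - 1) = K' + m') := by omega
          rw [if_neg this]; ring
      rw [g1, g2]
  have := LinearMap.congr_fun (LinearMap.congr_fun key f) g
  simp only [LinearMap.comp_apply, LinearMap.compl₂_apply, LinearMap.mulLeft_apply] at this
  exact this

/-- `X₀^i X₁^j` as a monomial -/
def ex (i j : ℕ) : Fin 2 →₀ ℕ := Finsupp.single 0 i + Finsupp.single 1 j

lemma ex_zero (i j : ℕ) : ex i j 0 = i := by simp [ex]

lemma ex_one (i j : ℕ) : ex i j 1 = j := by simp [ex]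

lemma X_pow_ex (i j : ℕ) : (X 0 ^ i * X 1 ^ j : MvPolynomial (Fin 2) ℝ) = monomial (ex i j) 1 := by
  rw [X_pow_eq_monomial, X_pow_eq_monomial, monomial_mul, mul_one, ex]

lemma frm_X (K m K' m' : ℕ) (h : K + m = K' + m') :
    frm p (X 0 ^ K * X 1 ^ m) (X 0 ^ K' * X 1 ^ m')
      = (Nat.factorial K : ℝ) * (Nat.factorial m : ℝ) * (Nat.factorial K' : ℝ) *
        (Nat.factorial m' : ℝ) * p K m K' m' := by
  rw [X_pow_ex, X_pow_ex, frm_monomial, bf]
  simp only [ex_zero, ex_one]
  rw [if_pos h]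

lemma frm_X_ne (K m K' m' : ℕ) (h : K + m ≠ K' + m') :
    frm p (X 0 ^ K * X 1 ^ m) (X 0 ^ K' * X 1 ^ m') = 0 := by
  rw [X_pow_ex, X_pow_ex, frm_monomial, bf]
  simp only [ex_zero, ex_one]
  rw [if_neg h]

lemma Z_pow_eq (n : ℕ) : Z a b ^ n = ∑ i ∈ Finset.range (n + 1),
    C ((n.choose i : ℝ) * (b ^ i * (-a) ^ (n - i))) * (X 0 ^ i * X 1 ^ (n - i)) := by
  have : Z a b = C b * X 0 + (-(C a * X 1)) := by unfold Z; ring
  rw [this, add_pow]
  refine Finset.sum_congr rfl fun i _ => ?_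
  rw [mul_pow, neg_pow, mul_pow, C_mul, C_mul, C_pow, C_pow, C_neg, neg_pow, map_natCast]
  ring

/-- the diagonal values -/
def rho (n : ℕ) : ℝ :=
  (Nat.factorial n : ℝ) * (∑ i ∈ Finset.range (n + 1), ∑ j ∈ Finset.range (n + 1),
    (b ^ i * (-a) ^ (n - i)) * (b ^ j * (-a) ^ (n - j)) * p i (n - i) j (n - j))
      / ((a + b) ^ n * (a * b) ^ n)

lemma choose_fact {n i : ℕ} (h : i ≤ n) :
    (n.choose i : ℝ) * ((Nat.factorial i : ℝ) * (Nat.factorial (n - i) : ℝ))
      = (Nat.factorial n : ℝ) := by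
  rw [← Nat.choose_mul_factorial_mul_factorial h]
  push_cast; ring

lemma frm_Z (n : ℕ) (ha : 0 < a) (hb : 0 < b) :
    frm p (Z a b ^ n) (Z a b ^ n)
      = (a + b) ^ n * ((a * b) ^ n * (Nat.factorial n : ℝ) * rho a b p n) := by
  rw [Z_pow_eq, map_sum (frm p), LinearMap.sum_apply]
  have e : ∀ i ∈ Finset.range (n + 1),
      frm p (C ((n.choose i : ℝ) * (b ^ i * (-a) ^ (n - i))) * (X 0 ^ i * X 1 ^ (n - i)))
        (∑ j ∈ Finset.range (n + 1),
          C ((n.choose j : ℝ) * (b ^ j * (-a) ^ (n - j))) * (X 0 ^ j * X 1 ^ (n - j)))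
      = ∑ j ∈ Finset.range (n + 1), (Nat.factorial n : ℝ) ^ 2 *
        ((b ^ i * (-a) ^ (n - i)) * (b ^ j * (-a) ^ (n - j)) * p i (n - i) j (n - j)) := by
    intro i hi
    have hi' : i ≤ n := by have := Finset.mem_range.mp hi; omega
    rw [form_C_mul_left, map_sum, Finset.mul_sum]
    refine Finset.sum_congr rfl fun j hj => ?_
    have hj' : j ≤ n := by have := Finset.mem_range.mp hj; omega
    rw [form_C_mul_right, frm_X p i (n - i) j (n - j) (by omega)]
    have h1 := choose_fact hi'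
    have h2 := choose_fact hj'
    calc (n.choose i : ℝ) * (b ^ i * (-a) ^ (n - i)) * ((n.choose j : ℝ) *
          (b ^ j * (-a) ^ (n - j)) * ((Nat.factorial i : ℝ) * (Nat.factorial (n - i) : ℝ) *
          (Nat.factorial j : ℝ) * (Nat.factorial (n - j) : ℝ) * p i (n - i) j (n - j)))
        = ((n.choose i : ℝ) * ((Nat.factorial i : ℝ) * (Nat.factorial (n - i) : ℝ))) *
          ((n.choose j : ℝ) * ((Nat.factorial j : ℝ) * (Nat.factorial (n - j) : ℝ))) *
          ((b ^ i * (-a) ^ (n - i)) * (b ^ j * (-a) ^ (n - j)) * p i (n - i) j (n - j)) := by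
            ring
      _ = _ := by rw [h1, h2]; ring
  rw [Finset.sum_congr rfl e]
  simp only [← Finset.mul_sum]
  have hab : (a + b) ^ n * (a * b) ^ n ≠ 0 := by positivity
  unfold rho
  rw [mul_div_assoc']
  rw [mul_div_assoc']
  rw [eq_div_iff hab]
  ring

lemma frm_Z_ne {n n' : ℕ} (h : n ≠ n') : frm p (Z a b ^ n) (Z a b ^ n') = 0 := by
  rw [Z_pow_eq, Z_pow_eq, map_sum (frm p), LinearMap.sum_apply]
  refine Finset.sum_eq_zero fun i hi => ?_
  rw [map_sum]
  refine Finset.sum_eq_zero fun j hj => ?_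
  have hi' : i ≤ n := by have := Finset.mem_range.mp hi; omega
  have hj' : j ≤ n' := by have := Finset.mem_range.mp hj; omega
  rw [form_C_mul_left, form_C_mul_right, frm_X_ne p _ _ _ _ (by omega)]
  ring

/-- `rho` is nonnegative for a positive semidefinite array -/
theorem rho_nonneg (ha : 0 < a) (hb : 0 < b)
    (hp : ∀ (n : ℕ) (x : ℕ → ℝ), 0 ≤ ∑ i ∈ Finset.range (n + 1), ∑ j ∈ Finset.range (n + 1),
      x i * x j * p i (n - i) j (n - j)) (n : ℕ) : 0 ≤ rho a b p n := by
  unfold rho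
  have := hp n fun i => b ^ i * (-a) ^ (n - i)
  positivity

/-- **the array formula** -/
theorem arr_formula (ha : 0 < a) (hb : 0 < b) (hs : ∀ K m K' m', p K m K' m' = p K' m' K m)
    (hr : Rec a b p) (K m K' m' : ℕ) (hJ : K + m = K' + m') :
    p K m K' m' = ((a + b) ^ (K + m))⁻¹ * ∑ n ∈ Finset.range (K + m + 1),
      rho a b p n * ((a * b) ^ n * (Nat.factorial n : ℝ) * (Nat.factorial (K + m - n) : ℝ)) *
        (kap a b K m n * kap a b K' m' n) /
        ((Nat.factorial K : ℝ) * (Nat.factorial m : ℝ) * (Nat.factorial K' : ℝ) *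
          (Nat.factorial m' : ℝ)) := by
  have h := form_monomial (p := a) (q := b) (R := frm p) (frm_rec a b p hr) (frm_symm p hs)
    (fun n n' hn => frm_Z_ne a b p hn) K m K' m' hJ
  rw [frm_X p K m K' m' hJ] at h
  have hab : (a + b) ^ (K + m) ≠ 0 := by positivity
  have hF : (Nat.factorial K : ℝ) * (Nat.factorial m : ℝ) * (Nat.factorial K' : ℝ) *
          (Nat.factorial m' : ℝ) ≠ 0 := by positivity
  have e : ∀ n ∈ Finset.range (K + m + 1), kap a b K m n * kap a b K' m' n *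
      ((a + b) ^ (K + m - n) * (Nat.factorial (K + m - n) : ℝ)) * frm p (Z a b ^ n) (Z a b ^ n)
      = (a + b) ^ (K + m) * (rho a b p n * ((a * b) ^ n * (Nat.factorial n : ℝ) *
        (Nat.factorial (K + m - n) : ℝ)) * (kap a b K m n * kap a b K' m' n)) := by
    intro n hn
    have hn' : n ≤ K + m := by have := Finset.mem_range.mp hn; omega
    rw [frm_Z a b p n ha hb]
    have : (a + b) ^ (K + m) = (a + b) ^ (K + m - n) * (a + b) ^ n := by
      rw [← pow_add]; congr 1; omega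
    rw [this]; ring
  rw [Finset.sum_congr rfl e, ← Finset.mul_sum, two_mul, pow_add, mul_assoc] at h
  have h2 := mul_left_cancel₀ hab h
  rw [← Finset.sum_div, eq_inv_mul_iff_mul_eq₀ hab, eq_div_iff hF, ← h2]
  ring

end Arr

end

end Vale.Agent.P359.Heis
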