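import Vale.Agent.P359.Defs
import Vale.Agent.P359.Heis
import Vale.Agent.P359.Cert

/-!
# P359: the interface structures `Dat` (level `Q`) and `PDat` (plane)

`certX`, `certR`, `certQ` are the lists of `Cert.lean`, in units of `10^(-6)`.
-/

namespace Vale.Agent.P359

open Finset

/-- The sum of a function against the pair coefficients. -/
noncomputable def XS (f : ℕ → ℝ) : ℝ := ∑ K ∈ range 8, ((certX.getD K 0 : ℤ) : ℝ) / 10 ^ 6 * f K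

/-- The sum of an array against a coefficient list (unordered pairs are listed once). -/
noncomputable def LS (L : List (ℕ × ℕ × ℕ × ℕ × ℤ)) (f : ℕ → ℕ → ℕ → ℕ → ℝ) : ℝ :=
  (L.map fun t => ((t.2.2.2.2 : ℤ) : ℝ) / 10 ^ 6 *
    (if t.1 = t.2.2.1 ∧ t.2.1 = t.2.2.2.1 then 1 else 2) *
      f t.1 t.2.1 t.2.2.1 t.2.2.2.1).sum

/-- The planar window inner product (orbitals `0..8`). -/
noncomputable def wip (φ ψ : Fk) : ℝ :=
  ∑ U ∈ (range 9).powerset, (∏ a ∈ U, (a.factorial : ℝ)) * (φ U * ψ U)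

/-- The weight `Q^K / choose (2Q-2) K` (tends to `K! / 2^K`). -/
noncomputable def ew (Q K : ℕ) : ℝ := (Q : ℝ) ^ K / ((2 * Q - 2).choose K : ℝ)

/-- The planar weight. -/
noncomputable def ewp (K : ℕ) : ℝ := (K.factorial : ℝ) / 2 ^ K

/-- The energy functional (up to `K ≤ 60`) with pair weights `w`. -/
noncomputable def EN (w : ℕ → ℝ) (p q : ℕ → ℕ → ℕ → ℕ → ℝ) : ℝ :=
  ∑ K ∈ range 61, w K * (((K : ℝ) - 1) * p 0 K K 0 - ((K : ℝ) + 1) * p 0 (K + 1) K 1 + q 0 K 0 K)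

/-- Bound of all arrays, independent of `Q`. -/
noncomputable def Bd (K m K' m' : ℕ) : ℝ := 2 ^ (K + K') * (((m : ℝ) + 1) * ((m' : ℝ) + 1)) ^ 4

/-- The data extracted from an eigenspace at level `Q`. -/
structure Dat (C₀ : ℝ) (Q : ℕ) (lam : ℝ) (p q : ℕ → ℕ → ℕ → ℕ → ℝ) : Prop where
  symp : ∀ K m K' m', p K m K' m' = p K' m' K m
  symq : ∀ K m K' m', q K m K' m' = q K' m' K m
  offp : ∀ K m K' m', K + m ≠ K' + m' → p K m K' m' = 0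
  offq : ∀ K m K' m', K + m ≠ K' + m' → q K m K' m' = 0
  bdp : ∀ K m K' m', |p K m K' m'| ≤ Bd K m K' m'
  bdq : ∀ K m K' m', |q K m K' m'| ≤ Bd K m K' m'
  recp : ∀ K m K' m' : ℕ, K + m = K' + m' + 1 →
    (if K = 0 then 0 else (2 - (1 + (K : ℝ)) / Q) * p (K - 1) m K' m') +
      (if m = 0 then 0 else (1 - ((m : ℝ) - 1) / Q) * p K (m - 1) K' m') =
    ((K' : ℝ) + 1) * p K m (K' + 1) m' + ((m' : ℝ) + 1) * p K m K' (m' + 1)
  recq : ∀ K m K' m' : ℕ, K + m = K' + m' + 1 →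
    (if K = 0 then 0 else (2 - (1 + (K : ℝ)) / Q) * q (K - 1) m K' m') +
      (if m = 0 then 0 else (2 - (1 + (m : ℝ)) / Q) * q K (m - 1) K' m') =
    ((K' : ℝ) + 1) * q K m (K' + 1) m' + ((m' : ℝ) + 1) * q K m K' (m' + 1)
  psdp : ∀ (n : ℕ) (y : ℕ → ℝ),
    0 ≤ ∑ i ∈ range (n + 1), ∑ j ∈ range (n + 1), y i * y j * p i (n - i) j (n - j)
  psdq : ∀ (n : ℕ) (y : ℕ → ℝ),
    0 ≤ ∑ i ∈ range (n + 1), ∑ j ∈ range (n + 1), y i * y j * q i (n - i) j (n - j)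
  vanp : ∀ n : ℕ, n = 0 ∨ n = 1 ∨ n = 3 →
    ∑ i ∈ range (n + 1), ∑ j ∈ range (n + 1),
      (-2) ^ (n - i) * (-2) ^ (n - j) * p i (n - i) j (n - j) = 0
  vanq : ∀ n : ℕ, Odd n ∨ n = 0 ∨ n = 2 →
    ∑ i ∈ range (n + 1), ∑ j ∈ range (n + 1),
      (-1) ^ (n - i) * (-1) ^ (n - j) * q i (n - i) j (n - j) = 0
  pauli : ∀ m : ℕ, (m.factorial : ℝ) * p 0 m 0 m ≤ 1
  energy : 1 + EN (ew Q) p q - 1 / 10 ^ 6 ≤ lam
  wind : -(C₀ / Q) ≤ XS (fun K => ewp K / ew Q K) + LS certR p + LS certQ q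

/-- The planar data. -/
structure PDat (lam : ℝ) (p q : ℕ → ℕ → ℕ → ℕ → ℝ) : Prop where
  symp : ∀ K m K' m', p K m K' m' = p K' m' K m
  symq : ∀ K m K' m', q K m K' m' = q K' m' K m
  offp : ∀ K m K' m', K + m ≠ K' + m' → p K m K' m' = 0
  offq : ∀ K m K' m', K + m ≠ K' + m' → q K m K' m' = 0
  recp : Heis.Rec 2 1 p
  recq : Heis.Rec 2 2 q
  psdp : ∀ (n : ℕ) (y : ℕ → ℝ),
    0 ≤ ∑ i ∈ range (n + 1), ∑ j ∈ range (n + 1), y i * y j * p i (n - i) j (n - j)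
  psdq : ∀ (n : ℕ) (y : ℕ → ℝ),
    0 ≤ ∑ i ∈ range (n + 1), ∑ j ∈ range (n + 1), y i * y j * q i (n - i) j (n - j)
  vanp : ∀ n : ℕ, n = 0 ∨ n = 1 ∨ n = 3 →
    ∑ i ∈ range (n + 1), ∑ j ∈ range (n + 1),
      (-2) ^ (n - i) * (-2) ^ (n - j) * p i (n - i) j (n - j) = 0
  vanq : ∀ n : ℕ, Odd n ∨ n = 0 ∨ n = 2 →
    ∑ i ∈ range (n + 1), ∑ j ∈ range (n + 1),
      (-1) ^ (n - i) * (-1) ^ (n - j) * q i (n - i) j (n - j) = 0
  pauli : ∀ m : ℕ, (m.factorial : ℝ) * p 0 m 0 m ≤ 1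
  energy : 1 + EN ewp p q - 1 / 10 ^ 6 ≤ lam
  wind : 0 ≤ XS (fun _ => 1) + LS certR p + LS certQ q

end Vale.Agent.P359
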