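import Vale.Agent.P359.Transfer
import Vale.Agent.P359.Cert

/-!
# P359: the window certificate at level `Q`
-/

namespace Vale.Agent.P359

open Finset

namespace Tr

/-! ### norm bounds -/

theorem ip_self_nonneg (Q : ℕ) (φ : Fk) : 0 ≤ ip Q φ φ :=
  Finset.sum_nonneg fun U _ => mul_nonneg (wt_nonneg Q U) (mul_self_nonneg _)

theorem sg_sq (m : ℕ) (U : Finset ℕ) : sg m U * sg m U = 1 := by
  unfold sg
  rw [← mul_pow]
  norm_num

/-- The hole bound. -/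
theorem ip_an_le {Q m : ℕ} (hm : m ≤ Q) (φ : Fk) :
    ip Q (an m φ) (an m φ) ≤ (Q.choose m : ℝ) * ip Q φ φ := by
  unfold ip
  have hch : (0 : ℝ) < (Q.choose m : ℝ) := by exact_mod_cast Nat.choose_pos hm
  have h1 : ∑ U ∈ (range (Q + 1)).powerset, wt Q U * (an m φ U * an m φ U) =
      ∑ U ∈ (range (Q + 1)).powerset.filter (fun U => m ∉ U),
        (Q.choose m : ℝ) * (wt Q (insert m U) * (φ (insert m U) * φ (insert m U))) := by
    rw [Finset.sum_filter]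
    refine Finset.sum_congr rfl fun U _ => ?_
    by_cases h : m ∈ U
    · rw [if_neg (not_not.mpr h), an_apply, if_pos h]; ring
    · rw [if_pos h, an_apply, if_neg h]
      have e : wt Q (insert m U) = ((Q.choose m : ℝ))⁻¹ * wt Q U := by
        unfold wt; rw [Finset.prod_insert h]
      rw [e]
      have := sg_sq m U
      field_simp
      linear_combination (wt Q U * φ (insert m U) * φ (insert m U)) * this
  rw [h1, ← Finset.mul_sum]
  refine mul_le_mul_of_nonneg_left ?_ hch.le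
  have h2 : ∑ U ∈ (range (Q + 1)).powerset.filter (fun U => m ∉ U),
      wt Q (insert m U) * (φ (insert m U) * φ (insert m U)) =
      ∑ V ∈ ((range (Q + 1)).powerset.filter (fun U => m ∉ U)).image (fun U => insert m U),
        wt Q V * (φ V * φ V) := by
    rw [Finset.sum_image]
    intro U hU U' hU' h
    rw [mem_coe, mem_filter] at hU hU'
    have := congrArg (fun V => V.erase m) h
    simpa [Finset.erase_insert hU.2, Finset.erase_insert hU'.2] using this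
  rw [h2]
  refine Finset.sum_le_sum_of_subset_of_nonneg ?_ fun V _ _ =>
    mul_nonneg (wt_nonneg Q V) (mul_self_nonneg _)
  intro V hV
  rw [mem_image] at hV
  obtain ⟨U, hU, rfl⟩ := hV
  rw [mem_filter, mem_powerset] at hU
  rw [mem_powerset]
  intro a ha
  rw [mem_insert] at ha
  rcases ha with rfl | ha
  · exact mem_range.mpr (by omega)
  · exact hU.1 ha

theorem ip_an_le' {Q m : ℕ} (hm : m ≤ Q) (φ : Fk) :
    ip Q (an m φ) (an m φ) ≤ (Q : ℝ) ^ m * ip Q φ φ := by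
  refine le_trans (ip_an_le hm φ) (mul_le_mul_of_nonneg_right ?_ (ip_self_nonneg Q φ))
  exact_mod_cast Nat.choose_le_pow Q m

theorem ip_smul_self (Q : ℕ) (c : ℝ) (φ : Fk) : ip Q (c • φ) (c • φ) = c ^ 2 * ip Q φ φ := by
  unfold ip
  rw [Finset.mul_sum]
  refine Finset.sum_congr rfl fun U _ => ?_
  simp only [Pi.smul_apply, smul_eq_mul]
  ring

theorem ip_sum_le (Q : ℕ) {ι : Type*} (s : Finset ι) (φ : ι → Fk) :
    ip Q (∑ i ∈ s, φ i) (∑ i ∈ s, φ i) ≤ (s.card : ℝ) * ∑ i ∈ s, ip Q (φ i) (φ i) := by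
  unfold ip
  rw [Finset.sum_comm, Finset.mul_sum]
  refine Finset.sum_le_sum fun U _ => ?_
  rw [← Finset.mul_sum]
  have h := sq_sum_le_card_mul_sum_sq (s := s) (f := fun i => φ i U)
  simp only [Finset.sum_apply]
  have h2 : (∑ i ∈ s, φ i U) * (∑ i ∈ s, φ i U) ≤ (s.card : ℝ) * ∑ i ∈ s, φ i U * φ i U := by
    simpa [sq] using h
  calc wt Q U * ((∑ i ∈ s, φ i U) * (∑ i ∈ s, φ i U))
      ≤ wt Q U * ((s.card : ℝ) * ∑ i ∈ s, φ i U * φ i U) :=
        mul_le_mul_of_nonneg_left h2 (wt_nonneg Q U)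
    _ = _ := by ring

theorem ip_bh_le {Q K : ℕ} (hK : K < Q) (φ : Fk) :
    ip Q (bh K φ) (bh K φ) ≤ ((K : ℝ) + 1) ^ 4 * (Q : ℝ) ^ (K + 1) * ip Q φ φ := by
  have hφ := ip_self_nonneg Q φ
  set s := (range (K + 1)).filter (fun a => a < K + 1 - a) with hs
  have e : bh K φ = ∑ a ∈ s, (((K + 1 - a : ℕ) : ℝ) - a) • (an (K + 1 - a) (an a φ)) := by
    unfold bh
    rw [LinearMap.sum_apply]
    rfl
  have hcard : (s.card : ℝ) ≤ (K : ℝ) + 1 := by
    have : s.card ≤ K + 1 := le_trans (Finset.card_filter_le _ _) (by simp)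
    exact_mod_cast this
  have hterm : ∀ a ∈ s, ip Q ((((K + 1 - a : ℕ) : ℝ) - a) • (an (K + 1 - a) (an a φ)))
      ((((K + 1 - a : ℕ) : ℝ) - a) • (an (K + 1 - a) (an a φ))) ≤
      ((K : ℝ) + 1) ^ 2 * (Q : ℝ) ^ (K + 1) * ip Q φ φ := by
    intro a ha
    rw [hs, mem_filter, mem_range] at ha
    rw [ip_smul_self]
    have h1 : ip Q (an (K + 1 - a) (an a φ)) (an (K + 1 - a) (an a φ)) ≤
        (Q : ℝ) ^ (K + 1) * ip Q φ φ := by
      refine le_trans (ip_an_le' (by omega) _) ?_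
      refine le_trans (mul_le_mul_of_nonneg_left (ip_an_le' (m := a) (by omega) φ)
        (by positivity)) ?_
      rw [← mul_assoc, ← pow_add, show K + 1 - a + a = K + 1 by omega]
    have h2 : ((((K + 1 - a : ℕ) : ℝ)) - a) ^ 2 ≤ ((K : ℝ) + 1) ^ 2 := by
      have h3 : ((K + 1 - a : ℕ) : ℝ) = (K : ℝ) + 1 - a := by
        rw [Nat.cast_sub (by omega)]; push_cast; ring
      rw [h3]
      have h4 : (a : ℝ) ≤ K := by exact_mod_cast (by omega : a ≤ K)
      have h5 : (0 : ℝ) ≤ a := Nat.cast_nonneg a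
      have h6 : ((2 * a : ℕ) : ℝ) < ((K + 1 : ℕ) : ℝ) := by exact_mod_cast (by omega)
      push_cast at h6
      nlinarith
    calc _ ≤ ((K : ℝ) + 1) ^ 2 * ((Q : ℝ) ^ (K + 1) * ip Q φ φ) :=
          mul_le_mul h2 h1 (ip_self_nonneg Q _) (by positivity)
      _ = _ := by ring
  rw [e]
  refine le_trans (ip_sum_le Q s _) ?_
  have h7 := Finset.sum_le_sum hterm
  rw [Finset.sum_const, nsmul_eq_mul] at h7
  have h8 : (0 : ℝ) ≤ s.card := Nat.cast_nonneg _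
  have h9 : 0 ≤ ((K : ℝ) + 1) ^ 2 * (Q : ℝ) ^ (K + 1) * ip Q φ φ := by positivity
  calc _ ≤ (s.card : ℝ) * ((s.card : ℝ) * (((K : ℝ) + 1) ^ 2 * (Q : ℝ) ^ (K + 1) * ip Q φ φ)) :=
        mul_le_mul_of_nonneg_left h7 h8
    _ = (s.card : ℝ) ^ 2 * (((K : ℝ) + 1) ^ 2 * (Q : ℝ) ^ (K + 1) * ip Q φ φ) := by ring
    _ ≤ ((K : ℝ) + 1) ^ 2 * (((K : ℝ) + 1) ^ 2 * (Q : ℝ) ^ (K + 1) * ip Q φ φ) :=
        mul_le_mul_of_nonneg_right (pow_le_pow_left₀ h8 hcard 2) h9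
    _ = _ := by ring

/-! ### families -/

theorem tr_self_nonneg (Q : ℕ) {n : ℕ} (e : Fin n → Fk) (F : Op) : 0 ≤ tr Q e F F :=
  Finset.sum_nonneg fun _ _ => ip_self_nonneg Q _

theorem tr_an_le {Q m n : ℕ} (hm : m ≤ Q) (e : Fin n → Fk) (F : Op) :
    tr Q e (an m * F) (an m * F) ≤ (Q : ℝ) ^ m * tr Q e F F := by
  unfold tr
  rw [Finset.mul_sum]
  exact Finset.sum_le_sum fun i _ => ip_an_le' hm _

theorem tr_bh_le {Q K n : ℕ} (hK : K < Q) (e : Fin n → Fk) (F : Op) :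
    tr Q e (bh K * F) (bh K * F) ≤ ((K : ℝ) + 1) ^ 4 * (Q : ℝ) ^ (K + 1) * tr Q e F F := by
  unfold tr
  rw [Finset.mul_sum]
  exact Finset.sum_le_sum fun i _ => ip_bh_le hK _

theorem transfer_tr {L : List Tm} (hL : ∀ t ∈ L, t.Good) (hw : ∀ f : Fk, 0 ≤ win L f)
    {Q : ℕ} (hQ : 9 ≤ Q) {n : ℕ} (e : Fin n → Fk) :
    0 ≤ (L.map fun t => t.c * ((Q : ℝ)⁻¹ ^ t.J * tr Q e t.A t.B)).sum +
      288 / (Q : ℝ) * (L.map fun t => |t.c| * ((Q : ℝ)⁻¹ ^ t.J *
        ((tr Q e t.A t.A + tr Q e t.B t.B) / 2))).sum := by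
  have hswap : ∀ (g : Tm → Fin n → ℝ) (M : List Tm),
      ∑ i : Fin n, (M.map fun t => g t i).sum = (M.map fun t => ∑ i : Fin n, g t i).sum := by
    intro g M
    induction M with
    | nil => simp
    | cons t M ih => simp only [List.map_cons, List.sum_cons, Finset.sum_add_distrib, ih]
  have h := Finset.sum_nonneg fun i (_ : i ∈ (Finset.univ : Finset (Fin n))) =>
    transfer hL hw hQ (e i)
  rw [Finset.sum_add_distrib, ← Finset.mul_sum, hswap, hswap] at h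
  have e1 : (L.map fun t => ∑ i : Fin n, t.c * ((Q : ℝ)⁻¹ ^ t.J * ip Q (t.A (e i)) (t.B (e i)))) =
      L.map fun t => t.c * ((Q : ℝ)⁻¹ ^ t.J * tr Q e t.A t.B) := by
    refine List.map_congr_left fun t _ => ?_
    unfold tr
    rw [Finset.mul_sum, Finset.mul_sum]
  have e2 : (L.map fun t => ∑ i : Fin n, |t.c| * ((Q : ℝ)⁻¹ ^ t.J *
        ((ip Q (t.A (e i)) (t.A (e i)) + ip Q (t.B (e i)) (t.B (e i))) / 2))) =
      L.map fun t => |t.c| * ((Q : ℝ)⁻¹ ^ t.J * ((tr Q e t.A t.A + tr Q e t.B t.B) / 2)) := by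
    refine List.map_congr_left fun t _ => ?_
    unfold tr
    rw [← Finset.mul_sum, ← Finset.mul_sum, ← Finset.sum_div, Finset.sum_add_distrib]
  rw [e1, e2] at h
  exact h

/-! ### the certificate -/

/-- Multiplicity of an entry of the symmetric tables. -/
noncomputable def mult (K m K' m' : ℕ) : ℝ := if K = K' ∧ m = m' then 1 else 2

noncomputable def tmX (K : ℕ) (x : ℤ) : Tm :=
  ⟨(x : ℝ) / 10 ^ 6 * ((K.factorial : ℝ) / 2 ^ K), bh K, bh K, K⟩

noncomputable def tmR (p : ℕ × ℕ × ℕ × ℕ × ℤ) : Tm :=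
  ⟨mult p.1 p.2.1 p.2.2.1 p.2.2.2.1 * ((p.2.2.2.2 : ℝ) / 10 ^ 6), an p.2.1 * bh p.1,
    an p.2.2.2.1 * bh p.2.2.1, p.1 + p.2.1⟩

noncomputable def tmQ (p : ℕ × ℕ × ℕ × ℕ × ℤ) : Tm :=
  ⟨mult p.1 p.2.1 p.2.2.1 p.2.2.2.1 * ((p.2.2.2.2 : ℝ) / 10 ^ 6), bh p.2.1 * bh p.1,
    bh p.2.2.2.1 * bh p.2.2.1, 1 + p.1 + p.2.1⟩

/-- The terms of the certificate. -/
noncomputable def certTerms : List Tm :=
  (certX.zipIdx.map fun p => tmX p.2 p.1) ++ (certR.map tmR ++ certQ.map tmQ)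

theorem certX_ok : ∀ p ∈ certX.zipIdx, p.2 < 8 := by decide

theorem certR_ok : ∀ p ∈ certR, p.1 < 8 ∧ p.2.1 < 9 ∧ p.2.2.1 < 8 ∧ p.2.2.2.1 < 9 ∧
    p.1 + p.2.1 = p.2.2.1 + p.2.2.2.1 := by decide +kernel

theorem certQ_ok : ∀ p ∈ certQ, p.1 < 8 ∧ p.2.1 < 8 ∧ p.2.2.1 < 8 ∧ p.2.2.2.1 < 8 ∧
    p.1 + p.2.1 = p.2.2.1 + p.2.2.2.1 := by decide +kernel

theorem certTerms_good : ∀ t ∈ certTerms, t.Good := by
  intro t ht
  unfold certTerms at ht
  rw [List.mem_append, List.mem_append] at ht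
  rcases ht with ht | ht | ht
  · rw [List.mem_map] at ht
    obtain ⟨p, hp, rfl⟩ := ht
    have := certX_ok p hp
    exact ⟨loc_bh this, loc_bh this, grd_bh _, grd_bh _⟩
  · rw [List.mem_map] at ht
    obtain ⟨p, hp, rfl⟩ := ht
    obtain ⟨h1, h2, h3, h4, h5⟩ := certR_ok p hp
    refine ⟨(loc_an h2).mul (loc_bh h1), (loc_an h4).mul (loc_bh h3), ?_, ?_⟩
    · have := (grd_an p.2.1).mul (grd_bh p.1)
      rwa [show p.2.1 + (p.1 + 1) = p.1 + p.2.1 + 1 by omega] at this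
    · have := (grd_an p.2.2.2.1).mul (grd_bh p.2.2.1)
      rwa [show p.2.2.2.1 + (p.2.2.1 + 1) = p.1 + p.2.1 + 1 by omega] at this
  · rw [List.mem_map] at ht
    obtain ⟨p, hp, rfl⟩ := ht
    obtain ⟨h1, h2, h3, h4, h5⟩ := certQ_ok p hp
    refine ⟨(loc_bh h2).mul (loc_bh h1), (loc_bh h4).mul (loc_bh h3), ?_, ?_⟩
    · have := (grd_bh p.2.1).mul (grd_bh p.1)
      rwa [show p.2.1 + 1 + (p.1 + 1) = 1 + p.1 + p.2.1 + 1 by omega] at this
    · have := (grd_bh p.2.2.2.1).mul (grd_bh p.2.2.1)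
      rwa [show p.2.2.2.1 + 1 + (p.2.2.1 + 1) = 1 + p.1 + p.2.1 + 1 by omega] at this

/-- The certificate evaluated on the arrays of a family. -/
noncomputable def certSum (Q : ℕ) {n : ℕ} (e : Fin n → Fk) : ℝ :=
  (certX.zipIdx.map fun p => (p.1 : ℝ) / 10 ^ 6 * ((p.2.factorial : ℝ) / 2 ^ p.2) *
    (tr Q e (bh p.2) (bh p.2) / (tr Q e (bh 0) (bh 0) * (Q : ℝ) ^ p.2))).sum +
  ((certR.map fun p => mult p.1 p.2.1 p.2.2.1 p.2.2.2.1 * ((p.2.2.2.2 : ℝ) / 10 ^ 6) *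
    arrp Q e p.1 p.2.1 p.2.2.1 p.2.2.2.1).sum +
  (certQ.map fun p => mult p.1 p.2.1 p.2.2.1 p.2.2.2.1 * ((p.2.2.2.2 : ℝ) / 10 ^ 6) *
    arrq Q e p.1 p.2.1 p.2.2.1 p.2.2.2.1).sum)

/-- The constant of the error term. -/
noncomputable def certErr : ℝ := 288 * (8 ^ 4 * 2 ^ 7) * (certTerms.map fun t => |t.c|).sum

theorem certErr_nonneg : 0 ≤ certErr := by
  unfold certErr
  have : 0 ≤ (certTerms.map fun t => |t.c|).sum := by
    refine List.sum_nonneg fun x hx => ?_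
    rw [List.mem_map] at hx
    obtain ⟨t, _, rfl⟩ := hx
    exact abs_nonneg _
  positivity

theorem pow_J {Q : ℕ} (n0 x : ℝ) (J : ℕ) :
    (Q : ℝ)⁻¹ ^ J * x / n0 = x / (n0 * (Q : ℝ) ^ J) := by
  rw [inv_pow, ← div_eq_inv_mul, div_div, mul_comm]

/-- **The certificate at level `Q`.** -/
theorem cert_transfer (hw : ∀ f : Fk, 0 ≤ win certTerms f) {Q : ℕ} (hQ : 9 ≤ Q) {n : ℕ}
    (e : Fin n → Fk) (hn : 0 < tr Q e (bh 0) (bh 0))
    (hB : ∀ K < 8, tr Q e (bh K) (bh K) ≤ (2 * (Q : ℝ)) ^ K * tr Q e (bh 0) (bh 0)) :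
    -(certErr / (Q : ℝ)) ≤ certSum Q e := by
  have hQ' : (9 : ℝ) ≤ (Q : ℝ) := by exact_mod_cast hQ
  have hQ0 : (0 : ℝ) < (Q : ℝ) := by linarith
  set n0 := tr Q e (bh 0) (bh 0) with hn0
  have h := transfer_tr certTerms_good hw hQ e
  -- the main term
  have e1 : (certTerms.map fun t => t.c * ((Q : ℝ)⁻¹ ^ t.J * tr Q e t.A t.B)).sum =
      n0 * certSum Q e := by
    unfold certTerms certSum
    rw [List.map_append, List.map_append, List.sum_append, List.sum_append, List.map_map,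
      List.map_map, List.map_map, mul_add, mul_add, ← List.sum_map_mul_left,
      ← List.sum_map_mul_left, ← List.sum_map_mul_left]
    have hd : ∀ (c x : ℝ) (J : ℕ), c * ((Q : ℝ)⁻¹ ^ J * x) =
        n0 * (c * (x / (n0 * (Q : ℝ) ^ J))) := by
      intro c x J
      rw [← pow_J n0 x J]
      field_simp
    congr 1
    · refine congrArg List.sum (List.map_congr_left fun p _ => ?_)
      exact hd _ _ _
    congr 1
    · refine congrArg List.sum (List.map_congr_left fun p _ => ?_)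
      exact hd _ _ _
    · refine congrArg List.sum (List.map_congr_left fun p _ => ?_)
      exact hd _ _ _
  -- the error term
  have hbd : ∀ t ∈ certTerms, (Q : ℝ)⁻¹ ^ t.J * ((tr Q e t.A t.A + tr Q e t.B t.B) / 2) ≤
      8 ^ 4 * 2 ^ 7 * n0 := by
    have hX : ∀ K, K < 8 → tr Q e (bh K) (bh K) ≤ (8 ^ 4 * 2 ^ 7 * n0) * (Q : ℝ) ^ K := by
      intro K hK
      refine le_trans (hB K hK) ?_
      have h2 : (2 : ℝ) ^ K ≤ 2 ^ 7 := pow_le_pow_right₀ (by norm_num) (by omega)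
      have h3 : 0 ≤ (Q : ℝ) ^ K * n0 := by positivity
      rw [mul_pow]
      nlinarith
    have hR : ∀ K m, K < 8 → m < 9 → tr Q e (an m * bh K) (an m * bh K) ≤
        (8 ^ 4 * 2 ^ 7 * n0) * (Q : ℝ) ^ (K + m) := by
      intro K m hK hm
      refine le_trans (tr_an_le (by omega) e _) ?_
      rw [pow_add]
      have := mul_le_mul_of_nonneg_left (hX K hK) (by positivity : 0 ≤ (Q : ℝ) ^ m)
      calc _ ≤ _ := this
        _ = _ := by ring
    have hQQ : ∀ K K', K < 8 → K' < 8 → tr Q e (bh K' * bh K) (bh K' * bh K) ≤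
        (8 ^ 4 * 2 ^ 7 * n0) * (Q : ℝ) ^ (1 + K + K') := by
      intro K K' hK hK'
      refine le_trans (tr_bh_le (by omega) e _) ?_
      have h1 : ((K' : ℝ) + 1) ^ 4 ≤ 8 ^ 4 := by
        have : (K' : ℝ) + 1 ≤ 8 := by exact_mod_cast (by omega : K' + 1 ≤ 8)
        exact pow_le_pow_left₀ (by positivity) this 4
      have h2 : (2 : ℝ) ^ K ≤ 2 ^ 7 := pow_le_pow_right₀ (by norm_num) (by omega)
      have h3 := hB K hK
      have h0 := tr_self_nonneg Q e (bh K)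
      calc ((K' : ℝ) + 1) ^ 4 * (Q : ℝ) ^ (K' + 1) * tr Q e (bh K) (bh K)
          ≤ 8 ^ 4 * (Q : ℝ) ^ (K' + 1) * (2 ^ 7 * (Q : ℝ) ^ K * n0) := by
            refine mul_le_mul (mul_le_mul_of_nonneg_right h1 (by positivity)) ?_ h0
              (by positivity)
            refine le_trans h3 ?_
            rw [mul_pow]
            exact mul_le_mul_of_nonneg_right (mul_le_mul_of_nonneg_right h2 (by positivity)) hn.le
        _ = (8 ^ 4 * 2 ^ 7 * n0) * (Q : ℝ) ^ (1 + K + K') := by ring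
    have hfin : ∀ (x y : ℝ) (J : ℕ), x ≤ (8 ^ 4 * 2 ^ 7 * n0) * (Q : ℝ) ^ J →
        y ≤ (8 ^ 4 * 2 ^ 7 * n0) * (Q : ℝ) ^ J →
        (Q : ℝ)⁻¹ ^ J * ((x + y) / 2) ≤ 8 ^ 4 * 2 ^ 7 * n0 := by
      intro x y J hx hy
      rw [inv_pow, ← div_eq_inv_mul, div_le_iff₀ (by positivity)]
      linarith
    intro t ht
    unfold certTerms at ht
    rw [List.mem_append, List.mem_append] at ht
    rcases ht with ht | ht | ht
    · rw [List.mem_map] at ht
      obtain ⟨p, hp, rfl⟩ := ht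
      have := certX_ok p hp
      exact hfin _ _ _ (hX _ this) (hX _ this)
    · rw [List.mem_map] at ht
      obtain ⟨p, hp, rfl⟩ := ht
      obtain ⟨h1, h2, h3, h4, h5⟩ := certR_ok p hp
      refine hfin _ _ _ (hR _ _ h1 h2) ?_
      have := hR _ _ h3 h4
      rwa [← h5] at this
    · rw [List.mem_map] at ht
      obtain ⟨p, hp, rfl⟩ := ht
      obtain ⟨h1, h2, h3, h4, h5⟩ := certQ_ok p hp
      refine hfin _ _ _ (hQQ _ _ h1 h2) ?_
      have := hQQ _ _ h3 h4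
      rwa [show 1 + p.2.2.1 + p.2.2.2.1 = 1 + p.1 + p.2.1 by omega] at this
  have e2 : (certTerms.map fun t => |t.c| * ((Q : ℝ)⁻¹ ^ t.J *
      ((tr Q e t.A t.A + tr Q e t.B t.B) / 2))).sum ≤
      (certTerms.map fun t => |t.c|).sum * (8 ^ 4 * 2 ^ 7 * n0) := by
    rw [← List.sum_map_mul_right]
    have : ∀ (M : List Tm), (∀ t ∈ M, (Q : ℝ)⁻¹ ^ t.J *
        ((tr Q e t.A t.A + tr Q e t.B t.B) / 2) ≤ 8 ^ 4 * 2 ^ 7 * n0) →
        (M.map fun t => |t.c| * ((Q : ℝ)⁻¹ ^ t.J *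
          ((tr Q e t.A t.A + tr Q e t.B t.B) / 2))).sum ≤
        (M.map fun t => |t.c| * (8 ^ 4 * 2 ^ 7 * n0)).sum := by
      intro M hM
      induction M with
      | nil => simp
      | cons t M ih =>
        simp only [List.map_cons, List.sum_cons]
        exact add_le_add (mul_le_mul_of_nonneg_left (hM t (List.mem_cons_self)) (abs_nonneg _))
          (ih fun t ht => hM t (List.mem_cons_of_mem _ ht))
    exact this _ hbd
  rw [e1] at h
  have e3 : 288 / (Q : ℝ) * (certTerms.map fun t => |t.c| * ((Q : ℝ)⁻¹ ^ t.J *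
      ((tr Q e t.A t.A + tr Q e t.B t.B) / 2))).sum ≤ n0 * (certErr / (Q : ℝ)) := by
    refine le_trans (mul_le_mul_of_nonneg_left e2 (by positivity)) (le_of_eq ?_)
    unfold certErr
    ring
  have h4 : 0 ≤ n0 * (certSum Q e + certErr / (Q : ℝ)) := by
    rw [mul_add]; linarith
  have h5 := nonneg_of_mul_nonneg_right h4 hn
  linarith

end Tr

end Vale.Agent.P359
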