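import Vale.Agent.P359.Spec
import Vale.Agent.P359.Data
import Vale.Agent.P359.TransferCert

/-! # P359: bounds of the arrays -/

namespace Vale.Agent.P359

open Finset

namespace BdAux

theorem ip_zero (Q : ℕ) : ip Q 0 0 = 0 := by
  simp [ip]

theorem ip_nonneg (Q : ℕ) (φ : Fk) : 0 ≤ ip Q φ φ := Tr.ip_self_nonneg Q φ

/-- a number whose square is at most `B ≥ 1` is at most `B` -/
theorem abs_le_of_sq {x B : ℝ} (hB : 1 ≤ B) (h : x ^ 2 ≤ B) : |x| ≤ B := by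
  apply abs_le_of_sq_le_sq _ (by linarith)
  nlinarith

theorem Bd_ge (K m K' m' : ℕ) : (2 : ℝ) ^ (K + K') ≤ Bd K m K' m' := by
  unfold Bd
  have h1 : (1 : ℝ) ≤ ((m : ℝ) + 1) * ((m' : ℝ) + 1) := by
    have h2 : (0 : ℝ) ≤ m := Nat.cast_nonneg m
    have h3 : (0 : ℝ) ≤ m' := Nat.cast_nonneg m'
    nlinarith [mul_nonneg h2 h3]
  have h4 : (1 : ℝ) ≤ (((m : ℝ) + 1) * ((m' : ℝ) + 1)) ^ 4 := one_le_pow₀ h1
  exact le_mul_of_one_le_right (by positivity) h4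

theorem one_le_Bd (K m K' m' : ℕ) : 1 ≤ Bd K m K' m' :=
  (one_le_pow₀ (by norm_num : (1:ℝ) ≤ 2)).trans (Bd_ge K m K' m')

theorem choose_two_le (Q K : ℕ) : ((2 * Q - 2).choose K : ℝ) ≤ 2 ^ K * (Q : ℝ) ^ K := by
  have h1 : (2 * Q - 2).choose K ≤ (2 * Q - 2) ^ K := Nat.choose_le_pow _ _
  have h2 : (2 * Q - 2) ^ K ≤ (2 * Q) ^ K := Nat.pow_le_pow_left (Nat.sub_le _ _) _
  have h3 : ((2 * Q - 2).choose K : ℝ) ≤ (((2 * Q) ^ K : ℕ) : ℝ) := by exact_mod_cast h1.trans h2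
  refine h3.trans (le_of_eq ?_)
  push_cast
  rw [mul_pow]

/-- the ratio estimate behind both array bounds -/
theorem ratio_bd {t x a b c B : ℝ} (ht : 0 < t) (hc : 0 < c) (ha : a ≤ b * (c * t))
    {a' b' : ℝ} (ha' : a' ≤ b' * (c * t)) (ha0 : 0 ≤ a) (ha0' : 0 ≤ a') (hcs : x ^ 2 ≤ a * a')
    (hB : b * b' ≤ B) (hB1 : 1 ≤ B) : |x / (t * c)| ≤ B := by
  apply abs_le_of_sq hB1
  rw [div_pow, div_le_iff₀ (by positivity)]
  calc x ^ 2 ≤ a * a' := hcs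
    _ ≤ (b * (c * t)) * (b' * (c * t)) := mul_le_mul ha ha' ha0' (ha0.trans ha)
    _ = b * b' * (t * c) ^ 2 := by ring
    _ ≤ B * (t * c) ^ 2 := mul_le_mul_of_nonneg_right hB (by positivity)

end BdAux

/-- hole bound -/
theorem ip_an_le {Q : ℕ} (m : ℕ) {φ : Fk} (h : φ ∈ Sup Q) :
    ip Q (an m φ) (an m φ) ≤ (Q.choose m : ℝ) * ip Q φ φ := by
  rcases le_or_gt m Q with hm | hm
  · exact Tr.ip_an_le hm φ
  · rw [FockA.an_eq_zero_of_lt hm h, BdAux.ip_zero]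
    exact mul_nonneg (Nat.cast_nonneg _) (BdAux.ip_nonneg Q φ)

theorem ip_an_le_pow {Q : ℕ} (m : ℕ) {φ : Fk} (h : φ ∈ Sup Q) :
    ip Q (an m φ) (an m φ) ≤ (Q : ℝ) ^ m * ip Q φ φ := by
  refine (ip_an_le m h).trans (mul_le_mul_of_nonneg_right ?_ (BdAux.ip_nonneg Q φ))
  exact_mod_cast Nat.choose_le_pow Q m

theorem ip_bh_le {Q : ℕ} (K : ℕ) {φ : Fk} (h : φ ∈ Sup Q) :
    ip Q (bh K φ) (bh K φ) ≤ ((K : ℝ) + 1) ^ 4 * (Q : ℝ) ^ (K + 1) * ip Q φ φ := by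
  have hφ := BdAux.ip_nonneg Q φ
  set s := (range (K + 1)).filter (fun a => a < K + 1 - a) with hs
  have e : bh K φ = ∑ a ∈ s, (((K + 1 - a : ℕ) : ℝ) - a) • (an (K + 1 - a) (an a φ)) := by
    unfold bh
    rw [LinearMap.sum_apply]
    rfl
  have hcard : (s.card : ℝ) ≤ (K : ℝ) + 1 := by
    have : s.card ≤ K + 1 := le_trans (Finset.card_filter_le _ _) (by simp)
    exact_mod_cast this
  have hterm : ∀ a ∈ s, ip Q ((((K + 1 - a : ℕ) : ℝ) - a) • (an (K + 1 - a) (an a φ)))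
      ((((K + 1 - a : ℕ) : ℝ) - a) • (an (K + 1 - a) (an a φ))) ≤
      ((K : ℝ) + 1) ^ 2 * (Q : ℝ) ^ (K + 1) * ip Q φ φ := by
    intro a ha
    rw [hs, mem_filter, mem_range] at ha
    rw [Tr.ip_smul_self]
    have h1 : ip Q (an (K + 1 - a) (an a φ)) (an (K + 1 - a) (an a φ)) ≤
        (Q : ℝ) ^ (K + 1) * ip Q φ φ := by
      refine le_trans (ip_an_le_pow _ (FockA.an_mem_Sup a h)) ?_
      refine le_trans (mul_le_mul_of_nonneg_left (ip_an_le_pow a h)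
        (by positivity)) ?_
      rw [← mul_assoc, ← pow_add, show K + 1 - a + a = K + 1 by omega]
    have h2 : ((((K + 1 - a : ℕ) : ℝ)) - a) ^ 2 ≤ ((K : ℝ) + 1) ^ 2 := by
      have h3 : ((K + 1 - a : ℕ) : ℝ) = (K : ℝ) + 1 - a := by
        rw [Nat.cast_sub (by omega)]; push_cast; ring
      rw [h3]
      have h4 : (a : ℝ) ≤ K := by exact_mod_cast (by omega : a ≤ K)
      have h5 : (0 : ℝ) ≤ a := Nat.cast_nonneg a
      have h6 : ((2 * a : ℕ) : ℝ) < ((K + 1 : ℕ) : ℝ) := by exact_mod_cast (by omega)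
      push_cast at h6
      nlinarith
    calc _ ≤ ((K : ℝ) + 1) ^ 2 * ((Q : ℝ) ^ (K + 1) * ip Q φ φ) :=
          mul_le_mul h2 h1 (BdAux.ip_nonneg Q _) (by positivity)
      _ = _ := by ring
  rw [e]
  refine le_trans (Tr.ip_sum_le Q s _) ?_
  have h7 := Finset.sum_le_sum hterm
  rw [Finset.sum_const, nsmul_eq_mul] at h7
  have h8 : (0 : ℝ) ≤ s.card := Nat.cast_nonneg _
  have h9 : 0 ≤ ((K : ℝ) + 1) ^ 2 * (Q : ℝ) ^ (K + 1) * ip Q φ φ := by positivity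
  calc _ ≤ (s.card : ℝ) * ((s.card : ℝ) * (((K : ℝ) + 1) ^ 2 * (Q : ℝ) ^ (K + 1) * ip Q φ φ)) :=
        mul_le_mul_of_nonneg_left h7 h8
    _ = (s.card : ℝ) ^ 2 * (((K : ℝ) + 1) ^ 2 * (Q : ℝ) ^ (K + 1) * ip Q φ φ) := by ring
    _ ≤ ((K : ℝ) + 1) ^ 2 * (((K : ℝ) + 1) ^ 2 * (Q : ℝ) ^ (K + 1) * ip Q φ φ) :=
        mul_le_mul_of_nonneg_right (pow_le_pow_left₀ h8 hcard 2) h9
    _ = _ := by ring

section
variable {Q N : ℕ} {lam : ℝ} {n : ℕ} {e : Fin n → Fk}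

theorem BdAux.mem_Sup_of_fam (he : Fam Q (Eig Q N lam) n e) (i : Fin n) : e i ∈ Sup Q :=
  FockA.Sec_le_Sup Q N (he.mem i).1

theorem tr_an_le (hQ : 1 ≤ Q) (he : Fam Q (Eig Q N lam) n e) (m K : ℕ) :
    tr Q e (an m * bh K) (an m * bh K) ≤
      (Q.choose m : ℝ) * ((2 * Q - 2).choose K : ℝ) * tr Q e (bh 0) (bh 0) := by
  rw [mul_assoc, ← tr_bh hQ he K]
  unfold tr
  rw [Finset.mul_sum]
  refine Finset.sum_le_sum fun i _ => ?_
  exact ip_an_le m (FockA.bh_mem_Sup K (BdAux.mem_Sup_of_fam he i))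

theorem BdAux.tr_an_le' (hQ : 1 ≤ Q) (he : Fam Q (Eig Q N lam) n e) (m K : ℕ) :
    tr Q e (an m * bh K) (an m * bh K) ≤
      2 ^ K * ((Q : ℝ) ^ (K + m) * tr Q e (bh 0) (bh 0)) := by
  refine (tr_an_le hQ he m K).trans ?_
  have h0 : 0 ≤ tr Q e (bh 0) (bh 0) := tr_self_nonneg e (bh 0)
  have h1 : (Q.choose m : ℝ) ≤ (Q : ℝ) ^ m := by exact_mod_cast Nat.choose_le_pow Q m
  have h2 := BdAux.choose_two_le Q K
  calc (Q.choose m : ℝ) * ((2 * Q - 2).choose K : ℝ) * tr Q e (bh 0) (bh 0) ≤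
      (Q : ℝ) ^ m * (2 ^ K * (Q : ℝ) ^ K) * tr Q e (bh 0) (bh 0) :=
        mul_le_mul_of_nonneg_right (mul_le_mul h1 h2 (Nat.cast_nonneg _) (by positivity)) h0
    _ = _ := by rw [pow_add]; ring

theorem BdAux.tr_bh_le' (hQ : 1 ≤ Q) (he : Fam Q (Eig Q N lam) n e) (m K : ℕ) :
    tr Q e (bh m * bh K) (bh m * bh K) ≤
      (((m : ℝ) + 1) ^ 4 * 2 ^ K) * ((Q : ℝ) ^ (1 + K + m) * tr Q e (bh 0) (bh 0)) := by
  have h0 : 0 ≤ tr Q e (bh 0) (bh 0) := tr_self_nonneg e (bh 0)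
  have h1 : tr Q e (bh m * bh K) (bh m * bh K) ≤
      ((m : ℝ) + 1) ^ 4 * (Q : ℝ) ^ (m + 1) * tr Q e (bh K) (bh K) := by
    unfold tr
    rw [Finset.mul_sum]
    refine Finset.sum_le_sum fun i _ => ?_
    exact ip_bh_le m (FockA.bh_mem_Sup K (BdAux.mem_Sup_of_fam he i))
  refine h1.trans ?_
  rw [tr_bh hQ he K]
  have h2 := BdAux.choose_two_le Q K
  calc ((m : ℝ) + 1) ^ 4 * (Q : ℝ) ^ (m + 1) * (((2 * Q - 2).choose K : ℝ) *
        tr Q e (bh 0) (bh 0)) ≤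
      ((m : ℝ) + 1) ^ 4 * (Q : ℝ) ^ (m + 1) * ((2 ^ K * (Q : ℝ) ^ K) *
        tr Q e (bh 0) (bh 0)) :=
        mul_le_mul_of_nonneg_left (mul_le_mul_of_nonneg_right h2 h0) (by positivity)
    _ = _ := by
      have : 1 + K + m = m + 1 + K := by ring
      rw [this, pow_add (Q : ℝ) (m + 1) K]; ring

theorem arrp_bd (hQ : 1 ≤ Q) (he : Fam Q (Eig Q N lam) n e) (hn : 0 < n) (hlam : 0 < lam)
    (K m K' m' : ℕ) : |arrp Q e K m K' m'| ≤ Bd K m K' m' := by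
  by_cases hs : K + m = K' + m'
  · have ht := tr_bh0_pos hQ he hn hlam
    have hQ' : (0 : ℝ) < Q := by exact_mod_cast hQ
    unfold arrp
    have h2 := BdAux.tr_an_le' hQ he m' K'
    rw [← hs] at h2
    refine BdAux.ratio_bd ht (by positivity) (BdAux.tr_an_le' hQ he m K) h2
      (tr_self_nonneg e _) (tr_self_nonneg e _) (tr_cs e _ _) ?_ (BdAux.one_le_Bd K m K' m')
    rw [← pow_add]
    exact BdAux.Bd_ge K m K' m'
  · rw [arrp_off hQ he hn hlam K m K' m' hs, abs_zero]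
    exact zero_le_one.trans (BdAux.one_le_Bd K m K' m')

theorem arrq_bd (hQ : 1 ≤ Q) (he : Fam Q (Eig Q N lam) n e) (hn : 0 < n) (hlam : 0 < lam)
    (K m K' m' : ℕ) : |arrq Q e K m K' m'| ≤ Bd K m K' m' := by
  by_cases hs : K + m = K' + m'
  · have ht := tr_bh0_pos hQ he hn hlam
    have hQ' : (0 : ℝ) < Q := by exact_mod_cast hQ
    unfold arrq
    have h2 := BdAux.tr_bh_le' hQ he m' K'
    have hs' : 1 + K' + m' = 1 + K + m := by omega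
    rw [hs'] at h2
    refine BdAux.ratio_bd ht (by positivity) (BdAux.tr_bh_le' hQ he m K) h2
      (tr_self_nonneg e _) (tr_self_nonneg e _) (tr_cs e _ _) ?_ (BdAux.one_le_Bd K m K' m')
    unfold Bd
    rw [pow_add, mul_pow]
    apply le_of_eq
    ring
  · rw [arrq_off hQ he hn hlam K m K' m' hs, abs_zero]
    exact zero_le_one.trans (BdAux.one_le_Bd K m K' m')

theorem arrp_pauli (hQ : 1 ≤ Q) (he : Fam Q (Eig Q N lam) n e) (hn : 0 < n) (hlam : 0 < lam)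
    (m : ℕ) : (m.factorial : ℝ) * arrp Q e 0 m 0 m ≤ 1 := by
  have ht := tr_bh0_pos hQ he hn hlam
  have hQ' : (0 : ℝ) < Q := by exact_mod_cast hQ
  have h1 := tr_an_le hQ he m 0
  rw [Nat.choose_zero_right, Nat.cast_one, mul_one] at h1
  have h2 : (m.factorial : ℝ) * (Q.choose m : ℝ) ≤ (Q : ℝ) ^ m := by
    have : m.factorial * Q.choose m ≤ Q ^ m := by
      rw [← Nat.descFactorial_eq_factorial_mul_choose]
      exact Nat.descFactorial_le_pow Q m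
    exact_mod_cast this
  unfold arrp
  rw [zero_add, ← mul_div_assoc, div_le_one (by positivity)]
  calc (m.factorial : ℝ) * tr Q e (an m * bh 0) (an m * bh 0) ≤
      (m.factorial : ℝ) * ((Q.choose m : ℝ) * tr Q e (bh 0) (bh 0)) :=
        mul_le_mul_of_nonneg_left h1 (Nat.cast_nonneg _)
    _ = (m.factorial : ℝ) * (Q.choose m : ℝ) * tr Q e (bh 0) (bh 0) := by ring
    _ ≤ (Q : ℝ) ^ m * tr Q e (bh 0) (bh 0) := mul_le_mul_of_nonneg_right h2 ht.le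
    _ = _ := by ring

end

end Vale.Agent.P359
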