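import Vale.Agent.P359.Spec

/-! # P359: positivity of the arrays, Pauli relations -/

namespace Vale.Agent.P359

open Finset

namespace VanAux

theorem op_neg_zero : (-0 : Op) = 0 := neg_zero
theorem op_neg_smul (c : ℝ) (a : Op) : (-c) • a = -(c • a) := neg_smul c a
theorem op_smul_neg (c : ℝ) (a : Op) : c • (-a) = -(c • a) := smul_neg c a
theorem op_neg_add_cancel (a : Op) : -a + a = 0 := neg_add_cancel a

theorem tr_comb {Q n : ℕ} (e : Fin n → Fk) (J : ℕ) (y : ℕ → ℝ) (F : ℕ → Op) :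
    tr Q e (∑ i ∈ range (J + 1), y i • F i) (∑ i ∈ range (J + 1), y i • F i) =
      ∑ i ∈ range (J + 1), ∑ j ∈ range (J + 1), y i * y j * tr Q e (F i) (F j) := by
  rw [tr_sum_left]
  refine Finset.sum_congr rfl fun i _ => ?_
  rw [tr_sum_right]
  refine Finset.sum_congr rfl fun j _ => ?_
  rw [tr_smul_left, tr_smul_right]
  ring

theorem arrp_comb {Q n : ℕ} (e : Fin n → Fk) (J : ℕ) (y : ℕ → ℝ) :
    ∑ i ∈ range (J + 1), ∑ j ∈ range (J + 1), y i * y j * arrp Q e i (J - i) j (J - j) =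
      tr Q e (∑ i ∈ range (J + 1), y i • (an (J - i) * bh i))
        (∑ i ∈ range (J + 1), y i • (an (J - i) * bh i)) /
        (tr Q e (bh 0) (bh 0) * (Q : ℝ) ^ J) := by
  rw [tr_comb e J y (fun i => an (J - i) * bh i), Finset.sum_div]
  refine Finset.sum_congr rfl fun i hi => ?_
  rw [Finset.sum_div]
  refine Finset.sum_congr rfl fun j _ => ?_
  have : i + (J - i) = J := by
    have := Finset.mem_range.1 hi
    omega
  rw [arrp, this, mul_div_assoc]

theorem arrq_comb {Q n : ℕ} (e : Fin n → Fk) (J : ℕ) (y : ℕ → ℝ) :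
    ∑ i ∈ range (J + 1), ∑ j ∈ range (J + 1), y i * y j * arrq Q e i (J - i) j (J - j) =
      tr Q e (∑ i ∈ range (J + 1), y i • (bh (J - i) * bh i))
        (∑ i ∈ range (J + 1), y i • (bh (J - i) * bh i)) /
        (tr Q e (bh 0) (bh 0) * (Q : ℝ) ^ (1 + J)) := by
  rw [tr_comb e J y (fun i => bh (J - i) * bh i), Finset.sum_div]
  refine Finset.sum_congr rfl fun i hi => ?_
  rw [Finset.sum_div]
  refine Finset.sum_congr rfl fun j _ => ?_
  have : 1 + i + (J - i) = 1 + J := by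
    have := Finset.mem_range.1 hi
    omega
  rw [arrq, this, mul_div_assoc]

theorem tr_zero_left {Q n : ℕ} (e : Fin n → Fk) (G : Op) : tr Q e 0 G = 0 := by
  have h := tr_smul_left (Q := Q) e (0 : ℝ) G G
  rwa [zero_smul, zero_mul] at h

/-! ### small pair annihilators -/

theorem bh_0 : bh 0 = an 1 * an 0 := by
  have h : (range (0 + 1)).filter (fun a => a < 0 + 1 - a) = {0} := by decide
  rw [bh, h, sum_singleton]
  norm_num

theorem bh_1 : bh 1 = (2 : ℝ) • (an 2 * an 0) := by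
  have h : (range (1 + 1)).filter (fun a => a < 1 + 1 - a) = {0} := by decide
  rw [bh, h, sum_singleton]
  norm_num

theorem bh_2 : bh 2 = (3 : ℝ) • (an 3 * an 0) + an 2 * an 1 := by
  have h : (range (2 + 1)).filter (fun a => a < 2 + 1 - a) = {0, 1} := by decide
  rw [bh, h, sum_pair (by norm_num)]
  norm_num

theorem bh_3 : bh 3 = (4 : ℝ) • (an 4 * an 0) + (2 : ℝ) • (an 3 * an 1) := by
  have h : (range (3 + 1)).filter (fun a => a < 3 + 1 - a) = {0, 1} := by decide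
  rw [bh, h, sum_pair (by norm_num)]
  norm_num

end VanAux

open VanAux

theorem arrp_psd {Q n : ℕ} (e : Fin n → Fk) (J : ℕ) (y : ℕ → ℝ) :
    0 ≤ ∑ i ∈ range (J + 1), ∑ j ∈ range (J + 1),
      y i * y j * arrp Q e i (J - i) j (J - j) := by
  rw [arrp_comb]
  have h1 : 0 ≤ tr Q e (bh 0) (bh 0) := tr_self_nonneg e _
  exact div_nonneg (tr_self_nonneg e _) (by positivity)

theorem arrq_psd {Q n : ℕ} (e : Fin n → Fk) (J : ℕ) (y : ℕ → ℝ) :
    0 ≤ ∑ i ∈ range (J + 1), ∑ j ∈ range (J + 1),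
      y i * y j * arrq Q e i (J - i) j (J - j) := by
  rw [arrq_comb]
  have h1 : 0 ≤ tr Q e (bh 0) (bh 0) := tr_self_nonneg e _
  exact div_nonneg (tr_self_nonneg e _) (by positivity)

/-- operator identity behind `arrp_van` -/
theorem van3 (J : ℕ) (hJ : J = 0 ∨ J = 1 ∨ J = 3) :
    ∑ i ∈ range (J + 1), ((-2 : ℝ) ^ (J - i)) • (an (J - i) * bh i) = 0 := by
  have c1 : an 0 * an 1 = -(an 1 * an 0) := FockA.an_an 0 1
  have s0 : an 0 * an 0 = 0 := FockA.an_sq 0
  have s1 : an 1 * an 1 = 0 := FockA.an_sq 1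
  have s2 : an 2 * an 2 = 0 := FockA.an_sq 2
  rcases hJ with rfl | rfl | rfl
  · rw [sum_range_one, bh_0]
    have : an (0 - 0) * (an 1 * an 0) = 0 := by
      show an 0 * (an 1 * an 0) = 0
      rw [← mul_assoc, c1, FockA.op_neg_mul, mul_assoc, s0, mul_zero, op_neg_zero]
    rw [this, smul_zero]
  · rw [sum_range_succ, sum_range_one, bh_0, bh_1]
    have h1 : an (1 - 0) * (an 1 * an 0) = 0 := by
      show an 1 * (an 1 * an 0) = 0
      rw [← mul_assoc, s1, zero_mul]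
    have h2 : an (1 - 1) * ((2 : ℝ) • (an 2 * an 0)) = 0 := by
      show an 0 * ((2 : ℝ) • (an 2 * an 0)) = 0
      rw [mul_smul_comm, ← mul_assoc, FockA.an_an 0 2, FockA.op_neg_mul, mul_assoc, s0, mul_zero, op_neg_zero,
        smul_zero]
    rw [h1, h2, smul_zero, smul_zero, add_zero]
  · rw [sum_range_succ, sum_range_succ, sum_range_succ, sum_range_one, bh_0, bh_1, bh_2, bh_3]
    show ((-2 : ℝ) ^ 3) • (an 3 * (an 1 * an 0)) + ((-2 : ℝ) ^ 2) • (an 2 * ((2 : ℝ) • (an 2 * an 0)))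
      + ((-2 : ℝ) ^ 1) • (an 1 * ((3 : ℝ) • (an 3 * an 0) + an 2 * an 1))
      + ((-2 : ℝ) ^ 0) • (an 0 * ((4 : ℝ) • (an 4 * an 0) + (2 : ℝ) • (an 3 * an 1))) = 0
    have h2 : an 2 * ((2 : ℝ) • (an 2 * an 0)) = 0 := by
      rw [mul_smul_comm, ← mul_assoc, s2, zero_mul, smul_zero]
    have h3 : an 1 * ((3 : ℝ) • (an 3 * an 0) + an 2 * an 1) =
        (-3 : ℝ) • (an 3 * (an 1 * an 0)) := by
      rw [mul_add, mul_smul_comm, ← mul_assoc, ← mul_assoc, FockA.an_an 1 3, FockA.an_an 1 2,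
        FockA.op_neg_mul, FockA.op_neg_mul, mul_assoc, mul_assoc (an 2), s1, mul_zero, op_neg_zero, add_zero,
        op_smul_neg, op_neg_smul]
    have h4 : an 0 * ((4 : ℝ) • (an 4 * an 0) + (2 : ℝ) • (an 3 * an 1)) =
        (2 : ℝ) • (an 3 * (an 1 * an 0)) := by
      rw [mul_add, mul_smul_comm, mul_smul_comm, ← mul_assoc, ← mul_assoc, FockA.an_an 0 4,
        FockA.an_an 0 3, FockA.op_neg_mul, FockA.op_neg_mul, mul_assoc, mul_assoc (an 3), s0, mul_zero, op_neg_zero,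
        smul_zero, zero_add, c1, FockA.op_mul_neg, FockA.op_neg_neg]
    rw [h2, h3, h4]
    module

/-- operator identity behind `arrq_van` -/
theorem van4 (J : ℕ) (hJ : Odd J ∨ J = 0 ∨ J = 2) :
    ∑ i ∈ range (J + 1), ((-1 : ℝ) ^ (J - i)) • (bh (J - i) * bh i) = 0 := by
  have s0 : an 0 * an 0 = 0 := FockA.an_sq 0
  have s1 : an 1 * an 1 = 0 := FockA.an_sq 1
  rcases hJ with hJ | rfl | rfl
  · set S := ∑ i ∈ range (J + 1), ((-1 : ℝ) ^ (J - i)) • (bh (J - i) * bh i) with hS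
    have h1 : S = -S := by
      conv_lhs => rw [hS, ← Finset.sum_range_reflect]
      rw [hS, ← Finset.sum_neg_distrib]
      refine Finset.sum_congr rfl fun i hi => ?_
      have hi' := Finset.mem_range.1 hi
      have e1 : J + 1 - 1 - i = J - i := by omega
      have e2 : J - (J - i) = i := by omega
      rw [e1, e2, FockA.bh_bh, ← op_neg_smul]
      congr 1
      have h2 : (-1 : ℝ) ^ (J - i) * (-1) ^ i = -1 := by
        rw [← pow_add, Nat.sub_add_cancel (by omega)]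
        exact hJ.neg_one_pow
      have h3 : (-1 : ℝ) ^ i * (-1) ^ i = 1 := by
        rw [← mul_pow]; norm_num
      calc (-1 : ℝ) ^ i = -((-1) ^ (J - i) * (-1) ^ i) * (-1) ^ i := by rw [h2]; ring
        _ = -(-1) ^ (J - i) * ((-1) ^ i * (-1) ^ i) := by ring
        _ = -(-1) ^ (J - i) := by rw [h3, mul_one]
    have h2 : (2 : ℝ) • S = 0 := by
      rw [two_smul]
      nth_rewrite 1 [h1]
      exact op_neg_add_cancel S
    exact (smul_eq_zero.1 h2).resolve_left (by norm_num)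
  · rw [sum_range_one]
    have : bh (0 - 0) * bh 0 = 0 := by
      show bh 0 * bh 0 = 0
      rw [bh_0, mul_assoc, ← mul_assoc (an 0), FockA.an_an 0 1, FockA.op_neg_mul, mul_assoc (an 1), s0,
        mul_zero, op_neg_zero, mul_zero]
    rw [this, smul_zero]
  · rw [sum_range_succ, sum_range_succ, sum_range_one]
    show ((-1 : ℝ) ^ 2) • (bh 2 * bh 0) + ((-1 : ℝ) ^ 1) • (bh 1 * bh 1) +
      ((-1 : ℝ) ^ 0) • (bh 0 * bh 2) = 0
    have h1 : bh 2 * bh 0 = 0 := by
      rw [bh_2, bh_0, add_mul, smul_mul_assoc, mul_assoc, mul_assoc, ← mul_assoc (an 0),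
        ← mul_assoc (an 1), s1, zero_mul, mul_zero, add_zero, FockA.an_an 0 1, FockA.op_neg_mul,
        mul_assoc (an 1), s0, mul_zero, op_neg_zero, mul_zero, smul_zero]
    have h2 : bh 1 * bh 1 = 0 := by
      rw [bh_1, smul_mul_assoc, mul_smul_comm, mul_assoc, ← mul_assoc (an 0), FockA.an_an 0 2,
        FockA.op_neg_mul, mul_assoc (an 2), s0, mul_zero, op_neg_zero, mul_zero, smul_zero, smul_zero]
    rw [FockA.bh_bh 0 2, h1, h2]
    simp

theorem arrp_van {Q n : ℕ} (e : Fin n → Fk) (J : ℕ) (hJ : J = 0 ∨ J = 1 ∨ J = 3) :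
    ∑ i ∈ range (J + 1), ∑ j ∈ range (J + 1),
      (-2) ^ (J - i) * (-2) ^ (J - j) * arrp Q e i (J - i) j (J - j) = 0 := by
  rw [arrp_comb e J (fun i => (-2 : ℝ) ^ (J - i)), van3 J hJ, tr_zero_left, zero_div]

theorem arrq_van {Q n : ℕ} (e : Fin n → Fk) (J : ℕ) (hJ : Odd J ∨ J = 0 ∨ J = 2) :
    ∑ i ∈ range (J + 1), ∑ j ∈ range (J + 1),
      (-1) ^ (J - i) * (-1) ^ (J - j) * arrq Q e i (J - i) j (J - j) = 0 := by
  rw [arrq_comb e J (fun i => (-1 : ℝ) ^ (J - i)), van4 J hJ, tr_zero_left, zero_div]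

end Vale.Agent.P359
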