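import Vale.Agent.P359.FirstQ

/-!
# P359, (BR): explicit formula for the pair projection
-/

open scoped BigOperators InnerProductSpace

namespace Vale.Agent.P359

variable {N Q : ℕ}

/-- put orbital `a` in slot `i` and orbital `b` in slot `j` -/
def pr (i j : Fin N) (m : Conf N Q) (a b : Fin (Q + 1)) : Conf N Q :=
  Function.update (Function.update m i a) j b

/-- the (unnormalised) pair vector `(a - b) g_a g_b` -/
noncomputable def vv (Q : ℕ) (a b : ℕ) : ℝ := ((a : ℝ) - b) * g Q a * g Q b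

/-- the pairs of orbitals of total weight `s` -/
def prs (Q s : ℕ) : Finset (Fin (Q + 1) × Fin (Q + 1)) :=
  Finset.univ.filter fun x => (x.1 : ℕ) + x.2 = s

/-- norm square of the pair vector of weight `s` -/
noncomputable def ww (Q s : ℕ) : ℝ := ∑ x ∈ prs Q s, vv Q x.1 x.2 ^ 2

theorem pr_left {i j : Fin N} (h : i ≠ j) (m : Conf N Q) (a b : Fin (Q + 1)) :
    pr i j m a b i = a := by
  simp [pr, Function.update_of_ne h]

theorem pr_right (i j : Fin N) (m : Conf N Q) (a b : Fin (Q + 1)) :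
    pr i j m a b j = b := by
  simp [pr]

theorem pr_other {i j l : Fin N} (hi : l ≠ i) (hj : l ≠ j) (m : Conf N Q) (a b : Fin (Q + 1)) :
    pr i j m a b l = m l := by
  simp [pr, Function.update_of_ne hi, Function.update_of_ne hj]

theorem pr_self (i j : Fin N) (m : Conf N Q) : pr i j m (m i) (m j) = m := by
  funext l
  by_cases hj : l = j
  · subst hj; simp [pr]
  · by_cases hi : l = i
    · subst hi
      simp [pr, Function.update_of_ne hj]
    · exact pr_other hi hj m _ _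

theorem pr_pr {i j : Fin N} (h : i ≠ j) (m : Conf N Q) (a b c d : Fin (Q + 1)) :
    pr i j (pr i j m a b) c d = pr i j m c d := by
  funext l
  by_cases hj : l = j
  · subst hj; rw [pr_right, pr_right]
  · by_cases hi : l = i
    · subst hi; rw [pr_left h, pr_left h]
    · rw [pr_other hi hj, pr_other hi hj, pr_other hi hj]

theorem fup_val {a : Fin (Q + 1)} (h : (a : ℕ) < Q) : ((fup a : Fin (Q + 1)) : ℕ) = a + 1 := by
  simp only [fup]
  omega

theorem fdn_val (a : Fin (Q + 1)) : ((fdn a : Fin (Q + 1)) : ℕ) = a - 1 := rfl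

theorem fdn_fup {a : Fin (Q + 1)} (h : (a : ℕ) < Q) : fdn (fup a) = a := by
  apply Fin.ext
  rw [fdn_val, fup_val h]
  omega

theorem Jp_apply (i : Fin N) (ψ : St N Q) (m : Conf N Q) :
    Jp i ψ m = ((√((m i : ℝ) * (Q + 1 - (m i : ℝ))) : ℝ) : ℂ) *
      ψ (Function.update m i (fdn (m i))) := rfl

theorem Jm_apply (i : Fin N) (ψ : St N Q) (m : Conf N Q) :
    Jm i ψ m = ((√(((m i : ℝ) + 1) * (Q - (m i : ℝ))) : ℝ) : ℂ) *
      ψ (Function.update m i (fup (m i))) := rfl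

theorem Jz_apply (i : Fin N) (ψ : St N Q) (m : Conf N Q) :
    Jz i ψ m = ((m i : ℂ) - Q / 2) * ψ m := rfl

theorem JmJp_same (i : Fin N) (ψ : St N Q) (m : Conf N Q) :
    Jm i (Jp i ψ) m = (((m i : ℂ) + 1) * (Q - (m i : ℂ))) * ψ m := by
  rw [Jm_apply, Jp_apply]
  rcases lt_or_eq_of_le (show (m i : ℕ) ≤ Q by omega) with h | h
  · rw [Function.update_self, Function.update_idem, fdn_fup h, Function.update_eq_self, ← mul_assoc,
      ← Complex.ofReal_mul, fup_val h]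
    have h1 : (0 : ℝ) ≤ ((m i : ℕ) : ℝ) + 1 := by positivity
    have h2 : (0 : ℝ) ≤ (Q : ℝ) - ((m i : ℕ) : ℝ) := by
      have : ((m i : ℕ) : ℝ) ≤ Q := by exact_mod_cast h.le
      linarith
    have e : (((m i : ℕ) + 1 : ℕ) : ℝ) * (Q + 1 - (((m i : ℕ) + 1 : ℕ) : ℝ)) =
        (((m i : ℕ) : ℝ) + 1) * (Q - ((m i : ℕ) : ℝ)) := by push_cast; ring
    rw [e, Real.mul_self_sqrt (mul_nonneg h1 h2)]
    push_cast
    ring
  · have e1 : ((m i : ℕ) : ℝ) = Q := by exact_mod_cast h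
    have e2 : ((m i : ℕ) : ℂ) = Q := by exact_mod_cast h
    rw [e1, e2]
    simp

theorem JmJp_diff {i j : Fin N} (h : i ≠ j) (ψ : St N Q) (m : Conf N Q) :
    Jm i (Jp j ψ) m = ((√(((m i : ℝ) + 1) * (Q - (m i : ℝ))) *
      √((m j : ℝ) * (Q + 1 - (m j : ℝ))) : ℝ) : ℂ) * ψ (pr i j m (fup (m i)) (fdn (m j))) := by
  rw [Jm_apply, Jp_apply, Function.update_of_ne h.symm]
  rw [← mul_assoc, ← Complex.ofReal_mul]
  rfl

theorem JmJp_diff' {i j : Fin N} (h : i ≠ j) (ψ : St N Q) (m : Conf N Q) :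
    Jm j (Jp i ψ) m = ((√(((m j : ℝ) + 1) * (Q - (m j : ℝ))) *
      √((m i : ℝ) * (Q + 1 - (m i : ℝ))) : ℝ) : ℂ) * ψ (pr i j m (fdn (m i)) (fup (m j))) := by
  rw [Jm_apply, Jp_apply, Function.update_of_ne h]
  rw [← mul_assoc, ← Complex.ofReal_mul, Function.update_comm h.symm]
  rfl

/-- the action of the pair Casimir on two-variable functions -/
noncomputable def cas2 (Q : ℕ) (F : Fin (Q + 1) → Fin (Q + 1) → ℂ) (a b : Fin (Q + 1)) : ℂ :=
  ((Q : ℂ) ^ 2 + Q + 2 * a * b - Q * (a + b)) * F a b +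
    ((√(((a : ℝ) + 1) * (Q - (a : ℝ))) * √((b : ℝ) * (Q + 1 - (b : ℝ))) : ℝ) : ℂ) *
      F (fup a) (fdn b) +
    ((√(((b : ℝ) + 1) * (Q - (b : ℝ))) * √((a : ℝ) * (Q + 1 - (a : ℝ))) : ℝ) : ℂ) *
      F (fdn a) (fup b)

theorem Cas_apply {i j : Fin N} (h : i ≠ j) (ψ : St N Q) (m : Conf N Q) :
    Cas i j ψ m = cas2 Q (fun a b => ψ (pr i j m a b)) (m i) (m j) := by
  have h1 : Cas i j ψ m = (Jm i (Jp i ψ) m + Jm i (Jp j ψ) m + (Jm j (Jp i ψ) m +
      Jm j (Jp j ψ) m)) + ((((m i : ℂ) - Q / 2) * (((m i : ℂ) - Q / 2) * ψ m +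
      ((m j : ℂ) - Q / 2) * ψ m) + ((m j : ℂ) - Q / 2) * (((m i : ℂ) - Q / 2) * ψ m +
      ((m j : ℂ) - Q / 2) * ψ m))) + (((m i : ℂ) - Q / 2) * ψ m +
      ((m j : ℂ) - Q / 2) * ψ m) := by
    simp only [Cas, LinearMap.add_apply, LinearMap.comp_apply, map_add, PiLp.add_apply, Jz_apply]
    ring
  rw [h1, JmJp_same, JmJp_same, JmJp_diff h, JmJp_diff' h]
  simp only [cas2, pr_self]
  push_cast
  ring

theorem cas2_shift (F : Fin (Q + 1) → Fin (Q + 1) → ℂ) (y : ℕ → ℂ) (s : ℕ)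
    (hy : ∀ a b : Fin (Q + 1), (a : ℕ) + b = s → F a b = y a * (g Q a : ℂ) * (g Q b : ℂ))
    (a b : Fin (Q + 1)) (hab : (a : ℕ) + b = s) :
    cas2 Q F a b = (((Q : ℂ) ^ 2 + Q + 2 * a * b - Q * s) * y a +
      ((Q : ℂ) - a) * b * y (a + 1) + (a : ℂ) * ((Q : ℂ) - b) * y (a - 1)) *
      ((g Q a : ℂ) * (g Q b : ℂ)) := by
  have hs : (s : ℂ) = a + b := by rw [← hab]; push_cast; ring
  have haQ : (a : ℕ) ≤ Q := by omega
  have hbQ : (b : ℕ) ≤ Q := by omega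
  have t1 : ((√(((a : ℝ) + 1) * (Q - (a : ℝ))) * √((b : ℝ) * (Q + 1 - (b : ℝ))) : ℝ) : ℂ) *
      F (fup a) (fdn b) = ((Q : ℂ) - a) * b * y (a + 1) * ((g Q a : ℂ) * (g Q b : ℂ)) := by
    rcases lt_or_eq_of_le haQ with h1 | h1
    · rcases Nat.eq_zero_or_pos (b : ℕ) with h2 | h2
      · have e1 : ((b : ℕ) : ℝ) = 0 := by exact_mod_cast h2
        have e2 : ((b : ℕ) : ℂ) = 0 := by exact_mod_cast h2
        rw [e1, e2]
        simp
      · rw [hy (fup a) (fdn b) (by rw [fup_val h1, fdn_val]; omega), fup_val h1, fdn_val]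
        have u1 := g_up (Q := Q) (a := a) h1
        have u2 := g_dn (Q := Q) (b := b) hbQ
        calc ((√(((a : ℝ) + 1) * (Q - (a : ℝ))) * √((b : ℝ) * (Q + 1 - (b : ℝ))) : ℝ) : ℂ) *
              (y (a + 1) * (g Q (a + 1) : ℂ) * (g Q (b - 1) : ℂ)) =
              y (a + 1) * (((√(((a : ℝ) + 1) * (Q - (a : ℝ))) * g Q (a + 1) : ℝ) : ℂ) *
                ((√((b : ℝ) * (Q + 1 - (b : ℝ))) * g Q (b - 1) : ℝ) : ℂ)) := by
              push_cast; ring
          _ = _ := by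
              rw [u1, u2]; push_cast; ring
    · have e1 : ((a : ℕ) : ℝ) = Q := by exact_mod_cast h1
      have e2 : ((a : ℕ) : ℂ) = Q := by exact_mod_cast h1
      rw [e1, e2]
      simp
  have t2 : ((√(((b : ℝ) + 1) * (Q - (b : ℝ))) * √((a : ℝ) * (Q + 1 - (a : ℝ))) : ℝ) : ℂ) *
      F (fdn a) (fup b) = (a : ℂ) * ((Q : ℂ) - b) * y (a - 1) * ((g Q a : ℂ) * (g Q b : ℂ)) := by
    rcases lt_or_eq_of_le hbQ with h1 | h1
    · rcases Nat.eq_zero_or_pos (a : ℕ) with h2 | h2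
      · have e1 : ((a : ℕ) : ℝ) = 0 := by exact_mod_cast h2
        have e2 : ((a : ℕ) : ℂ) = 0 := by exact_mod_cast h2
        rw [e1, e2]
        simp
      · rw [hy (fdn a) (fup b) (by rw [fup_val h1, fdn_val]; omega), fup_val h1, fdn_val]
        have u1 := g_up (Q := Q) (a := b) h1
        have u2 := g_dn (Q := Q) (b := a) haQ
        calc ((√(((b : ℝ) + 1) * (Q - (b : ℝ))) * √((a : ℝ) * (Q + 1 - (a : ℝ))) : ℝ) : ℂ) *
              (y (a - 1) * (g Q (a - 1) : ℂ) * (g Q (b + 1) : ℂ)) =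
              y (a - 1) * (((√(((b : ℝ) + 1) * (Q - (b : ℝ))) * g Q (b + 1) : ℝ) : ℂ) *
                ((√((a : ℝ) * (Q + 1 - (a : ℝ))) * g Q (a - 1) : ℝ) : ℂ)) := by
              push_cast; ring
          _ = _ := by
              rw [u1, u2]; push_cast; ring
    · have e1 : ((b : ℕ) : ℝ) = Q := by exact_mod_cast h1
      have e2 : ((b : ℕ) : ℂ) = Q := by exact_mod_cast h1
      rw [e1, e2]
      simp
  unfold cas2
  rw [t1, t2, hy a b hab, hs]
  ring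

/-- two-variable form: eigenfunctions -/
theorem two_var (hQ : 1 ≤ Q) (F : Fin (Q + 1) → Fin (Q + 1) → ℂ)
    (h : ∀ a b, cas2 Q F a b = ((Q : ℂ) - 1) * Q * F a b) (s : ℕ) :
    ∃ c : ℂ, ∀ a b : Fin (Q + 1), (a : ℕ) + b = s → F a b = c * (vv Q a b : ℂ) := by
  set y : ℕ → ℂ := fun n => if h : n ≤ Q ∧ s - n ≤ Q then
    F ⟨n, by omega⟩ ⟨s - n, by omega⟩ / ((g Q n : ℂ) * (g Q (s - n) : ℂ)) else 0 with hy
  have hgne : ∀ n : ℕ, n ≤ Q → (g Q n : ℂ) ≠ 0 := fun n hn => by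
    exact_mod_cast (g_pos hn).ne'
  have hFy : ∀ a b : Fin (Q + 1), (a : ℕ) + b = s → F a b = y a * (g Q a : ℂ) * (g Q b : ℂ) := by
    intro a b hab
    have haQ : (a : ℕ) ≤ Q := by omega
    have hbQ : (b : ℕ) ≤ Q := by omega
    have hsb : s - (a : ℕ) = b := by omega
    have e : y a = F a b / ((g Q a : ℂ) * (g Q b : ℂ)) := by
      simp only [hy]
      rw [dif_pos ⟨haQ, by omega⟩]
      simp only [hsb]
    rw [e]
    have h1 := hgne a haQ
    have h2 := hgne b hbQ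
    field_simp
  obtain ⟨c, hc⟩ := PairRec.eq_of_rec (k := ℂ) Q s y (by
    intro a b hab ha hb
    have h1 := h ⟨a, by omega⟩ ⟨b, by omega⟩
    rw [cas2_shift F y s hFy _ _ hab, hFy _ _ hab] at h1
    simp only at h1
    have hgg : (g Q a : ℂ) * (g Q b : ℂ) ≠ 0 := mul_ne_zero (hgne a ha) (hgne b hb)
    have h2 : ((((Q : ℂ) ^ 2 + Q + 2 * a * b - Q * s) * y a +
      ((Q : ℂ) - a) * b * y (a + 1) + (a : ℂ) * ((Q : ℂ) - b) * y (a - 1)) -
      ((Q : ℂ) - 1) * Q * y a) * ((g Q a : ℂ) * (g Q b : ℂ)) = 0 := by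
      linear_combination h1
    rcases mul_eq_zero.1 h2 with h3 | h3
    · linear_combination h3
    · exact absurd h3 hgg) hQ
  refine ⟨c, fun a b hab => ?_⟩
  rw [hFy a b hab, hc a b hab (by omega) (by omega)]
  unfold vv
  push_cast
  ring

theorem two_var_conv (F : Fin (Q + 1) → Fin (Q + 1) → ℂ)
    (h : ∀ s : ℕ, ∃ c : ℂ, ∀ a b : Fin (Q + 1), (a : ℕ) + b = s → F a b = c * (vv Q a b : ℂ))
    (a b : Fin (Q + 1)) : cas2 Q F a b = ((Q : ℂ) - 1) * Q * F a b := by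
  obtain ⟨c, hc⟩ := h (a + b)
  obtain ⟨y, hy⟩ : ∃ y : ℕ → ℂ, y = fun n : ℕ => c * (2 * (n : ℂ) - (a + b)) := ⟨_, rfl⟩
  have hFy : ∀ a' b' : Fin (Q + 1), (a' : ℕ) + b' = (a : ℕ) + b →
      F a' b' = y a' * (g Q a' : ℂ) * (g Q b' : ℂ) := by
    intro a' b' hab
    rw [hy]
    rw [hc a' b' hab]
    have : (a' : ℂ) + b' = a + b := by exact_mod_cast hab
    unfold vv
    push_cast
    linear_combination (-(c * (g Q a' : ℂ) * (g Q b' : ℂ))) * this
  rw [cas2_shift F y _ hFy a b rfl, hFy a b rfl, hy]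
  rcases Nat.eq_zero_or_pos (a : ℕ) with h0 | h0
  · simp only [h0]
    push_cast
    ring
  · have e : (((a : ℕ) - 1 : ℕ) : ℂ) = (a : ℂ) - 1 := by
      rw [Nat.cast_sub h0]; simp
    simp only [e]
    push_cast
    ring

theorem mem_spin_iff (hQ : 1 ≤ Q) {i j : Fin N} (h : i ≠ j) (ψ : St N Q) :
    ψ ∈ spinSpace i j ↔ ∀ (m : Conf N Q) (s : ℕ), ∃ c : ℂ, ∀ a b : Fin (Q + 1), (a : ℕ) + b = s →
      ψ (pr i j m a b) = c * (vv Q a b : ℂ) := by
  have key : ψ ∈ spinSpace i j ↔ ∀ m : Conf N Q, Cas i j ψ m = ((Q : ℂ) - 1) * Q * ψ m := by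
    unfold spinSpace
    rw [LinearMap.mem_ker, LinearMap.sub_apply, sub_eq_zero, LinearMap.smul_apply,
      LinearMap.id_apply]
    constructor
    · intro h1 m
      rw [h1]
      simp
    · intro h1
      ext m
      rw [h1 m]
      simp
  rw [key]
  constructor
  · intro h1 m s
    refine two_var hQ (fun a b => ψ (pr i j m a b)) (fun a b => ?_) s
    have h2 := h1 (pr i j m a b)
    rw [Cas_apply h, pr_left h, pr_right] at h2
    simp only [pr_pr h] at h2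
    exact h2
  · intro h1 m
    rw [Cas_apply h]
    have h2 := two_var_conv (fun a b => ψ (pr i j m a b)) (h1 m) (m i) (m j)
    rw [h2, pr_self]

/-- the explicit projection -/
noncomputable def Pex (i j : Fin N) (ψ : St N Q) : St N Q :=
  WithLp.toLp 2 fun m => ((ww Q ((m i : ℕ) + m j))⁻¹ * vv Q (m i) (m j) : ℝ) *
    ∑ x ∈ prs Q ((m i : ℕ) + m j), (vv Q x.1 x.2 : ℂ) * ψ (pr i j m x.1 x.2)

theorem Pex_apply (i j : Fin N) (ψ : St N Q) (m : Conf N Q) :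
    Pex i j ψ m = ((ww Q ((m i : ℕ) + m j))⁻¹ * vv Q (m i) (m j) : ℝ) *
    ∑ x ∈ prs Q ((m i : ℕ) + m j), (vv Q x.1 x.2 : ℂ) * ψ (pr i j m x.1 x.2) := rfl

theorem mem_prs {s : ℕ} {x : Fin (Q + 1) × Fin (Q + 1)} :
    x ∈ prs Q s ↔ (x.1 : ℕ) + x.2 = s := by simp [prs]

theorem Pex_pr {i j : Fin N} (h : i ≠ j) (ψ : St N Q) (m : Conf N Q) (a b : Fin (Q + 1)) :
    Pex i j ψ (pr i j m a b) = ((ww Q ((a : ℕ) + b))⁻¹ * vv Q a b : ℝ) *
    ∑ x ∈ prs Q ((a : ℕ) + b), (vv Q x.1 x.2 : ℂ) * ψ (pr i j m x.1 x.2) := by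
  rw [Pex_apply, pr_left h, pr_right]
  simp only [pr_pr h]

theorem Pex_mem (hQ : 1 ≤ Q) {i j : Fin N} (h : i ≠ j) (ψ : St N Q) :
    Pex i j ψ ∈ spinSpace i j := by
  rw [mem_spin_iff hQ h]
  intro m s
  refine ⟨((ww Q s)⁻¹ : ℝ) * ∑ x ∈ prs Q s, (vv Q x.1 x.2 : ℂ) * ψ (pr i j m x.1 x.2),
    fun a b hab => ?_⟩
  rw [Pex_pr h, hab]
  push_cast
  ring

theorem Pex_fix (hQ : 1 ≤ Q) {i j : Fin N} (h : i ≠ j) {ψ : St N Q} (hψ : ψ ∈ spinSpace i j) :
    Pex i j ψ = ψ := by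
  rw [mem_spin_iff hQ h] at hψ
  ext m
  obtain ⟨c, hc⟩ := hψ m ((m i : ℕ) + m j)
  rw [Pex_apply]
  have h1 : ∑ x ∈ prs Q ((m i : ℕ) + m j), (vv Q x.1 x.2 : ℂ) * ψ (pr i j m x.1 x.2) =
      c * (ww Q ((m i : ℕ) + m j) : ℂ) := by
    unfold ww
    push_cast
    rw [Finset.mul_sum]
    refine Finset.sum_congr rfl fun x hx => ?_
    rw [hc x.1 x.2 (mem_prs.1 hx)]
    ring
  rw [h1]
  have h2 := hc (m i) (m j) rfl
  rw [pr_self] at h2
  rw [h2]
  by_cases hw : ww Q ((m i : ℕ) + m j) = 0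
  · have h3 : vv Q (m i) (m j) ^ 2 = 0 := by
      unfold ww at hw
      rw [Finset.sum_eq_zero_iff_of_nonneg (fun x _ => sq_nonneg _)] at hw
      exact hw (m i, m j) (mem_prs.2 rfl)
    have h4 : vv Q (m i) (m j) = 0 := by simpa using h3
    rw [hw, h4]
    simp
  · have hw' : (ww Q ((m i : ℕ) + m j) : ℂ) ≠ 0 := by exact_mod_cast hw
    push_cast
    field_simp

theorem Pex_symm {i j : Fin N} (h : i ≠ j) (φ ψ : St N Q) :
    ⟪Pex i j φ, ψ⟫_ℂ = ⟪φ, Pex i j ψ⟫_ℂ := by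
  rw [PiLp.inner_apply, PiLp.inner_apply]
  simp only [Pex_apply, RCLike.inner_apply, map_mul, map_sum, Complex.conj_ofReal]
  simp only [Finset.mul_sum, Finset.sum_mul]
  rw [Finset.sum_sigma', Finset.sum_sigma']
  refine Finset.sum_bij' (fun p _ => ⟨pr i j p.1 p.2.1 p.2.2, (p.1 i, p.1 j)⟩)
    (fun p _ => ⟨pr i j p.1 p.2.1 p.2.2, (p.1 i, p.1 j)⟩) ?_ ?_ ?_ ?_ ?_
  · rintro ⟨m, x⟩ hp
    simp only [Finset.mem_sigma, Finset.mem_univ, true_and, mem_prs] at hp ⊢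
    rw [pr_left h, pr_right]
    exact hp.symm
  · rintro ⟨m, x⟩ hp
    simp only [Finset.mem_sigma, Finset.mem_univ, true_and, mem_prs] at hp ⊢
    rw [pr_left h, pr_right]
    exact hp.symm
  · rintro ⟨m, x⟩ hp
    simp only [pr_pr h, pr_left h, pr_right, pr_self]
  · rintro ⟨m, x⟩ hp
    simp only [pr_pr h, pr_left h, pr_right, pr_self]
  · rintro ⟨m, x⟩ hp
    simp only [Finset.mem_sigma, Finset.mem_univ, true_and, mem_prs] at hp
    simp only [pr_pr h, pr_left h, pr_right, pr_self]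
    rw [hp]
    push_cast
    ring

theorem P1_eq (hQ : 1 ≤ Q) {i j : Fin N} (h : i ≠ j) (ψ : St N Q) : P1 i j ψ = Pex i j ψ := by
  unfold P1
  refine Submodule.eq_starProjection_of_mem_of_inner_eq_zero (Pex_mem hQ h ψ) ?_
  intro w hw
  rw [inner_sub_left, Pex_symm h, Pex_fix hQ h hw, sub_self]

/-- (BR) explicit matrix elements of the pair projection -/
theorem P1_apply (hQ : 1 ≤ Q) {i j : Fin N} (h : i ≠ j) (ψ : St N Q) (m : Conf N Q) :
    P1 i j ψ m = ((ww Q ((m i : ℕ) + m j))⁻¹ * vv Q (m i) (m j) : ℝ) *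
    ∑ x ∈ prs Q ((m i : ℕ) + m j), (vv Q x.1 x.2 : ℂ) * ψ (pr i j m x.1 x.2) := by
  rw [P1_eq hQ h, Pex_apply]

theorem P1_eq_zero_iff (hQ : 1 ≤ Q) {i j : Fin N} (h : i ≠ j) (ψ : St N Q) :
    P1 i j ψ = 0 ↔ ∀ (m : Conf N Q) (s : ℕ),
      ∑ x ∈ prs Q s, (vv Q x.1 x.2 : ℂ) * ψ (pr i j m x.1 x.2) = 0 := by
  constructor
  · intro h0 m s
    by_cases hw : ww Q s = 0
    · refine Finset.sum_eq_zero fun x hx => ?_
      unfold ww at hw
      rw [Finset.sum_eq_zero_iff_of_nonneg (fun x _ => sq_nonneg _)] at hw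
      have h4 : vv Q x.1 x.2 = 0 := by simpa using hw x hx
      rw [h4]
      simp
    · obtain ⟨x, hx, hx2⟩ := Finset.exists_ne_zero_of_sum_ne_zero hw
      have h1 : P1 i j ψ (pr i j m x.1 x.2) = 0 := by rw [h0]; rfl
      rw [P1_eq hQ h, Pex_pr h, mem_prs.1 hx] at h1
      rcases mul_eq_zero.1 h1 with h2 | h2
      · exfalso
        have h3 : (ww Q s)⁻¹ * vv Q x.1 x.2 = 0 := Complex.ofReal_eq_zero.1 h2
        rcases mul_eq_zero.1 h3 with h4 | h4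
        · exact hw (inv_eq_zero.1 h4)
        · exact hx2 (by rw [h4]; norm_num)
      · exact h2
  · intro h0
    ext m
    rw [P1_apply hQ h, h0, mul_zero]
    rfl

/-- the energy is a sum of squares -/
theorem inner_Ham (ψ : St N Q) :
    (⟪ψ, Ham N Q ψ⟫_ℂ).re = ∑ x : Fin N × Fin N with x.1 < x.2, ‖P1 x.1 x.2 ψ‖ ^ 2 := by
  unfold Ham
  rw [ContinuousLinearMap.sum_apply, inner_sum, Complex.re_sum]
  refine Finset.sum_congr rfl fun x _ => ?_
  have h1 : ⟪ψ, P1 x.1 x.2 ψ⟫_ℂ = ⟪P1 x.1 x.2 ψ, P1 x.1 x.2 ψ⟫_ℂ := by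
    unfold P1
    rw [Submodule.inner_starProjection_left_eq_right]
    congr 1
    exact (Submodule.starProjection_eq_self_iff.2 (Submodule.starProjection_apply_mem _ _)).symm
  rw [h1, inner_self_eq_norm_sq_to_K]
  norm_cast

theorem Ham_eq_zero_iff (ψ : St N Q) :
    Ham N Q ψ = 0 ↔ ∀ i j : Fin N, i < j → P1 i j ψ = 0 := by
  constructor
  · intro h i j hij
    have h1 := inner_Ham ψ
    rw [h, inner_zero_right, Complex.zero_re] at h1
    have h2 := (Finset.sum_eq_zero_iff_of_nonneg (fun x _ => sq_nonneg _)).1 h1.symm (i, j)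
      (by simp [hij])
    simpa using h2
  · intro h
    unfold Ham
    rw [ContinuousLinearMap.sum_apply]
    refine Finset.sum_eq_zero fun x hx => ?_
    exact h _ _ (by simpa using hx)

end Vale.Agent.P359
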