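import Mathlib

/-!
# P359: the Laughlin gap, occupation-number (Fock) side, coefficient coordinates

States are functions `Finset ℕ → ℝ` (occupied orbitals).  All operators are independent of `Q`
except `Fl Q`; the level `Q` sits in the inner product `ip Q` and in the support condition `Sec`.
-/

namespace Vale.Agent.P359

open Finset

/-- States. -/
abbrev Fk := Finset ℕ → ℝ

/-- The algebra of operators. -/
abbrev Op := Module.End ℝ Fk

/-- Jordan-Wigner sign. -/
noncomputable def sg (m : ℕ) (U : Finset ℕ) : ℝ := (-1) ^ (U.filter (· < m)).card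

/-- Annihilator. -/
noncomputable def an (m : ℕ) : Op where
  toFun ψ U := if m ∈ U then 0 else sg m U * ψ (insert m U)
  map_add' φ ψ := by
    funext U; by_cases h : m ∈ U <;> simp [h, mul_add]
  map_smul' c ψ := by
    funext U; by_cases h : m ∈ U <;> simp [h, mul_left_comm]

/-- Creator (transpose of `an m` for the unweighted inner product). -/
noncomputable def cr (m : ℕ) : Op where
  toFun ψ U := if m ∈ U then sg m U * ψ (U.erase m) else 0
  map_add' φ ψ := by
    funext U; by_cases h : m ∈ U <;> simp [h, mul_add]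
  map_smul' c ψ := by
    funext U; by_cases h : m ∈ U <;> simp [h, mul_left_comm]

/-- `El = ∑ (m+1) cr m ∘ an (m+1)`. -/
noncomputable def El : Op where
  toFun ψ U := ∑ m ∈ U, if m + 1 ∈ U then 0 else ((m : ℝ) + 1) * ψ (insert (m + 1) (U.erase m))
  map_add' φ ψ := by
    funext U
    simp only [Pi.add_apply]
    rw [← Finset.sum_add_distrib]
    refine Finset.sum_congr rfl fun m _ => ?_
    by_cases h : m + 1 ∈ U <;> simp [h, mul_add]
  map_smul' c ψ := by
    funext U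
    simp only [Pi.smul_apply, smul_eq_mul, RingHom.id_apply, Finset.mul_sum]
    refine Finset.sum_congr rfl fun m _ => ?_
    by_cases h : m + 1 ∈ U <;> simp [h, mul_left_comm]

/-- `Fl Q = ∑ (Q-m) cr (m+1) ∘ an m`. -/
noncomputable def Fl (Q : ℕ) : Op where
  toFun ψ U := ∑ m ∈ U, if m = 0 ∨ m - 1 ∈ U then 0 else
    ((Q : ℝ) - m + 1) * ψ (insert (m - 1) (U.erase m))
  map_add' φ ψ := by
    funext U
    simp only [Pi.add_apply]
    rw [← Finset.sum_add_distrib]
    refine Finset.sum_congr rfl fun m _ => ?_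
    by_cases h : m = 0 ∨ m - 1 ∈ U <;> simp [h, mul_add]
  map_smul' c ψ := by
    funext U
    simp only [Pi.smul_apply, smul_eq_mul, RingHom.id_apply, Finset.mul_sum]
    refine Finset.sum_congr rfl fun m _ => ?_
    by_cases h : m = 0 ∨ m - 1 ∈ U <;> simp [h, mul_left_comm]

/-- Total momentum. -/
noncomputable def Lz : Op where
  toFun ψ U := ((∑ m ∈ U, m : ℕ) : ℝ) * ψ U
  map_add' φ ψ := by funext U; simp [mul_add]
  map_smul' c ψ := by funext U; simp [mul_left_comm]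

/-- Pair annihilator of relative momentum one: `∑_{a<b, a+b=K+1} (b-a) an b ∘ an a`. -/
noncomputable def bh (K : ℕ) : Op :=
  ∑ a ∈ (range (K + 1)).filter (fun a => a < K + 1 - a),
    (((K + 1 - a : ℕ) : ℝ) - a) • (an (K + 1 - a) * an a)

/-- Weight of a configuration at level `Q`. -/
noncomputable def wt (Q : ℕ) (U : Finset ℕ) : ℝ := ∏ a ∈ U, ((Q.choose a : ℝ))⁻¹

/-- The inner product at level `Q`. -/
noncomputable def ip (Q : ℕ) (φ ψ : Fk) : ℝ :=
  ∑ U ∈ (range (Q + 1)).powerset, wt Q U * (φ U * ψ U)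

/-- States at level `Q`. -/
def Sup (Q : ℕ) : Submodule ℝ Fk where
  carrier := {ψ | ∀ U, ¬ U ⊆ range (Q + 1) → ψ U = 0}
  add_mem' {φ ψ} hφ hψ U hU := by simp [hφ U hU, hψ U hU]
  zero_mem' U _ := rfl
  smul_mem' c ψ hψ U hU := by simp [hψ U hU]

/-- States at level `Q` with `N` particles. -/
def Sec (Q N : ℕ) : Submodule ℝ Fk where
  carrier := {ψ | ∀ U, ¬ (U ⊆ range (Q + 1) ∧ U.card = N) → ψ U = 0}
  add_mem' {φ ψ} hφ hψ U hU := by simp [hφ U hU, hψ U hU]
  zero_mem' U _ := rfl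
  smul_mem' c ψ hψ U hU := by simp [hψ U hU]

/-- The coefficient of `bh K` in the Hamiltonian. -/
noncomputable def hc (Q K : ℕ) : ℝ := ((Q : ℝ) * ((2 * Q - 2).choose K : ℝ))⁻¹

/-- The form of the Hamiltonian. -/
noncomputable def hf (Q : ℕ) (φ ψ : Fk) : ℝ :=
  ∑ K ∈ range (2 * Q - 1), hc Q K * ip Q (bh K φ) (bh K ψ)

/-- The eigenspace of the Hamiltonian for the eigenvalue `lam` in the `N`-particle sector. -/
def Eig (Q N : ℕ) (lam : ℝ) : Submodule ℝ Fk where
  carrier := {ψ | ψ ∈ Sec Q N ∧ ∀ φ ∈ Sec Q N, hf Q φ ψ = lam * ip Q φ ψ}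
  add_mem' {ψ₁ ψ₂} h₁ h₂ := by
    refine ⟨(Sec Q N).add_mem h₁.1 h₂.1, fun φ hφ => ?_⟩
    have e1 := h₁.2 φ hφ
    have e2 := h₂.2 φ hφ
    simp only [hf, ip, map_add, Pi.add_apply, mul_add, Finset.sum_add_distrib] at e1 e2 ⊢
    rw [e1, e2]
  zero_mem' := by
    refine ⟨(Sec Q N).zero_mem, fun φ _ => ?_⟩
    simp [hf, ip]
  smul_mem' c ψ h := by
    refine ⟨(Sec Q N).smul_mem c h.1, fun φ hφ => ?_⟩
    have e := h.2 φ hφ
    simp only [hf, ip, map_smul, Pi.smul_apply, smul_eq_mul] at e ⊢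
    have h1 : ∀ (w : Finset ℕ → ℝ) (α β : Fk) (S : Finset (Finset ℕ)),
        ∑ U ∈ S, w U * (α U * (c * β U)) = c * ∑ U ∈ S, w U * (α U * β U) := by
      intro w α β S
      rw [Finset.mul_sum]
      exact Finset.sum_congr rfl fun U _ => by ring
    rw [h1]
    simp only [h1]
    rw [mul_left_comm lam c, ← e, Finset.mul_sum]
    exact Finset.sum_congr rfl fun K _ => by ring

/-- A complete orthonormal family of a subspace `W` at level `Q`. -/
structure Fam (Q : ℕ) (W : Submodule ℝ Fk) (n : ℕ) (e : Fin n → Fk) : Prop where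
  mem : ∀ i, e i ∈ W
  orth : ∀ i j, ip Q (e i) (e j) = if i = j then 1 else 0
  span : ∀ ψ ∈ W, ψ = ∑ i, ip Q (e i) ψ • e i

/-- `∑_i ⟨F e_i, G e_i⟩`. -/
noncomputable def tr (Q : ℕ) {n : ℕ} (e : Fin n → Fk) (F G : Op) : ℝ :=
  ∑ i, ip Q (F (e i)) (G (e i))

/-- The three-body and four-body arrays of a family. -/
noncomputable def arrp (Q : ℕ) {n : ℕ} (e : Fin n → Fk) (K m K' m' : ℕ) : ℝ :=
  tr Q e (an m * bh K) (an m' * bh K') / (tr Q e (bh 0) (bh 0) * (Q : ℝ) ^ (K + m))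

noncomputable def arrq (Q : ℕ) {n : ℕ} (e : Fin n → Fk) (K₁ K₂ K₁' K₂' : ℕ) : ℝ :=
  tr Q e (bh K₂ * bh K₁) (bh K₂' * bh K₁') /
    (tr Q e (bh 0) (bh 0) * (Q : ℝ) ^ (1 + K₁ + K₂))

/-- `dn f 0 = 0`, `dn f (n+1) = f n`. -/
def dn (f : ℕ → ℝ) : ℕ → ℝ
  | 0 => 0
  | n + 1 => f n

end Vale.Agent.P359
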