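import Vale.Agent.P359.FockIp

/-!
# P359: the local energy identity
-/

open Finset

namespace Vale.Agent.P359

namespace FockA

/-- commutator of a pair of annihilators with a pair of creators, abstract form -/
theorem abs_comm {A : Type*} [Ring A] [Algebra ℝ A] (a b c d : A) (r0 r1 s0 s1 : ℝ)
    (h1 : a * c = r0 • 1 - c * a) (h2 : a * d = r1 • 1 - d * a)
    (h3 : b * c = s0 • 1 - c * b) (h4 : b * d = s1 • 1 - d * b) :
    b * a * (c * d) = c * d * (b * a) + ((r0 * s1 - s0 * r1) • (1 : A) - r0 • (d * b) +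
      s0 • (d * a) + r1 • (c * b) - s1 • (c * a)) := by
  have e1 : b * a * (c * d) = r0 • (b * d) - b * c * (a * d) := by
    calc b * a * (c * d) = b * (a * c) * d := by simp only [mul_assoc]
      _ = r0 • (b * d) - b * c * (a * d) := by
        rw [h1, mul_sub, sub_mul, mul_smul_comm, mul_one, smul_mul_assoc]
        simp only [mul_assoc]
  have e2 : c * b * (d * a) = s1 • (c * a) - c * d * (b * a) := by
    calc c * b * (d * a) = c * (b * d) * a := by simp only [mul_assoc]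
      _ = _ := by
        rw [h4, mul_sub, sub_mul, mul_smul_comm, mul_one, smul_mul_assoc]
        simp only [mul_assoc]
  have e3 : b * c * (a * d) = (s0 * r1) • (1 : A) - s0 • (d * a) - r1 • (c * b) +
      (s1 • (c * a) - c * d * (b * a)) := by
    rw [h3, h2, ← e2, sub_mul, mul_sub, mul_sub, smul_mul_smul_comm, one_mul, smul_mul_assoc,
      one_mul, mul_smul_comm, mul_one]
    abel
  rw [e1, e3, h4, smul_sub, smul_smul, sub_smul]
  abel

theorem an_cr_smul (m m' : ℕ) :
    an m * cr m' = ((if m = m' then 1 else 0 : ℝ)) • (1 : Op) - cr m' * an m := by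
  rw [an_cr]
  split_ifs <;> simp

/-- commutator of a pair of annihilators with the creators of the two lowest orbitals -/
theorem pair_comm (a b : ℕ) (hb : b ≠ 0) :
    an b * an a * (cr 0 * cr 1) = cr 0 * cr 1 * (an b * an a) +
      ((if a = 0 ∧ b = 1 then (1 : ℝ) else 0) • (1 : Op)
        - (if a = 0 then (1 : ℝ) else 0) • (cr 1 * an b)
        + (if a = 1 then (1 : ℝ) else 0) • (cr 0 * an b)
        - (if b = 1 then (1 : ℝ) else 0) • (cr 0 * an a)) := by
  have h := abs_comm (A := Op) (an a) (an b) (cr 0) (cr 1) (if a = 0 then 1 else 0)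
    (if a = 1 then 1 else 0) (if b = 0 then 1 else 0) (if b = 1 then 1 else 0)
    (an_cr_smul a 0) (an_cr_smul a 1) (an_cr_smul b 0) (an_cr_smul b 1)
  rw [h]
  congr 1
  rw [if_neg hb]
  have h5 : ((if a = 0 then (1 : ℝ) else 0) * (if b = 1 then 1 else 0) -
      0 * (if a = 1 then 1 else 0)) = (if a = 0 ∧ b = 1 then (1 : ℝ) else 0) := by
    by_cases ha : a = 0 <;> by_cases hb1 : b = 1 <;> simp [ha, hb1]
  rw [h5, zero_smul, add_zero]

/-- commutator of `bh K` with the creator of the pair `(0, 1)` -/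
theorem bh_comm (K : ℕ) :
    bh K * (cr 0 * cr 1) = cr 0 * cr 1 * bh K +
      ((if K = 0 then (1 : ℝ) else 0) • (1 : Op)
        - ((K : ℝ) + 1) • (cr 1 * an (K + 1)) + ((K : ℝ) - 1) • (cr 0 * an K)) := by
  rcases Nat.eq_zero_or_pos K with rfl | hK
  · rw [bh_zero_eq, pair_comm 0 1 (by omega)]
    simp only [and_self, if_true, zero_ne_one, if_false, zero_smul, add_zero, one_smul,
      Nat.cast_zero, zero_add, zero_sub]
    congr 1
    have h : ((-1 : ℝ)) • (cr 0 * an 0) = -(cr 0 * an 0) := neg_one_smul ℝ (cr 0 * an 0)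
    rw [h]
    exact sub_eq_add_neg _ _
  · have h1 : bh K * (cr 0 * cr 1) = cr 0 * cr 1 * bh K +
        ∑ a ∈ (range (K + 1)).filter (fun a => a < K + 1 - a),
          (((K + 1 - a : ℕ) : ℝ) - a) •
            ((if a = 0 ∧ K + 1 - a = 1 then (1 : ℝ) else 0) • (1 : Op)
        - (if a = 0 then (1 : ℝ) else 0) • (cr 1 * an (K + 1 - a))
        + (if a = 1 then (1 : ℝ) else 0) • (cr 0 * an (K + 1 - a))
        - (if K + 1 - a = 1 then (1 : ℝ) else 0) • (cr 0 * an a)) := by
      rw [bh, Finset.sum_mul, Finset.mul_sum, ← Finset.sum_add_distrib]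
      refine Finset.sum_congr rfl fun a ha => ?_
      simp only [mem_filter, mem_range] at ha
      rw [smul_mul_assoc, mul_smul_comm, pair_comm a (K + 1 - a) (by omega), smul_add]
    rw [h1]
    congr 1
    have h2 : ∀ a ∈ (range (K + 1)).filter (fun a => a < K + 1 - a),
        (((K + 1 - a : ℕ) : ℝ) - a) •
            ((if a = 0 ∧ K + 1 - a = 1 then (1 : ℝ) else 0) • (1 : Op)
        - (if a = 0 then (1 : ℝ) else 0) • (cr 1 * an (K + 1 - a))
        + (if a = 1 then (1 : ℝ) else 0) • (cr 0 * an (K + 1 - a))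
        - (if K + 1 - a = 1 then (1 : ℝ) else 0) • (cr 0 * an a)) =
        (if a = 0 then -(((K : ℝ) + 1) • (cr 1 * an (K + 1))) else 0) +
        (if a = 1 then ((K : ℝ) - 1) • (cr 0 * an K) else 0) := by
      intro a ha
      simp only [mem_filter, mem_range] at ha
      have hb1 : ¬ (K + 1 - a = 1) := by omega
      rw [if_neg hb1, if_neg (fun h => hb1 h.2)]
      rcases Nat.eq_zero_or_pos a with rfl | ha0
      · simp
      · by_cases ha1 : a = 1
        · subst ha1
          simp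
        · simp [ha1, (show a ≠ 0 by omega)]
    rw [Finset.sum_congr rfl h2, Finset.sum_add_distrib, Finset.sum_ite_eq', Finset.sum_ite_eq',
      if_neg (show ¬ K = 0 by omega), zero_smul, zero_sub]
    rw [if_pos (by simp)]
    congr 1
    by_cases hK1 : K = 1
    · subst hK1
      simp
    · rw [if_pos]
      simp only [mem_filter, mem_range]
      omega

/-- LOCAL ENERGY IDENTITY -/
theorem energy {Q N : ℕ} (hQ : 1 ≤ Q) {lam : ℝ} {ψ : Fk} (hψ : ψ ∈ Eig Q N lam) :
    lam * ip Q (bh 0 ψ) (bh 0 ψ) =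
      ∑ K ∈ range (2 * Q - 1), hc Q K *
        (ip Q (bh K (bh 0 ψ)) (bh K (bh 0 ψ))
          + (if K = 0 then (Q : ℝ) else 0) * ip Q (bh 0 ψ) (bh 0 ψ)
          - ((K : ℝ) + 1) * ip Q (an (K + 1) (bh 0 ψ)) (an 1 (bh K ψ))
          + (Q : ℝ) * ((K : ℝ) - 1) * ip Q (an K (bh 0 ψ)) (an 0 (bh K ψ))) := by
  have hQ0 : (Q : ℝ) ≠ 0 := by positivity
  -- `ip (cr 0 (cr 1 χ)) φ = (1/Q) ip χ (bh 0 φ)`
  have hadj : ∀ χ φ : Fk, ip Q ((cr 0 * cr 1) χ) φ = ((Q : ℝ))⁻¹ * ip Q χ (bh 0 φ) := by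
    intro χ φ
    rw [bh_zero_eq, Module.End.mul_apply, Module.End.mul_apply, ip_cr' Q 0 (by omega),
      ip_cr' Q 1 hQ]
    simp
  by_cases hN : N < 2
  · have h0 : ∀ K, bh K ψ = 0 := fun K => bh_eq_zero_of_card hN K hψ.1
    rw [h0 0]
    simp [h0, ip_zero_left]
  · obtain ⟨M, rfl⟩ : ∃ M, N = M + 2 := ⟨N - 2, by omega⟩
    have hmem : (cr 0 * cr 1) (bh 0 ψ) ∈ Sec Q (M + 2) := by
      rw [Module.End.mul_apply]
      exact cr_mem_Sec (by omega) (cr_mem_Sec hQ (bh_mem_Sec 0 hψ.1))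
    have h1 := hψ.2 _ hmem
    rw [hadj] at h1
    have h2 : lam * ip Q (bh 0 ψ) (bh 0 ψ) = (Q : ℝ) * hf Q ((cr 0 * cr 1) (bh 0 ψ)) ψ := by
      rw [h1]; field_simp
    rw [h2, hf, Finset.mul_sum]
    refine Finset.sum_congr rfl fun K _ => ?_
    have h3 : bh K ((cr 0 * cr 1) (bh 0 ψ)) = (cr 0 * cr 1) (bh K (bh 0 ψ)) +
        ((if K = 0 then (1 : ℝ) else 0) • (bh 0 ψ)
        - ((K : ℝ) + 1) • cr 1 (an (K + 1) (bh 0 ψ)) +
          ((K : ℝ) - 1) • cr 0 (an K (bh 0 ψ))) := by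
      have := congrArg (fun T : Op => T (bh 0 ψ)) (bh_comm K)
      simpa only [Module.End.mul_apply, LinearMap.add_apply, LinearMap.sub_apply,
        LinearMap.smul_apply, Module.End.one_apply] using this
    have h4 : bh 0 (bh K ψ) = bh K (bh 0 ψ) := by
      have := congrArg (fun T : Op => T ψ) (bh_bh 0 K)
      simpa only [Module.End.mul_apply] using this
    rw [h3, ip_add_left, ip_add_left, ip_sub_left, ip_smul_left, ip_smul_left, ip_smul_left,
      hadj, ip_cr' Q 1 hQ, ip_cr' Q 0 (by omega), h4]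
    have h5 : (if K = 0 then (1 : ℝ) else 0) * ip Q (bh 0 ψ) (bh K ψ) =
        (if K = 0 then (1 : ℝ) else 0) * ip Q (bh 0 ψ) (bh 0 ψ) := by
      by_cases h : K = 0 <;> simp [h]
    rw [h5]
    have h6 : (if K = 0 then (Q : ℝ) else 0) = (Q : ℝ) * (if K = 0 then (1 : ℝ) else 0) := by
      by_cases h : K = 0 <;> simp [h]
    rw [h6]
    simp only [Nat.choose_one_right, Nat.choose_zero_right, Nat.cast_one, inv_one, one_mul]
    field_simp
    ring

/-- the energy identity for a family in the eigenspace -/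
theorem energy_tr {Q N : ℕ} (hQ : 1 ≤ Q) {lam : ℝ} {n : ℕ} {e : Fin n → Fk}
    (he : ∀ i, e i ∈ Eig Q N lam) :
    lam * tr Q e (bh 0) (bh 0) =
      ∑ K ∈ range (2 * Q - 1), hc Q K *
        (tr Q e (bh K * bh 0) (bh K * bh 0)
          + (if K = 0 then (Q : ℝ) else 0) * tr Q e (bh 0) (bh 0)
          - ((K : ℝ) + 1) * tr Q e (an (K + 1) * bh 0) (an 1 * bh K)
          + (Q : ℝ) * ((K : ℝ) - 1) * tr Q e (an K * bh 0) (an 0 * bh K)) := by
  unfold tr
  rw [Finset.mul_sum, Finset.sum_congr rfl fun i _ => energy hQ (he i), Finset.sum_comm]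
  refine Finset.sum_congr rfl fun K _ => ?_
  rw [← Finset.mul_sum]
  congr 1
  simp only [Module.End.mul_apply, Finset.mul_sum, ← Finset.sum_add_distrib,
    ← Finset.sum_sub_distrib]

end FockA

end Vale.Agent.P359
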