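import Vale.Agent.P359.Spec
import Vale.Agent.P359.EnergyLoc

/-! P359: the local energy identity for a family -/

namespace Vale.Agent.P359

open Finset

theorem energy_id {Q N : ℕ} {lam : ℝ} {n : ℕ} {e : Fin n → Fk} (hQ : 1 ≤ Q)
    (he : Fam Q (Eig Q N lam) n e) :
    lam * tr Q e (bh 0) (bh 0) = ∑ K ∈ range (2 * Q - 1), hc Q K *
      ((if K = 0 then (Q : ℝ) * tr Q e (bh 0) (bh 0) else 0)
        + (Q : ℝ) * ((K : ℝ) - 1) * tr Q e (an K * bh 0) (an 0 * bh K)
        - ((K : ℝ) + 1) * tr Q e (an (K + 1) * bh 0) (an 1 * bh K)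
        + tr Q e (bh K * bh 0) (bh K * bh 0)) := by
  rw [FockA.energy_tr hQ he.mem]
  refine Finset.sum_congr rfl fun K _ => ?_
  congr 1
  by_cases h : K = 0
  · simp only [h, if_true]; ring
  · simp only [h, if_false]; ring

end Vale.Agent.P359
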