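import Vale.Agent.P359.FockMap2

/-!
# P359: the energy in occupation numbers
-/

open scoped BigOperators InnerProductSpace

namespace Vale.Agent.P359

variable {N Q : ℕ}

/-! ### the norm of the pair vector -/

theorem sum_prs_antidiag (Q s : ℕ) (F : ℕ → ℕ → ℝ) (h : ∀ a b, Q < a ∨ Q < b → F a b = 0) :
    ∑ p ∈ prs Q s, F p.1 p.2 = ∑ p ∈ Finset.HasAntidiagonal.antidiagonal s, F p.1 p.2 := by
  rw [← Finset.sum_filter_of_ne (s := Finset.HasAntidiagonal.antidiagonal s)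
    (p := fun p => p.1 ≤ Q ∧ p.2 ≤ Q) (fun p _ hne => by
      by_contra hcon
      apply hne
      apply h
      omega)]
  refine Finset.sum_bij' (fun p _ => ((p.1 : ℕ), (p.2 : ℕ)))
    (fun p _ => (⟨min p.1 Q, by omega⟩, ⟨min p.2 Q, by omega⟩)) ?_ ?_ ?_ ?_ ?_
  · rintro ⟨a, b⟩ hp
    simp only [mem_prs, Finset.mem_filter, Finset.HasAntidiagonal.mem_antidiagonal] at hp ⊢
    omega
  · rintro ⟨a, b⟩ hp
    simp only [mem_prs, Finset.mem_filter, Finset.HasAntidiagonal.mem_antidiagonal] at hp ⊢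
    omega
  · rintro ⟨a, b⟩ hp
    simp only [Prod.mk.injEq, Fin.ext_iff]
    omega
  · rintro ⟨a, b⟩ hp
    simp only [Finset.mem_filter, Finset.HasAntidiagonal.mem_antidiagonal] at hp
    simp only [Prod.mk.injEq]
    omega
  · rintro ⟨a, b⟩ hp
    rfl

theorem vdm (m n k : ℕ) : ∑ p ∈ Finset.HasAntidiagonal.antidiagonal k, ((m.choose p.1 : ℝ) * (n.choose p.2 : ℝ)) =
    ((m + n).choose k : ℝ) := by
  rw [Nat.add_choose_eq]
  push_cast
  rfl

theorem vv_sq {Q a b : ℕ} (ha : a ≤ Q) (hb : b ≤ Q) :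
    vv Q a b ^ 2 = ((a : ℝ) - b) ^ 2 * (Q.choose a : ℝ) * (Q.choose b : ℝ) := by
  unfold vv g
  have h1 : √(Q.choose a : ℝ) ^ 2 = (Q.choose a : ℝ) := Real.sq_sqrt (Nat.cast_nonneg _)
  have h2 : √(Q.choose b : ℝ) ^ 2 = (Q.choose b : ℝ) := Real.sq_sqrt (Nat.cast_nonneg _)
  calc (((a : ℝ) - b) * √(Q.choose a : ℝ) * √(Q.choose b : ℝ)) ^ 2 =
      ((a : ℝ) - b) ^ 2 * √(Q.choose a : ℝ) ^ 2 * √(Q.choose b : ℝ) ^ 2 := by ring
    _ = _ := by rw [h1, h2]

theorem ww_eq (q K : ℕ) : ww (q + 1) (K + 1) = 2 * ((q : ℝ) + 1) * ((2 * q).choose K : ℝ) := by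
  have h0 : ww (q + 1) (K + 1) = ∑ p ∈ Finset.HasAntidiagonal.antidiagonal (K + 1),
      ((((K : ℝ) + 1) ^ 2 * (((q + 1).choose p.1 : ℝ) * ((q + 1).choose p.2 : ℝ))) -
        4 * (((p.1 : ℝ) * ((q + 1).choose p.1 : ℝ)) * ((p.2 : ℝ) * ((q + 1).choose p.2 : ℝ)))) := by
    have h1 : ww (q + 1) (K + 1) = ∑ p ∈ prs (q + 1) (K + 1), (fun a b : ℕ =>
        ((a : ℝ) - b) ^ 2 * ((q + 1).choose a : ℝ) * ((q + 1).choose b : ℝ)) p.1 p.2 := by
      unfold ww
      refine Finset.sum_congr rfl fun p _ => ?_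
      exact vv_sq (by omega) (by omega)
    rw [h1, sum_prs_antidiag (q + 1) (K + 1) (fun a b : ℕ =>
        ((a : ℝ) - b) ^ 2 * ((q + 1).choose a : ℝ) * ((q + 1).choose b : ℝ))]
    · refine Finset.sum_congr rfl fun p hp => ?_
      rw [Finset.HasAntidiagonal.mem_antidiagonal] at hp
      have hp' : (p.1 : ℝ) + p.2 = K + 1 := by exact_mod_cast hp
      rw [← hp']
      ring
    · intro a b hab
      rcases hab with h | h
      · rw [Nat.choose_eq_zero_of_lt h]; simp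
      · rw [Nat.choose_eq_zero_of_lt h]; simp
  rw [h0, Finset.sum_sub_distrib, ← Finset.mul_sum, ← Finset.mul_sum, vdm]
  have h2 : ∑ p ∈ Finset.HasAntidiagonal.antidiagonal (K + 1),
      (((p.1 : ℝ) * ((q + 1).choose p.1 : ℝ)) * ((p.2 : ℝ) * ((q + 1).choose p.2 : ℝ))) =
      ((q : ℝ) + 1) ^ 2 * (if K = 0 then 0 else ((2 * q).choose (K - 1) : ℝ)) := by
    have habs : ∀ n : ℕ, (((n + 1 : ℕ) : ℝ) * ((q + 1).choose (n + 1) : ℝ)) =
        ((q : ℝ) + 1) * (q.choose n : ℝ) := by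
      intro n
      have h3 : (((q + 1) * q.choose n : ℕ) : ℝ) = (((q + 1).choose (n + 1) * (n + 1) : ℕ) : ℝ) := by
        exact_mod_cast Nat.add_one_mul_choose_eq q n
      push_cast at h3 ⊢
      linarith
    rcases Nat.eq_zero_or_pos K with hK | hK
    · subst hK
      rw [if_pos rfl, mul_zero]
      refine Finset.sum_eq_zero fun p hp => ?_
      rw [Finset.HasAntidiagonal.mem_antidiagonal] at hp
      have : p.1 = 0 ∨ p.2 = 0 := by omega
      rcases this with h | h <;> rw [h] <;> simp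
    · rw [if_neg (by omega)]
      obtain ⟨k, rfl⟩ : ∃ k, K = k + 1 := ⟨K - 1, by omega⟩
      rw [Finset.Nat.sum_antidiagonal_succ, Finset.Nat.sum_antidiagonal_succ']
      simp only [Nat.cast_zero, zero_mul, mul_zero, zero_add, add_zero, Nat.add_sub_cancel]
      have h4 : 2 * q = q + q := by ring
      rw [h4, ← vdm q q k, Finset.mul_sum]
      refine Finset.sum_congr rfl fun p _ => ?_
      rw [habs, habs]
      ring
  rw [h2]
  have e1 : ((q + 1 + (q + 1)).choose (K + 1) : ℝ) * ((K : ℝ) + 1) =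
      (2 * (q : ℝ) + 2) * ((2 * q + 1).choose K : ℝ) := by
    have h3 := Nat.add_one_mul_choose_eq (2 * q + 1) K
    have h4 : 2 * q + 1 + 1 = q + 1 + (q + 1) := by omega
    rw [h4] at h3
    have h5 : (((q + 1 + (q + 1)) * (2 * q + 1).choose K : ℕ) : ℝ) =
        (((q + 1 + (q + 1)).choose (K + 1) * (K + 1) : ℕ) : ℝ) := by exact_mod_cast h3
    push_cast at h5
    linarith
  rcases Nat.eq_zero_or_pos K with hK | hK
  · subst hK
    rw [if_pos rfl]
    simp at e1 ⊢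
    ring
  · rw [if_neg (by omega)]
    obtain ⟨k, rfl⟩ : ∃ k, K = k + 1 := ⟨K - 1, by omega⟩
    simp only [Nat.add_sub_cancel]
    have e2 : ((2 * q + 1).choose (k + 1) : ℝ) * ((k : ℝ) + 1) =
        (2 * (q : ℝ) + 1) * ((2 * q).choose k : ℝ) := by
      have h3 := Nat.add_one_mul_choose_eq (2 * q) k
      have h5 : (((2 * q + 1) * (2 * q).choose k : ℕ) : ℝ) =
          (((2 * q + 1).choose (k + 1) * (k + 1) : ℕ) : ℝ) := by exact_mod_cast h3
      push_cast at h5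
      linarith
    have e3 : ((2 * q + 1).choose (k + 1) : ℝ) = ((2 * q).choose k : ℝ) +
        ((2 * q).choose (k + 1) : ℝ) := by
      rw [Nat.choose_succ_succ]; push_cast; rfl
    push_cast at e1 ⊢
    have e4 : ((k : ℝ) + 1 + 1) ^ 2 * ((q + 1 + (q + 1)).choose (k + 1 + 1) : ℝ) =
        ((k : ℝ) + 1 + 1) * ((2 * (q : ℝ) + 2) * ((2 * q + 1).choose (k + 1) : ℝ)) := by
      rw [← e1]; ring
    rw [e4]
    have e5 : ((k : ℝ) + 1 + 1) * ((2 * (q : ℝ) + 2) * ((2 * q + 1).choose (k + 1) : ℝ)) =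
        (2 * (q : ℝ) + 2) * ((2 * (q : ℝ) + 1) * ((2 * q).choose k : ℝ) +
          ((2 * q + 1).choose (k + 1) : ℝ)) := by
      rw [← e2]; ring
    rw [e5, e3]
    ring

/-! ### the energy of the pair `0, 1` -/

/-- real form of the pair projection -/
noncomputable def pexR (i j : Fin N) (x : Conf N Q → ℝ) : Conf N Q → ℝ := fun m =>
  (ww Q ((m i : ℕ) + m j))⁻¹ * vv Q (m i) (m j) *
    ∑ p ∈ prs Q ((m i : ℕ) + m j), vv Q p.1 p.2 * x (pr i j m p.1 p.2)

theorem pr_cons (a b c d : Fin (Q + 1)) (m : Conf N Q) :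
    pr 0 1 (Fin.cons a (Fin.cons b m) : Conf (N + 1 + 1) Q) c d =
      Fin.cons c (Fin.cons d m) := by
  have h01 : (0 : Fin (N + 1 + 1)) ≠ 1 := by
    intro h
    have := congrArg Fin.val h
    simp at this
  funext i
  refine Fin.cases ?_ (fun j => ?_) i
  · rw [pr_left h01, Fin.cons_zero]
  · refine Fin.cases ?_ (fun k => ?_) j
    · have : (Fin.succ (0 : Fin (N + 1)) : Fin (N + 1 + 1)) = 1 := rfl
      rw [this, pr_right]
      rfl
    · rw [pr_other]
      · rfl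
      · exact Fin.succ_ne_zero _
      · intro h
        have := congrArg Fin.val h
        simp at this

theorem sum_cons (F : Conf (N + 1) Q → ℝ) :
    ∑ m, F m = ∑ a : Fin (Q + 1), ∑ m : Conf N Q, F (Fin.cons a m) := by
  rw [← Equiv.sum_comp (Fin.consEquiv fun _ : Fin (N + 1) => Fin (Q + 1)), Fintype.sum_prod_type]
  rfl

theorem energy01 {x y : Conf (N + 1 + 1) Q → ℝ} :
    ∑ m, y m * pexR 0 1 x m =
      ∑ s ∈ Finset.range (2 * Q + 1), (ww Q s)⁻¹ * ∑ m, bb s y m * bb s x m := by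
  rw [sum_cons]
  simp only [sum_cons]
  have h1 : ∀ (a b : Fin (Q + 1)) (m : Conf N Q),
      pexR 0 1 x (Fin.cons a (Fin.cons b m)) =
        (ww Q ((a : ℕ) + b))⁻¹ * vv Q a b * bb ((a : ℕ) + b) x m := by
    intro a b m
    unfold pexR bb
    have e0 : (Fin.cons a (Fin.cons b m) : Conf (N + 1 + 1) Q) 0 = a := rfl
    have e1 : (Fin.cons a (Fin.cons b m) : Conf (N + 1 + 1) Q) 1 = b := rfl
    rw [e0, e1]
    simp only [pr_cons]
  simp only [h1]
  rw [← Fintype.sum_prod_type' (f := fun a b : Fin (Q + 1) => ∑ m : Conf N Q,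
    y (Fin.cons a (Fin.cons b m)) * ((ww Q ((a : ℕ) + b))⁻¹ * vv Q a b *
      bb ((a : ℕ) + b) x m))]
  rw [← Finset.sum_fiberwise_of_maps_to (s := Finset.univ) (t := Finset.range (2 * Q + 1))
    (g := fun p : Fin (Q + 1) × Fin (Q + 1) => (p.1 : ℕ) + p.2)
    (fun p _ => by rw [Finset.mem_range]; omega)]
  refine Finset.sum_congr rfl fun s _ => ?_
  rw [Finset.mul_sum]
  have h2 : ∑ p ∈ Finset.univ.filter (fun p : Fin (Q + 1) × Fin (Q + 1) => (p.1 : ℕ) + p.2 = s),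
      ∑ m : Conf N Q, y (Fin.cons p.1 (Fin.cons p.2 m)) *
        ((ww Q ((p.1 : ℕ) + p.2))⁻¹ * vv Q p.1 p.2 * bb ((p.1 : ℕ) + p.2) x m) =
      ∑ p ∈ prs Q s, ∑ m : Conf N Q, (ww Q s)⁻¹ *
        ((vv Q p.1 p.2 * y (Fin.cons p.1 (Fin.cons p.2 m))) * bb s x m) := by
    refine Finset.sum_congr rfl fun p hp => ?_
    have hp' := mem_prs.1 hp
    refine Finset.sum_congr rfl fun m _ => ?_
    rw [hp']
    ring
  rw [h2, Finset.sum_comm]
  refine Finset.sum_congr rfl fun m _ => ?_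
  rw [← Finset.mul_sum, ← Finset.sum_mul]
  rfl

theorem bb_RA {x : Conf (N + 1 + 1) Q → ℝ} (hx : RA x) (s : ℕ) : RA (bb s x) := by
  rw [bb_eq hx]
  intro σ m
  simp only [Pi.smul_apply, Finset.sum_apply, smul_eq_mul]
  have : ∀ p : Fin (Q + 1) × Fin (Q + 1), ca p.2 (ca p.1 x) (m ∘ σ) =
      ((Equiv.Perm.sign σ : ℤ) : ℝ) * ca p.2 (ca p.1 x) m := fun p => (hx.ca p.1).ca p.2 σ m
  simp only [this]
  rw [Finset.mul_sum, Finset.mul_sum, Finset.mul_sum]
  refine Finset.sum_congr rfl fun p _ => ?_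
  ring

theorem bb_zero (x : Conf (N + 1 + 1) Q → ℝ) : bb 0 x = 0 := by
  funext m
  unfold bb
  refine Finset.sum_eq_zero fun p hp => ?_
  rw [mem_prs] at hp
  have e1 : (p.1 : ℕ) = p.2 := by omega
  rw [e1, vv_self, zero_mul]

theorem bb_top (x : Conf (N + 1 + 1) Q → ℝ) : bb (2 * Q) x = 0 := by
  funext m
  unfold bb
  refine Finset.sum_eq_zero fun p hp => ?_
  rw [mem_prs] at hp
  have e1 : (p.1 : ℕ) = p.2 := by omega
  rw [e1, vv_self, zero_mul]

theorem ip_smul_smul (c d : ℝ) (φ ψ : Fk) : ip Q (c • φ) (d • ψ) = c * d * ip Q φ ψ := by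
  unfold ip
  rw [Finset.mul_sum]
  refine Finset.sum_congr rfl fun U _ => ?_
  simp only [Pi.smul_apply, smul_eq_mul]
  ring

theorem energy_hf (hQ : 1 ≤ Q) {x y : Conf (N + 1 + 1) Q → ℝ} (hx : RA x) (hy : RA y) :
    ∑ m, y m * pexR 0 1 x m = 2 * (N.factorial : ℝ) * hf Q (toFk y) (toFk x) := by
  obtain ⟨q, rfl⟩ : ∃ q, Q = q + 1 := ⟨Q - 1, by omega⟩
  rw [energy01]
  have h1 : Finset.range (2 * (q + 1) + 1) = Finset.range (2 * q + 1 + 1 + 1) := by
    congr 1
  rw [h1, Finset.sum_range_succ, Finset.sum_range_succ']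
  have h2 : 2 * q + 1 + 1 = 2 * (q + 1) := by ring
  rw [h2]
  simp only [bb_top, bb_zero, Pi.zero_apply, zero_mul, mul_zero, Finset.sum_const_zero, add_zero]
  unfold hf
  have h3 : 2 * (q + 1) - 1 = 2 * q + 1 := by omega
  rw [h3]
  conv_rhs => rw [Finset.mul_sum]
  refine Finset.sum_congr rfl fun K hK => ?_
  rw [Finset.mem_range] at hK
  rw [inner_toFk (bb_RA hx (K + 1)) (bb_RA hy (K + 1)), toFk_bb hx, toFk_bb hy, ip_smul_smul, ww_eq]
  unfold hc
  have h4 : 2 * (q + 1) - 2 = 2 * q := by omega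
  rw [h4]
  have h5 : (0 : ℝ) < ((2 * q).choose K : ℝ) := by exact_mod_cast Nat.choose_pos (by omega)
  push_cast
  field_simp

/-! ### all pairs -/

theorem pr_comp {i j : Fin N} (m : Conf N Q) (σ : Equiv.Perm (Fin N)) (a b : Fin (Q + 1)) :
    pr i j (m ∘ σ) a b = pr (σ i) (σ j) m a b ∘ σ := by
  funext l
  rw [Function.comp_apply]
  by_cases hj : l = j
  · subst hj; rw [pr_right, pr_right]
  · by_cases hi : l = i
    · subst hi
      rw [pr_left hj, pr_left (fun h => hj (σ.injective h))]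
    · rw [pr_other hi hj, pr_other (fun h => hi (σ.injective h)) (fun h => hj (σ.injective h))]
      rfl

theorem pexR_comp {x : Conf N Q → ℝ} (hx : RA x) (i j : Fin N) (σ : Equiv.Perm (Fin N))
    (m : Conf N Q) : pexR i j x (m ∘ σ) = ((Equiv.Perm.sign σ : ℤ) : ℝ) * pexR (σ i) (σ j) x m := by
  unfold pexR
  simp only [pr_comp, Function.comp_apply]
  have h1 : ∀ p : Fin (Q + 1) × Fin (Q + 1), x (pr (σ i) (σ j) m p.1 p.2 ∘ σ) =
      ((Equiv.Perm.sign σ : ℤ) : ℝ) * x (pr (σ i) (σ j) m p.1 p.2) := fun p => hx σ _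
  simp only [h1]
  rw [Finset.mul_sum, Finset.mul_sum, Finset.mul_sum]
  refine Finset.sum_congr rfl fun p _ => ?_
  ring

theorem sign_sq (σ : Equiv.Perm (Fin N)) :
    ((Equiv.Perm.sign σ : ℤ) : ℝ) * ((Equiv.Perm.sign σ : ℤ) : ℝ) = 1 := by
  rcases Int.units_eq_one_or (Equiv.Perm.sign σ) with h | h <;> rw [h] <;> simp

theorem energy_perm {x y : Conf N Q → ℝ} (hx : RA x) (hy : RA y) (i j : Fin N)
    (σ : Equiv.Perm (Fin N)) :
    ∑ m, y m * pexR (σ i) (σ j) x m = ∑ m, y m * pexR i j x m := by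
  rw [← Equiv.sum_comp (Equiv.arrowCongr σ.symm (Equiv.refl (Fin (Q + 1))))
    (fun m => y m * pexR i j x m)]
  refine Finset.sum_congr rfl fun m _ => ?_
  have e : (Equiv.arrowCongr σ.symm (Equiv.refl (Fin (Q + 1)))) m = m ∘ σ := by
    funext l
    simp [Equiv.arrowCongr]
  rw [e, hy σ m, pexR_comp hx]
  calc y m * pexR (σ i) (σ j) x m = (((Equiv.Perm.sign σ : ℤ) : ℝ) *
        ((Equiv.Perm.sign σ : ℤ) : ℝ)) * (y m * pexR (σ i) (σ j) x m) := by
        rw [sign_sq, one_mul]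
    _ = _ := by ring

theorem exists_perm2 {i j a b : Fin N} (hij : i ≠ j) (hab : a ≠ b) :
    ∃ σ : Equiv.Perm (Fin N), σ a = i ∧ σ b = j := by
  refine ⟨Equiv.swap (Equiv.swap a i b) j * Equiv.swap a i, ?_, ?_⟩
  · rw [Equiv.Perm.mul_apply, Equiv.swap_apply_left, Equiv.swap_apply_of_ne_of_ne]
    · intro h
      have : Equiv.swap a i a = Equiv.swap a i b := by rw [Equiv.swap_apply_left]; exact h
      exact hab ((Equiv.swap a i).injective this)
    · exact hij
  · rw [Equiv.Perm.mul_apply, Equiv.swap_apply_left]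

/-- real form of the Hamiltonian -/
noncomputable def hamR (x : Conf N Q → ℝ) : Conf N Q → ℝ := fun m =>
  ∑ p : Fin N × Fin N with p.1 < p.2, pexR p.1 p.2 x m

theorem card_pairs (n : ℕ) :
    2 * ((Finset.univ : Finset (Fin n × Fin n)).filter (fun p => p.1 < p.2)).card =
      n * (n - 1) := by
  have h1 : ((Finset.univ : Finset (Fin n × Fin n)).filter (fun p => p.2 < p.1)).card =
      ((Finset.univ : Finset (Fin n × Fin n)).filter (fun p => p.1 < p.2)).card := by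
    refine Finset.card_bij' (fun p _ => p.swap) (fun p _ => p.swap) ?_ ?_ ?_ ?_
    · rintro ⟨a, b⟩ h; simpa using h
    · rintro ⟨a, b⟩ h; simpa using h
    · rintro ⟨a, b⟩ _; rfl
    · rintro ⟨a, b⟩ _; rfl
  have h2 : (Finset.univ : Finset (Fin n)).offDiag =
      (Finset.univ : Finset (Fin n × Fin n)).filter (fun p => p.1 < p.2) ∪
        (Finset.univ : Finset (Fin n × Fin n)).filter (fun p => p.2 < p.1) := by
    ext ⟨a, b⟩
    simp only [Finset.mem_offDiag, Finset.mem_univ, true_and, Finset.mem_union,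
      Finset.mem_filter]
    exact lt_or_lt_iff_ne.symm
  have h3 : Disjoint ((Finset.univ : Finset (Fin n × Fin n)).filter (fun p => p.1 < p.2))
      ((Finset.univ : Finset (Fin n × Fin n)).filter (fun p => p.2 < p.1)) := by
    rw [Finset.disjoint_left]
    rintro ⟨a, b⟩ h h'
    simp only [Finset.mem_filter, Finset.mem_univ, true_and] at h h'
    exact lt_asymm h h'
  have h4 := congrArg Finset.card h2
  rw [Finset.card_union_of_disjoint h3, Finset.offDiag_card, Finset.card_univ, Fintype.card_fin,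
    h1] at h4
  rw [Nat.mul_sub, mul_one, two_mul]
  exact h4.symm

/-- the energy in occupation numbers -/
theorem energy_total (hQ : 1 ≤ Q) {x y : Conf (N + 1 + 1) Q → ℝ} (hx : RA x) (hy : RA y) :
    ∑ m, y m * hamR x m = ((N + 1 + 1).factorial : ℝ) * hf Q (toFk y) (toFk x) := by
  have h01 : (0 : Fin (N + 1 + 1)) ≠ 1 := by
    intro h
    have := congrArg Fin.val h
    simp at this
  have h1 : ∑ m, y m * hamR x m =
      ∑ p : Fin (N + 1 + 1) × Fin (N + 1 + 1) with p.1 < p.2,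
        2 * (N.factorial : ℝ) * hf Q (toFk y) (toFk x) := by
    unfold hamR
    simp only [Finset.mul_sum]
    rw [Finset.sum_comm]
    refine Finset.sum_congr rfl fun p hp => ?_
    have hp' : p.1 ≠ p.2 := by
      simp only [Finset.mem_filter, Finset.mem_univ, true_and] at hp
      exact hp.ne
    obtain ⟨σ, h2, h3⟩ := exists_perm2 hp' h01
    rw [← energy_hf hQ hx hy, ← energy_perm hx hy 0 1 σ, h2, h3]
  rw [h1, Finset.sum_const, nsmul_eq_mul]
  have h4 := card_pairs (N + 1 + 1)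
  have h5 : (2 : ℝ) * (((Finset.univ : Finset (Fin (N + 1 + 1) × Fin (N + 1 + 1))).filter
      (fun p => p.1 < p.2)).card : ℝ) = ((N : ℝ) + 1 + 1) * ((N : ℝ) + 1) := by
    have : ((2 * ((Finset.univ : Finset (Fin (N + 1 + 1) × Fin (N + 1 + 1))).filter
      (fun p => p.1 < p.2)).card : ℕ) : ℝ) = (((N + 1 + 1) * (N + 1 + 1 - 1) : ℕ) : ℝ) := by
      exact_mod_cast h4
    rw [Nat.add_sub_cancel] at this
    push_cast at this
    exact this
  rw [Nat.factorial_succ, Nat.factorial_succ]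
  push_cast
  linear_combination ((N.factorial : ℝ) * hf Q (toFk y) (toFk x)) * h5

end Vale.Agent.P359
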