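import Mathlib

/-!
# P359: from the absence of small eigenvalues to the operator inequality
-/

open scoped BigOperators InnerProductSpace

namespace Vale.Agent.P359

/-- if `0` is the only possible eigenvalue below `g` of the compression of `H` to `A`, and the zero
states in `A` are the multiples of `L`, then `H ≥ g (1 - P_L)` on `A` -/
theorem gap_abs {E : Type*} [NormedAddCommGroup E] [InnerProductSpace ℂ E]
    [FiniteDimensional ℂ E] (H : E →L[ℂ] E) (hH : ∀ x y, ⟪H x, y⟫_ℂ = ⟪x, H y⟫_ℂ)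
    (A : Submodule ℂ E) (L : E) (hL : L ∈ A) (hHL : H L = 0) (g : ℝ)
    (hpos : ∀ ψ : E, 0 ≤ (⟪ψ, H ψ⟫_ℂ).re)
    (hker : ∀ ψ ∈ A, (⟪ψ, H ψ⟫_ℂ).re = 0 → ψ ∈ Submodule.span ℂ {L})
    (heig : ∀ lam : ℝ, 0 < lam → lam < g → ∀ ψ ∈ A,
      (∀ φ ∈ A, ⟪φ, H ψ⟫_ℂ = (lam : ℂ) * ⟪φ, ψ⟫_ℂ) → ψ = 0) :
    ∀ ψ ∈ A, g * ‖ψ - (Submodule.span ℂ {L}).starProjection ψ‖ ^ 2 ≤ (⟪ψ, H ψ⟫_ℂ).re := by
  classical
  set P := Submodule.span ℂ {L} with hP
  set B : Submodule ℂ E := A ⊓ Pᗮ with hB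
  -- the compression of `H` to `B`
  set T : B →ₗ[ℂ] B := (B.orthogonalProjectionOnto.toLinearMap ∘ₗ H.toLinearMap) ∘ₗ B.subtype
    with hT
  have hTin : ∀ x y : B, ⟪x, T y⟫_ℂ = ⟪(x : E), H (y : E)⟫_ℂ := by
    intro x y
    rw [hT]
    simp only [LinearMap.comp_apply, ContinuousLinearMap.coe_coe, Submodule.subtype_apply]
    rw [Submodule.coe_inner]
    exact Submodule.inner_orthogonalProjectionOnto_eq_of_mem_left x _
  have hTsym : T.IsSymmetric := by
    intro x y
    rw [hTin, ← inner_conj_symm, hTin, inner_conj_symm, hH]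
  have hLB : ∀ x ∈ B, ⟪L, x⟫_ℂ = 0 := fun x hx =>
    (Submodule.mem_orthogonal _ _).1 hx.2 L (Submodule.mem_span_singleton_self L)
  -- eigenvalues on `B` are at least `g`
  have hmu : ∀ i, g ≤ hTsym.eigenvalues rfl i := by
    intro i
    set b := hTsym.eigenvectorBasis rfl i with hb
    have hb1 : ‖b‖ = 1 := (hTsym.eigenvectorBasis rfl).orthonormal.1 i
    have hb0 : (b : E) ≠ 0 := by
      intro h0
      have : b = 0 := Subtype.ext h0
      rw [this, norm_zero] at hb1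
      exact zero_ne_one hb1
    have hTb : T b = ((hTsym.eigenvalues rfl i : ℝ) : ℂ) • b :=
      hTsym.apply_eigenvectorBasis rfl i
    have he : (⟪(b : E), H (b : E)⟫_ℂ) = ((hTsym.eigenvalues rfl i : ℝ) : ℂ) := by
      rw [← hTin, hTb, inner_smul_right, inner_self_eq_norm_sq_to_K, hb1]
      simp
    have h0 : 0 ≤ hTsym.eigenvalues rfl i := by
      have := hpos (b : E)
      rw [he] at this
      simpa using this
    by_contra hlt
    push Not at hlt
    rcases h0.eq_or_lt with h1 | h1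
    · -- a zero state orthogonal to `L`
      have h2 : (b : E) ∈ P := hker b b.2.1 (by rw [he, ← h1]; simp)
      apply hb0
      have h3 := (Submodule.mem_orthogonal _ _).1 b.2.2 (b : E) h2
      exact inner_self_eq_zero.1 h3
    · apply hb0
      refine heig _ h1 hlt b b.2.1 ?_
      intro φ hφ
      -- decompose `φ`
      have h2 : φ - P.starProjection φ ∈ B := by
        refine ⟨A.sub_mem hφ ?_, ?_⟩
        · have h3 : P ≤ A := by
            rw [hP, Submodule.span_singleton_le_iff_mem]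
            exact hL
          exact h3 (Submodule.starProjection_apply_mem _ _)
        · exact Submodule.sub_starProjection_mem_orthogonal φ
      have h3 : ⟪P.starProjection φ, (b : E)⟫_ℂ = 0 :=
        (Submodule.mem_orthogonal _ _).1 b.2.2 _ (Submodule.starProjection_apply_mem _ _)
      have h4 : H (P.starProjection φ) = 0 := by
        obtain ⟨c, hc⟩ := Submodule.mem_span_singleton.1 (Submodule.starProjection_apply_mem P φ)
        rw [← hc, map_smul, hHL, smul_zero]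
      have h5 : ⟪φ - P.starProjection φ, H (b : E)⟫_ℂ =
          ((hTsym.eigenvalues rfl i : ℝ) : ℂ) * ⟪φ - P.starProjection φ, (b : E)⟫_ℂ := by
        have := hTin ⟨_, h2⟩ b
        rw [hTb, inner_smul_right] at this
        exact this.symm
      rw [inner_sub_left, inner_sub_left, h3, sub_zero, ← hH (P.starProjection φ), h4,
        inner_zero_left, sub_zero] at h5
      exact h5
  -- the inequality on `B`
  have hBineq : ∀ x : B, g * ‖x‖ ^ 2 ≤ (⟪(x : E), H (x : E)⟫_ℂ).re := by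
    intro x
    set β := hTsym.eigenvectorBasis rfl with hβ
    have h1 : ⟪(x : E), H (x : E)⟫_ℂ =
        ∑ i, ((hTsym.eigenvalues rfl i : ℝ) : ℂ) * ((‖⟪β i, x⟫_ℂ‖ ^ 2 : ℝ) : ℂ) := by
      rw [← hTin, ← β.sum_inner_mul_inner]
      refine Finset.sum_congr rfl fun i _ => ?_
      have h2 : ⟪β i, T x⟫_ℂ = ((hTsym.eigenvalues rfl i : ℝ) : ℂ) * ⟪β i, x⟫_ℂ := by
        rw [← hTsym, hβ, hTsym.apply_eigenvectorBasis rfl i, inner_smul_left]
        congr 1
        exact Complex.conj_ofReal _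
      rw [h2]
      have h3 : ⟪x, β i⟫_ℂ = (starRingEnd ℂ) ⟪β i, x⟫_ℂ := (inner_conj_symm _ _).symm
      rw [h3]
      have h4 : (starRingEnd ℂ) ⟪β i, x⟫_ℂ * ⟪β i, x⟫_ℂ = ((‖⟪β i, x⟫_ℂ‖ ^ 2 : ℝ) : ℂ) := by
        rw [mul_comm, Complex.mul_conj, Complex.normSq_eq_norm_sq]
      calc (starRingEnd ℂ) ⟪β i, x⟫_ℂ * (((hTsym.eigenvalues rfl i : ℝ) : ℂ) * ⟪β i, x⟫_ℂ)
          = ((hTsym.eigenvalues rfl i : ℝ) : ℂ) *
            ((starRingEnd ℂ) ⟪β i, x⟫_ℂ * ⟪β i, x⟫_ℂ) := by ring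
        _ = _ := by rw [h4]
    have h5 : (⟪(x : E), H (x : E)⟫_ℂ).re =
        ∑ i, hTsym.eigenvalues rfl i * ‖⟪β i, x⟫_ℂ‖ ^ 2 := by
      rw [h1, Complex.re_sum]
      refine Finset.sum_congr rfl fun i _ => ?_
      rw [← Complex.ofReal_mul, Complex.ofReal_re]
    rw [h5, ← β.sum_sq_norm_inner_right x, Finset.mul_sum]
    exact Finset.sum_le_sum fun i _ =>
      mul_le_mul_of_nonneg_right (hmu i) (sq_nonneg _)
  -- conclusion
  intro ψ hψ
  have h2 : ψ - P.starProjection ψ ∈ B := by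
    refine ⟨A.sub_mem hψ ?_, ?_⟩
    · have h3 : P ≤ A := by
        rw [hP, Submodule.span_singleton_le_iff_mem]
        exact hL
      exact h3 (Submodule.starProjection_apply_mem _ _)
    · exact Submodule.sub_starProjection_mem_orthogonal ψ
  have h4 : H (P.starProjection ψ) = 0 := by
    obtain ⟨c, hc⟩ := Submodule.mem_span_singleton.1 (Submodule.starProjection_apply_mem P ψ)
    rw [← hc, map_smul, hHL, smul_zero]
  have h5 := hBineq ⟨_, h2⟩
  have h6 : ⟪ψ - P.starProjection ψ, H (ψ - P.starProjection ψ)⟫_ℂ = ⟪ψ, H ψ⟫_ℂ := by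
    rw [map_sub, h4, sub_zero, inner_sub_left, ← hH (P.starProjection ψ), h4, inner_zero_left,
      sub_zero]
  simp only at h5
  rw [h6] at h5
  exact h5

end Vale.Agent.P359
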