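import Vale.Agent.P359.EnergyMap

/-!
# P359: the Hamiltonian preserves the fermionic space
-/

open scoped BigOperators InnerProductSpace

namespace Vale.Agent.P359

variable {N Q : ℕ}

theorem two_sum_pairs (f : Fin N → Fin N → ℝ) (hf : ∀ i j, f i j = f j i) :
    2 * ∑ p : Fin N × Fin N with p.1 < p.2, f p.1 p.2 =
      ∑ p : Fin N × Fin N, if p.1 ≠ p.2 then f p.1 p.2 else 0 := by
  have h1 : ∑ p : Fin N × Fin N with p.1 < p.2, f p.1 p.2 =
      ∑ p : Fin N × Fin N with p.2 < p.1, f p.1 p.2 := by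
    refine Finset.sum_bij' (fun p _ => p.swap) (fun p _ => p.swap) ?_ ?_ ?_ ?_ ?_
    · rintro ⟨a, b⟩ h; simpa using h
    · rintro ⟨a, b⟩ h; simpa using h
    · rintro ⟨a, b⟩ _; rfl
    · rintro ⟨a, b⟩ _; rfl
    · rintro ⟨a, b⟩ _; exact hf a b
  have h3 : Disjoint ((Finset.univ : Finset (Fin N × Fin N)).filter (fun p => p.1 < p.2))
      ((Finset.univ : Finset (Fin N × Fin N)).filter (fun p => p.2 < p.1)) := by
    rw [Finset.disjoint_left]
    rintro ⟨a, b⟩ h h'
    simp only [Finset.mem_filter, Finset.mem_univ, true_and] at h h'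
    exact lt_asymm h h'
  rw [two_mul]
  nth_rewrite 2 [h1]
  rw [← Finset.sum_union h3, ← Finset.filter_or, ← Finset.sum_filter]
  refine Finset.sum_congr ?_ fun _ _ => rfl
  ext ⟨a, b⟩
  simp only [Finset.mem_filter, Finset.mem_univ, true_and]
  exact lt_or_lt_iff_ne

theorem sum_pairs_perm (f : Fin N → Fin N → ℝ) (hf : ∀ i j, f i j = f j i)
    (σ : Equiv.Perm (Fin N)) :
    ∑ p : Fin N × Fin N with p.1 < p.2, f (σ p.1) (σ p.2) =
      ∑ p : Fin N × Fin N with p.1 < p.2, f p.1 p.2 := by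
  have h1 := two_sum_pairs f hf
  have h2 := two_sum_pairs (fun i j => f (σ i) (σ j)) (fun i j => hf _ _)
  have h3 : (∑ p : Fin N × Fin N, if p.1 ≠ p.2 then f (σ p.1) (σ p.2) else 0) =
      ∑ p : Fin N × Fin N, if p.1 ≠ p.2 then f p.1 p.2 else 0 := by
    rw [← Equiv.sum_comp (Equiv.prodCongr σ σ)
      (fun p : Fin N × Fin N => if p.1 ≠ p.2 then f p.1 p.2 else 0)]
    refine Finset.sum_congr rfl fun p _ => ?_
    simp only [Equiv.prodCongr_apply, Prod.map_fst, Prod.map_snd, ne_eq, σ.injective.eq_iff]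
  rw [h3] at h2
  linarith

theorem pexR_symm {i j : Fin N} (x : Conf N Q → ℝ) (m : Conf N Q) :
    pexR i j x m = pexR j i x m := by
  rcases eq_or_ne i j with rfl | h
  · rfl
  unfold pexR
  have h1 : ∀ a b : Fin (Q + 1), pr j i m a b = pr i j m b a := by
    intro a b
    unfold pr
    exact Function.update_comm h.symm _ _ _
  have h2 : ∑ p ∈ prs Q ((m j : ℕ) + m i), vv Q p.1 p.2 * x (pr j i m p.1 p.2) =
      -∑ p ∈ prs Q ((m i : ℕ) + m j), vv Q p.1 p.2 * x (pr i j m p.1 p.2) := by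
    rw [← Finset.sum_neg_distrib]
    refine Finset.sum_bij' (fun p _ => p.swap) (fun p _ => p.swap) ?_ ?_ ?_ ?_ ?_
    · rintro ⟨a, b⟩ hp
      rw [mem_prs] at hp ⊢
      simp only [Prod.fst_swap, Prod.snd_swap] at hp ⊢
      omega
    · rintro ⟨a, b⟩ hp
      rw [mem_prs] at hp ⊢
      simp only [Prod.fst_swap, Prod.snd_swap] at hp ⊢
      omega
    · rintro ⟨a, b⟩ _; rfl
    · rintro ⟨a, b⟩ _; rfl
    · rintro ⟨a, b⟩ _
      simp only [Prod.fst_swap, Prod.snd_swap]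
      rw [h1, vv_swap]
      ring
  rw [h2, vv_swap (m j : ℕ) (m i : ℕ), Nat.add_comm (m j : ℕ) (m i : ℕ)]
  ring

theorem RA.hamR {x : Conf N Q → ℝ} (hx : RA x) : RA (hamR x) := by
  intro σ m
  unfold Vale.Agent.P359.hamR
  simp only [pexR_comp hx]
  rw [← Finset.mul_sum]
  congr 1
  exact sum_pairs_perm (fun i j => pexR i j x m) (fun i j => pexR_symm x m) σ

end Vale.Agent.P359
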