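import Vale.Agent.P359.Data

/-!
# P359: the planar limit `Q → ∞` along an ultrafilter
-/

namespace Vale.Agent.P359

open Finset Filter Topology

namespace Lim

/-- limits along an ultrafilter -/
lemma exists_lim {ι : Type*} (f : ℕ → ι → ℝ) (B : ι → ℝ) (h : ∀ n i, |f n i| ≤ B i) :
    ∃ g : ι → ℝ, ∀ i, Tendsto (fun n => f n i) (hyperfilter ℕ : Filter ℕ) (𝓝 (g i)) := by
  have key : ∀ i, ∃ x : ℝ, Tendsto (fun n => f n i) (hyperfilter ℕ : Filter ℕ) (𝓝 x) := by
    intro i
    have hc : IsCompact (Set.Icc (-(B i)) (B i)) := isCompact_Icc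
    have hm : ((hyperfilter ℕ).map fun n => f n i : Ultrafilter ℝ) ≤ 𝓟 (Set.Icc (-(B i)) (B i)) := by
      rw [le_principal_iff, Ultrafilter.mem_coe, Ultrafilter.mem_map]
      refine Filter.univ_mem' fun n => ?_
      exact abs_le.1 (h n i)
    obtain ⟨x, -, hx⟩ := hc.ultrafilter_le_nhds _ hm
    exact ⟨x, hx⟩
  choose g hg using key
  exact ⟨g, hg⟩

lemma tendsto_LS {p : ℕ → ℕ → ℕ → ℕ → ℕ → ℝ} {P : ℕ → ℕ → ℕ → ℕ → ℝ} {F : Filter ℕ}
    (h : ∀ K m K' m', Tendsto (fun n => p n K m K' m') F (𝓝 (P K m K' m'))) :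
    ∀ l : List (ℕ × ℕ × ℕ × ℕ × ℤ),
      Tendsto (fun n => LS l (p n)) F (𝓝 (LS l P))
  | [] => by simpa [LS] using tendsto_const_nhds
  | e :: es => by
      have ih := tendsto_LS h es
      simp only [LS, List.map_cons, List.sum_cons] at ih ⊢
      exact ((h _ _ _ _).const_mul _).add ih

lemma tendsto_ratio (i : ℕ) : Tendsto (fun Q : ℕ => (Q : ℝ) / (2 * (Q : ℝ) - 2 - i)) atTop
    (𝓝 (1 / 2)) := by
  have h1 : Tendsto (fun Q : ℕ => 2 - (2 + (i : ℝ)) / (Q : ℝ)) atTop (𝓝 (2 - 0)) :=
    tendsto_const_nhds.sub (tendsto_const_nhds.div_atTop tendsto_natCast_atTop_atTop)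
  rw [sub_zero] at h1
  have h2 := h1.inv₀ (by norm_num : (2 : ℝ) ≠ 0)
  rw [one_div]
  refine h2.congr' ?_
  filter_upwards [eventually_gt_atTop (i + 2)] with Q hQ
  have hQ' : ((i : ℝ) + 2) < Q := by exact_mod_cast hQ
  have h0 : (Q : ℝ) ≠ 0 := by
    have : (0 : ℝ) ≤ i := by positivity
    linarith
  have h3 : 2 * (Q : ℝ) - 2 - i ≠ 0 := by
    have : (0 : ℝ) ≤ i := by positivity
    linarith
  have h4 : 2 - (2 + (i : ℝ)) / Q = (2 * (Q : ℝ) - 2 - i) / Q := by
    field_simp; ring
  rw [h4, inv_div]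

lemma choose_prod {Q K : ℕ} (h : K + 2 ≤ Q) : ((2 * Q - 2).choose K : ℝ) * (K.factorial : ℝ)
    = ∏ i ∈ range K, (2 * (Q : ℝ) - 2 - i) := by
  have h1 : ((2 * Q - 2).choose K : ℝ) * (K.factorial : ℝ)
      = (((2 * Q - 2).descFactorial K : ℕ) : ℝ) := by
    rw [Nat.descFactorial_eq_factorial_mul_choose]; push_cast; ring
  rw [h1, Nat.descFactorial_eq_prod_range]
  push_cast
  refine Finset.prod_congr rfl fun i hi => ?_
  have hi' := Finset.mem_range.mp hi
  rw [Nat.cast_sub (by omega), Nat.cast_sub (by omega)]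
  push_cast; ring

lemma tendsto_ew (K : ℕ) : Tendsto (fun Q : ℕ => ew Q K) atTop (𝓝 (ewp K)) := by
  have h1 : Tendsto (fun Q : ℕ => (K.factorial : ℝ) * ∏ i ∈ range K,
      (Q : ℝ) / (2 * (Q : ℝ) - 2 - i)) atTop (𝓝 ((K.factorial : ℝ) * ∏ _i ∈ range K, (1 / 2 : ℝ))) :=
    (tendsto_finsetProd _ fun i _ => tendsto_ratio i).const_mul _
  have h2 : (K.factorial : ℝ) * ∏ _i ∈ range K, (1 / 2 : ℝ) = ewp K := by
    rw [Finset.prod_const, Finset.card_range, one_div, inv_pow, ewp, div_eq_mul_inv]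
  rw [h2] at h1
  refine h1.congr' ?_
  filter_upwards [eventually_ge_atTop (K + 2)] with Q hQ
  have hc := choose_prod hQ
  have hcp : (0 : ℝ) < ((2 * Q - 2).choose K : ℝ) := by
    have : 0 < (2 * Q - 2).choose K := Nat.choose_pos (by omega)
    exact_mod_cast this
  have hf : (0 : ℝ) < (K.factorial : ℝ) := by positivity
  rw [Finset.prod_div_distrib, Finset.prod_const, Finset.card_range, ← hc, ew]
  field_simp

lemma ewp_pos (K : ℕ) : 0 < ewp K := by unfold ewp; positivity

end Lim

open Lim in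
/-- **The limit theorem.** -/
theorem limit (C₀ gam : ℝ)
    (h : ∀ k : ℕ, ∃ Q : ℕ, k ≤ Q ∧ ∃ (lam : ℝ) (p q : ℕ → ℕ → ℕ → ℕ → ℝ),
      0 < lam ∧ lam < gam ∧ Dat C₀ Q lam p q) :
    ∃ (lam : ℝ) (p q : ℕ → ℕ → ℕ → ℕ → ℝ), lam ≤ gam ∧ PDat lam p q := by
  choose Qs hQs lams ps qs _ hlam hD using h
  -- limits
  obtain ⟨P', hP'⟩ := exists_lim (fun n (i : ℕ × ℕ × ℕ × ℕ) => ps n i.1 i.2.1 i.2.2.1 i.2.2.2)
    (fun i => Bd i.1 i.2.1 i.2.2.1 i.2.2.2) (fun n i => (hD n).bdp _ _ _ _)
  obtain ⟨R', hR'⟩ := exists_lim (fun n (i : ℕ × ℕ × ℕ × ℕ) => qs n i.1 i.2.1 i.2.2.1 i.2.2.2)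
    (fun i => Bd i.1 i.2.1 i.2.2.1 i.2.2.2) (fun n i => (hD n).bdq _ _ _ _)
  obtain ⟨P, hPd⟩ : ∃ P : ℕ → ℕ → ℕ → ℕ → ℝ, P = fun K m K' m' => P' (K, m, K', m') := ⟨_, rfl⟩
  obtain ⟨R, hRd⟩ : ∃ R : ℕ → ℕ → ℕ → ℕ → ℝ, R = fun K m K' m' => R' (K, m, K', m') := ⟨_, rfl⟩
  have hP : ∀ K m K' m', Tendsto (fun n => ps n K m K' m') (hyperfilter ℕ : Filter ℕ)
      (𝓝 (P K m K' m')) := by
    intro K m K' m'
    rw [hPd]; exact hP' (K, m, K', m')
  have hR : ∀ K m K' m', Tendsto (fun n => qs n K m K' m') (hyperfilter ℕ : Filter ℕ)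
      (𝓝 (R K m K' m')) := by
    intro K m K' m'
    rw [hRd]; exact hR' (K, m, K', m')
  have hle : (hyperfilter ℕ : Filter ℕ) ≤ atTop := by
    rw [← Nat.cofinite_eq_atTop]; exact hyperfilter_le_cofinite
  have hQt : Tendsto Qs (hyperfilter ℕ : Filter ℕ) atTop :=
    (tendsto_atTop_mono hQs tendsto_id).mono_left hle
  have hQr : Tendsto (fun n => (Qs n : ℝ)) (hyperfilter ℕ : Filter ℕ) atTop :=
    tendsto_natCast_atTop_atTop.comp hQt
  have hdiv : ∀ c : ℝ, Tendsto (fun n => c / (Qs n : ℝ)) (hyperfilter ℕ : Filter ℕ) (𝓝 0) :=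
    fun c => tendsto_const_nhds.div_atTop hQr
  have hsub : ∀ a c : ℝ, Tendsto (fun n => a - c / (Qs n : ℝ)) (hyperfilter ℕ : Filter ℕ) (𝓝 a) := by
    intro a c
    have := (tendsto_const_nhds (x := a)).sub (hdiv c)
    rwa [sub_zero] at this
  refine ⟨gam, P, R, le_rfl, ?_⟩
  exact
    { symp := fun K m K' m' => tendsto_nhds_unique (hP K m K' m')
        ((hP K' m' K m).congr fun k => ((hD k).symp K m K' m').symm)
      symq := fun K m K' m' => tendsto_nhds_unique (hR K m K' m')
        ((hR K' m' K m).congr fun k => ((hD k).symq K m K' m').symm)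
      offp := fun K m K' m' hne => tendsto_nhds_unique (hP K m K' m')
        (tendsto_const_nhds.congr fun k => ((hD k).offp K m K' m' hne).symm)
      offq := fun K m K' m' hne => tendsto_nhds_unique (hR K m K' m')
        (tendsto_const_nhds.congr fun k => ((hD k).offq K m K' m' hne).symm)
      recp := by
        intro K m K' m' hJ
        refine tendsto_nhds_unique (f := fun n =>
          (if K = 0 then 0 else (2 - (1 + (K : ℝ)) / (Qs n : ℝ)) * ps n (K - 1) m K' m')
          + (if m = 0 then 0 else (1 - ((m : ℝ) - 1) / (Qs n : ℝ)) * ps n K (m - 1) K' m'))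
          (l := (hyperfilter ℕ : Filter ℕ)) ?_ ?_
        · refine Tendsto.add ?_ ?_
          · by_cases h : K = 0
            · simp [h]
            · simp only [h, if_false]
              exact (hsub 2 _).mul (hP _ _ _ _)
          · by_cases h : m = 0
            · simp [h]
            · simp only [h, if_false]
              exact (hsub 1 _).mul (hP _ _ _ _)
        · have := ((hP K m (K' + 1) m').const_mul ((K' : ℝ) + 1)).add
            ((hP K m K' (m' + 1)).const_mul ((m' : ℝ) + 1))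
          refine this.congr fun n => ?_
          exact ((hD n).recp K m K' m' hJ).symm
      recq := by
        intro K m K' m' hJ
        refine tendsto_nhds_unique (f := fun n =>
          (if K = 0 then 0 else (2 - (1 + (K : ℝ)) / (Qs n : ℝ)) * qs n (K - 1) m K' m')
          + (if m = 0 then 0 else (2 - (1 + (m : ℝ)) / (Qs n : ℝ)) * qs n K (m - 1) K' m'))
          (l := (hyperfilter ℕ : Filter ℕ)) ?_ ?_
        · refine Tendsto.add ?_ ?_
          · by_cases h : K = 0
            · simp [h]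
            · simp only [h, if_false]
              exact (hsub 2 _).mul (hR _ _ _ _)
          · by_cases h : m = 0
            · simp [h]
            · simp only [h, if_false]
              exact (hsub 2 _).mul (hR _ _ _ _)
        · have := ((hR K m (K' + 1) m').const_mul ((K' : ℝ) + 1)).add
            ((hR K m K' (m' + 1)).const_mul ((m' : ℝ) + 1))
          refine this.congr fun n => ?_
          exact ((hD n).recq K m K' m' hJ).symm
      psdp := fun n y => ge_of_tendsto' (tendsto_finsetSum _ fun i _ => tendsto_finsetSum _ fun j _ =>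
        (hP i (n - i) j (n - j)).const_mul (y i * y j)) fun k => (hD k).psdp n y
      psdq := fun n y => ge_of_tendsto' (tendsto_finsetSum _ fun i _ => tendsto_finsetSum _ fun j _ =>
        (hR i (n - i) j (n - j)).const_mul (y i * y j)) fun k => (hD k).psdq n y
      vanp := fun n hn => tendsto_nhds_unique
        (tendsto_finsetSum (range (n + 1)) fun i _ => tendsto_finsetSum (range (n + 1)) fun j _ =>
          (hP i (n - i) j (n - j)).const_mul ((-2) ^ (n - i) * (-2) ^ (n - j)))
        (tendsto_const_nhds.congr fun k => ((hD k).vanp n hn).symm)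
      vanq := fun n hn => tendsto_nhds_unique
        (tendsto_finsetSum (range (n + 1)) fun i _ => tendsto_finsetSum (range (n + 1)) fun j _ =>
          (hR i (n - i) j (n - j)).const_mul ((-1) ^ (n - i) * (-1) ^ (n - j)))
        (tendsto_const_nhds.congr fun k => ((hD k).vanq n hn).symm)
      pauli := fun m => le_of_tendsto' ((hP 0 m 0 m).const_mul (m.factorial : ℝ))
        fun k => (hD k).pauli m
      energy := by
        have h1 : Tendsto (fun n => 1 + EN (ew (Qs n)) (ps n) (qs n) - 1 / 10 ^ 6)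
            (hyperfilter ℕ : Filter ℕ) (𝓝 (1 + EN ewp P R - 1 / 10 ^ 6)) := by
          refine Tendsto.sub_const (Tendsto.const_add _ ?_) _
          unfold EN
          refine tendsto_finsetSum _ fun K _ => ?_
          refine Tendsto.mul ?_ ?_
          · exact (tendsto_ew K).comp hQt
          · exact (((hP _ _ _ _).const_mul _).sub ((hP _ _ _ _).const_mul _)).add (hR _ _ _ _)
        refine le_of_tendsto' h1 fun k => ?_
        exact (hD k).energy.trans (hlam k).le
      wind := by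
        have h0 : Tendsto (fun n => XS (fun K => ewp K / ew (Qs n) K))
            (hyperfilter ℕ : Filter ℕ) (𝓝 (XS (fun _ => 1))) := by
          unfold XS
          refine tendsto_finsetSum _ fun K _ => Tendsto.const_mul _ ?_
          have := (tendsto_const_nhds (x := ewp K)).div ((tendsto_ew K).comp hQt) (ewp_pos K).ne'
          rwa [div_self (ewp_pos K).ne'] at this
        have h1 := (h0.add (tendsto_LS hP certR)).add (tendsto_LS hR certQ)
        have h2 : Tendsto (fun n => -(C₀ / (Qs n : ℝ))) (hyperfilter ℕ : Filter ℕ) (𝓝 0) := by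
          have := (hdiv C₀).neg
          rwa [neg_zero] at this
        exact le_of_tendsto_of_tendsto' h2 h1 fun k => (hD k).wind }

end Vale.Agent.P359
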