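import Vale.Agent.P359.PlanarNum
import Vale.Agent.P359.Heis

/-!
# P359: the planar inequality
-/

namespace Vale.Agent.P359.Pl

open Finset

/-! ### lists -/

lemma mulAux_getD_zero (a c prev : ℚ) (l : List ℚ) :
    (mulAux a c prev l).getD 0 0 = a * l.getD 0 0 + c * prev := by
  cases l <;> simp [mulAux]

lemma mulAux_getD_succ (a c : ℚ) : ∀ (l : List ℚ) (prev : ℚ) (n : ℕ),
    (mulAux a c prev l).getD (n + 1) 0 = a * l.getD (n + 1) 0 + c * l.getD n 0
  | [], prev, n => by simp [mulAux]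
  | x :: xs, prev, 0 => by
      rw [mulAux, List.getD_cons_succ, mulAux_getD_zero]
      simp
  | x :: xs, prev, n + 1 => by
      rw [mulAux, List.getD_cons_succ, mulAux_getD_succ a c xs x n]
      simp

lemma mulAux_length (a c : ℚ) : ∀ (l : List ℚ) (prev : ℚ),
    (mulAux a c prev l).length = l.length + 1
  | [], prev => by simp [mulAux]
  | x :: xs, prev => by simp [mulAux, mulAux_length a c xs x]

lemma powL_getD (a b : ℚ) : ∀ m n : ℕ, (powL b m).getD n 0 = Heis.kap a b 0 m n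
  | 0, 0 => by simp [powL, Heis.kap]
  | 0, n + 1 => by simp [powL, Heis.kap]
  | m + 1, 0 => by
      rw [powL, mulAux_getD_zero, powL_getD a b m 0, Heis.kap]; ring
  | m + 1, n + 1 => by
      rw [powL, mulAux_getD_succ, powL_getD a b m (n + 1), powL_getD a b m n, Heis.kap]; ring

lemma kapL_getD (a b : ℚ) (m : ℕ) : ∀ K n : ℕ, (kapL a b m K).getD n 0 = Heis.kap a b K m n
  | 0, n => by rw [kapL, powL_getD a b m n]
  | K + 1, 0 => by
      rw [kapL, mulAux_getD_zero, kapL_getD a b m K 0, Heis.kap]; ring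
  | K + 1, n + 1 => by
      rw [kapL, mulAux_getD_succ, kapL_getD a b m K (n + 1), kapL_getD a b m K n, Heis.kap]; ring

lemma powL_length (b : ℚ) : ∀ m : ℕ, (powL b m).length = m + 1
  | 0 => by simp [powL]
  | m + 1 => by rw [powL, mulAux_length, powL_length b m]

lemma kapL_length (a b : ℚ) (m : ℕ) : ∀ K : ℕ, (kapL a b m K).length = K + m + 1
  | 0 => by rw [kapL, powL_length]; omega
  | K + 1 => by rw [kapL, mulAux_length, kapL_length a b m K]; omega

/-- the value of a list of coefficients -/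
noncomputable def evA (ρ : ℕ → ℝ) : List ℚ → ℕ → ℝ
  | [], _ => 0
  | x :: xs, n => (x : ℝ) * ρ n + evA ρ xs (n + 1)

lemma evA_addL (ρ : ℕ → ℝ) : ∀ (l m : List ℚ) (n : ℕ),
    evA ρ (addL l m) n = evA ρ l n + evA ρ m n
  | [], m, n => by simp [addL, evA]
  | x :: xs, [], n => by simp [addL, evA]
  | x :: xs, y :: ys, n => by
      rw [addL, evA, evA, evA, evA_addL ρ xs ys (n + 1)]
      push_cast; ring

lemma evA_entAux (ρ : ℕ → ℝ) (ab c : ℚ) (J : ℕ) : ∀ (l m : List ℚ) (n : ℕ),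
    l.length = m.length →
    evA ρ (entAux ab c J l m n) n = ∑ i ∈ range l.length,
      ((c * (ab ^ (n + i) * ((n + i).factorial : ℚ) * ((J - (n + i)).factorial : ℚ)) *
        (l.getD i 0 * m.getD i 0) : ℚ) : ℝ) * ρ (n + i)
  | [], m, n, _ => by cases m <;> simp [entAux, evA]
  | x :: xs, [], n, h => by simp at h
  | x :: xs, y :: ys, n, h => by
      rw [entAux, evA, evA_entAux ρ ab c J xs ys (n + 1) (by simpa using h), List.length_cons,
        Finset.sum_range_succ', add_comm]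
      congr 1
      refine Finset.sum_congr rfl fun i _ => ?_
      rw [List.getD_cons_succ, List.getD_cons_succ, show n + 1 + i = n + (i + 1) by omega]

lemma chk_le (ρ : ℕ → ℝ) (ex : ℕ → Bool) (h0 : ∀ n, ex n = true → ρ n = 0)
    (hn : ∀ n, 0 ≤ ρ n) : ∀ (l : List ℚ) (n : ℕ), chk ex l n = true → evA ρ l n ≤ 0
  | [], n, _ => by simp [evA]
  | x :: xs, n, h => by
      rw [chk, Bool.and_eq_true, Bool.or_eq_true, decide_eq_true_iff] at h
      rw [evA]
      have h2 := chk_le ρ ex h0 hn xs (n + 1) h.2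
      rcases h.1 with h1 | h1
      · rw [h0 n h1]; linarith
      · have : (x : ℝ) ≤ 0 := by exact_mod_cast h1
        have := mul_nonpos_of_nonpos_of_nonneg this (hn n)
        linarith

/-! ### arrays -/

section
variable {a b : ℚ} (ha : 0 < a) (hb : 0 < b) {p : ℕ → ℕ → ℕ → ℕ → ℝ}
  (hs : ∀ K m K' m', p K m K' m' = p K' m' K m) (hr : Heis.Rec (a : ℝ) (b : ℝ) p)

include ha hb hs hr

lemma ev_ent (c : ℚ) (K m K' m' : ℕ) (hJ : K + m = K' + m') :
    evA (Heis.rho (a : ℝ) (b : ℝ) p) (ent a b c K m K' m') 0 = (c : ℝ) * p K m K' m' := by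
  have ha' : (0 : ℝ) < (a : ℝ) := by exact_mod_cast ha
  have hb' : (0 : ℝ) < (b : ℝ) := by exact_mod_cast hb
  rw [Heis.arr_formula (a : ℝ) (b : ℝ) p ha' hb' hs hr K m K' m' hJ, ent, evA_entAux]
  · rw [kapL_length, Finset.mul_sum, Finset.mul_sum]
    refine Finset.sum_congr rfl fun n _ => ?_
    rw [kapL_getD, kapL_getD, zero_add]
    have e1 : ((Heis.kap a b K m n : ℚ) : ℝ) = Heis.kap (a : ℝ) (b : ℝ) K m n := by
      have := Heis.map_kap (Rat.castHom ℝ) a b K m n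
      simpa using this
    have e2 : ((Heis.kap a b K' m' n : ℚ) : ℝ) = Heis.kap (a : ℝ) (b : ℝ) K' m' n := by
      have := Heis.map_kap (Rat.castHom ℝ) a b K' m' n
      simpa using this
    rw [← e1, ← e2]
    have h1 : ((a : ℝ) + b) ^ (K + m) ≠ 0 := by positivity
    push_cast
    have hF : (Nat.factorial K : ℝ) * (Nat.factorial m : ℝ) * (Nat.factorial K' : ℝ) *
          (Nat.factorial m' : ℝ) ≠ 0 := by positivity
    field_simp
  · rw [kapL_length, kapL_length, hJ]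

/-- the value of a list of entries -/
noncomputable def valE (p : ℕ → ℕ → ℕ → ℕ → ℝ) : List (ℕ × ℕ × ℕ × ℕ × ℤ) → ℝ
  | [] => 0
  | e :: es => (mlt e : ℝ) * p e.1 e.2.1 e.2.2.1 e.2.2.2.1 + valE p es

lemma ev_sumE : ∀ l : List (ℕ × ℕ × ℕ × ℕ × ℤ),
    (∀ e ∈ l, e.1 + e.2.1 = e.2.2.1 + e.2.2.2.1) →
    evA (Heis.rho (a : ℝ) (b : ℝ) p) (sumE a b l) 0 = valE p l
  | [], _ => by simp [sumE, evA, valE]
  | e :: es, h => by
      rw [sumE, evA_addL, valE, ev_ent ha hb hs hr _ _ _ _ _ (h e (by simp)),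
        ev_sumE es fun e' he' => h e' (by simp [he'])]

end

lemma ev_enP {p : ℕ → ℕ → ℕ → ℕ → ℝ} (hs : ∀ K m K' m', p K m K' m' = p K' m' K m)
    (hr : Heis.Rec 2 1 p) : ∀ n : ℕ, evA (Heis.rho 2 1 p) (enP n) 0 =
      -∑ K ∈ range n, ((K + 1).factorial : ℝ) / 2 ^ (K + 1) *
        ((K : ℝ) * p 0 (K + 1) (K + 1) 0 - ((K : ℝ) + 2) * p 0 (K + 2) (K + 1) 1)
  | 0 => by simp [enP, evA]
  | K + 1 => by
      have hr' : Heis.Rec ((2 : ℚ) : ℝ) ((1 : ℚ) : ℝ) p := by simpa using hr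
      have key := fun c K m K' m' hJ => ev_ent (a := 2) (b := 1) (by norm_num) (by norm_num) hs hr'
        c K m K' m' hJ
      simp only [Rat.cast_ofNat, Rat.cast_one] at key
      rw [enP, evA_addL, evA_addL, ev_enP hs hr K, key _ _ _ _ _ (by omega),
        key _ _ _ _ _ (by omega), Finset.sum_range_succ]
      push_cast
      ring

lemma ev_enQ {q : ℕ → ℕ → ℕ → ℕ → ℝ} (hs : ∀ K m K' m', q K m K' m' = q K' m' K m)
    (hr : Heis.Rec 2 2 q) : ∀ n : ℕ, evA (Heis.rho 2 2 q) (enQ n) 0 =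
      -∑ K ∈ range n, ((K + 1).factorial : ℝ) / 2 ^ (K + 1) * q 0 (K + 1) 0 (K + 1)
  | 0 => by simp [enQ, evA]
  | K + 1 => by
      have hr' : Heis.Rec ((2 : ℚ) : ℝ) ((2 : ℚ) : ℝ) q := by simpa using hr
      have key := fun c K m K' m' hJ => ev_ent (a := 2) (b := 2) (by norm_num) (by norm_num) hs hr'
        c K m K' m' hJ
      simp only [Rat.cast_ofNat] at key
      rw [enQ, evA_addL, ev_enQ hs hr K, key _ _ _ _ _ (by omega), Finset.sum_range_succ]
      push_cast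
      ring

/-- the total of the multipliers -/
def muT : List (ℕ × ℚ) → ℚ
  | [] => 0
  | e :: es => e.2 + muT es

lemma ev_muE {p : ℕ → ℕ → ℕ → ℕ → ℝ} (hs : ∀ K m K' m', p K m K' m' = p K' m' K m)
    (hr : Heis.Rec 2 1 p) (hP : ∀ m : ℕ, (m.factorial : ℝ) * p 0 m 0 m ≤ 1) :
    ∀ l : List (ℕ × ℚ), (∀ e ∈ l, 0 ≤ e.2) →
      -(muT l : ℝ) ≤ evA (Heis.rho 2 1 p) (muE l) 0
  | [], _ => by simp [muE, evA, muT]
  | e :: es, h => by
      have hr' : Heis.Rec ((2 : ℚ) : ℝ) ((1 : ℚ) : ℝ) p := by simpa using hr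
      have key := fun c K m K' m' hJ => ev_ent (a := 2) (b := 1) (by norm_num) (by norm_num) hs hr'
        c K m K' m' hJ
      simp only [Rat.cast_ofNat, Rat.cast_one] at key
      have ih := ev_muE hs hr hP es fun e' he' => h e' (by simp [he'])
      rw [muE, evA_addL, key _ _ _ _ _ rfl, muT]
      have h1 := hP e.1
      have h2 : (0 : ℝ) ≤ (e.2 : ℝ) := by exact_mod_cast h e (by simp)
      push_cast
      nlinarith

/-- **The planar inequality.** -/
theorem planar {lam : ℝ} {p q : ℕ → ℕ → ℕ → ℕ → ℝ}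
    (hps : ∀ K m K' m', p K m K' m' = p K' m' K m) (hpr : Heis.Rec 2 1 p)
    (hpp : ∀ n, 0 ≤ Heis.rho 2 1 p n) (hp0 : ∀ n, exP n = true → Heis.rho 2 1 p n = 0)
    (hqs : ∀ K m K' m', q K m K' m' = q K' m' K m) (hqr : Heis.Rec 2 2 q)
    (hqp : ∀ n, 0 ≤ Heis.rho 2 2 q n) (hq0 : ∀ n, exQ n = true → Heis.rho 2 2 q n = 0)
    (hP : ∀ m : ℕ, (m.factorial : ℝ) * p 0 m 0 m ≤ 1)
    (hwin : 0 ≤ 951988 / 1000000 + valE p certR + valE q certQ)
    (hen : 1 + ∑ K ∈ range 60, ((K + 1).factorial : ℝ) / 2 ^ (K + 1) *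
        (q 0 (K + 1) 0 (K + 1) + (K : ℝ) * p 0 (K + 1) (K + 1) 0
          - ((K : ℝ) + 2) * p 0 (K + 2) (K + 1) 1) - 1 / 10 ^ 6 ≤ lam) :
    0.0439 ≤ lam := by
  have hpr' : Heis.Rec ((2 : ℚ) : ℝ) ((1 : ℚ) : ℝ) p := by simpa using hpr
  have hqr' : Heis.Rec ((2 : ℚ) : ℝ) ((2 : ℚ) : ℝ) q := by simpa using hqr
  have hR : ∀ e ∈ certR, e.1 + e.2.1 = e.2.2.1 + e.2.2.2.1 := by decide +kernel
  have hQ : ∀ e ∈ certQ, e.1 + e.2.1 = e.2.2.1 + e.2.2.2.1 := by decide +kernel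
  have e1 := ev_sumE (a := 2) (b := 1) (by norm_num) (by norm_num) hps hpr' certR hR
  have e2 := ev_sumE (a := 2) (b := 2) (by norm_num) (by norm_num) hqs hqr' certQ hQ
  simp only [Rat.cast_ofNat, Rat.cast_one] at e1 e2
  have e3 := ev_enP hps hpr 60
  have e4 := ev_enQ hqs hqr 60
  have e5 := ev_muE hps hpr hP muL (by decide +kernel)
  have c1 := chk_le (Heis.rho 2 1 p) exP hp0 hpp _ 0 chkP_ok
  have c2 := chk_le (Heis.rho 2 2 q) exQ hq0 hqp _ 0 chkQ_ok
  rw [evA_addL, evA_addL, e1, e3] at c1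
  rw [evA_addL, e2, e4] at c2
  have hmu : (muT muL : ℝ) ≤ 4099 / 1000000 := by
    have h1 : muT muL ≤ 4099 / 1000000 := by decide +kernel
    have h2 : ((muT muL : ℚ) : ℝ) ≤ ((4099 / 1000000 : ℚ) : ℝ) := Rat.cast_le.2 h1
    have h3 : ((4099 / 1000000 : ℚ) : ℝ) = 4099 / 1000000 := by push_cast; rfl
    rwa [h3] at h2
  have hsum : ∑ K ∈ range 60, ((K + 1).factorial : ℝ) / 2 ^ (K + 1) *
        (q 0 (K + 1) 0 (K + 1) + (K : ℝ) * p 0 (K + 1) (K + 1) 0
          - ((K : ℝ) + 2) * p 0 (K + 2) (K + 1) 1)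
      = ∑ K ∈ range 60, ((K + 1).factorial : ℝ) / 2 ^ (K + 1) *
        ((K : ℝ) * p 0 (K + 1) (K + 1) 0 - ((K : ℝ) + 2) * p 0 (K + 2) (K + 1) 1)
        + ∑ K ∈ range 60, ((K + 1).factorial : ℝ) / 2 ^ (K + 1) * q 0 (K + 1) 0 (K + 1) := by
    rw [← Finset.sum_add_distrib]
    refine Finset.sum_congr rfl fun K _ => ?_
    ring
  rw [hsum] at hen
  linarith


end Vale.Agent.P359.Pl
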