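import Vale.Agent.P359.Data
import Vale.Agent.P359.Planar

/-! (owner helper1) the planar bound for `PDat` -/

namespace Vale.Agent.P359

open Finset

theorem LS_eq_valE (f : ℕ → ℕ → ℕ → ℕ → ℝ) : ∀ L : List (ℕ × ℕ × ℕ × ℕ × ℤ),
    LS L f = Pl.valE f L
  | [] => by simp [LS, Pl.valE]
  | t :: L => by
      have ih := LS_eq_valE f L
      unfold LS at ih ⊢
      rw [List.map_cons, List.sum_cons, ih, Pl.valE, Pl.mlt]
      by_cases h : t.1 = t.2.2.1 ∧ t.2.1 = t.2.2.2.1
      · simp only [h, and_self, if_true]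
        push_cast
        ring
      · simp only [if_neg h]
        push_cast
        ring

theorem XS_one : XS (fun _ => 1) = 951988 / 1000000 := by
  unfold XS
  simp [Finset.sum_range_succ, certX]
  norm_num

theorem planarD {lam : ℝ} {p q : ℕ → ℕ → ℕ → ℕ → ℝ} (h : PDat lam p q) : 1 / 25 ≤ lam := by
  have hp0 : ∀ n, (n = 0 ∨ n = 1 ∨ n = 3) → Heis.rho 2 1 p n = 0 := by
    intro n hn
    have h1 := h.vanp n hn
    unfold Heis.rho
    simp only [one_pow, one_mul]
    rw [h1]; simp
  have hq0 : ∀ n, (Odd n ∨ n = 0 ∨ n = 2) → Heis.rho 2 2 q n = 0 := by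
    intro n hn
    have h1 := h.vanq n hn
    unfold Heis.rho
    have e : ∀ i ∈ range (n + 1), ∀ j ∈ range (n + 1),
        ((2 : ℝ) ^ i * (-2) ^ (n - i)) * (2 ^ j * (-2) ^ (n - j)) * q i (n - i) j (n - j)
        = 2 ^ (2 * n) * ((-1) ^ (n - i) * (-1) ^ (n - j) * q i (n - i) j (n - j)) := by
      intro i hi j hj
      have hi' : i ≤ n := by have := Finset.mem_range.mp hi; omega
      have hj' : j ≤ n := by have := Finset.mem_range.mp hj; omega
      have e1 : (-2 : ℝ) ^ (n - i) = (-1) ^ (n - i) * 2 ^ (n - i) := by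
        rw [← mul_pow]; norm_num
      have e2 : (-2 : ℝ) ^ (n - j) = (-1) ^ (n - j) * 2 ^ (n - j) := by
        rw [← mul_pow]; norm_num
      have e3 : (2 : ℝ) ^ n = 2 ^ i * 2 ^ (n - i) := by rw [← pow_add]; congr 1; omega
      have e4 : (2 : ℝ) ^ n = 2 ^ j * 2 ^ (n - j) := by rw [← pow_add]; congr 1; omega
      have e5 : (2 : ℝ) ^ (2 * n) = (2 ^ i * 2 ^ (n - i)) * (2 ^ j * 2 ^ (n - j)) := by
        rw [two_mul, pow_add, ← e3, ← e4]
      rw [e1, e2, e5]; ring
    have e' : ∑ i ∈ range (n + 1), ∑ j ∈ range (n + 1),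
        ((2 : ℝ) ^ i * (-2) ^ (n - i)) * (2 ^ j * (-2) ^ (n - j)) * q i (n - i) j (n - j) = 0 := by
      rw [Finset.sum_congr rfl fun i hi => Finset.sum_congr rfl fun j hj => e i hi j hj]
      simp only [← Finset.mul_sum]
      rw [h1, mul_zero]
    rw [e']; simp
  have hp01 : p 0 1 0 1 = 0 := by
    have := Heis.arr_formula 2 1 p (by norm_num) (by norm_num) h.symp h.recp 0 1 0 1 rfl
    rw [this]
    simp [Finset.sum_range_succ, hp0 0 (by norm_num), hp0 1 (by norm_num)]
  have hp00 : p 0 0 0 0 = 0 := by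
    have := h.vanp 0 (by norm_num)
    simpa using this
  have hq00 : q 0 0 0 0 = 0 := by
    have := h.vanq 0 (by norm_num)
    simpa using this
  have key := Pl.planar (lam := lam) h.symp h.recp
    (Heis.rho_nonneg 2 1 p (by norm_num) (by norm_num) h.psdp)
    (fun n hn => hp0 n (by simpa [Pl.exP, or_assoc] using hn))
    h.symq h.recq (Heis.rho_nonneg 2 2 q (by norm_num) (by norm_num) h.psdq)
    (fun n hn => hq0 n (by
      simp only [Pl.exQ, Bool.or_eq_true, decide_eq_true_eq, beq_iff_eq] at hn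
      rcases hn with hn | hn
      · interval_cases n
        · right; left; rfl
        · left; decide
        · right; right; rfl
        · left; decide
      · left; exact Nat.odd_iff.mpr hn))
    h.pauli
    (by
      have := h.wind
      rw [XS_one, LS_eq_valE, LS_eq_valE] at this
      exact this)
    (by
      have h1 := h.energy
      unfold EN at h1
      rw [Finset.sum_range_succ'] at h1
      have e0 : ewp 0 * ((((0 : ℕ) : ℝ) - 1) * p 0 0 0 0 - (((0 : ℕ) : ℝ) + 1) * p 0 (0 + 1) 0 1
          + q 0 0 0 0) = 0 := by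
        simp [hp01, hp00, hq00]
      rw [e0, add_zero] at h1
      refine le_trans (le_of_eq ?_) h1
      congr 2
      refine Finset.sum_congr rfl fun K _ => ?_
      unfold ewp
      push_cast
      ring)
  norm_num at key ⊢
  linarith

end Vale.Agent.P359
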