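import Vale.Agent.P359.Energy
import Vale.Agent.P359.ArrBd

/-!
# P359: the energy inequality with the tail cut off

For `50 ≤ Q` one has `choose Q K * 49^K ≤ choose (2Q-2) K * 25^K`, so that each of the two tail
terms is at most `K * (5/7)^K`; the sum over `K ≥ 61` telescopes and is less than `10^(-6)`.
-/

namespace Vale.Agent.P359

open Finset

namespace TailN

theorem choose_ratio {Q : ℕ} (hQ : 50 ≤ Q) : ∀ K : ℕ, K ≤ 2 * Q - 2 →
    (Q.choose K : ℝ) * 49 ^ K ≤ ((2 * Q - 2).choose K : ℝ) * 25 ^ K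
  | 0, _ => by simp
  | K + 1, hK => by
      have ih := choose_ratio hQ K (by omega)
      have h1 : (Q.choose (K + 1) : ℝ) * (K + 1) = (Q.choose K : ℝ) * ((Q - K : ℕ) : ℝ) := by
        exact_mod_cast Nat.choose_succ_right_eq Q K
      have h2 : ((2 * Q - 2).choose (K + 1) : ℝ) * (K + 1)
          = ((2 * Q - 2).choose K : ℝ) * ((2 * Q - 2 - K : ℕ) : ℝ) := by
        exact_mod_cast Nat.choose_succ_right_eq (2 * Q - 2) K
      have h3 : 49 * ((Q - K : ℕ) : ℝ) ≤ 25 * ((2 * Q - 2 - K : ℕ) : ℝ) := by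
        have : 49 * (Q - K) ≤ 25 * (2 * Q - 2 - K) := by omega
        exact_mod_cast this
      have hp : (0 : ℝ) < (K : ℝ) + 1 := by positivity
      refine le_of_mul_le_mul_right ?_ hp
      calc (Q.choose (K + 1) : ℝ) * 49 ^ (K + 1) * ((K : ℝ) + 1)
          = ((Q.choose K : ℝ) * 49 ^ K) * (49 * ((Q - K : ℕ) : ℝ)) := by
            rw [pow_succ]; linear_combination (49 ^ K * 49) * h1
        _ ≤ (((2 * Q - 2).choose K : ℝ) * 25 ^ K) * (25 * ((2 * Q - 2 - K : ℕ) : ℝ)) := by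
            apply mul_le_mul ih h3 (by positivity) (by positivity)
        _ = ((2 * Q - 2).choose (K + 1) : ℝ) * 25 ^ (K + 1) * ((K : ℝ) + 1) := by
            rw [pow_succ]; linear_combination (-(25 ^ K * 25)) * h2

/-- `choose Q K ≤ choose (2Q-2) K * ((5/7)^K)^2` -/
theorem choose_le {Q : ℕ} (hQ : 50 ≤ Q) {K : ℕ} (hK : K ≤ 2 * Q - 2) :
    (Q.choose K : ℝ) ≤ ((2 * Q - 2).choose K : ℝ) * ((5 / 7 : ℝ) ^ K) ^ 2 := by
  have h := choose_ratio hQ K hK
  have e : ((5 / 7 : ℝ) ^ K) ^ 2 = 25 ^ K / 49 ^ K := by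
    rw [← pow_mul, mul_comm K 2, pow_mul, ← div_pow]; norm_num
  rw [e, ← mul_div_assoc, le_div_iff₀ (by positivity)]
  exact h

theorem tail_sum : ∀ M : ℕ, 61 ≤ M → ∑ K ∈ Ico 61 M, 2 * (K : ℝ) * (5 / 7) ^ K
    = (7 * (61 : ℝ) + 35 / 2) * (5 / 7) ^ 61 - (7 * (M : ℝ) + 35 / 2) * (5 / 7) ^ M := by
  intro M hM
  induction M, hM using Nat.le_induction with
  | base => simp
  | succ M hM ih =>
      rw [Finset.sum_Ico_succ_top hM, ih, pow_succ]
      push_cast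
      ring

theorem tail_le (M : ℕ) (hM : 61 ≤ M) : ∑ K ∈ Ico 61 M, 2 * (K : ℝ) * (5 / 7) ^ K ≤ 1 / 10 ^ 6 := by
  rw [tail_sum M hM]
  have h1 : (0 : ℝ) ≤ (7 * (M : ℝ) + 35 / 2) * (5 / 7) ^ M := by positivity
  have h2 : (7 * (61 : ℝ) + 35 / 2) * (5 / 7) ^ 61 ≤ 1 / 10 ^ 6 := by norm_num
  linarith

end TailN

section
variable {Q N : ℕ} {lam : ℝ} {n : ℕ} {e : Fin n → Fk}

/-- the first tail term -/
theorem tail_one (hQ : 50 ≤ Q) (he : Fam Q (Eig Q N lam) n e)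
    (hn0 : 0 < tr Q e (bh 0) (bh 0)) {K : ℕ} (hK : K ≤ 2 * Q - 2) :
    |tr Q e (an K * bh 0) (an 0 * bh K)| ≤
      ((2 * Q - 2).choose K : ℝ) * (5 / 7) ^ K * tr Q e (bh 0) (bh 0) := by
  have hQ1 : 1 ≤ Q := by omega
  have h1 := tr_cs e (an K * bh 0) (an 0 * bh K) (Q := Q)
  have h2 := tr_an_le hQ1 he K 0
  have h3 := tr_an_le hQ1 he 0 K
  rw [Nat.choose_zero_right, Nat.cast_one, mul_one] at h2
  rw [Nat.choose_zero_right, Nat.cast_one, one_mul] at h3
  have h4 := TailN.choose_le hQ hK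
  have hC : (0 : ℝ) ≤ ((2 * Q - 2).choose K : ℝ) := by positivity
  set n0 := tr Q e (bh 0) (bh 0)
  set C : ℝ := ((2 * Q - 2).choose K : ℝ)
  have h5 : tr Q e (an K * bh 0) (an 0 * bh K) ^ 2 ≤ (C * (5 / 7) ^ K * n0) ^ 2 := by
    calc tr Q e (an K * bh 0) (an 0 * bh K) ^ 2
        ≤ tr Q e (an K * bh 0) (an K * bh 0) * tr Q e (an 0 * bh K) (an 0 * bh K) := h1
      _ ≤ ((Q.choose K : ℝ) * n0) * (C * n0) :=
          mul_le_mul h2 h3 (tr_self_nonneg e _) (by positivity)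
      _ ≤ ((C * ((5 / 7 : ℝ) ^ K) ^ 2) * n0) * (C * n0) := by gcongr
      _ = (C * (5 / 7) ^ K * n0) ^ 2 := by ring
  exact abs_le_of_sq_le_sq h5 (by positivity)

/-- the second tail term -/
theorem tail_two (hQ : 50 ≤ Q) (he : Fam Q (Eig Q N lam) n e)
    (hn0 : 0 < tr Q e (bh 0) (bh 0)) {K : ℕ} (hK : K ≤ 2 * Q - 2) :
    |tr Q e (an (K + 1) * bh 0) (an 1 * bh K)| ≤
      (Q : ℝ) * (((2 * Q - 2).choose K : ℝ) * (5 / 7) ^ K * tr Q e (bh 0) (bh 0)) := by
  have hQ1 : 1 ≤ Q := by omega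
  have h1 := tr_cs e (an (K + 1) * bh 0) (an 1 * bh K) (Q := Q)
  have h2 := tr_an_le hQ1 he (K + 1) 0
  have h3 := tr_an_le hQ1 he 1 K
  rw [Nat.choose_zero_right, Nat.cast_one, mul_one] at h2
  rw [Nat.choose_one_right] at h3
  have h4 := TailN.choose_le hQ hK
  have hc : (Q.choose (K + 1) : ℝ) ≤ (Q.choose K : ℝ) * Q := by
    have e1 : Q.choose (K + 1) * (K + 1) = Q.choose K * (Q - K) := Nat.choose_succ_right_eq Q K
    have e2 : Q.choose (K + 1) ≤ Q.choose K * Q := by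
      calc Q.choose (K + 1) ≤ Q.choose (K + 1) * (K + 1) := Nat.le_mul_of_pos_right _ (by omega)
        _ = Q.choose K * (Q - K) := e1
        _ ≤ Q.choose K * Q := Nat.mul_le_mul_left _ (by omega)
    exact_mod_cast e2
  have hC : (0 : ℝ) ≤ ((2 * Q - 2).choose K : ℝ) := by positivity
  set n0 := tr Q e (bh 0) (bh 0)
  set C : ℝ := ((2 * Q - 2).choose K : ℝ)
  have h5 : tr Q e (an (K + 1) * bh 0) (an 1 * bh K) ^ 2 ≤ (Q * (C * (5 / 7) ^ K * n0)) ^ 2 := by
    calc tr Q e (an (K + 1) * bh 0) (an 1 * bh K) ^ 2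
        ≤ tr Q e (an (K + 1) * bh 0) (an (K + 1) * bh 0) * tr Q e (an 1 * bh K) (an 1 * bh K) := h1
      _ ≤ ((Q.choose (K + 1) : ℝ) * n0) * (Q * C * n0) :=
          mul_le_mul h2 h3 (tr_self_nonneg e _) (by positivity)
      _ ≤ (((C * ((5 / 7 : ℝ) ^ K) ^ 2) * Q) * n0) * (Q * C * n0) := by
          have h6 : (Q.choose (K + 1) : ℝ) ≤ (C * ((5 / 7 : ℝ) ^ K) ^ 2) * Q :=
            hc.trans (mul_le_mul_of_nonneg_right h4 (by positivity))
          gcongr
      _ = (Q * (C * (5 / 7) ^ K * n0)) ^ 2 := by ring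
  exact abs_le_of_sq_le_sq h5 (by positivity)

end

theorem energy_dat : ∃ Q₀ : ℕ, ∀ Q ≥ Q₀, ∀ (N : ℕ) (lam : ℝ) (n : ℕ) (e : Fin n → Fk),
    Fam Q (Eig Q N lam) n e → 0 < n → 0 < lam →
      1 + EN (ew Q) (arrp Q e) (arrq Q e) - 1 / 10 ^ 6 ≤ lam := by
  refine ⟨50, fun Q hQ N lam n e he hn hlam => ?_⟩
  have hQ1 : 1 ≤ Q := by omega
  have hQr : (0 : ℝ) < Q := by exact_mod_cast hQ1
  have hn0 := tr_bh0_pos hQ1 he hn hlam
  have hen := energy_id hQ1 he
  obtain ⟨n0, hn0d⟩ : ∃ n0, n0 = tr Q e (bh 0) (bh 0) := ⟨_, rfl⟩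
  -- the normalised terms
  obtain ⟨T, hT⟩ : ∃ T : ℕ → ℝ, T = fun K => ew Q K * (((K : ℝ) - 1) * arrp Q e 0 K K 0
    - ((K : ℝ) + 1) * arrp Q e 0 (K + 1) K 1 + arrq Q e 0 K 0 K) := ⟨_, rfl⟩
  have hCpos : ∀ K, K ≤ 2 * Q - 2 → (0 : ℝ) < ((2 * Q - 2).choose K : ℝ) := by
    intro K hK
    have := Nat.choose_pos hK
    exact_mod_cast this
  have hterm : ∀ K ∈ range (2 * Q - 1), hc Q K *
      ((if K = 0 then (Q : ℝ) * tr Q e (bh 0) (bh 0) else 0)
        + (Q : ℝ) * ((K : ℝ) - 1) * tr Q e (an K * bh 0) (an 0 * bh K)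
        - ((K : ℝ) + 1) * tr Q e (an (K + 1) * bh 0) (an 1 * bh K)
        + tr Q e (bh K * bh 0) (bh K * bh 0)) = (if K = 0 then n0 else 0) + n0 * T K := by
    intro K hK
    have hK' : K ≤ 2 * Q - 2 := by have := Finset.mem_range.mp hK; omega
    have hCK := hCpos K hK'
    rw [hT]
    simp only [arrp, arrq, ew, hc, ← hn0d]
    rw [← hn0d] at hn0
    by_cases h0 : K = 0
    · subst h0
      simp only [if_true, Nat.choose_zero_right, Nat.cast_one, Nat.cast_zero, zero_add, add_zero,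
        pow_zero, pow_one, mul_one]
      field_simp
      ring
    · simp only [if_neg h0, zero_add, add_zero]
      have e1 : (Q : ℝ) ^ (K + 1) = Q ^ K * Q := pow_succ _ _
      have e2 : (Q : ℝ) ^ (1 + K) = Q ^ K * Q := by rw [add_comm, pow_succ]
      rw [e1, e2]
      have hQK : (0 : ℝ) < (Q : ℝ) ^ K := by positivity
      field_simp
  rw [Finset.sum_congr rfl hterm, Finset.sum_add_distrib, ← Finset.mul_sum, ← hn0d] at hen
  have hs0 : ∑ K ∈ range (2 * Q - 1), (if K = 0 then n0 else 0) = n0 := by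
    rw [Finset.sum_ite_eq' (range (2 * Q - 1)) 0 (fun _ => n0)]
    simp only [Finset.mem_range]
    rw [if_pos (by omega)]
  rw [hs0] at hen
  rw [← hn0d] at hn0
  have hlam' : lam = 1 + ∑ K ∈ range (2 * Q - 1), T K := by
    have : lam * n0 = (1 + ∑ K ∈ range (2 * Q - 1), T K) * n0 := by rw [hen]; ring
    exact mul_right_cancel₀ hn0.ne' this
  have hsplit : ∑ K ∈ range (2 * Q - 1), T K
      = ∑ K ∈ range 61, T K + ∑ K ∈ Ico 61 (2 * Q - 1), T K :=
    (Finset.sum_range_add_sum_Ico T (by omega)).symm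
  have hEN : EN (ew Q) (arrp Q e) (arrq Q e) = ∑ K ∈ range 61, T K := by
    rw [EN, hT]
  have htail : -(1 / 10 ^ 6) ≤ ∑ K ∈ Ico 61 (2 * Q - 1), T K := by
    have h1 : ∀ K ∈ Ico 61 (2 * Q - 1), -(2 * (K : ℝ) * (5 / 7) ^ K) ≤ T K := by
      intro K hK
      obtain ⟨hK1, hK2⟩ := Finset.mem_Ico.mp hK
      have hK' : K ≤ 2 * Q - 2 := by omega
      have hCK := hCpos K hK'
      have hKr : (61 : ℝ) ≤ K := by exact_mod_cast hK1
      have a1 := tail_one hQ he (by rw [← hn0d]; exact hn0) hK'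
      have a2 := tail_two hQ he (by rw [← hn0d]; exact hn0) hK'
      rw [← hn0d] at a1 a2
      have b1 : |ew Q K * arrp Q e 0 K K 0| ≤ (5 / 7) ^ K := by
        have : ew Q K * arrp Q e 0 K K 0
            = tr Q e (an K * bh 0) (an 0 * bh K) / (((2 * Q - 2).choose K : ℝ) * n0) := by
          simp only [arrp, ew, ← hn0d, zero_add]
          have hQK : (0 : ℝ) < (Q : ℝ) ^ K := by positivity
          field_simp
        rw [this, abs_div, abs_of_pos (mul_pos hCK hn0), div_le_iff₀ (mul_pos hCK hn0)]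
        calc _ ≤ _ := a1
          _ = _ := by ring
      have b2 : |ew Q K * arrp Q e 0 (K + 1) K 1| ≤ (5 / 7) ^ K := by
        have : ew Q K * arrp Q e 0 (K + 1) K 1
            = tr Q e (an (K + 1) * bh 0) (an 1 * bh K) /
              (Q * (((2 * Q - 2).choose K : ℝ) * n0)) := by
          simp only [arrp, ew, ← hn0d, zero_add]
          have hQK : (0 : ℝ) < (Q : ℝ) ^ K := by positivity
          rw [pow_succ]
          field_simp
        have hpos : (0 : ℝ) < Q * (((2 * Q - 2).choose K : ℝ) * n0) :=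
          mul_pos hQr (mul_pos hCK hn0)
        rw [this, abs_div, abs_of_pos hpos, div_le_iff₀ hpos]
        calc _ ≤ _ := a2
          _ = _ := by ring
      have b3 : 0 ≤ ew Q K * arrq Q e 0 K 0 K := by
        refine mul_nonneg (by unfold ew; positivity) ?_
        simp only [arrq, ← hn0d]
        exact div_nonneg (tr_self_nonneg e _) (by positivity)
      have c1 := (abs_le.mp b1).1
      have c2 := (abs_le.mp b2).2
      have hp : (0 : ℝ) < (5 / 7) ^ K := by positivity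
      have d1 : -(((K : ℝ) - 1) * (5 / 7) ^ K) ≤ ((K : ℝ) - 1) * (ew Q K * arrp Q e 0 K K 0) := by
        have := mul_le_mul_of_nonneg_left c1 (by linarith : (0 : ℝ) ≤ (K : ℝ) - 1)
        linarith
      have d2 : ((K : ℝ) + 1) * (ew Q K * arrp Q e 0 (K + 1) K 1) ≤ ((K : ℝ) + 1) * (5 / 7) ^ K :=
        mul_le_mul_of_nonneg_left c2 (by linarith)
      have hTK : T K = ((K : ℝ) - 1) * (ew Q K * arrp Q e 0 K K 0)
          - ((K : ℝ) + 1) * (ew Q K * arrp Q e 0 (K + 1) K 1) + ew Q K * arrq Q e 0 K 0 K := by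
        rw [hT]; ring
      rw [hTK]
      have e3 : 2 * (K : ℝ) * (5 / 7) ^ K
          = ((K : ℝ) - 1) * (5 / 7) ^ K + ((K : ℝ) + 1) * (5 / 7) ^ K := by ring
      rw [e3]
      linarith
    have h2 := Finset.sum_le_sum h1
    rw [Finset.sum_neg_distrib] at h2
    have h3 := TailN.tail_le (2 * Q - 1) (by omega)
    linarith
  rw [hEN, hlam', hsplit]
  linarith

end Vale.Agent.P359
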