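import Vale.Agent.P359.Win
import Vale.Agent.P359.ArrBd
import Vale.Agent.P359.TransferCert

/-! Transfer of the window inequality to level `Q` -/

namespace Vale.Agent.P359

open Finset

namespace Tr

theorem win_eq (L : List Tm) (f : Fk) :
    win L f = (L.map fun t => t.c * wip (t.A f) (t.B f)).sum := by
  unfold win wip
  have hswap : ∀ (g : Tm → Finset ℕ → ℝ) (M : List Tm),
      ∑ U ∈ (range 9).powerset, (M.map fun t => g t U).sum =
        (M.map fun t => ∑ U ∈ (range 9).powerset, g t U).sum := by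
    intro g M
    induction M with
    | nil => simp
    | cons t M ih => simp only [List.map_cons, List.sum_cons, Finset.sum_add_distrib, ih]
  have h1 : ∀ U ∈ (range 9).powerset, (∏ a ∈ U, (a.factorial : ℝ)) *
      (L.map fun t => t.c * (t.A f U * t.B f U)).sum =
      (L.map fun t => (∏ a ∈ U, (a.factorial : ℝ)) * (t.c * (t.A f U * t.B f U))).sum :=
    fun U _ => (List.sum_map_mul_left ..).symm
  rw [Finset.sum_congr rfl h1, hswap]
  refine congrArg List.sum (List.map_congr_left fun t _ => ?_)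
  rw [Finset.mul_sum]
  refine Finset.sum_congr rfl fun U _ => ?_
  ring

theorem sum_certX (g : ℤ → ℕ → ℝ) :
    (certX.zipIdx.map fun p => g p.1 p.2).sum = ∑ K ∈ range 8, g (certX.getD K 0) K := by
  simp [certX, Finset.sum_range_succ]
  ring

theorem sum_certL (L : List (ℕ × ℕ × ℕ × ℕ × ℤ)) (f : ℕ → ℕ → ℕ → ℕ → ℝ) :
    (L.map fun p => mult p.1 p.2.1 p.2.2.1 p.2.2.2.1 * ((p.2.2.2.2 : ℝ) / 10 ^ 6) *
      f p.1 p.2.1 p.2.2.1 p.2.2.2.1).sum = LS L f := by
  unfold LS
  refine congrArg List.sum (List.map_congr_left fun p _ => ?_)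
  unfold mult
  ring

theorem win_cert (f : Fk) : 0 ≤ win certTerms f := by
  have h := window f
  rw [win_eq]
  unfold certTerms
  rw [List.map_append, List.map_append, List.sum_append, List.sum_append, List.map_map,
    List.map_map, List.map_map]
  have e1 : (certX.zipIdx.map ((fun t : Tm => t.c * wip (t.A f) (t.B f)) ∘
      fun p => tmX p.2 p.1)).sum = XS (fun K => ewp K * wip (bh K f) (bh K f)) := by
    have := sum_certX (fun x K => (x : ℝ) / 10 ^ 6 * (ewp K * wip (bh K f) (bh K f)))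
    unfold XS
    rw [← this]
    refine congrArg List.sum (List.map_congr_left fun p _ => ?_)
    simp only [Function.comp, tmX, ewp]
    ring
  have e2 : (certR.map ((fun t : Tm => t.c * wip (t.A f) (t.B f)) ∘ tmR)).sum =
      LS certR (fun K m K' m' => wip (an m (bh K f)) (an m' (bh K' f))) := by
    rw [← sum_certL]
    rfl
  have e3 : (certQ.map ((fun t : Tm => t.c * wip (t.A f) (t.B f)) ∘ tmQ)).sum =
      LS certQ (fun K₁ K₂ K₁' K₂' => wip (bh K₂ (bh K₁ f)) (bh K₂' (bh K₁' f))) := by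
    rw [← sum_certL]
    rfl
  rw [e1, e2, e3, ← add_assoc]
  exact h

end Tr

theorem wind_dat : ∃ (C₀ : ℝ) (Q₀ : ℕ), ∀ Q ≥ Q₀, ∀ (N : ℕ) (lam : ℝ) (n : ℕ) (e : Fin n → Fk),
    Fam Q (Eig Q N lam) n e → 0 < n → 0 < lam →
      -(C₀ / Q) ≤ XS (fun K => ewp K / ew Q K) + LS certR (arrp Q e) + LS certQ (arrq Q e) := by
  refine ⟨Tr.certErr, 9, fun Q hQ N lam n e he hn hlam => ?_⟩
  have hQ1 : 1 ≤ Q := by omega
  have hn0 := tr_bh0_pos hQ1 he hn hlam
  have hB : ∀ K < 8, tr Q e (bh K) (bh K) ≤ (2 * (Q : ℝ)) ^ K * tr Q e (bh 0) (bh 0) := by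
    intro K _
    rw [tr_bh hQ1 he K]
    refine mul_le_mul_of_nonneg_right ?_ hn0.le
    have h1 : (2 * Q - 2).choose K ≤ (2 * Q) ^ K :=
      le_trans (Nat.choose_le_pow _ _) (Nat.pow_le_pow_left (by omega) K)
    exact_mod_cast h1
  have h := Tr.cert_transfer Tr.win_cert hQ e hn0 hB
  refine le_of_le_of_eq h ?_
  unfold Tr.certSum
  rw [Tr.sum_certL, Tr.sum_certL, ← add_assoc]
  congr 2
  have := Tr.sum_certX (fun x K => (x : ℝ) / 10 ^ 6 * ((K.factorial : ℝ) / 2 ^ K) *
    (tr Q e (bh K) (bh K) / (tr Q e (bh 0) (bh 0) * (Q : ℝ) ^ K)))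
  rw [this]
  unfold XS
  refine Finset.sum_congr rfl fun K hK => ?_
  have hK8 := Finset.mem_range.mp hK
  rw [tr_bh hQ1 he K]
  have hQ' : (0 : ℝ) < (Q : ℝ) := by exact_mod_cast hQ1
  have hc : (0 : ℝ) < ((2 * Q - 2).choose K : ℝ) := by
    exact_mod_cast Nat.choose_pos (by omega)
  unfold ewp ew
  field_simp

end Vale.Agent.P359
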