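import Vale.Agent.P359.ArrVan
import Vale.Agent.P359.Tail
import Vale.Agent.P359.Wind
import Vale.Agent.P359.Limit
import Vale.Agent.P359.PlanarD

/-! Assembly (owner helper1) -/

namespace Vale.Agent.P359

open Finset

theorem dat_of_fam : ∃ (C₀ : ℝ) (Q₀ : ℕ), ∀ Q ≥ Q₀, ∀ (N : ℕ) (lam : ℝ) (n : ℕ)
    (e : Fin n → Fk), Fam Q (Eig Q N lam) n e → 0 < n → 0 < lam →
      Dat C₀ Q lam (arrp Q e) (arrq Q e) := by
  obtain ⟨Q₁, h₁⟩ := energy_dat
  obtain ⟨C₀, Q₂, h₂⟩ := wind_dat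
  refine ⟨C₀, max 1 (max Q₁ Q₂), fun Q hQ N lam n e he hn hlam => ?_⟩
  have hQ0 : 1 ≤ Q := le_trans (le_max_left _ _) hQ
  have hQ1 : Q₁ ≤ Q := le_trans (le_trans (le_max_left _ _) (le_max_right _ _)) hQ
  have hQ2 : Q₂ ≤ Q := le_trans (le_trans (le_max_right _ _) (le_max_right _ _)) hQ
  exact
    { symp := arrp_symm hQ0 he hn hlam
      symq := arrq_symm hQ0 he hn hlam
      offp := arrp_off hQ0 he hn hlam
      offq := arrq_off hQ0 he hn hlam
      bdp := arrp_bd hQ0 he hn hlam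
      bdq := arrq_bd hQ0 he hn hlam
      recp := arrp_rec hQ0 he hn hlam
      recq := arrq_rec hQ0 he hn hlam
      psdp := arrp_psd e
      psdq := arrq_psd e
      vanp := arrp_van e
      vanq := arrq_van e
      pauli := arrp_pauli hQ0 he hn hlam
      energy := h₁ Q hQ1 N lam n e he hn hlam
      wind := h₂ Q hQ2 N lam n e he hn hlam }

theorem main_fock : ∃ gam : ℝ, 0 < gam ∧ ∃ Q₀ : ℕ, ∀ Q N : ℕ, Q₀ ≤ Q → ∀ lam : ℝ,
    0 < lam → lam < gam → ∀ f ∈ Eig Q N lam, f = 0 := by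
  refine ⟨1 / 26, by norm_num, ?_⟩
  by_contra hcon
  push Not at hcon
  obtain ⟨C₀, Q₀, hdat⟩ := dat_of_fam
  obtain ⟨lam, p, q, hlam, hP⟩ := limit C₀ (1 / 26) (fun k => by
    obtain ⟨Q, N, hQ, lam, hpos, hlt, f, hf, hf0⟩ := hcon (max k Q₀)
    refine ⟨Q, le_trans (le_max_left _ _) hQ, lam, ?_⟩
    obtain ⟨n, e, he⟩ := exists_fam Q (Eig Q N lam) ((Eig_le_Sec Q N lam).trans (Sec_le_Sup Q N))
    have hn : 0 < n := by
      rcases Nat.eq_zero_or_pos n with h0 | h0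
      · exfalso
        subst h0
        exact hf0 (by have := he.span f hf; simpa using this)
      · exact h0
    exact ⟨arrp Q e, arrq Q e, hpos, hlt,
      hdat Q (le_trans (le_max_right _ _) hQ) N lam n e he hn hpos⟩)
  have := planarD hP
  norm_num at this hlam
  linarith

end Vale.Agent.P359
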