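import Vale.Agent.P359.Kernel

/-!
# P359: states as homogeneous polynomials in the spinor variables
-/

open scoped BigOperators InnerProductSpace
open MvPolynomial

namespace Vale.Agent.P359

variable {N Q : ℕ}

/-- the polynomial of a state in the spinor variables `u_l = X (l, 0)`, `v_l = X (l, 1)`: the basis
vector of the configuration `m` is `∏ l, √(binom Q m_l) u_l^(m_l) v_l^(Q - m_l)` -/
noncomputable def wave (ψ : St N Q) : MvPolynomial (Fin N × Fin 2) ℂ :=
  ∑ m : Conf N Q, C (ψ m) * ∏ l : Fin N, (C ((√(Q.choose (m l)) : ℝ) : ℂ) *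
    X (l, 0) ^ (m l : ℕ) * X (l, 1) ^ (Q - (m l : ℕ)))

/-- the Laughlin polynomial `∏_{i<j} (u_i v_j - u_j v_i)^3` -/
noncomputable def laughlinPoly (N : ℕ) : MvPolynomial (Fin N × Fin 2) ℂ :=
  ∏ p : Fin N × Fin N with p.1 < p.2, (X (p.1, 0) * X (p.2, 1) - X (p.2, 0) * X (p.1, 1)) ^ 3

theorem eval_wave (ψ : St N Q) (x : Fin N × Fin 2 → ℂ) (hx : ∀ l, x (l, 1) ≠ 0) :
    eval x (wave ψ) = (∏ l, x (l, 1)) ^ Q * eval (fun l => x (l, 0) / x (l, 1)) (poly ψ) := by
  unfold wave poly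
  rw [map_sum, map_sum, Finset.mul_sum]
  refine Finset.sum_congr rfl fun m _ => ?_
  rw [eval_monomial, map_mul, eval_C, map_prod, Finsupp.prod_fintype _ _ (fun i => pow_zero _)]
  have h1 : ∀ l : Fin N, eval x (C ((√(Q.choose (m l)) : ℝ) : ℂ) * X (l, 0) ^ (m l : ℕ) *
      X (l, 1) ^ (Q - (m l : ℕ))) =
      ((g Q (m l) : ℝ) : ℂ) * (x (l, 1) ^ Q * (x (l, 0) / x (l, 1)) ^ (ex m l)) := by
    intro l
    rw [map_mul, map_mul, map_pow, map_pow, eval_C, eval_X, eval_X, ex_apply, mul_assoc]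
    unfold g
    congr 1
    have h2 : (m l : ℕ) ≤ Q := by omega
    have h3 : x (l, 1) ^ Q = x (l, 1) ^ (Q - (m l : ℕ)) * x (l, 1) ^ (m l : ℕ) := by
      rw [← pow_add, Nat.sub_add_cancel h2]
    rw [h3, div_pow]
    have h4 : x (l, 1) ^ (m l : ℕ) ≠ 0 := pow_ne_zero _ (hx l)
    field_simp
  simp only [h1]
  rw [Finset.prod_mul_distrib, Finset.prod_mul_distrib, Finset.prod_pow]
  unfold GG
  push_cast
  ring

theorem prod_pairs {M : Type*} [CommMonoid M] (f : Fin N → M) :
    ∏ p : Fin N × Fin N with p.1 < p.2, (f p.1 * f p.2) = (∏ l, f l) ^ (N - 1) := by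
  have h1 : ∏ p : Fin N × Fin N with p.1 < p.2, f p.2 =
      ∏ p : Fin N × Fin N with p.2 < p.1, f p.1 := by
    refine Finset.prod_bij' (fun p _ => p.swap) (fun p _ => p.swap) ?_ ?_ ?_ ?_ ?_
    · rintro ⟨a, b⟩ h; simpa using h
    · rintro ⟨a, b⟩ h; simpa using h
    · rintro ⟨a, b⟩ _; rfl
    · rintro ⟨a, b⟩ _; rfl
    · rintro ⟨a, b⟩ _; rfl
  have h3 : Disjoint ((Finset.univ : Finset (Fin N × Fin N)).filter (fun p => p.1 < p.2))
      ((Finset.univ : Finset (Fin N × Fin N)).filter (fun p => p.2 < p.1)) := by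
    rw [Finset.disjoint_left]
    rintro ⟨a, b⟩ h h'
    simp only [Finset.mem_filter, Finset.mem_univ, true_and] at h h'
    exact lt_asymm h h'
  rw [Finset.prod_mul_distrib, h1, ← Finset.prod_union h3, ← Finset.filter_or]
  have h4 : (Finset.univ : Finset (Fin N × Fin N)).filter (fun p => p.1 < p.2 ∨ p.2 < p.1) =
      (Finset.univ : Finset (Fin N × Fin N)).filter (fun p => p.1 ≠ p.2) := by
    ext ⟨a, b⟩
    simp only [Finset.mem_filter, Finset.mem_univ, true_and]
    exact lt_or_lt_iff_ne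
  rw [h4, Finset.prod_filter, Fintype.prod_prod_type, ← Finset.prod_pow]
  refine Finset.prod_congr rfl fun i _ => ?_
  simp only
  rw [← Finset.prod_filter, Finset.prod_const]
  congr 1
  have : (Finset.univ.filter fun a => i ≠ a) = Finset.univ.erase i := by
    ext a
    simp [eq_comm]
  rw [this, Finset.card_erase_of_mem (Finset.mem_univ i), Finset.card_univ, Fintype.card_fin]

theorem eval_laughlinPoly (x : Fin N × Fin 2 → ℂ) (hx : ∀ l, x (l, 1) ≠ 0) :
    eval x (laughlinPoly N) = (∏ l, x (l, 1)) ^ (3 * (N - 1)) *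
      eval (fun l => x (l, 0) / x (l, 1)) (Ker.laughlin N ℂ) := by
  unfold laughlinPoly Ker.laughlin
  rw [map_prod, map_prod, mul_comm 3, pow_mul, ← prod_pairs fun l => x (l, 1), ← Finset.prod_pow]
  unfold Ker.pairs
  rw [← Finset.prod_mul_distrib]
  refine Finset.prod_congr rfl fun p _ => ?_
  rw [map_pow, map_pow, ← mul_pow]
  congr 1
  rw [map_sub, map_sub, map_mul, map_mul, eval_X, eval_X, eval_X, eval_X, eval_X, eval_X]
  have h1 := hx p.1
  have h2 := hx p.2
  field_simp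

/-- two polynomials which agree where no `v_l` vanishes are equal -/
theorem eq_of_eval {F G : MvPolynomial (Fin N × Fin 2) ℂ}
    (h : ∀ x : Fin N × Fin 2 → ℂ, (∀ l, x (l, 1) ≠ 0) → eval x F = eval x G) : F = G := by
  have h1 : (∏ l : Fin N, X (l, 1) : MvPolynomial (Fin N × Fin 2) ℂ) * (F - G) = 0 := by
    apply MvPolynomial.funext
    intro x
    rw [map_mul, map_prod, map_sub, map_zero]
    by_cases hx : ∀ l, x (l, 1) ≠ 0
    · rw [h x hx, sub_self, mul_zero]
    · push Not at hx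
      obtain ⟨l, hl⟩ := hx
      rw [Finset.prod_eq_zero (Finset.mem_univ l) (by rw [eval_X, hl]), zero_mul]
  rcases mul_eq_zero.1 h1 with h2 | h2
  · exfalso
    rw [Finset.prod_eq_zero_iff] at h2
    obtain ⟨l, _, hl⟩ := h2
    exact X_ne_zero _ hl
  · exact sub_eq_zero.1 h2

theorem wave_Laughlin : wave (Laughlin N) = laughlinPoly N := by
  apply eq_of_eval
  intro x hx
  rw [eval_wave _ _ hx, eval_laughlinPoly _ hx, poly_Laughlin]

theorem wave_injective : Function.Injective (wave : St N Q → MvPolynomial (Fin N × Fin 2) ℂ) := by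
  intro ψ φ h
  apply poly_inj
  apply MvPolynomial.funext
  intro z
  have h1 := eval_wave ψ (fun p => if p.2 = 0 then z p.1 else 1) (by simp)
  have h2 := eval_wave φ (fun p => if p.2 = 0 then z p.1 else 1) (by simp)
  rw [h, h2] at h1
  simpa using h1.symm

end Vale.Agent.P359
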