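import Vale.Agent.P359.EnergyMap
import Vale.Agent.P359.GapAbs
import Vale.Agent.P359.HamInv
import Vale.Agent.P359.Wave
import Vale.Agent.P359.MainFock

/-!
# P359: the final theorem
-/

open scoped BigOperators InnerProductSpace

namespace Vale.Agent.P359

variable {N Q : ℕ}

/-! ### real and imaginary parts -/

/-- real part of the coordinates -/
noncomputable def reC (ψ : St N Q) : Conf N Q → ℝ := fun m => (ψ m).re

/-- imaginary part of the coordinates -/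
noncomputable def imC (ψ : St N Q) : Conf N Q → ℝ := fun m => (ψ m).im

/-- the state with given real coordinates -/
noncomputable def ofR (y : Conf N Q → ℝ) : St N Q := WithLp.toLp 2 fun m => (y m : ℂ)

theorem ofR_apply (y : Conf N Q → ℝ) (m : Conf N Q) : ofR y m = (y m : ℂ) := rfl

theorem reC_RA {ψ : St N Q} (h : ψ ∈ Anti N Q) : RA (reC ψ) := by
  intro σ m
  unfold reC
  rw [h σ m]
  rcases Int.units_eq_one_or (Equiv.Perm.sign σ) with h | h <;> rw [h] <;> simp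

theorem imC_RA {ψ : St N Q} (h : ψ ∈ Anti N Q) : RA (imC ψ) := by
  intro σ m
  unfold imC
  rw [h σ m]
  rcases Int.units_eq_one_or (Equiv.Perm.sign σ) with h | h <;> rw [h] <;> simp

theorem ofR_anti {y : Conf N Q → ℝ} (h : RA y) : ofR y ∈ Anti N Q := by
  intro σ m
  rw [ofR_apply, ofR_apply, h σ m]
  push_cast
  rfl

theorem P1_re (hQ : 1 ≤ Q) {i j : Fin N} (h : i ≠ j) (ψ : St N Q) (m : Conf N Q) :
    (P1 i j ψ m).re = pexR i j (reC ψ) m := by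
  rw [P1_apply hQ h, Complex.re_ofReal_mul, Complex.re_sum]
  unfold pexR reC
  congr 1
  refine Finset.sum_congr rfl fun p _ => ?_
  rw [Complex.re_ofReal_mul]

theorem P1_im (hQ : 1 ≤ Q) {i j : Fin N} (h : i ≠ j) (ψ : St N Q) (m : Conf N Q) :
    (P1 i j ψ m).im = pexR i j (imC ψ) m := by
  rw [P1_apply hQ h, Complex.im_ofReal_mul, Complex.im_sum]
  unfold pexR imC
  congr 1
  refine Finset.sum_congr rfl fun p _ => ?_
  rw [Complex.im_ofReal_mul]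

theorem Ham_apply (ψ : St N Q) (m : Conf N Q) :
    Ham N Q ψ m = ∑ p : Fin N × Fin N with p.1 < p.2, P1 p.1 p.2 ψ m := by
  unfold Ham
  rw [sum_apply]
  simp

theorem Ham_re (hQ : 1 ≤ Q) (ψ : St N Q) (m : Conf N Q) :
    (Ham N Q ψ m).re = hamR (reC ψ) m := by
  rw [Ham_apply, Complex.re_sum]
  unfold hamR
  refine Finset.sum_congr rfl fun p hp => ?_
  have hp' : p.1 ≠ p.2 := by
    simp only [Finset.mem_filter, Finset.mem_univ, true_and] at hp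
    exact hp.ne
  exact P1_re hQ hp' ψ m

theorem Ham_im (hQ : 1 ≤ Q) (ψ : St N Q) (m : Conf N Q) :
    (Ham N Q ψ m).im = hamR (imC ψ) m := by
  rw [Ham_apply, Complex.im_sum]
  unfold hamR
  refine Finset.sum_congr rfl fun p hp => ?_
  have hp' : p.1 ≠ p.2 := by
    simp only [Finset.mem_filter, Finset.mem_univ, true_and] at hp
    exact hp.ne
  exact P1_im hQ hp' ψ m

theorem inner_ofR (y : Conf N Q → ℝ) (ψ : St N Q) :
    ⟪ofR y, ψ⟫_ℂ = ∑ m, (y m : ℂ) * ψ m := by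
  rw [PiLp.inner_apply]
  refine Finset.sum_congr rfl fun m _ => ?_
  rw [ofR_apply]
  simp [mul_comm]

theorem inner_ofR_re (y : Conf N Q → ℝ) (ψ : St N Q) :
    (⟪ofR y, ψ⟫_ℂ).re = ∑ m, y m * (ψ m).re := by
  rw [inner_ofR, Complex.re_sum]
  exact Finset.sum_congr rfl fun m _ => by rw [Complex.re_ofReal_mul]

theorem inner_ofR_im (y : Conf N Q → ℝ) (ψ : St N Q) :
    (⟪ofR y, ψ⟫_ℂ).im = ∑ m, y m * (ψ m).im := by
  rw [inner_ofR, Complex.im_sum]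
  exact Finset.sum_congr rfl fun m _ => by rw [Complex.im_ofReal_mul]

/-- eigenvectors go to eigenvectors -/
theorem eig_of_real (hQ : 1 ≤ Q) {x : Conf (N + 1 + 1) Q → ℝ} (hx : RA x) {lam : ℝ}
    (h : ∀ y : Conf (N + 1 + 1) Q → ℝ, RA y → ∑ m, y m * hamR x m = lam * ∑ m, y m * x m) :
    toFk x ∈ Eig Q (N + 1 + 1) lam := by
  refine ⟨toFk_mem x, fun φ hφ => ?_⟩
  obtain ⟨y, hy, rfl⟩ := toFk_surj hφ
  have h1 := h y hy
  rw [energy_total hQ hx hy, inner_toFk hx hy] at h1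
  have h2 : (0 : ℝ) < ((N + 1 + 1).factorial : ℝ) := by exact_mod_cast Nat.factorial_pos _
  have h3 : ((N + 1 + 1).factorial : ℝ) * hf Q (toFk y) (toFk x) =
      ((N + 1 + 1).factorial : ℝ) * (lam * ip Q (toFk y) (toFk x)) := by
    rw [h1]; ring
  exact mul_left_cancel₀ h2.ne' h3

theorem eq_zero_of_toFk {x : Conf N Q → ℝ} (hx : RA x) (h : toFk x = 0) : x = 0 := by
  have h1 := inner_toFk hx hx
  rw [h] at h1
  have h2 : ip Q (0 : Fk) 0 = 0 := by simp [ip]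
  rw [h2, mul_zero] at h1
  have h3 := (Finset.sum_eq_zero_iff_of_nonneg (fun m _ => mul_self_nonneg (x m))).1 h1
  funext m
  exact mul_self_eq_zero.1 (h3 m (Finset.mem_univ m))

/-- a state of the fermionic space which is an eigenvector of the compressed Hamiltonian -/
theorem no_eig (hQ : 1 ≤ Q) {lam : ℝ} (hE : ∀ f ∈ Eig Q (N + 1 + 1) lam, f = 0)
    {ψ : St (N + 1 + 1) Q} (hψ : ψ ∈ Anti (N + 1 + 1) Q)
    (h : ∀ φ ∈ Anti (N + 1 + 1) Q, ⟪φ, Ham (N + 1 + 1) Q ψ⟫_ℂ = (lam : ℂ) * ⟪φ, ψ⟫_ℂ) :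
    ψ = 0 := by
  have h1 : reC ψ = 0 := by
    apply eq_zero_of_toFk (reC_RA hψ)
    apply hE
    apply eig_of_real hQ (reC_RA hψ)
    intro y hy
    have h2 := congrArg Complex.re (h (ofR y) (ofR_anti hy))
    rw [Complex.re_ofReal_mul, inner_ofR_re, inner_ofR_re] at h2
    simp only [Ham_re hQ] at h2
    exact h2
  have h1' : imC ψ = 0 := by
    apply eq_zero_of_toFk (imC_RA hψ)
    apply hE
    apply eig_of_real hQ (imC_RA hψ)
    intro y hy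
    have h2 := congrArg Complex.im (h (ofR y) (ofR_anti hy))
    rw [Complex.im_ofReal_mul, inner_ofR_im, inner_ofR_im] at h2
    simp only [Ham_im hQ] at h2
    exact h2
  ext m
  apply Complex.ext
  · exact congrFun h1 m
  · exact congrFun h1' m

theorem Ham_symm (φ ψ : St N Q) : ⟪Ham N Q φ, ψ⟫_ℂ = ⟪φ, Ham N Q ψ⟫_ℂ := by
  unfold Ham
  rw [sum_apply, sum_apply, inner_sum, sum_inner]
  refine Finset.sum_congr rfl fun p _ => ?_
  unfold P1
  rw [Submodule.inner_starProjection_left_eq_right]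

theorem Ham_nonneg (ψ : St N Q) : 0 ≤ (⟪ψ, Ham N Q ψ⟫_ℂ).re := by
  rw [inner_Ham]
  exact Finset.sum_nonneg fun x _ => sq_nonneg _

theorem Ham_zero_of_inner {ψ : St N Q} (h : (⟪ψ, Ham N Q ψ⟫_ℂ).re = 0) : Ham N Q ψ = 0 := by
  rw [Ham_eq_zero_iff]
  intro i j hij
  rw [inner_Ham] at h
  have h2 := (Finset.sum_eq_zero_iff_of_nonneg (fun x _ => sq_nonneg _)).1 h (i, j)
    (by simp [hij])
  simpa using h2

/-- **The Laughlin gap**: at filling `1/3` on the sphere, uniformly in `N`. -/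
theorem laughlin_gap : ∃ δ : ℝ, 0 < δ ∧ ∃ N₀ : ℕ, ∀ N : ℕ, N₀ ≤ N →
    ∀ ψ ∈ Anti N (3 * (N - 1)),
      δ * ‖ψ - (Submodule.span ℂ {Laughlin N}).starProjection ψ‖ ^ 2 ≤
        (⟪ψ, Ham N (3 * (N - 1)) ψ⟫_ℂ).re := by
  obtain ⟨gam, hgam, Q₀, hQ₀⟩ := main_fock
  refine ⟨gam, hgam, Q₀ + 2, fun N hN => ?_⟩
  obtain ⟨n, rfl⟩ : ∃ n, N = n + 1 + 1 := ⟨N - 2, by omega⟩
  refine gap_abs (Ham (n + 1 + 1) (3 * (n + 1 + 1 - 1))) Ham_symm
    (Anti (n + 1 + 1) (3 * (n + 1 + 1 - 1))) (Laughlin (n + 1 + 1)) Laughlin_anti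
    (Ham_Laughlin (by omega)) gam Ham_nonneg ?_ ?_
  · intro ψ hψ h0
    obtain ⟨c, hc⟩ := kernel (by omega) hψ (Ham_zero_of_inner h0)
    rw [hc]
    exact Submodule.smul_mem _ _ (Submodule.mem_span_singleton_self _)
  · intro lam h1 h2 ψ hψ h3
    exact no_eig (by omega) (hQ₀ _ _ (by omega) lam h1 h2) hψ h3

theorem Ham_anti (hQ : 1 ≤ Q) {ψ : St N Q} (hψ : ψ ∈ Anti N Q) : Ham N Q ψ ∈ Anti N Q := by
  intro σ m
  have hsg : (((Equiv.Perm.sign σ : ℤ) : ℝ) : ℂ) = ((Equiv.Perm.sign σ : ℤ) : ℂ) := by push_cast; rfl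
  rw [← hsg]
  apply Complex.ext
  · rw [Complex.re_ofReal_mul, Ham_re hQ, Ham_re hQ]
    exact (reC_RA hψ).hamR σ m
  · rw [Complex.im_ofReal_mul, Ham_im hQ, Ham_im hQ]
    exact (imC_RA hψ).hamR σ m

/-- the inequality `H ≥ δ (1 - P_L)` gives the spectrum: `0` is simple with eigenvector `L`, every
other eigenvalue is real and at least `δ` -/
theorem spec_of_gap {E : Type*} [NormedAddCommGroup E] [InnerProductSpace ℂ E]
    [FiniteDimensional ℂ E] (H : E →L[ℂ] E) (hH : ∀ x y, ⟪H x, y⟫_ℂ = ⟪x, H y⟫_ℂ)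
    (L : E) (hHL : H L = 0) (δ : ℝ) (hδ : 0 < δ) (ψ : E) (h0 : ψ ≠ 0) (μ : ℂ) (hμ : H ψ = μ • ψ)
    (hgap : δ * ‖ψ - (Submodule.span ℂ {L}).starProjection ψ‖ ^ 2 ≤ (⟪ψ, H ψ⟫_ℂ).re) :
    (μ = 0 ∧ ∃ c : ℂ, ψ = c • L) ∨ (μ.im = 0 ∧ δ ≤ μ.re) := by
  have hn : 0 < ‖ψ‖ ^ 2 := by positivity
  have h1 : ⟪ψ, H ψ⟫_ℂ = μ * ((‖ψ‖ ^ 2 : ℝ) : ℂ) := by
    rw [hμ, inner_smul_right, inner_self_eq_norm_sq_to_K]
    norm_cast
  have h2 : ⟪ψ, H ψ⟫_ℂ = (starRingEnd ℂ) μ * ((‖ψ‖ ^ 2 : ℝ) : ℂ) := by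
    rw [← hH, hμ, inner_smul_left, inner_self_eq_norm_sq_to_K]
    norm_cast
  have h3 : (starRingEnd ℂ) μ = μ := by
    have h4 : ((‖ψ‖ ^ 2 : ℝ) : ℂ) ≠ 0 := by exact_mod_cast hn.ne'
    exact mul_right_cancel₀ h4 (h2.symm.trans h1)
  have him : μ.im = 0 := Complex.conj_eq_iff_im.1 h3
  have hre : (⟪ψ, H ψ⟫_ℂ).re = μ.re * ‖ψ‖ ^ 2 := by
    rw [h1, Complex.mul_re, Complex.ofReal_re, Complex.ofReal_im]
    ring
  set P := Submodule.span ℂ {L} with hP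
  by_cases hm : μ = 0
  · left
    refine ⟨hm, ?_⟩
    rw [hre, hm, Complex.zero_re, zero_mul] at hgap
    have h5 : ‖ψ - P.starProjection ψ‖ ^ 2 ≤ 0 := by
      by_contra hcon
      push Not at hcon
      have := mul_pos hδ hcon
      linarith
    have h6 : ‖ψ - P.starProjection ψ‖ = 0 := by
      have := sq_nonneg ‖ψ - P.starProjection ψ‖
      exact pow_eq_zero_iff (two_ne_zero) |>.1 (le_antisymm h5 this)
    have h7 : ψ = P.starProjection ψ := sub_eq_zero.1 (norm_eq_zero.1 h6)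
    obtain ⟨c, hc⟩ := Submodule.mem_span_singleton.1 (Submodule.starProjection_apply_mem P ψ)
    exact ⟨c, by rw [h7, hc]⟩
  · right
    refine ⟨him, ?_⟩
    -- `ψ` is orthogonal to `L`
    have h5 : ⟪L, ψ⟫_ℂ = 0 := by
      have h6 : ⟪L, H ψ⟫_ℂ = 0 := by rw [← hH, hHL, inner_zero_left]
      rw [hμ, inner_smul_right] at h6
      exact (mul_eq_zero.1 h6).resolve_left hm
    have h6 : P.starProjection ψ = 0 := by
      rw [Submodule.starProjection_apply_eq_zero_iff]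
      rw [hP, Submodule.mem_orthogonal_singleton_iff_inner_right]
      exact h5
    rw [h6, sub_zero, hre] at hgap
    exact le_of_mul_le_mul_right hgap hn

/-- **Main theorem**, with the Laughlin vector given by its homogeneous polynomial -/
theorem laughlin_gap_full : ∃ δ : ℝ, 0 < δ ∧ ∃ N₀ : ℕ, ∀ N : ℕ, N₀ ≤ N →
    ∃ L : St N (3 * (N - 1)), wave L = laughlinPoly N ∧ L ≠ 0 ∧ L ∈ Anti N (3 * (N - 1)) ∧
      Ham N (3 * (N - 1)) L = 0 ∧
      (∀ ψ ∈ Anti N (3 * (N - 1)), Ham N (3 * (N - 1)) ψ ∈ Anti N (3 * (N - 1)) ∧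
        δ * ‖ψ - (Submodule.span ℂ {L}).starProjection ψ‖ ^ 2 ≤
          (⟪ψ, Ham N (3 * (N - 1)) ψ⟫_ℂ).re) ∧
      (∀ ψ ∈ Anti N (3 * (N - 1)), ψ ≠ 0 → ∀ μ : ℂ, Ham N (3 * (N - 1)) ψ = μ • ψ →
        (μ = 0 ∧ ∃ c : ℂ, ψ = c • L) ∨ (μ.im = 0 ∧ δ ≤ μ.re)) := by
  obtain ⟨δ, hδ, N₀, h⟩ := laughlin_gap
  refine ⟨δ, hδ, N₀ + 2, fun N hN => ⟨Laughlin N, wave_Laughlin, Laughlin_ne_zero, Laughlin_anti,
    Ham_Laughlin (by omega), fun ψ hψ => ⟨Ham_anti (by omega) hψ, h N (by omega) ψ hψ⟩,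
    fun ψ hψ h0 μ hμ => spec_of_gap (Ham N (3 * (N - 1))) Ham_symm (Laughlin N)
      (Ham_Laughlin (by omega)) δ hδ ψ h0 μ hμ (h N (by omega) ψ hψ)⟩⟩

end Vale.Agent.P359
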