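import Mathlib

/-!
# P359: the pair recurrence (simple spectrum of the pair Casimir in a weight space)
-/

namespace Vale.Agent.P359

namespace PairRec

variable {k : Type*} [Field k] [CharZero k]

/-- homogeneous version: a solution vanishing at the lowest index vanishes -/
theorem zero_of_rec (Q s : ℕ) (z : ℕ → k)
    (h : ∀ a b : ℕ, a + b = s → a ≤ Q → b ≤ Q →
      (a : k) * ((Q : k) - b) * z (a - 1) + (2 * Q + 2 * a * b - (Q : k) * s) * z a +
        ((Q : k) - a) * b * z (a + 1) = 0)
    (h0 : z (s - Q) = 0) : ∀ n a b : ℕ, a + b = s → a ≤ Q → b ≤ Q → a = (s - Q) + n → z a = 0 := by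
  intro n
  induction n using Nat.strong_induction_on with
  | _ n ih =>
    intro a b hab ha hb han
    rcases Nat.eq_zero_or_pos n with hn | hn
    · rw [hn, add_zero] at han
      rw [han]; exact h0
    · obtain ⟨m, rfl⟩ : ∃ m, n = m + 1 := ⟨n - 1, by omega⟩
      have h1 := h (a - 1) (b + 1) (by omega) (by omega) (by omega)
      have h2 : z (a - 1) = 0 := ih m (by omega) (a - 1) (b + 1) (by omega) (by omega) (by omega)
        (by omega)
      have e1 : a - 1 + 1 = a := by omega
      rw [e1, h2, mul_zero, add_zero] at h1
      have h3 : ((a - 1 : ℕ) : k) * ((Q : k) - ((b + 1 : ℕ) : k)) * z (a - 1 - 1) = 0 := by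
        rcases Nat.eq_zero_or_pos m with hm | hm
        · -- a - 1 is the lowest index: coefficient vanishes
          have h4 : a - 1 = 0 ∨ b + 1 = Q := by omega
          rcases h4 with h4 | h4
          · rw [h4]; simp
          · rw [h4]; simp
        · have h5 : z (a - 1 - 1) = 0 := by
            have hb2 : b + 2 ≤ Q := by omega
            exact ih (m - 1) (by omega) (a - 1 - 1) (b + 2) (by omega) (by omega) hb2 (by omega)
          rw [h5, mul_zero]
      rw [h3, zero_add] at h1
      rcases mul_eq_zero.1 h1 with h4 | h4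
      · exfalso
        rcases mul_eq_zero.1 h4 with h5 | h5
        · have h6 : ((a - 1 : ℕ) : k) = (Q : k) := by linear_combination -h5
          have := Nat.cast_injective h6
          omega
        · have : b + 1 = 0 := by exact_mod_cast h5
          omega
      · exact h4

/-- solutions of the recurrence of the eigenvalue `Q (Q - 1)` are multiples of `a - b` -/
theorem eq_of_rec (Q s : ℕ) (y : ℕ → k)
    (h : ∀ a b : ℕ, a + b = s → a ≤ Q → b ≤ Q →
      (a : k) * ((Q : k) - b) * y (a - 1) + (2 * Q + 2 * a * b - (Q : k) * s) * y a +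
        ((Q : k) - a) * b * y (a + 1) = 0) (hQ : 1 ≤ Q) :
    ∃ c : k, ∀ a b : ℕ, a + b = s → a ≤ Q → b ≤ Q → y a = c * ((a : k) - b) := by
  by_cases hs : s ≤ 2 * Q
  swap
  · exact ⟨0, fun a b hab ha hb => by omega⟩
  set a0 := s - Q with ha0
  obtain ⟨b0, hb0⟩ : ∃ b0, a0 + b0 = s := ⟨s - a0, by omega⟩
  have ha0Q : a0 ≤ Q := by omega
  have hb0Q : b0 ≤ Q := by omega
  by_cases hne : a0 = b0
  · -- single point
    refine ⟨0, fun a b hab ha hb => ?_⟩
    have hcase : (s = 0) ∨ (s = 2 * Q) := by omega
    have haa : a = a0 := by omega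
    rw [haa]
    have h1 := h a0 b0 hb0 ha0Q hb0Q
    rcases hcase with hc | hc
    · have e1 : a0 = 0 := by omega
      have e2 : b0 = 0 := by omega
      rw [hc, e1, e2] at h1
      simp only [Nat.cast_zero, zero_mul, mul_zero, zero_add, add_zero, sub_zero] at h1
      rw [e1, zero_mul]
      rcases mul_eq_zero.1 h1 with h2 | h2
      · exfalso
        have : (Q : k) ≠ 0 := by exact_mod_cast (by omega : Q ≠ 0)
        rcases mul_eq_zero.1 h2 with h3 | h3
        · exact two_ne_zero h3
        · exact this h3
      · exact h2
    · have e1 : a0 = Q := by omega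
      have e2 : b0 = Q := by omega
      rw [hc, e1, e2] at h1
      push_cast at h1
      rw [e1, zero_mul]
      have h3 : (2 * (Q : k)) * y Q = 0 := by linear_combination h1
      rcases mul_eq_zero.1 h3 with h2 | h2
      · exfalso
        have : (Q : k) ≠ 0 := by exact_mod_cast (by omega : Q ≠ 0)
        rcases mul_eq_zero.1 h2 with h3 | h3
        · exact two_ne_zero h3
        · exact this h3
      · exact h2
  · have hne' : (a0 : k) - b0 ≠ 0 := by
      intro h1
      have h2 : (a0 : k) = b0 := by linear_combination h1
      exact hne (Nat.cast_injective h2)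
    refine ⟨y a0 / ((a0 : k) - b0), fun a b hab ha hb => ?_⟩
    set c := y a0 / ((a0 : k) - b0) with hc
    have key := zero_of_rec Q s (fun n => y n - c * (2 * (n : k) - s)) ?_ ?_ (a - a0) a b hab ha hb
      (by omega)
    · have hs' : (s : k) = a + b := by rw [← hab]; push_cast; ring
      rw [sub_eq_zero] at key
      rw [key, hs']
      ring
    · intro a b hab ha hb
      have h1 := h a b hab ha hb
      have hs' : (s : k) = a + b := by rw [← hab]; push_cast; ring
      rcases Nat.eq_zero_or_pos a with h0 | h0
      · subst h0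
        simp only [Nat.cast_zero, zero_mul, mul_zero, zero_add, add_zero, sub_zero,
          Nat.cast_add, Nat.cast_one] at h1 ⊢
        rw [hs'] at h1 ⊢
        simp only [Nat.cast_zero, zero_add] at h1 ⊢
        linear_combination h1
      · obtain ⟨m, rfl⟩ : ∃ m, a = m + 1 := ⟨a - 1, by omega⟩
        simp only [Nat.add_sub_cancel] at h1 ⊢
        rw [hs'] at h1 ⊢
        push_cast at h1 ⊢
        linear_combination h1
    · have hs' : (s : k) = a0 + b0 := by rw [← hb0]; push_cast; ring
      rw [hs', hc]
      field_simp
      ring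

end PairRec

end Vale.Agent.P359
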