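import Vale.Agent.P359.KerPoly
import Vale.Agent.P359.PairRec

/-!
# P359: first-quantised definitions, the pair projection (bridge), the kernel
-/

open scoped BigOperators InnerProductSpace

namespace Vale.Agent.P359

/-- configurations: slot `i` is in orbital `m i` -/
abbrev Conf (N Q : ℕ) := Fin N → Fin (Q + 1)

/-- the `N`-particle space `U_Q^{⊗ N}`; the basis vector of orbital `m` is
`sqrt (binom Q m) u^m v^(Q-m)` -/
abbrev St (N Q : ℕ) := EuclideanSpace ℂ (Conf N Q)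

/-- index shift down -/
def fdn {Q : ℕ} (a : Fin (Q + 1)) : Fin (Q + 1) := ⟨a - 1, by omega⟩

/-- index shift up -/
def fup {Q : ℕ} (a : Fin (Q + 1)) : Fin (Q + 1) := ⟨min (a + 1) Q, by omega⟩

variable {N Q : ℕ}

/-- raising operator on slot `i`: `J_+ e_m = sqrt ((Q-m)(m+1)) e_{m+1}` -/
noncomputable def Jp (i : Fin N) : St N Q →ₗ[ℂ] St N Q where
  toFun ψ := WithLp.toLp 2 fun m =>
    ((√((m i : ℝ) * (Q + 1 - (m i : ℝ))) : ℝ) : ℂ) * ψ (Function.update m i (fdn (m i)))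
  map_add' x y := by ext m; simp [mul_add]
  map_smul' c x := by ext m; simp; ring

/-- lowering operator on slot `i`: `J_- e_m = sqrt (m (Q+1-m)) e_{m-1}` -/
noncomputable def Jm (i : Fin N) : St N Q →ₗ[ℂ] St N Q where
  toFun ψ := WithLp.toLp 2 fun m =>
    ((√(((m i : ℝ) + 1) * (Q - (m i : ℝ))) : ℝ) : ℂ) * ψ (Function.update m i (fup (m i)))
  map_add' x y := by ext m; simp [mul_add]
  map_smul' c x := by ext m; simp; ring

/-- `J_z` on slot `i`: `J_z e_m = (m - Q/2) e_m` -/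
noncomputable def Jz (i : Fin N) : St N Q →ₗ[ℂ] St N Q where
  toFun ψ := WithLp.toLp 2 fun m => ((m i : ℂ) - Q / 2) * ψ m
  map_add' x y := by ext m; simp [mul_add]
  map_smul' c x := by ext m; simp; ring

/-- the square of the total spin of slots `i`, `j`: `J_- J_+ + J_z^2 + J_z` -/
noncomputable def Cas (i j : Fin N) : St N Q →ₗ[ℂ] St N Q :=
  (Jm i + Jm j) ∘ₗ (Jp i + Jp j) + (Jz i + Jz j) ∘ₗ (Jz i + Jz j) + (Jz i + Jz j)

/-- the subspace on which slots `i`, `j` have total spin `Q - 1`, i.e. spin squared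
`(Q - 1) Q` -/
noncomputable def spinSpace (i j : Fin N) : Submodule ℂ (St N Q) :=
  LinearMap.ker (Cas i j - (((Q : ℂ) - 1) * Q) • LinearMap.id)

/-- the Haldane `V_1` projection of the pair `i`, `j` -/
noncomputable def P1 (i j : Fin N) : St N Q →L[ℂ] St N Q := (spinSpace i j).starProjection

/-- the Laughlin Hamiltonian -/
noncomputable def Ham (N Q : ℕ) : St N Q →L[ℂ] St N Q :=
  ∑ x : Fin N × Fin N with x.1 < x.2, P1 x.1 x.2

/-- the fermionic space -/
def Anti (N Q : ℕ) : Submodule ℂ (St N Q) where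
  carrier := {ψ | ∀ (σ : Equiv.Perm (Fin N)) (m : Conf N Q),
    ψ (m ∘ σ) = ((Equiv.Perm.sign σ : ℤ) : ℂ) * ψ m}
  add_mem' {x y} hx hy σ m := by simp [hx σ m, hy σ m, mul_add]
  zero_mem' σ m := by simp
  smul_mem' c x hx σ m := by simp [hx σ m]; ring

/-- normalisation of the monomial basis -/
noncomputable def g (Q a : ℕ) : ℝ := √(Q.choose a)

theorem g_pos {Q a : ℕ} (h : a ≤ Q) : 0 < g Q a := by
  unfold g
  exact Real.sqrt_pos.2 (by exact_mod_cast Nat.choose_pos h)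

theorem g_up {Q a : ℕ} (h : a + 1 ≤ Q) :
    √(((a : ℝ) + 1) * (Q - a)) * g Q (a + 1) = (Q - a) * g Q a := by
  unfold g
  have h1 : ((Q.choose (a + 1) : ℕ) : ℝ) * ((a : ℝ) + 1) = (Q.choose a : ℝ) * ((Q : ℝ) - a) := by
    have := Nat.choose_succ_right_eq Q a
    have h2 : ((Q - a : ℕ) : ℝ) = (Q : ℝ) - a := by rw [Nat.cast_sub (by omega)]
    rw [← h2]
    exact_mod_cast this
  have h3 : (0 : ℝ) ≤ (Q : ℝ) - a := by
    have : (a : ℝ) + 1 ≤ Q := by exact_mod_cast h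
    linarith
  rw [← Real.sqrt_mul (by positivity)]
  have h4 : ((a : ℝ) + 1) * (Q - a) * ((Q.choose (a + 1) : ℕ) : ℝ) =
      ((Q : ℝ) - a) ^ 2 * (Q.choose a : ℝ) := by linear_combination ((Q : ℝ) - a) * h1
  rw [h4, Real.sqrt_mul (by positivity), Real.sqrt_sq h3]

theorem g_dn {Q b : ℕ} (h : b ≤ Q) :
    √((b : ℝ) * (Q + 1 - b)) * g Q (b - 1) = b * g Q b := by
  rcases Nat.eq_zero_or_pos b with h0 | h0
  · subst h0; simp
  obtain ⟨a, rfl⟩ : ∃ a, b = a + 1 := ⟨b - 1, by omega⟩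
  have h1 := g_up h
  have h2 : (0 : ℝ) < (Q : ℝ) - a := by
    have : ((a + 1 : ℕ) : ℝ) ≤ Q := by exact_mod_cast h
    push_cast at this
    linarith
  simp only [Nat.add_sub_cancel]
  push_cast
  have e1 : (Q : ℝ) + 1 - (a + 1) = Q - a := by ring
  rw [e1]
  set t := √(((a : ℝ) + 1) * (Q - a)) with ht
  have ht2 : t ^ 2 = ((a : ℝ) + 1) * (Q - a) := Real.sq_sqrt (by positivity)
  have h3 : (Q - a) * (t * g Q a) = (Q - a) * (((a : ℝ) + 1) * g Q (a + 1)) := by
    calc (Q - a) * (t * g Q a) = t * ((Q - a) * g Q a) := by ring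
      _ = t * (t * g Q (a + 1)) := by rw [h1]
      _ = t ^ 2 * g Q (a + 1) := by ring
      _ = _ := by rw [ht2]; ring
  exact mul_left_cancel₀ h2.ne' h3

end Vale.Agent.P359
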