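import Vale.Agent.P359.Defs

/-!
# P359: Fock algebra (canonical anticommutation relations, shift operators, pair annihilators)
-/

open Finset

namespace Vale.Agent.P359

namespace FockA

theorem op_mul_neg (a b : Op) : a * -b = -(a * b) := mul_neg a b

theorem op_neg_mul (a b : Op) : -a * b = -(a * b) := neg_mul a b

theorem op_neg_neg (a : Op) : - -a = a := neg_neg a

theorem op_sub_neg (a b : Op) : a - -b = a + b := sub_neg_eq_add a b

theorem an_apply (m : ℕ) (ψ : Fk) (U : Finset ℕ) :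
    an m ψ U = if m ∈ U then 0 else sg m U * ψ (insert m U) := rfl

theorem cr_apply (m : ℕ) (ψ : Fk) (U : Finset ℕ) :
    cr m ψ U = if m ∈ U then sg m U * ψ (U.erase m) else 0 := rfl

theorem El_apply (ψ : Fk) (U : Finset ℕ) :
    El ψ U = ∑ m ∈ U, if m + 1 ∈ U then 0 else
      ((m : ℝ) + 1) * ψ (insert (m + 1) (U.erase m)) := rfl

theorem Fl_apply (Q : ℕ) (ψ : Fk) (U : Finset ℕ) :
    Fl Q ψ U = ∑ m ∈ U, if m = 0 ∨ m - 1 ∈ U then 0 else
      ((Q : ℝ) - m + 1) * ψ (insert (m - 1) (U.erase m)) := rfl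

theorem sg_insert (m m' : ℕ) (U : Finset ℕ) (h : m' ∉ U) :
    sg m (insert m' U) = (if m' < m then -1 else 1) * sg m U := by
  unfold sg
  rw [Finset.filter_insert]
  split_ifs with h1
  · rw [Finset.card_insert_of_notMem (by simp [h]), pow_succ]; ring
  · simp

theorem sg_erase (m m' : ℕ) (U : Finset ℕ) (h : m' ∈ U) :
    sg m (U.erase m') = (if m' < m then -1 else 1) * sg m U := by
  have h2 := sg_insert m m' (U.erase m') (by simp)
  rw [Finset.insert_erase h] at h2
  rw [h2]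
  split_ifs <;> simp

theorem sg_sq (m : ℕ) (U : Finset ℕ) : sg m U * sg m U = 1 := by
  unfold sg
  rw [← mul_pow]; simp

theorem an_sq (m : ℕ) : an m * an m = 0 := by
  refine LinearMap.ext fun ψ => ?_
  funext U
  simp [an_apply]

theorem an_an (m m' : ℕ) : an m * an m' = -(an m' * an m) := by
  rcases eq_or_ne m m' with rfl | hne
  · simp [an_sq]
  refine LinearMap.ext fun ψ => ?_
  funext U
  simp only [Module.End.mul_apply, LinearMap.neg_apply, Pi.neg_apply, an_apply]
  by_cases h1 : m ∈ U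
  · simp [h1]
  by_cases h2 : m' ∈ U
  · simp [h2]
  have h3 : m' ∉ insert m U := by simp [h2, hne.symm]
  have h4 : m ∉ insert m' U := by simp [h1, hne]
  rw [if_neg h1, if_neg h3, if_neg h2, if_neg h4, sg_insert _ _ _ h1, sg_insert _ _ _ h2,
    Finset.insert_comm m' m]
  rcases lt_or_gt_of_ne hne with h | h
  · simp [h, h.not_gt]; ring
  · simp [h, h.not_gt]; ring

theorem cr_sq (m : ℕ) : cr m * cr m = 0 := by
  refine LinearMap.ext fun ψ => ?_
  funext U
  simp [cr_apply]

theorem cr_cr (m m' : ℕ) : cr m * cr m' = -(cr m' * cr m) := by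
  rcases eq_or_ne m m' with rfl | hne
  · simp [cr_sq]
  refine LinearMap.ext fun ψ => ?_
  funext U
  simp only [Module.End.mul_apply, LinearMap.neg_apply, Pi.neg_apply, cr_apply]
  by_cases h1 : m ∈ U
  swap
  · simp [h1]
  by_cases h2 : m' ∈ U
  swap
  · simp [h2]
  have h3 : m' ∈ U.erase m := by simp [h2, hne.symm]
  have h4 : m ∈ U.erase m' := by simp [h1, hne]
  rw [if_pos h1, if_pos h3, if_pos h2, if_pos h4, sg_erase _ _ _ h1, sg_erase _ _ _ h2,
    Finset.erase_right_comm]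
  rcases lt_or_gt_of_ne hne with h | h
  · simp [h, h.not_gt]; ring
  · simp [h, h.not_gt]; ring

theorem an_cr_self (m : ℕ) : an m * cr m = 1 - cr m * an m := by
  refine LinearMap.ext fun ψ => ?_
  funext U
  simp only [Module.End.mul_apply, LinearMap.sub_apply, Pi.sub_apply, Module.End.one_apply,
    an_apply, cr_apply]
  by_cases h1 : m ∈ U
  · simp only [h1, if_true]
    have : m ∉ U.erase m := by simp
    rw [if_neg this, Finset.insert_erase h1, sg_erase _ _ _ h1]
    simp only [lt_irrefl, if_false, one_mul]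
    rw [← mul_assoc, sg_sq, one_mul, sub_self]
  · simp only [h1, if_false, Finset.mem_insert, true_or, if_true, sub_zero]
    rw [Finset.erase_insert h1, sg_insert _ _ _ h1]
    simp only [lt_irrefl, if_false, one_mul]
    rw [← mul_assoc, sg_sq, one_mul]

theorem an_cr_ne (m m' : ℕ) (hne : m ≠ m') : an m * cr m' = -(cr m' * an m) := by
  refine LinearMap.ext fun ψ => ?_
  funext U
  simp only [Module.End.mul_apply, LinearMap.neg_apply, Pi.neg_apply, an_apply, cr_apply]
  by_cases h1 : m ∈ U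
  · have : m ∈ U.erase m' := by simp [h1, hne]
    simp [h1, hne]
  by_cases h2 : m' ∈ U
  swap
  · have : m' ∉ insert m U := by simp [h2, hne.symm]
    simp [h2, hne.symm]
  have h3 : m' ∈ insert m U := by simp [h2]
  have h4 : m ∉ U.erase m' := by simp [h1]
  rw [if_neg h1, if_pos h3, if_pos h2, if_neg h4, sg_insert _ _ _ h1, sg_erase _ _ _ h2]
  have h5 : (insert m U).erase m' = insert m (U.erase m') := by
    rw [Finset.erase_insert_of_ne hne]
  rw [h5]
  rcases lt_or_gt_of_ne hne with h | h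
  · simp [h, h.not_gt]; ring
  · simp [h, h.not_gt]; ring

/-- canonical anticommutation relation -/
theorem an_cr (m m' : ℕ) : an m * cr m' = (if m = m' then 1 else 0) - cr m' * an m := by
  split_ifs with h
  · subst h; rw [an_cr_self]
  · rw [an_cr_ne _ _ h]; simp

/-! ### shift operators -/

theorem cr_an_succ (k : ℕ) (ψ : Fk) (U : Finset ℕ) :
    cr k (an (k + 1) ψ) U =
      if k ∈ U ∧ k + 1 ∉ U then ψ (insert (k + 1) (U.erase k)) else 0 := by
  simp only [cr_apply, an_apply]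
  by_cases h1 : k ∈ U
  swap
  · simp [h1]
  by_cases h2 : k + 1 ∈ U
  · simp [h1, h2]
  have h3 : k + 1 ∉ U.erase k := by simp [h2]
  rw [if_pos h1, if_neg h3, if_pos ⟨h1, h2⟩, ← mul_assoc]
  have h4 : sg (k + 1) (U.erase k) = sg k U := by
    unfold sg
    congr 2
    ext x
    simp only [mem_filter, mem_erase]
    constructor
    · rintro ⟨⟨a, b⟩, c⟩; exact ⟨b, by omega⟩
    · rintro ⟨a, b⟩; exact ⟨⟨by omega, a⟩, by omega⟩
  rw [h4, sg_sq, one_mul]

theorem cr_succ_an (k : ℕ) (ψ : Fk) (U : Finset ℕ) :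
    cr (k + 1) (an k ψ) U =
      if k + 1 ∈ U ∧ k ∉ U then ψ (insert k (U.erase (k + 1))) else 0 := by
  simp only [cr_apply, an_apply]
  by_cases h1 : k + 1 ∈ U
  swap
  · simp [h1]
  by_cases h2 : k ∈ U
  · simp [h1, h2]
  have h3 : k ∉ U.erase (k + 1) := by simp [h2]
  rw [if_pos h1, if_neg h3, if_pos ⟨h1, h2⟩, ← mul_assoc]
  have h4 : sg k (U.erase (k + 1)) = sg (k + 1) U := by
    unfold sg
    congr 2
    ext x
    simp only [mem_filter, mem_erase]
    constructor
    · rintro ⟨⟨a, b⟩, c⟩; exact ⟨b, by omega⟩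
    · rintro ⟨a, b⟩
      have : x ≠ k := by rintro rfl; exact h2 a
      exact ⟨⟨by omega, a⟩, by omega⟩
  rw [h4, sg_sq, one_mul]

theorem El_eq_sum (ψ : Fk) (U : Finset ℕ) (N : ℕ) (hN : ∀ x ∈ U, x < N) :
    El ψ U = (∑ k ∈ range N, ((k : ℝ) + 1) • (cr k * an (k + 1))) ψ U := by
  rw [LinearMap.sum_apply, Finset.sum_apply]
  simp only [LinearMap.smul_apply, Pi.smul_apply, Module.End.mul_apply, smul_eq_mul, cr_an_succ,
    mul_ite, mul_zero, El_apply]
  rw [← Finset.sum_filter]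
  have e : ∑ m ∈ U, (if m + 1 ∈ U then 0 else ((m : ℝ) + 1) * ψ (insert (m + 1) (U.erase m))) =
      ∑ m ∈ U.filter (fun m => m + 1 ∉ U), ((m : ℝ) + 1) * ψ (insert (m + 1) (U.erase m)) := by
    rw [Finset.sum_filter]
    exact Finset.sum_congr rfl fun m _ => by split_ifs <;> simp_all
  rw [e]
  refine Finset.sum_congr ?_ (fun _ _ => rfl)
  ext x
  simp only [mem_filter, mem_range]
  constructor
  · rintro ⟨a, b⟩; exact ⟨hN x a, a, b⟩
  · rintro ⟨a, b, c⟩; exact ⟨b, c⟩

theorem Fl_eq_sum (Q : ℕ) (ψ : Fk) (U : Finset ℕ) (N : ℕ) (hN : ∀ x ∈ U, x < N + 1) :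
    Fl Q ψ U = (∑ k ∈ range N, ((Q : ℝ) - k) • (cr (k + 1) * an k)) ψ U := by
  rw [LinearMap.sum_apply, Finset.sum_apply]
  simp only [LinearMap.smul_apply, Pi.smul_apply, Module.End.mul_apply, smul_eq_mul, cr_succ_an,
    mul_ite, mul_zero, Fl_apply]
  rw [← Finset.sum_filter]
  have e : ∑ m ∈ U, (if m = 0 ∨ m - 1 ∈ U then 0 else
        ((Q : ℝ) - m + 1) * ψ (insert (m - 1) (U.erase m))) =
      ∑ m ∈ U.filter (fun m => 1 ≤ m ∧ m - 1 ∉ U),
        ((Q : ℝ) - m + 1) * ψ (insert (m - 1) (U.erase m)) := by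
    rw [Finset.sum_filter]
    refine Finset.sum_congr rfl fun m _ => ?_
    by_cases h0 : m = 0
    · simp [h0]
    · by_cases h1 : m - 1 ∈ U
      · simp [h0, h1]
      · rw [if_neg (by simp [h0, h1]), if_pos ⟨by omega, h1⟩]
  rw [e]
  refine Finset.sum_bij' (fun m _ => m - 1) (fun k _ => k + 1) ?_ ?_ ?_ ?_ ?_
  · intro m hm
    simp only [mem_filter, mem_range] at hm ⊢
    have := hN m hm.1
    have h1 : m - 1 + 1 = m := by omega
    rw [h1]
    exact ⟨by omega, hm.1, hm.2.2⟩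
  · intro k hk
    simp only [mem_filter, mem_range] at hk ⊢
    exact ⟨hk.2.1, by omega, by simpa using hk.2.2⟩
  · intro m hm
    simp only [mem_filter] at hm
    omega
  · intro k hk
    simp
  · intro m hm
    simp only [mem_filter] at hm
    have h1 : m - 1 + 1 = m := by omega
    rw [h1]
    congr 1
    have : ((m - 1 : ℕ) : ℝ) = (m : ℝ) - 1 := by
      rw [Nat.cast_sub hm.2.1]; simp
    rw [this]; ring

/-- a strict upper bound of `U` and `m` -/
theorem exists_bound (U : Finset ℕ) (m : ℕ) : ∃ N, m + 1 < N ∧ ∀ x ∈ U, x < N := by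
  refine ⟨U.sup id + m + 2, by omega, ?_⟩
  intro x hx
  have : x ≤ U.sup id := Finset.le_sup (f := id) hx
  omega

theorem an_congr (m : ℕ) (φ ψ : Fk) (U : Finset ℕ)
    (h : m ∉ U → φ (insert m U) = ψ (insert m U)) : an m φ U = an m ψ U := by
  simp only [an_apply]
  split_ifs with h1
  · rfl
  · rw [h h1]

theorem an_mul_cr_mul_an (m k j : ℕ) :
    an m * (cr k * an j) = (cr k * an j) * an m + (if m = k then an j else 0) := by
  rw [← mul_assoc, an_cr, sub_mul, mul_assoc, mul_assoc, an_an m j, op_mul_neg, op_sub_neg,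
    add_comm]
  split_ifs <;> simp

theorem an_El (m : ℕ) : an m * El = El * an m + ((m : ℝ) + 1) • an (m + 1) := by
  refine LinearMap.ext fun ψ => ?_
  funext U
  obtain ⟨N, hN, hU⟩ := exists_bound U m
  have e1 : (an m * El) ψ U =
      (an m * ∑ k ∈ range N, ((k : ℝ) + 1) • (cr k * an (k + 1))) ψ U := by
    refine an_congr _ _ _ _ fun _ => ?_
    refine El_eq_sum ψ (insert m U) N ?_
    intro x hx
    rcases Finset.mem_insert.1 hx with rfl | hx
    · omega
    · exact hU x hx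
  have e2 : an m * ∑ k ∈ range N, ((k : ℝ) + 1) • (cr k * an (k + 1)) =
      (∑ k ∈ range N, ((k : ℝ) + 1) • (cr k * an (k + 1))) * an m +
        ((m : ℝ) + 1) • an (m + 1) := by
    rw [Finset.mul_sum, Finset.sum_mul]
    have e3 : ∀ k ∈ range N, an m * (((k : ℝ) + 1) • (cr k * an (k + 1))) =
        (((k : ℝ) + 1) • (cr k * an (k + 1))) * an m +
          (if k = m then ((m : ℝ) + 1) • an (m + 1) else 0) := by
      intro k _
      rw [mul_smul_comm, an_mul_cr_mul_an, smul_add, smul_mul_assoc]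
      rcases eq_or_ne m k with rfl | h
      · simp
      · simp [h, h.symm]
    rw [Finset.sum_congr rfl e3, Finset.sum_add_distrib, Finset.sum_ite_eq' (range N) m,
      if_pos (by simp; omega)]
  rw [e1, e2]
  simp only [LinearMap.add_apply, Pi.add_apply]
  rw [Module.End.mul_apply, Module.End.mul_apply, ← El_eq_sum (an m ψ) U N hU]

theorem an_Fl_succ (Q m : ℕ) :
    an (m + 1) * Fl Q = Fl Q * an (m + 1) + ((Q : ℝ) - m) • an m := by
  refine LinearMap.ext fun ψ => ?_
  funext U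
  obtain ⟨N, hN, hU⟩ := exists_bound U (m + 1)
  have e1 : (an (m + 1) * Fl Q) ψ U =
      (an (m + 1) * ∑ k ∈ range N, ((Q : ℝ) - k) • (cr (k + 1) * an k)) ψ U := by
    refine an_congr _ _ _ _ fun _ => ?_
    refine Fl_eq_sum Q ψ (insert (m + 1) U) N ?_
    intro x hx
    rcases Finset.mem_insert.1 hx with rfl | hx
    · omega
    · have := hU x hx; omega
  have e2 : an (m + 1) * ∑ k ∈ range N, ((Q : ℝ) - k) • (cr (k + 1) * an k) =
      (∑ k ∈ range N, ((Q : ℝ) - k) • (cr (k + 1) * an k)) * an (m + 1) +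
        ((Q : ℝ) - m) • an m := by
    rw [Finset.mul_sum, Finset.sum_mul]
    have e3 : ∀ k ∈ range N, an (m + 1) * (((Q : ℝ) - k) • (cr (k + 1) * an k)) =
        (((Q : ℝ) - k) • (cr (k + 1) * an k)) * an (m + 1) +
          (if k = m then ((Q : ℝ) - m) • an m else 0) := by
      intro k _
      rw [mul_smul_comm, an_mul_cr_mul_an, smul_add, smul_mul_assoc]
      rcases eq_or_ne m k with rfl | h
      · simp
      · simp [h, h.symm]
    rw [Finset.sum_congr rfl e3, Finset.sum_add_distrib, Finset.sum_ite_eq' (range N) m,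
      if_pos (by simp; omega)]
  rw [e1, e2]
  simp only [LinearMap.add_apply, Pi.add_apply]
  rw [Module.End.mul_apply, Module.End.mul_apply,
    ← Fl_eq_sum Q (an (m + 1) ψ) U N (fun x hx => by have := hU x hx; omega)]

theorem an_Fl_zero (Q : ℕ) : an 0 * Fl Q = Fl Q * an 0 := by
  refine LinearMap.ext fun ψ => ?_
  funext U
  obtain ⟨N, hN, hU⟩ := exists_bound U 0
  have e1 : (an 0 * Fl Q) ψ U =
      (an 0 * ∑ k ∈ range N, ((Q : ℝ) - k) • (cr (k + 1) * an k)) ψ U := by
    refine an_congr _ _ _ _ fun _ => ?_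
    refine Fl_eq_sum Q ψ (insert 0 U) N ?_
    intro x hx
    rcases Finset.mem_insert.1 hx with rfl | hx
    · omega
    · have := hU x hx; omega
  have e2 : an 0 * ∑ k ∈ range N, ((Q : ℝ) - k) • (cr (k + 1) * an k) =
      (∑ k ∈ range N, ((Q : ℝ) - k) • (cr (k + 1) * an k)) * an 0 := by
    rw [Finset.mul_sum, Finset.sum_mul]
    refine Finset.sum_congr rfl fun k _ => ?_
    rw [mul_smul_comm, an_mul_cr_mul_an, smul_add, smul_mul_assoc]
    simp
  rw [e1, e2, Module.End.mul_apply, Module.End.mul_apply,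
    ← Fl_eq_sum Q (an 0 ψ) U N (fun x hx => by have := hU x hx; omega)]

/-- uniform form of the two previous lemmas -/
theorem an_Fl (Q m : ℕ) :
    an m * Fl Q = Fl Q * an m + (if m = 0 then 0 else ((Q : ℝ) - m + 1) • an (m - 1)) := by
  rcases Nat.eq_zero_or_pos m with rfl | h
  · simp [an_Fl_zero]
  · obtain ⟨k, rfl⟩ : ∃ k, m = k + 1 := ⟨m - 1, by omega⟩
    rw [an_Fl_succ, if_neg (by omega)]
    congr 2
    push_cast; ring

/-! ### pair annihilators -/

/-- the antisymmetric sum over all ordered pairs, equal to `2 bh K` -/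
noncomputable def bb (s : ℕ) : Op :=
  ∑ p ∈ antidiagonal s, ((p.2 : ℝ) - p.1) • (an p.2 * an p.1)

theorem two_bh (K : ℕ) : (2 : ℝ) • bh K = bb (K + 1) := by
  have h1 : bb (K + 1) =
      ∑ p ∈ (antidiagonal (K + 1)).filter (fun p => p.1 < p.2),
        ((p.2 : ℝ) - p.1) • (an p.2 * an p.1) +
      ∑ p ∈ (antidiagonal (K + 1)).filter (fun p => ¬ p.1 < p.2),
        ((p.2 : ℝ) - p.1) • (an p.2 * an p.1) := by
    rw [bb, Finset.sum_filter_add_sum_filter_not]
  have h2 : ∑ p ∈ (antidiagonal (K + 1)).filter (fun p => ¬ p.1 < p.2),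
        ((p.2 : ℝ) - p.1) • (an p.2 * an p.1) =
      ∑ p ∈ (antidiagonal (K + 1)).filter (fun p => p.2 < p.1),
        ((p.2 : ℝ) - p.1) • (an p.2 * an p.1) := by
    symm
    refine Finset.sum_subset ?_ ?_
    · intro p hp
      simp only [mem_filter] at hp ⊢
      exact ⟨hp.1, by omega⟩
    · intro p hp hn
      simp only [mem_filter] at hp hn
      have : p.1 = p.2 := by
        by_contra hne
        exact hn ⟨hp.1, by omega⟩
      rw [this]; simp
  have h3 : ∑ p ∈ (antidiagonal (K + 1)).filter (fun p => p.2 < p.1),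
        ((p.2 : ℝ) - p.1) • (an p.2 * an p.1) =
      ∑ p ∈ (antidiagonal (K + 1)).filter (fun p => p.1 < p.2),
        ((p.2 : ℝ) - p.1) • (an p.2 * an p.1) := by
    refine Finset.sum_bij' (fun p _ => p.swap) (fun p _ => p.swap) ?_ ?_ ?_ ?_ ?_
    · intro p hp
      simp only [mem_filter, HasAntidiagonal.mem_antidiagonal, Prod.fst_swap,
        Prod.snd_swap] at hp ⊢
      exact ⟨by omega, hp.2⟩
    · intro p hp
      simp only [mem_filter, HasAntidiagonal.mem_antidiagonal, Prod.fst_swap,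
        Prod.snd_swap] at hp ⊢
      exact ⟨by omega, hp.2⟩
    · intro p _; simp
    · intro p _; simp
    · intro p _
      rw [Prod.fst_swap, Prod.snd_swap, an_an p.1 p.2, smul_neg, ← neg_smul]
      congr 1; ring
  have h4 : ∑ p ∈ (antidiagonal (K + 1)).filter (fun p => p.1 < p.2),
        ((p.2 : ℝ) - p.1) • (an p.2 * an p.1) = bh K := by
    rw [bh]
    refine Finset.sum_bij' (fun p _ => p.1) (fun a _ => (a, K + 1 - a)) ?_ ?_ ?_ ?_ ?_
    · intro p hp
      simp only [mem_filter, HasAntidiagonal.mem_antidiagonal, mem_range] at hp ⊢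
      omega
    · intro p hp
      simp only [mem_filter, HasAntidiagonal.mem_antidiagonal, mem_range] at hp ⊢
      omega
    · intro p hp
      simp only [mem_filter, HasAntidiagonal.mem_antidiagonal] at hp
      ext
      · rfl
      · simp; omega
    · intro p _; rfl
    · intro p hp
      simp only [mem_filter, HasAntidiagonal.mem_antidiagonal] at hp
      have : K + 1 - p.1 = p.2 := by omega
      rw [this]
  rw [h1, h2, h3, h4, two_smul]

theorem bh_eq (K : ℕ) : bh K = (1 / 2 : ℝ) • bb (K + 1) := by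
  rw [← two_bh, smul_smul]; norm_num

theorem bb_El (s : ℕ) : bb s * El = El * bb s + (s : ℝ) • bb (s + 1) := by
  have e1 : ∀ p : ℕ × ℕ, (an p.2 * an p.1) * El = El * (an p.2 * an p.1) +
      (((p.2 : ℝ) + 1) • (an (p.2 + 1) * an p.1) +
        ((p.1 : ℝ) + 1) • (an p.2 * an (p.1 + 1))) := by
    intro p
    rw [mul_assoc, an_El, mul_add, ← mul_assoc, an_El, add_mul, mul_smul_comm, smul_mul_assoc,
      mul_assoc]
    abel
  have e2 : bb s * El = El * bb s +
      ∑ p ∈ antidiagonal s, (((p.2 : ℝ) - p.1) * ((p.2 : ℝ) + 1)) • (an (p.2 + 1) * an p.1) +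
      ∑ p ∈ antidiagonal s, (((p.2 : ℝ) - p.1) * ((p.1 : ℝ) + 1)) •
        (an p.2 * an (p.1 + 1)) := by
    rw [bb, Finset.sum_mul, Finset.mul_sum, ← Finset.sum_add_distrib, ← Finset.sum_add_distrib]
    refine Finset.sum_congr rfl fun p _ => ?_
    rw [smul_mul_assoc, e1, smul_add, smul_add, smul_smul, smul_smul, mul_smul_comm, add_assoc]
  have e3 : ∑ p ∈ antidiagonal s, (((p.2 : ℝ) - p.1) * ((p.2 : ℝ) + 1)) •
        (an (p.2 + 1) * an p.1) =
      ∑ p ∈ antidiagonal (s + 1), (((p.2 : ℝ) - 1 - p.1) * (p.2 : ℝ)) •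
        (an p.2 * an p.1) := by
    rw [Finset.Nat.sum_antidiagonal_succ']
    simp
  have e4 : ∑ p ∈ antidiagonal s, (((p.2 : ℝ) - p.1) * ((p.1 : ℝ) + 1)) •
        (an p.2 * an (p.1 + 1)) =
      ∑ p ∈ antidiagonal (s + 1), (((p.2 : ℝ) - (p.1 - 1)) * (p.1 : ℝ)) •
        (an p.2 * an p.1) := by
    rw [Finset.Nat.sum_antidiagonal_succ]
    simp
  rw [e2, e3, e4, add_assoc, ← Finset.sum_add_distrib, bb, bb, Finset.smul_sum]
  congr 1
  refine Finset.sum_congr rfl fun p hp => ?_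
  rw [← add_smul, smul_smul]
  congr 1
  have hs : (p.1 : ℝ) + p.2 = s + 1 := by
    have := HasAntidiagonal.mem_antidiagonal.1 hp
    exact_mod_cast congrArg (Nat.cast : ℕ → ℝ) this
  have hs' : (s : ℝ) = p.1 + p.2 - 1 := by rw [hs]; ring
  rw [hs']; ring

theorem bh_El (K : ℕ) : bh K * El = El * bh K + ((K : ℝ) + 1) • bh (K + 1) := by
  rw [bh_eq, bh_eq, smul_mul_assoc, bb_El, smul_add, mul_smul_comm]
  congr 1
  rw [smul_smul, smul_smul]
  congr 1
  push_cast; ring

theorem bb_Fl_succ (Q s : ℕ) :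
    bb (s + 1) * Fl Q = Fl Q * bb (s + 1) + (2 * (Q : ℝ) - s - 1) • bb s := by
  have e1 : ∀ p : ℕ × ℕ, (an p.2 * an p.1) * Fl Q = Fl Q * (an p.2 * an p.1) +
      ((if p.2 = 0 then 0 else ((Q : ℝ) - p.2 + 1) • (an (p.2 - 1) * an p.1)) +
        (if p.1 = 0 then 0 else ((Q : ℝ) - p.1 + 1) • (an p.2 * an (p.1 - 1)))) := by
    intro p
    rw [mul_assoc, an_Fl, mul_add, ← mul_assoc, an_Fl, add_mul, mul_assoc]
    split_ifs <;> (simp; try abel)
  have e2 : bb (s + 1) * Fl Q = Fl Q * bb (s + 1) +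
      ∑ p ∈ antidiagonal (s + 1), (((p.2 : ℝ) - p.1)) •
        (if p.2 = 0 then 0 else ((Q : ℝ) - p.2 + 1) • (an (p.2 - 1) * an p.1)) +
      ∑ p ∈ antidiagonal (s + 1), (((p.2 : ℝ) - p.1)) •
        (if p.1 = 0 then 0 else ((Q : ℝ) - p.1 + 1) • (an p.2 * an (p.1 - 1))) := by
    rw [bb, Finset.sum_mul, Finset.mul_sum, ← Finset.sum_add_distrib, ← Finset.sum_add_distrib]
    refine Finset.sum_congr rfl fun p _ => ?_
    rw [smul_mul_assoc, e1, smul_add, smul_add, mul_smul_comm, add_assoc]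
  have e3 : ∑ p ∈ antidiagonal (s + 1), (((p.2 : ℝ) - p.1)) •
        (if p.2 = 0 then 0 else ((Q : ℝ) - p.2 + 1) • (an (p.2 - 1) * an p.1)) =
      ∑ p ∈ antidiagonal s, (((p.2 : ℝ) + 1 - p.1) * ((Q : ℝ) - p.2)) •
        (an p.2 * an p.1) := by
    rw [Finset.Nat.sum_antidiagonal_succ']
    simp only [smul_smul, add_eq_zero, one_ne_zero, and_false, if_false, if_true, smul_zero,
      zero_add, Nat.add_sub_cancel]
    refine Finset.sum_congr rfl fun p _ => ?_
    congr 1
    push_cast; ring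
  have e4 : ∑ p ∈ antidiagonal (s + 1), (((p.2 : ℝ) - p.1)) •
        (if p.1 = 0 then 0 else ((Q : ℝ) - p.1 + 1) • (an p.2 * an (p.1 - 1))) =
      ∑ p ∈ antidiagonal s, (((p.2 : ℝ) - (p.1 + 1)) * ((Q : ℝ) - p.1)) •
        (an p.2 * an p.1) := by
    rw [Finset.Nat.sum_antidiagonal_succ]
    simp only [smul_smul, add_eq_zero, one_ne_zero, and_false, if_false, if_true, smul_zero,
      zero_add, Nat.add_sub_cancel]
    refine Finset.sum_congr rfl fun p _ => ?_
    congr 1
    push_cast; ring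
  rw [e2, e3, e4, add_assoc, ← Finset.sum_add_distrib]
  congr 1
  rw [bb, Finset.smul_sum]
  refine Finset.sum_congr rfl fun p hp => ?_
  rw [← add_smul, smul_smul]
  congr 1
  have hs : (p.1 : ℝ) + p.2 = s := by
    have := HasAntidiagonal.mem_antidiagonal.1 hp
    exact_mod_cast congrArg (Nat.cast : ℕ → ℝ) this
  rw [← hs]; ring

theorem bb_zero : bb 0 = 0 := by simp [bb]

theorem bb_one_eq : bb 1 = (2 : ℝ) • bh 0 := (two_bh 0).symm

theorem bh_Fl_succ (Q K : ℕ) :
    bh (K + 1) * Fl Q = Fl Q * bh (K + 1) + (2 * (Q : ℝ) - K - 2) • bh K := by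
  rw [bh_eq, bh_eq, smul_mul_assoc, bb_Fl_succ, smul_add, mul_smul_comm]
  congr 1
  rw [smul_smul, smul_smul]
  congr 1
  push_cast; ring

theorem bh_Fl_zero (Q : ℕ) : bh 0 * Fl Q = Fl Q * bh 0 := by
  rw [bh_eq, smul_mul_assoc, bb_Fl_succ, bb_zero, mul_smul_comm]
  simp

/-- annihilators commute with products of two annihilators -/
theorem an_bb (m s : ℕ) : an m * bb s = bb s * an m := by
  rw [bb, Finset.mul_sum, Finset.sum_mul]
  refine Finset.sum_congr rfl fun p _ => ?_
  have h : an m * (an p.2 * an p.1) = an p.2 * an p.1 * an m := by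
    calc an m * (an p.2 * an p.1) = (an m * an p.2) * an p.1 := by rw [mul_assoc]
      _ = -(an p.2 * (an m * an p.1)) := by rw [an_an m p.2, op_neg_mul, mul_assoc]
      _ = an p.2 * an p.1 * an m := by rw [an_an m p.1, op_mul_neg, op_neg_neg, mul_assoc]
  rw [mul_smul_comm, smul_mul_assoc, h]

theorem an_bh (m K : ℕ) : an m * bh K = bh K * an m := by
  rw [bh_eq, mul_smul_comm, an_bb, smul_mul_assoc]

theorem bh_bh (K K' : ℕ) : bh K * bh K' = bh K' * bh K := by
  have h : ∀ s, bb s * bh K' = bh K' * bb s := by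
    intro s
    rw [bb, Finset.sum_mul, Finset.mul_sum]
    refine Finset.sum_congr rfl fun p _ => ?_
    rw [smul_mul_assoc, mul_smul_comm, mul_assoc, an_bh, ← mul_assoc, an_bh, mul_assoc]
  rw [bh_eq K, smul_mul_assoc, h, mul_smul_comm]

theorem bh_zero_eq : bh 0 = an 1 * an 0 := by
  rw [bh]
  have : (range (0 + 1)).filter (fun a => a < 0 + 1 - a) = {0} := by decide
  rw [this]
  simp

end FockA

end Vale.Agent.P359
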