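import Vale.Agent.P359.FockAlg

/-!
# P359: adjoints for the inner product at level `Q`, invariant subspaces
-/

open Finset

namespace Vale.Agent.P359

namespace FockA

theorem ip_comm (Q : ℕ) (φ ψ : Fk) : ip Q φ ψ = ip Q ψ φ := by
  unfold ip
  exact Finset.sum_congr rfl fun U _ => by ring

theorem ip_add_right (Q : ℕ) (φ ψ χ : Fk) : ip Q φ (ψ + χ) = ip Q φ ψ + ip Q φ χ := by
  unfold ip
  rw [← Finset.sum_add_distrib]
  exact Finset.sum_congr rfl fun U _ => by simp only [Pi.add_apply]; ring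

theorem ip_smul_right (Q : ℕ) (c : ℝ) (φ ψ : Fk) : ip Q φ (c • ψ) = c * ip Q φ ψ := by
  unfold ip
  rw [Finset.mul_sum]
  exact Finset.sum_congr rfl fun U _ => by simp only [Pi.smul_apply, smul_eq_mul]; ring

theorem ip_add_left (Q : ℕ) (φ ψ χ : Fk) : ip Q (φ + ψ) χ = ip Q φ χ + ip Q ψ χ := by
  rw [ip_comm, ip_add_right, ip_comm Q χ φ, ip_comm Q χ ψ]

theorem ip_smul_left (Q : ℕ) (c : ℝ) (φ ψ : Fk) : ip Q (c • φ) ψ = c * ip Q φ ψ := by
  rw [ip_comm, ip_smul_right, ip_comm]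

theorem ip_zero_right (Q : ℕ) (φ : Fk) : ip Q φ 0 = 0 := by simp [ip]

theorem ip_zero_left (Q : ℕ) (φ : Fk) : ip Q 0 φ = 0 := by simp [ip]

theorem ip_neg_right (Q : ℕ) (φ ψ : Fk) : ip Q φ (-ψ) = - ip Q φ ψ := by
  have := ip_smul_right Q (-1) φ ψ
  rwa [neg_one_smul, neg_one_mul] at this

theorem ip_neg_left (Q : ℕ) (φ ψ : Fk) : ip Q (-φ) ψ = - ip Q φ ψ := by
  rw [ip_comm, ip_neg_right, ip_comm]

theorem ip_sub_right (Q : ℕ) (φ ψ χ : Fk) : ip Q φ (ψ - χ) = ip Q φ ψ - ip Q φ χ := by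
  rw [sub_eq_add_neg, ip_add_right, ip_neg_right, sub_eq_add_neg]

theorem ip_sub_left (Q : ℕ) (φ ψ χ : Fk) : ip Q (φ - ψ) χ = ip Q φ χ - ip Q ψ χ := by
  rw [sub_eq_add_neg, ip_add_left, ip_neg_left, sub_eq_add_neg]

theorem ip_sum_right {ι : Type*} (Q : ℕ) (φ : Fk) (s : Finset ι) (f : ι → Fk) :
    ip Q φ (∑ i ∈ s, f i) = ∑ i ∈ s, ip Q φ (f i) := by
  classical
  induction s using Finset.induction_on with
  | empty => simp [ip_zero_right]
  | insert a t ha ih => rw [Finset.sum_insert ha, Finset.sum_insert ha, ip_add_right, ih]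

theorem ip_sum_left {ι : Type*} (Q : ℕ) (φ : Fk) (s : Finset ι) (f : ι → Fk) :
    ip Q (∑ i ∈ s, f i) φ = ∑ i ∈ s, ip Q (f i) φ := by
  rw [ip_comm, ip_sum_right]
  exact Finset.sum_congr rfl fun i _ => ip_comm _ _ _

/-- only the values on subsets of `range (Q + 1)` matter -/
theorem ip_congr (Q : ℕ) {φ φ' ψ ψ' : Fk} (h1 : ∀ U, U ⊆ range (Q + 1) → φ U = φ' U)
    (h2 : ∀ U, U ⊆ range (Q + 1) → ψ U = ψ' U) : ip Q φ ψ = ip Q φ' ψ' := by
  unfold ip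
  refine Finset.sum_congr rfl fun U hU => ?_
  rw [h1 U (mem_powerset.1 hU), h2 U (mem_powerset.1 hU)]

theorem wt_pos (Q : ℕ) (U : Finset ℕ) (hU : U ⊆ range (Q + 1)) : 0 < wt Q U := by
  unfold wt
  refine Finset.prod_pos fun a ha => ?_
  have h1 : a < Q + 1 := mem_range.1 (hU ha)
  have h2 : 0 < Q.choose a := Nat.choose_pos (by omega)
  positivity

theorem wt_nonneg (Q : ℕ) (U : Finset ℕ) : 0 ≤ wt Q U :=
  Finset.prod_nonneg fun a _ => by positivity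

theorem ip_self_nonneg (Q : ℕ) (φ : Fk) : 0 ≤ ip Q φ φ :=
  Finset.sum_nonneg fun U _ => mul_nonneg (wt_nonneg Q U) (mul_self_nonneg _)

theorem wt_insert (Q m : ℕ) (U : Finset ℕ) (h : m ∉ U) :
    wt Q (insert m U) = ((Q.choose m : ℝ))⁻¹ * wt Q U := by
  unfold wt
  rw [Finset.prod_insert h]

theorem ip_an (Q m : ℕ) (hm : m ≤ Q) (φ ψ : Fk) :
    ip Q φ (an m ψ) = (Q.choose m : ℝ) * ip Q (cr m φ) ψ := by
  unfold ip
  have hc : ((Q.choose m : ℕ) : ℝ) ≠ 0 := by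
    exact_mod_cast (Nat.choose_pos hm).ne'
  have h1 : ∑ U ∈ (range (Q + 1)).powerset, wt Q U * (φ U * an m ψ U) =
      ∑ U ∈ (range (Q + 1)).powerset.filter (fun U => m ∉ U),
        wt Q U * (φ U * (sg m U * ψ (insert m U))) := by
    rw [Finset.sum_filter]
    refine Finset.sum_congr rfl fun U _ => ?_
    rw [an_apply]
    by_cases h : m ∈ U <;> simp [h]
  have h2 : ∑ U ∈ (range (Q + 1)).powerset, wt Q U * (cr m φ U * ψ U) =
      ∑ U ∈ (range (Q + 1)).powerset.filter (fun U => m ∈ U),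
        wt Q U * ((sg m U * φ (U.erase m)) * ψ U) := by
    rw [Finset.sum_filter]
    refine Finset.sum_congr rfl fun U _ => ?_
    rw [cr_apply]
    by_cases h : m ∈ U <;> simp [h]
  rw [h1, h2, Finset.mul_sum]
  refine Finset.sum_bij' (fun U _ => insert m U) (fun U _ => U.erase m) ?_ ?_ ?_ ?_ ?_
  · intro U hU
    simp only [mem_filter, mem_powerset] at hU ⊢
    refine ⟨?_, Finset.mem_insert_self _ _⟩
    intro x hx
    rcases Finset.mem_insert.1 hx with rfl | hx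
    · exact mem_range.2 (by omega)
    · exact hU.1 hx
  · intro U hU
    simp only [mem_filter, mem_powerset] at hU ⊢
    exact ⟨(Finset.erase_subset _ _).trans hU.1, by simp⟩
  · intro U hU
    simp only [mem_filter] at hU
    exact Finset.erase_insert hU.2
  · intro U hU
    simp only [mem_filter] at hU
    exact Finset.insert_erase hU.2
  · intro U hU
    simp only [mem_filter] at hU
    rw [wt_insert _ _ _ hU.2, Finset.erase_insert hU.2, sg_insert _ _ _ hU.2]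
    simp only [lt_irrefl, if_false, one_mul]
    field_simp

theorem ip_an' (Q m : ℕ) (hm : m ≤ Q) (φ ψ : Fk) :
    ip Q (an m φ) ψ = (Q.choose m : ℝ) * ip Q φ (cr m ψ) := by
  rw [ip_comm, ip_an Q m hm, ip_comm]

theorem ip_cr (Q m : ℕ) (hm : m ≤ Q) (φ ψ : Fk) :
    ip Q φ (cr m ψ) = ((Q.choose m : ℝ))⁻¹ * ip Q (an m φ) ψ := by
  have hc : ((Q.choose m : ℕ) : ℝ) ≠ 0 := by
    exact_mod_cast (Nat.choose_pos hm).ne'
  rw [ip_an' Q m hm, inv_mul_cancel_left₀ hc]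

theorem ip_cr' (Q m : ℕ) (hm : m ≤ Q) (φ ψ : Fk) :
    ip Q (cr m φ) ψ = ((Q.choose m : ℝ))⁻¹ * ip Q φ (an m ψ) := by
  rw [ip_comm, ip_cr Q m hm, ip_comm]

/-! ### supports -/

theorem mem_Sup {Q : ℕ} {ψ : Fk} : ψ ∈ Sup Q ↔ ∀ U, ¬ U ⊆ range (Q + 1) → ψ U = 0 := Iff.rfl

theorem mem_Sec {Q N : ℕ} {ψ : Fk} :
    ψ ∈ Sec Q N ↔ ∀ U, ¬ (U ⊆ range (Q + 1) ∧ U.card = N) → ψ U = 0 := Iff.rfl

theorem Sec_le_Sup (Q N : ℕ) : Sec Q N ≤ Sup Q := fun _ hψ U hU => hψ U fun h => hU h.1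

theorem an_mem_Sup {Q : ℕ} (m : ℕ) {ψ : Fk} (hψ : ψ ∈ Sup Q) : an m ψ ∈ Sup Q := by
  intro U hU
  rw [an_apply]
  split_ifs with h
  · rfl
  · rw [hψ (insert m U) fun h1 => hU ((Finset.subset_insert _ _).trans h1), mul_zero]

theorem cr_mem_Sup {Q m : ℕ} (hm : m ≤ Q) {ψ : Fk} (hψ : ψ ∈ Sup Q) : cr m ψ ∈ Sup Q := by
  intro U hU
  rw [cr_apply]
  split_ifs with h
  · rw [hψ (U.erase m) fun h1 => hU ?_, mul_zero]
    intro x hx
    by_cases h2 : x = m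
    · exact mem_range.2 (by omega)
    · exact h1 (Finset.mem_erase.2 ⟨h2, hx⟩)
  · rfl

theorem an_eq_zero_of_lt {Q m : ℕ} (hm : Q < m) {ψ : Fk} (hψ : ψ ∈ Sup Q) : an m ψ = 0 := by
  funext U
  rw [an_apply]
  split_ifs with h
  · rfl
  · rw [hψ (insert m U) fun h1 => ?_, mul_zero]; · rfl
    have := mem_range.1 (h1 (Finset.mem_insert_self m U))
    omega

theorem an_mem_Sec {Q N : ℕ} (m : ℕ) {ψ : Fk} (hψ : ψ ∈ Sec Q (N + 1)) : an m ψ ∈ Sec Q N := by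
  intro U hU
  rw [an_apply]
  split_ifs with h
  · rfl
  · rw [hψ (insert m U) fun h1 => hU ⟨(Finset.subset_insert _ _).trans h1.1, ?_⟩, mul_zero]
    have := h1.2
    rw [Finset.card_insert_of_notMem h] at this
    omega

theorem an_mem_Sec_zero {Q : ℕ} (m : ℕ) {ψ : Fk} (hψ : ψ ∈ Sec Q 0) : an m ψ = 0 := by
  funext U
  rw [an_apply]
  split_ifs with h
  · rfl
  · rw [hψ (insert m U) fun h1 => ?_, mul_zero]; · rfl
    have := h1.2
    rw [Finset.card_insert_of_notMem h] at this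
    omega

theorem cr_mem_Sec {Q N m : ℕ} (hm : m ≤ Q) {ψ : Fk} (hψ : ψ ∈ Sec Q N) :
    cr m ψ ∈ Sec Q (N + 1) := by
  intro U hU
  rw [cr_apply]
  split_ifs with h
  · rw [hψ (U.erase m) fun h1 => hU ⟨?_, ?_⟩, mul_zero]
    · intro x hx
      by_cases h2 : x = m
      · exact mem_range.2 (by omega)
      · exact h1.1 (Finset.mem_erase.2 ⟨h2, hx⟩)
    · have := h1.2
      rw [Finset.card_erase_of_mem h] at this
      have h3 : 0 < U.card := Finset.card_pos.2 ⟨m, h⟩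
      omega
  · rfl

theorem El_mem_Sup {Q : ℕ} {ψ : Fk} (hψ : ψ ∈ Sup Q) : El ψ ∈ Sup Q := by
  intro U hU
  rw [El_apply]
  refine Finset.sum_eq_zero fun m hm => ?_
  split_ifs with h
  · rfl
  · rw [hψ _ fun h1 => hU ?_, mul_zero]
    intro x hx
    by_cases h2 : x = m
    · have := mem_range.1 (h1 (Finset.mem_insert_self _ _))
      exact mem_range.2 (by omega)
    · exact h1 (Finset.mem_insert_of_mem (Finset.mem_erase.2 ⟨h2, hx⟩))

theorem Fl_mem_Sup {Q : ℕ} {ψ : Fk} (hψ : ψ ∈ Sup Q) : Fl Q ψ ∈ Sup Q := by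
  intro U hU
  rw [Fl_apply]
  refine Finset.sum_eq_zero fun m hm => ?_
  split_ifs with h
  · rfl
  · push Not at h
    by_cases hm1 : m = Q + 1
    · subst hm1; push_cast; ring
    · rw [hψ _ fun h1 => hU ?_, mul_zero]
      intro x hx
      by_cases h2 : x = m
      · have := mem_range.1 (h1 (Finset.mem_insert_self _ _))
        exact mem_range.2 (by omega)
      · exact h1 (Finset.mem_insert_of_mem (Finset.mem_erase.2 ⟨h2, hx⟩))

theorem card_shift {U : Finset ℕ} {m k : ℕ} (hm : m ∈ U) (hk : k ∉ U) :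
    (insert k (U.erase m)).card = U.card := by
  rw [Finset.card_insert_of_notMem (fun h => hk (Finset.mem_of_mem_erase h)),
    Finset.card_erase_of_mem hm]
  have h3 : 0 < U.card := Finset.card_pos.2 ⟨m, hm⟩
  omega

theorem El_mem_Sec {Q N : ℕ} {ψ : Fk} (hψ : ψ ∈ Sec Q N) : El ψ ∈ Sec Q N := by
  intro U hU
  by_cases hU1 : U ⊆ range (Q + 1)
  · rw [El_apply]
    refine Finset.sum_eq_zero fun m hm => ?_
    split_ifs with h
    · rfl
    · rw [hψ _ fun h1 => hU ⟨hU1, ?_⟩, mul_zero]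
      rw [← h1.2, card_shift hm h]
  · exact El_mem_Sup (Sec_le_Sup Q N hψ) U hU1

theorem Fl_mem_Sec {Q N : ℕ} {ψ : Fk} (hψ : ψ ∈ Sec Q N) : Fl Q ψ ∈ Sec Q N := by
  intro U hU
  by_cases hU1 : U ⊆ range (Q + 1)
  · rw [Fl_apply]
    refine Finset.sum_eq_zero fun m hm => ?_
    split_ifs with h
    · rfl
    · push Not at h
      rw [hψ _ fun h1 => hU ⟨hU1, ?_⟩, mul_zero]
      rw [← h1.2, card_shift hm h.2]
  · exact Fl_mem_Sup (Sec_le_Sup Q N hψ) U hU1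

theorem Lz_mem_Sec {Q N : ℕ} {ψ : Fk} (hψ : ψ ∈ Sec Q N) : Lz ψ ∈ Sec Q N := by
  intro U hU
  change ((∑ m ∈ U, m : ℕ) : ℝ) * ψ U = 0
  rw [hψ U hU, mul_zero]

theorem bh_mem_Sup {Q : ℕ} (K : ℕ) {ψ : Fk} (hψ : ψ ∈ Sup Q) : bh K ψ ∈ Sup Q := by
  rw [bh, LinearMap.sum_apply]
  refine Submodule.sum_mem _ fun a _ => ?_
  rw [LinearMap.smul_apply, Module.End.mul_apply]
  exact Submodule.smul_mem _ _ (an_mem_Sup _ (an_mem_Sup _ hψ))

theorem bh_mem_Sec {Q N : ℕ} (K : ℕ) {ψ : Fk} (hψ : ψ ∈ Sec Q (N + 2)) : bh K ψ ∈ Sec Q N := by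
  rw [bh, LinearMap.sum_apply]
  refine Submodule.sum_mem _ fun a _ => ?_
  rw [LinearMap.smul_apply, Module.End.mul_apply]
  exact Submodule.smul_mem _ _ (an_mem_Sec _ (an_mem_Sec _ hψ))

theorem bh_eq_zero_of_card {Q N : ℕ} (hN : N < 2) (K : ℕ) {ψ : Fk} (hψ : ψ ∈ Sec Q N) :
    bh K ψ = 0 := by
  rw [bh, LinearMap.sum_apply]
  refine Finset.sum_eq_zero fun a _ => ?_
  rw [LinearMap.smul_apply, Module.End.mul_apply]
  have : N = 0 ∨ N = 1 := by omega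
  rcases this with rfl | rfl
  · rw [an_mem_Sec_zero a hψ, map_zero, smul_zero]
  · rw [an_mem_Sec_zero _ (an_mem_Sec a hψ), smul_zero]

theorem bh_eq_zero_of_le {Q K : ℕ} (hK : 2 * Q - 1 ≤ K) (hQ : 1 ≤ Q) {ψ : Fk} (hψ : ψ ∈ Sup Q) :
    bh K ψ = 0 := by
  rw [bh, LinearMap.sum_apply]
  refine Finset.sum_eq_zero fun a ha => ?_
  simp only [mem_filter, mem_range] at ha
  rw [LinearMap.smul_apply, Module.End.mul_apply,
    an_eq_zero_of_lt (by omega) (an_mem_Sup a hψ), smul_zero]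

/-! ### adjointness of the shifts -/

theorem ip_El (Q : ℕ) (φ : Fk) {ψ : Fk} (hψ : ψ ∈ Sup Q) :
    ip Q φ (El ψ) = ip Q (Fl Q φ) ψ := by
  have h1 : ip Q φ (El ψ) =
      ip Q φ (∑ k ∈ range (Q + 1), ((k : ℝ) + 1) • cr k (an (k + 1) ψ)) := by
    refine ip_congr Q (fun _ _ => rfl) fun U hU => ?_
    rw [El_eq_sum ψ U (Q + 1) fun x hx => mem_range.1 (hU hx), LinearMap.sum_apply]
    rfl
  have h2 : ip Q (Fl Q φ) ψ =
      ip Q (∑ k ∈ range Q, ((Q : ℝ) - k) • cr (k + 1) (an k φ)) ψ := by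
    refine ip_congr Q (fun U hU => ?_) (fun _ _ => rfl)
    rw [Fl_eq_sum Q φ U Q fun x hx => mem_range.1 (hU hx), LinearMap.sum_apply]
    rfl
  rw [h1, h2, ip_sum_right, ip_sum_left, Finset.sum_range_succ]
  have h3 : an (Q + 1) ψ = 0 := an_eq_zero_of_lt (by omega) hψ
  rw [h3, map_zero, smul_zero, ip_zero_right, add_zero]
  refine Finset.sum_congr rfl fun k hk => ?_
  have hk' : k < Q := mem_range.1 hk
  rw [ip_smul_right, ip_smul_left, ip_cr Q k hk'.le, ip_cr' Q (k + 1) hk']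
  have hc : ((Q.choose k : ℕ) : ℝ) ≠ 0 := by
    exact_mod_cast (Nat.choose_pos hk'.le).ne'
  have hc' : ((Q.choose (k + 1) : ℕ) : ℝ) ≠ 0 := by
    exact_mod_cast (Nat.choose_pos hk').ne'
  have h4 : ((Q.choose (k + 1) : ℕ) : ℝ) * ((k : ℝ) + 1) = (Q.choose k : ℝ) * ((Q : ℝ) - k) := by
    have := Nat.choose_succ_right_eq Q k
    have h5 : ((Q - k : ℕ) : ℝ) = (Q : ℝ) - k := by rw [Nat.cast_sub hk'.le]
    rw [← h5]
    exact_mod_cast this
  have h5 : ((k : ℝ) + 1) * ((Q.choose k : ℝ))⁻¹ =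
      ((Q : ℝ) - k) * ((Q.choose (k + 1) : ℝ))⁻¹ := by
    field_simp
    linear_combination h4
  rw [← mul_assoc, ← mul_assoc, h5]

theorem ip_Fl (Q : ℕ) {φ : Fk} (ψ : Fk) (hφ : φ ∈ Sup Q) :
    ip Q φ (Fl Q ψ) = ip Q (El φ) ψ := by
  rw [ip_comm, ← ip_El Q ψ hφ, ip_comm]

theorem ip_Lz (Q : ℕ) (φ ψ : Fk) : ip Q φ (Lz ψ) = ip Q (Lz φ) ψ := by
  unfold ip
  refine Finset.sum_congr rfl fun U _ => ?_
  change wt Q U * (φ U * (((∑ m ∈ U, m : ℕ) : ℝ) * ψ U)) =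
    wt Q U * (((∑ m ∈ U, m : ℕ) : ℝ) * φ U * ψ U)
  ring

end FockA

end Vale.Agent.P359
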