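import Vale.Agent.P359.Kernel
import Vale.Agent.P359.Defs

/-!
# P359: from first quantisation to occupation numbers
-/

open scoped BigOperators InnerProductSpace

namespace Vale.Agent.P359

variable {N Q : ℕ}

/-- real antisymmetric arrays -/
def RA (x : Conf N Q → ℝ) : Prop :=
  ∀ (σ : Equiv.Perm (Fin N)) (m : Conf N Q), x (m ∘ σ) = ((Equiv.Perm.sign σ : ℤ) : ℝ) * x m

/-- valid occupied sets -/
def Val (N Q : ℕ) (U : Finset ℕ) : Prop := U ⊆ Finset.range (Q + 1) ∧ U.card = N

instance (N Q : ℕ) (U : Finset ℕ) : Decidable (Val N Q U) := by unfold Val; infer_instance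

/-- sorted enumeration of an occupied set -/
def en (N Q : ℕ) (U : Finset ℕ) : Conf N Q := fun i =>
  if h : Val N Q U then ⟨U.orderEmbOfFin h.2 i, by
    have := Finset.mem_range.1 (h.1 (U.orderEmbOfFin_mem h.2 i)); omega⟩ else 0

theorem en_apply {U : Finset ℕ} (h : Val N Q U) (i : Fin N) :
    ((en N Q U i : Fin (Q + 1)) : ℕ) = U.orderEmbOfFin h.2 i := by
  unfold en
  rw [dif_pos h]

theorem en_strictMono {U : Finset ℕ} (h : Val N Q U) : StrictMono (en N Q U) := by
  intro i j hij
  rw [Fin.lt_def, en_apply h, en_apply h]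
  exact (U.orderEmbOfFin h.2).strictMono hij

theorem en_mem {U : Finset ℕ} (h : Val N Q U) (i : Fin N) :
    ((en N Q U i : Fin (Q + 1)) : ℕ) ∈ U := by
  rw [en_apply h]
  exact U.orderEmbOfFin_mem h.2 i

/-- the occupied set of a configuration -/
def occ (m : Conf N Q) : Finset ℕ := Finset.univ.image fun i => (m i : ℕ)

theorem mem_occ {m : Conf N Q} {a : ℕ} : a ∈ occ m ↔ ∃ i, (m i : ℕ) = a := by
  simp [occ]

theorem occ_val {m : Conf N Q} (hm : Function.Injective m) : Val N Q (occ m) := by
  constructor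
  · intro a ha
    rw [mem_occ] at ha
    obtain ⟨i, rfl⟩ := ha
    rw [Finset.mem_range]
    omega
  · unfold occ
    rw [Finset.card_image_of_injective _ (fun i j h => hm (Fin.ext h)), Finset.card_univ,
      Fintype.card_fin]

theorem occ_en {U : Finset ℕ} (h : Val N Q U) : occ (en N Q U) = U := by
  apply Finset.eq_of_subset_of_card_le
  · intro a ha
    rw [mem_occ] at ha
    obtain ⟨i, rfl⟩ := ha
    exact en_mem h i
  · rw [(occ_val (en_strictMono h).injective).2, h.2]

theorem occ_comp (m : Conf N Q) (σ : Equiv.Perm (Fin N)) : occ (m ∘ σ) = occ m := by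
  ext a
  rw [mem_occ, mem_occ]
  constructor
  · rintro ⟨i, hi⟩; exact ⟨σ i, hi⟩
  · rintro ⟨i, hi⟩; exact ⟨σ.symm i, by simpa using hi⟩

theorem exists_perm {m : Conf N Q} (hm : Function.Injective m) :
    ∃ σ : Equiv.Perm (Fin N), en N Q (occ m) ∘ σ = m := by
  have hv := occ_val hm
  have h1 : ∀ i, ∃ k, en N Q (occ m) k = m i := by
    intro i
    have h2 : (m i : ℕ) ∈ occ (en N Q (occ m)) := by
      rw [occ_en hv, mem_occ]; exact ⟨i, rfl⟩
    rw [mem_occ] at h2
    obtain ⟨k, hk⟩ := h2
    exact ⟨k, Fin.ext hk⟩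
  choose σ hσ using h1
  have hinj : Function.Injective σ := by
    intro i j hij
    apply hm
    rw [← hσ i, ← hσ j, hij]
  refine ⟨Equiv.ofBijective σ (Finite.injective_iff_bijective.1 hinj), ?_⟩
  funext i
  exact hσ i

theorem RA.zero_of_not_inj {x : Conf N Q → ℝ} (hx : RA x) {m : Conf N Q}
    (hm : ¬ Function.Injective m) : x m = 0 := by
  rw [Function.Injective] at hm
  push Not at hm
  obtain ⟨i, j, hij, hne⟩ := hm
  have h1 := hx (Equiv.swap i j) m
  have h2 : m ∘ Equiv.swap i j = m := by
    funext l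
    simp only [Function.comp_apply]
    rcases eq_or_ne l i with rfl | hi
    · rw [Equiv.swap_apply_left, hij]
    · rcases eq_or_ne l j with rfl | hj
      · rw [Equiv.swap_apply_right, hij]
      · rw [Equiv.swap_apply_of_ne_of_ne hi hj]
  rw [h2, Equiv.Perm.sign_swap hne] at h1
  push_cast at h1
  linarith

/-- occupied sets with `N` particles at level `Q` -/
def vals (N Q : ℕ) : Finset (Finset ℕ) := (Finset.range (Q + 1)).powersetCard N

theorem mem_vals {U : Finset ℕ} : U ∈ vals N Q ↔ Val N Q U := by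
  unfold vals Val
  rw [Finset.mem_powersetCard]

/-- sums of symmetric functions over configurations -/
theorem sum_sym (F : Conf N Q → ℝ) (hF : ∀ (σ : Equiv.Perm (Fin N)) m, F (m ∘ σ) = F m)
    (h0 : ∀ m, ¬ Function.Injective m → F m = 0) :
    ∑ m, F m = (N.factorial : ℝ) * ∑ U ∈ vals N Q, F (en N Q U) := by
  have h1 : ∑ m : Conf N Q, F m = ∑ m ∈ Finset.univ.filter (fun m : Conf N Q =>
      Function.Injective m), F m := by
    rw [Finset.sum_filter]
    refine Finset.sum_congr rfl fun m _ => ?_
    split_ifs with h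
    · rfl
    · exact h0 m h
  rw [h1]
  have h2 : ∑ m ∈ Finset.univ.filter (fun m : Conf N Q => Function.Injective m), F m =
      ∑ p ∈ vals N Q ×ˢ (Finset.univ : Finset (Equiv.Perm (Fin N))), F (en N Q p.1 ∘ p.2) := by
    symm
    refine Finset.sum_bij (fun p _ => en N Q p.1 ∘ p.2) ?_ ?_ ?_ ?_
    · intro p hp
      rw [Finset.mem_product, mem_vals] at hp
      simp only [Finset.mem_filter, Finset.mem_univ, true_and]
      exact (en_strictMono hp.1).injective.comp p.2.injective
    · rintro ⟨U, σ⟩ hp ⟨U', σ'⟩ hp' hpp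
      rw [Finset.mem_product, mem_vals] at hp hp'
      simp only at hpp hp hp'
      have e1 : U = U' := by
        rw [← occ_en hp.1, ← occ_en hp'.1, ← occ_comp (en N Q U) σ, hpp, occ_comp]
      subst e1
      congr 1
      ext i
      have := congrFun hpp i
      simp only [Function.comp_apply] at this
      exact congrArg _ ((en_strictMono hp.1).injective this)
    · intro m hm
      simp only [Finset.mem_filter, Finset.mem_univ, true_and] at hm
      obtain ⟨σ, hσ⟩ := exists_perm hm
      exact ⟨(occ m, σ), by rw [Finset.mem_product, mem_vals]; exact ⟨occ_val hm, Finset.mem_univ _⟩,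
        hσ⟩
    · intro p _; rfl
  rw [h2, Finset.sum_product, Finset.mul_sum]
  refine Finset.sum_congr rfl fun U _ => ?_
  simp only [hF]
  rw [Finset.sum_const, Finset.card_univ, Fintype.card_perm, Fintype.card_fin, nsmul_eq_mul]

/-- the map to occupation numbers, coefficient coordinates -/
noncomputable def toFk (x : Conf N Q → ℝ) : Fk := fun U =>
  if Val N Q U then x (en N Q U) * ∏ a ∈ U, g Q a else 0

theorem toFk_mem (x : Conf N Q → ℝ) : toFk x ∈ Sec Q N := by
  intro U hU
  exact if_neg hU

theorem wt_mul {U : Finset ℕ} (h : U ⊆ Finset.range (Q + 1)) :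
    wt Q U * ((∏ a ∈ U, g Q a) * ∏ a ∈ U, g Q a) = 1 := by
  unfold wt
  rw [← Finset.prod_mul_distrib, ← Finset.prod_mul_distrib]
  refine Finset.prod_eq_one fun a ha => ?_
  have h1 := Finset.mem_range.1 (h ha)
  have h2 : (0 : ℝ) < (Q.choose a : ℝ) := by exact_mod_cast Nat.choose_pos (by omega)
  unfold g
  rw [Real.mul_self_sqrt h2.le]
  field_simp

/-- the inner products agree up to `N!` -/
theorem inner_toFk {x y : Conf N Q → ℝ} (hx : RA x) (hy : RA y) :
    ∑ m, y m * x m = (N.factorial : ℝ) * ip Q (toFk y) (toFk x) := by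
  rw [sum_sym (fun m => y m * x m)]
  · congr 1
    unfold ip
    have hsub : vals N Q ⊆ (Finset.range (Q + 1)).powerset := by
      intro U hU
      rw [mem_vals] at hU
      exact Finset.mem_powerset.2 hU.1
    rw [← Finset.sum_subset hsub]
    · refine Finset.sum_congr rfl fun U hU => ?_
      rw [mem_vals] at hU
      unfold toFk
      rw [if_pos hU, if_pos hU]
      have := wt_mul (Q := Q) hU.1
      calc y (en N Q U) * x (en N Q U) = (y (en N Q U) * x (en N Q U)) *
            (wt Q U * ((∏ a ∈ U, g Q a) * ∏ a ∈ U, g Q a)) := by rw [this, mul_one]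
        _ = _ := by ring
    · intro U _ hU
      rw [mem_vals] at hU
      unfold toFk
      rw [if_neg hU]
      ring
  · intro σ m
    rw [hx σ m, hy σ m]
    have h1 : ((Equiv.Perm.sign σ : ℤ) : ℝ) * ((Equiv.Perm.sign σ : ℤ) : ℝ) = 1 := by
      rcases Int.units_eq_one_or (Equiv.Perm.sign σ) with h | h <;> rw [h] <;> simp
    calc ((Equiv.Perm.sign σ : ℤ) : ℝ) * y m * (((Equiv.Perm.sign σ : ℤ) : ℝ) * x m) =
          (((Equiv.Perm.sign σ : ℤ) : ℝ) * ((Equiv.Perm.sign σ : ℤ) : ℝ)) * (y m * x m) := by ring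
      _ = _ := by rw [h1, one_mul]
  · intro m hm
    rw [hx.zero_of_not_inj hm, mul_zero]

/-- every state of the sector comes from an antisymmetric array -/
theorem toFk_surj {f : Fk} (hf : f ∈ Sec Q N) : ∃ y : Conf N Q → ℝ, RA y ∧ toFk y = f := by
  classical
  refine ⟨fun m => (∑ σ : Equiv.Perm (Fin N), if StrictMono (m ∘ σ) then
    ((Equiv.Perm.sign σ : ℤ) : ℝ) else 0) * (f (occ m) / GG m), ?_, ?_⟩
  · intro τ m
    simp only
    rw [occ_comp, GG_perm]
    have h1 : (∑ σ : Equiv.Perm (Fin N), if StrictMono ((m ∘ τ) ∘ σ) then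
        ((Equiv.Perm.sign σ : ℤ) : ℝ) else 0) = ((Equiv.Perm.sign τ : ℤ) : ℝ) *
        ∑ σ : Equiv.Perm (Fin N), if StrictMono (m ∘ σ) then
          ((Equiv.Perm.sign σ : ℤ) : ℝ) else 0 := by
      rw [Finset.mul_sum]
      conv_rhs => rw [← Equiv.sum_comp (Equiv.mulLeft τ)]
      refine Finset.sum_congr rfl fun σ _ => ?_
      have e1 : (m ∘ τ) ∘ σ = m ∘ (Equiv.mulLeft τ σ : Equiv.Perm (Fin N)) := by
        funext l
        simp [Equiv.Perm.mul_apply]
      rw [e1]
      split_ifs
      · rw [Equiv.coe_mulLeft, Equiv.Perm.sign_mul]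
        have h1 : ((Equiv.Perm.sign τ : ℤ) : ℝ) * ((Equiv.Perm.sign τ : ℤ) : ℝ) = 1 := by
          rcases Int.units_eq_one_or (Equiv.Perm.sign τ) with h | h <;> rw [h] <;> simp
        push_cast
        rw [← mul_assoc, h1, one_mul]
      · rw [mul_zero]
    rw [h1]
    ring
  · funext U
    unfold toFk
    split_ifs with h
    · show (∑ σ : Equiv.Perm (Fin N), if StrictMono (en N Q U ∘ σ) then
        ((Equiv.Perm.sign σ : ℤ) : ℝ) else 0) * (f (occ (en N Q U)) / GG (en N Q U)) *
        ∏ a ∈ U, g Q a = f U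
      rw [occ_en h]
      have h1 : (∑ σ : Equiv.Perm (Fin N), if StrictMono (en N Q U ∘ σ) then
          ((Equiv.Perm.sign σ : ℤ) : ℝ) else 0) = 1 := by
        rw [Finset.sum_eq_single 1]
        · rw [if_pos]
          · simp
          · simpa using en_strictMono h
        · intro σ _ hσ
          rw [if_neg]
          intro hs
          apply hσ
          have h2 : StrictMono σ := by
            intro i j hij
            have := hs hij
            simp only [Function.comp_apply] at this
            exact (en_strictMono h).lt_iff_lt.1 this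
          have h3 : (σ : Fin N → Fin N) = id := by
            have h4 := StrictMono.range_inj (f := σ) (g := id) h2 strictMono_id
            exact h4.1 (by rw [σ.surjective.range_eq, Set.range_id])
          ext i
          rw [h3]
          rfl
        · intro hh; exact absurd (Finset.mem_univ _) hh
      rw [h1]
      have h5 : GG (en N Q U) = ∏ a ∈ U, g Q a := by
        unfold GG
        have h6 : U = Finset.univ.image (fun i => ((en N Q U i : Fin (Q + 1)) : ℕ)) :=
          (occ_en h).symm
        conv_rhs => rw [h6]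
        rw [Finset.prod_image]
        intro i _ j _ hij
        exact (en_strictMono h).injective (Fin.ext hij)
      rw [h5]
      have h7 : (∏ a ∈ U, g Q a) ≠ 0 := by
        rw [← h5]; exact (GG_pos _).ne'
      field_simp
    · exact (hf U h).symm

end Vale.Agent.P359
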