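import Vale.Agent.P359.FockMap

/-!
# P359: annihilators under the map to occupation numbers
-/

open scoped BigOperators InnerProductSpace

namespace Vale.Agent.P359

variable {N Q : ℕ}

theorem en_unique {m : Conf N Q} (hm : StrictMono m) : en N Q (occ m) = m := by
  funext i
  apply Fin.ext
  rw [en_apply (occ_val hm.injective)]
  have := Finset.orderEmbOfFin_unique (occ_val hm.injective).2 (f := fun i => (m i : ℕ))
    (fun i => mem_occ.2 ⟨i, rfl⟩) (fun i j hij => hm hij)
  exact (congrFun this i).symm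

/-- first-quantised annihilator (of slot `0`) -/
noncomputable def ca (a : Fin (Q + 1)) (x : Conf (N + 1) Q → ℝ) : Conf N Q → ℝ :=
  fun m => g Q a * x (Fin.cons a m)

theorem cons_comp (a : Fin (Q + 1)) (m : Conf N Q) (σ : Equiv.Perm (Fin N)) :
    (Fin.cons a (m ∘ σ) : Conf (N + 1) Q) =
      (Fin.cons a m : Conf (N + 1) Q) ∘ (Equiv.Perm.decomposeFin.symm (0, σ)) := by
  funext i
  refine Fin.cases ?_ (fun j => ?_) i
  · simp
  · simp

theorem RA.ca {x : Conf (N + 1) Q → ℝ} (hx : RA x) (a : Fin (Q + 1)) : RA (ca a x) := by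
  intro σ m
  unfold P359.ca
  rw [cons_comp, hx, Equiv.Perm.decomposeFin.symm_sign]
  simp
  ring

theorem card_lt {U : Finset ℕ} (h : Val N Q U) (a : ℕ) (i : Fin N) :
    ((en N Q U i : Fin (Q + 1)) : ℕ) < a ↔ (i : ℕ) < (U.filter (· < a)).card := by
  set S : Finset (Fin N) := Finset.univ.filter fun i => ((en N Q U i : Fin (Q + 1)) : ℕ) < a
    with hS
  have hcard : (U.filter (· < a)).card = S.card := by
    rw [← Finset.card_image_of_injective (f := fun i => ((en N Q U i : Fin (Q + 1)) : ℕ)) S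
      (fun i j hij => (en_strictMono h).injective (Fin.ext hij))]
    congr 1
    ext b
    rw [Finset.mem_filter, Finset.mem_image]
    constructor
    · rintro ⟨hb, hba⟩
      have hb' := hb
      rw [← occ_en h, mem_occ] at hb'
      obtain ⟨k, hk⟩ := hb'
      exact ⟨k, by rw [hS, Finset.mem_filter]; exact ⟨Finset.mem_univ _, by rw [hk]; exact hba⟩, hk⟩
    · rintro ⟨k, hk, rfl⟩
      rw [hS, Finset.mem_filter] at hk
      exact ⟨en_mem h k, hk.2⟩
  rw [hcard]
  constructor
  · intro hi
    have hsub : Finset.Iic i ⊆ S := by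
      intro j hj
      rw [Finset.mem_Iic] at hj
      rw [hS, Finset.mem_filter]
      refine ⟨Finset.mem_univ _, lt_of_le_of_lt ?_ hi⟩
      exact (en_strictMono h).monotone hj
    have h1 := Finset.card_le_card hsub
    rw [Fin.card_Iic] at h1
    omega
  · intro hi
    by_contra hcon
    push Not at hcon
    have hsub : S ⊆ Finset.Iio i := by
      intro j hj
      rw [hS, Finset.mem_filter] at hj
      rw [Finset.mem_Iio]
      by_contra hji
      push Not at hji
      have : (en N Q U i : Fin (Q + 1)) ≤ en N Q U j := (en_strictMono h).monotone hji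
      have h3 : ((en N Q U i : Fin (Q + 1)) : ℕ) ≤ (en N Q U j : Fin (Q + 1)) := this
      omega
    have h1 := Finset.card_le_card hsub
    rw [Fin.card_Iio] at h1
    omega

theorem val_insert {U : Finset ℕ} {a : Fin (Q + 1)} (ha : (a : ℕ) ∉ U) :
    Val (N + 1) Q (insert (a : ℕ) U) ↔ Val N Q U := by
  unfold Val
  rw [Finset.card_insert_of_notMem ha, Finset.insert_subset_iff, Finset.mem_range]
  constructor
  · rintro ⟨h1, h2⟩; exact ⟨h1.2, by omega⟩
  · rintro ⟨h1, h2⟩; exact ⟨⟨by omega, h1⟩, by omega⟩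

theorem cons_en {U : Finset ℕ} (h : Val N Q U) {a : Fin (Q + 1)} (ha : (a : ℕ) ∉ U)
    {x : Conf (N + 1) Q → ℝ} (hx : RA x) :
    x (Fin.cons a (en N Q U)) = sg a U * x (en (N + 1) Q (insert (a : ℕ) U)) := by
  have hp : (U.filter (· < (a : ℕ))).card < N + 1 := by
    have := Finset.card_filter_le U (· < (a : ℕ))
    have h2 := h.2
    omega
  set p : Fin (N + 1) := ⟨(U.filter (· < (a : ℕ))).card, hp⟩ with hpdef
  have hmono : StrictMono (p.insertNth a (en N Q U) : Conf (N + 1) Q) := by
    rw [Fin.strictMono_insertNth_iff]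
    refine ⟨en_strictMono h, fun i hi => ?_, fun i hi => ?_⟩
    · rw [Fin.lt_def]
      rw [card_lt h]
      exact hi
    · rw [Fin.lt_def]
      have h1 : ¬ ((en N Q U i : Fin (Q + 1)) : ℕ) < a := by
        rw [card_lt h]
        rw [Fin.le_def] at hi
        simp only [hpdef, Fin.val_castSucc] at hi
        omega
      have h2 : ((en N Q U i : Fin (Q + 1)) : ℕ) ≠ a := fun h3 => ha (h3 ▸ en_mem h i)
      omega
  have hocc : occ (p.insertNth a (en N Q U) : Conf (N + 1) Q) = insert (a : ℕ) U := by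
    ext b
    rw [mem_occ, Finset.mem_insert]
    constructor
    · rintro ⟨i, rfl⟩
      cases i using Fin.succAboveCases p with
      | x => left; simp
      | p j => right; simpa using en_mem h j
    · rintro (rfl | hb)
      · exact ⟨p, by simp⟩
      · rw [← occ_en h, mem_occ] at hb
        obtain ⟨k, hk⟩ := hb
        exact ⟨p.succAbove k, by simpa using hk⟩
  have hen : en (N + 1) Q (insert (a : ℕ) U) = (p.insertNth a (en N Q U) : Conf (N + 1) Q) := by
    rw [← hocc, en_unique hmono]
  rw [← Fin.insertNth_comp_cycleRange_symm p a (en N Q U), hx, ← hen]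
  congr 1
  rw [Equiv.Perm.sign_symm, Fin.sign_cycleRange]
  unfold sg
  push_cast
  rfl

theorem toFk_ca {x : Conf (N + 1) Q → ℝ} (hx : RA x) (a : Fin (Q + 1)) :
    toFk (ca a x) = an a (toFk x) := by
  funext U
  show toFk (ca a x) U = if (a : ℕ) ∈ U then 0 else sg a U * toFk x (insert (a : ℕ) U)
  by_cases ha : (a : ℕ) ∈ U
  · rw [if_pos ha]
    unfold toFk
    split_ifs with h
    · have h1 : x (Fin.cons a (en N Q U)) = 0 := by
        apply hx.zero_of_not_inj
        intro hinj
        rw [← occ_en h, mem_occ] at ha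
        obtain ⟨k, hk⟩ := ha
        have h2 : (Fin.cons a (en N Q U) : Conf (N + 1) Q) k.succ =
            (Fin.cons a (en N Q U) : Conf (N + 1) Q) 0 := by
          rw [Fin.cons_succ, Fin.cons_zero]
          exact Fin.ext hk
        exact absurd (hinj h2) (Fin.succ_ne_zero k)
      unfold ca
      rw [h1]
      ring
    · rfl
  · rw [if_neg ha]
    unfold toFk
    by_cases h : Val N Q U
    · rw [if_pos h, if_pos ((val_insert ha).2 h), Finset.prod_insert ha]
      unfold ca
      rw [cons_en h ha hx]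
      ring
    · rw [if_neg h, if_neg (fun h' => h ((val_insert ha).1 h')), mul_zero]

theorem an_out {f : Fk} (hf : f ∈ Sec Q (N + 1)) {a : ℕ} (ha : Q < a) : an a f = 0 := by
  funext U
  show (if a ∈ U then 0 else sg a U * f (insert a U)) = 0
  split_ifs with h
  · rfl
  · rw [hf (insert a U), mul_zero]
    rintro ⟨h1, -⟩
    have := Finset.mem_range.1 (h1 (Finset.mem_insert_self a U))
    omega

theorem toFk_add (x y : Conf N Q → ℝ) : toFk (x + y) = toFk x + toFk y := by
  funext U
  show toFk (x + y) U = toFk x U + toFk y U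
  unfold toFk
  split_ifs
  · simp only [Pi.add_apply]; ring
  · ring

theorem toFk_smul (c : ℝ) (x : Conf N Q → ℝ) : toFk (c • x) = c • toFk x := by
  funext U
  show toFk (c • x) U = c * toFk x U
  unfold toFk
  split_ifs
  · simp only [Pi.smul_apply, smul_eq_mul]; ring
  · ring

theorem toFk_sum {ι : Type*} (s : Finset ι) (F : ι → Conf N Q → ℝ) :
    toFk (∑ i ∈ s, F i) = ∑ i ∈ s, toFk (F i) := by
  classical
  induction s using Finset.induction_on with
  | empty =>
    funext U
    simp [toFk]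
  | insert a s ha ih =>
    rw [Finset.sum_insert ha, Finset.sum_insert ha, toFk_add, ih]

/-- first-quantised pair annihilator of total weight `s` -/
noncomputable def bb (s : ℕ) (x : Conf (N + 1 + 1) Q → ℝ) : Conf N Q → ℝ :=
  fun m => ∑ p ∈ prs Q s, vv Q p.1 p.2 * x (Fin.cons p.1 (Fin.cons p.2 m))

theorem cons_cons_swap (a b : Fin (Q + 1)) (m : Conf N Q) :
    (Fin.cons b (Fin.cons a m) : Conf (N + 1 + 1) Q) =
      (Fin.cons a (Fin.cons b m) : Conf (N + 1 + 1) Q) ∘ (Equiv.swap 0 1) := by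
  funext i
  refine Fin.cases ?_ (fun j => ?_) i
  · rw [Function.comp_apply, Equiv.swap_apply_left]
    rfl
  · refine Fin.cases ?_ (fun k => ?_) j
    · have : (Fin.succ (0 : Fin (N + 1)) : Fin (N + 1 + 1)) = 1 := rfl
      rw [this, Function.comp_apply, Equiv.swap_apply_right]
      rfl
    · rw [Function.comp_apply, Equiv.swap_apply_of_ne_of_ne]
      · rfl
      · exact Fin.succ_ne_zero _
      · intro h
        have := congrArg Fin.val h
        simp at this

theorem RA.swap2 {x : Conf (N + 1 + 1) Q → ℝ} (hx : RA x) (a b : Fin (Q + 1)) (m : Conf N Q) :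
    x (Fin.cons b (Fin.cons a m)) = -x (Fin.cons a (Fin.cons b m)) := by
  rw [cons_cons_swap, hx, Equiv.Perm.sign_swap]
  · simp
  · intro h
    have := congrArg Fin.val h
    simp at this

theorem vv_swap (a b : ℕ) : vv Q b a = -vv Q a b := by unfold vv; ring

theorem vv_self (a : ℕ) : vv Q a a = 0 := by unfold vv; ring

theorem bb_eq {x : Conf (N + 1 + 1) Q → ℝ} (hx : RA x) (s : ℕ) :
    bb s x = (-2 : ℝ) • ∑ p ∈ (prs Q s).filter (fun p => p.1 < p.2),
      (((p.2 : ℕ) : ℝ) - (p.1 : ℕ)) • ca p.2 (ca p.1 x) := by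
  funext m
  set F : Fin (Q + 1) × Fin (Q + 1) → ℝ :=
    fun p => vv Q p.1 p.2 * x (Fin.cons p.1 (Fin.cons p.2 m)) with hF
  have hsw : ∀ p, F p.swap = F p := by
    rintro ⟨a, b⟩
    simp only [hF, Prod.swap]
    rw [vv_swap, hx.swap2 a b m]
    ring
  have hgt : ∑ p ∈ (prs Q s).filter (fun p => p.2 < p.1), F p =
      ∑ p ∈ (prs Q s).filter (fun p => p.1 < p.2), F p := by
    refine Finset.sum_bij' (fun p _ => p.swap) (fun p _ => p.swap) ?_ ?_ ?_ ?_ ?_
    · rintro ⟨a, b⟩ hp
      simp only [Finset.mem_filter, mem_prs, Prod.swap] at hp ⊢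
      exact ⟨by omega, hp.2⟩
    · rintro ⟨a, b⟩ hp
      simp only [Finset.mem_filter, mem_prs, Prod.swap] at hp ⊢
      exact ⟨by omega, hp.2⟩
    · rintro ⟨a, b⟩ _; rfl
    · rintro ⟨a, b⟩ _; rfl
    · intro p _; exact (hsw p).symm
  have hall : ∑ p ∈ prs Q s, F p = 2 * ∑ p ∈ (prs Q s).filter (fun p => p.1 < p.2), F p := by
    rw [← Finset.sum_filter_add_sum_filter_not (prs Q s) (fun p => p.1 < p.2), two_mul]
    congr 1
    rw [← hgt, ← Finset.sum_filter_add_sum_filter_not
      ((prs Q s).filter (fun p => ¬ p.1 < p.2)) (fun p => p.2 < p.1)]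
    rw [Finset.filter_filter, Finset.filter_filter]
    have e1 : (prs Q s).filter (fun p => ¬ p.1 < p.2 ∧ p.2 < p.1) =
        (prs Q s).filter (fun p => p.2 < p.1) := by
      refine Finset.filter_congr fun p _ => ?_
      constructor
      · exact fun h => h.2
      · exact fun h => ⟨not_lt.2 h.le, h⟩
    rw [e1]
    have e2 : ∑ p ∈ (prs Q s).filter (fun p => ¬ p.1 < p.2 ∧ ¬ p.2 < p.1), F p = 0 := by
      refine Finset.sum_eq_zero fun p hp => ?_
      rw [Finset.mem_filter] at hp
      have h3 : p.1 = p.2 := le_antisymm (not_lt.1 hp.2.2) (not_lt.1 hp.2.1)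
      simp only [hF]
      rw [h3, vv_self, zero_mul]
    rw [e2, add_zero]
  show ∑ p ∈ prs Q s, F p = _
  rw [hall, Pi.smul_apply, Finset.sum_apply, smul_eq_mul, Finset.mul_sum, Finset.mul_sum]
  refine Finset.sum_congr rfl fun p _ => ?_
  simp only [hF, Pi.smul_apply, smul_eq_mul, ca, vv]
  ring

theorem toFk_bb {x : Conf (N + 1 + 1) Q → ℝ} (hx : RA x) (K : ℕ) :
    toFk (bb (K + 1) x) = (-2 : ℝ) • bh K (toFk x) := by
  rw [bb_eq hx, toFk_smul, toFk_sum]
  congr 1
  unfold bh
  rw [LinearMap.sum_apply]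
  have hzero : ∀ a ∈ (Finset.range (K + 1)).filter (fun a => a < K + 1 - a),
      ¬ (K + 1 - a ≤ Q) → ((((K + 1 - a : ℕ) : ℝ) - a) • (an (K + 1 - a) * an a)) (toFk x) = 0 := by
    intro a ha hQ
    rw [Finset.mem_filter, Finset.mem_range] at ha
    rw [LinearMap.smul_apply, Module.End.mul_apply]
    by_cases haQ : a ≤ Q
    · have h1 : an a (toFk x) = toFk (ca (⟨a, by omega⟩ : Fin (Q + 1)) x) :=
        (toFk_ca hx (⟨a, by omega⟩ : Fin (Q + 1))).symm
      rw [h1, an_out (toFk_mem _) (by omega), smul_zero]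
    · rw [an_out (toFk_mem _) (by omega), map_zero, smul_zero]
  rw [← Finset.sum_filter_of_ne (p := fun a => K + 1 - a ≤ Q) (fun a ha hne => by
    by_contra hcon
    exact hne (hzero a ha hcon))]
  refine Finset.sum_bij' (fun p _ => (p.1 : ℕ))
    (fun a _ => (⟨min a Q, by omega⟩, ⟨min (K + 1 - a) Q, by omega⟩)) ?_ ?_ ?_ ?_ ?_
  · rintro ⟨a, b⟩ hp
    simp only [Finset.mem_filter, mem_prs, Finset.mem_range, Fin.lt_def] at hp ⊢
    omega
  · intro a ha
    simp only [Finset.mem_filter, mem_prs, Finset.mem_range, Fin.lt_def] at ha ⊢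
    omega
  · rintro ⟨a, b⟩ hp
    simp only [Finset.mem_filter, mem_prs, Fin.lt_def] at hp
    simp only [Prod.mk.injEq, Fin.ext_iff]
    omega
  · intro a ha
    simp only [Finset.mem_filter, Finset.mem_range] at ha
    simp only
    omega
  · rintro ⟨a, b⟩ hp
    simp only [Finset.mem_filter, mem_prs, Fin.lt_def] at hp
    have hb : K + 1 - (a : ℕ) = b := by omega
    simp only
    rw [hb, toFk_smul, toFk_ca (hx.ca a), toFk_ca hx, LinearMap.smul_apply, Module.End.mul_apply]

end Vale.Agent.P359
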