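import Mathlib

/-!
# P359, piece K (polynomial part): antisymmetric polynomials vanishing to third order on all
diagonals are multiples of the Laughlin polynomial
-/

namespace Vale.Agent.P359

namespace Ker

open MvPolynomial

section

variable {σ : Type*} [DecidableEq σ] {k : Type*} [Field k]

/-- substitution `z_i := z_j` -/
noncomputable def col (i j : σ) : MvPolynomial σ k →ₐ[k] MvPolynomial σ k :=
  aeval (fun l => if l = i then X j else X l)

theorem col_X (i j l : σ) : col (k := k) i j (X l) = if l = i then X j else X l := by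
  simp [col]

theorem dvd_iff (i j : σ) (f : MvPolynomial σ k) : (X i - X j) ∣ f ↔ col i j f = 0 := by
  constructor
  · rintro ⟨g, rfl⟩
    rw [map_mul, map_sub, col_X, col_X]
    simp
  · intro h
    rw [← Ideal.mem_span_singleton]
    set I : Ideal (MvPolynomial σ k) := Ideal.span {X i - X j} with hI
    have h1 : (Ideal.Quotient.mkₐ k I).comp (col i j) = Ideal.Quotient.mkₐ k I := by
      apply MvPolynomial.algHom_ext
      intro l
      rw [AlgHom.comp_apply, col_X]
      split_ifs with hl
      · subst hl
        rw [eq_comm, ← sub_eq_zero, ← map_sub, Ideal.Quotient.mkₐ_eq_mk,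
          Ideal.Quotient.eq_zero_iff_mem]
        exact Ideal.mem_span_singleton_self _
      · rfl
    have h2 : Ideal.Quotient.mkₐ k I f = 0 := by
      rw [← h1, AlgHom.comp_apply, h, map_zero]
    rwa [Ideal.Quotient.mkₐ_eq_mk, Ideal.Quotient.eq_zero_iff_mem] at h2

theorem sub_ne_zero' {i j : σ} (h : i ≠ j) : (X i - X j : MvPolynomial σ k) ≠ 0 := by
  rw [sub_ne_zero]
  exact fun hh => h (X_injective hh)

theorem prime_sub {i j : σ} (h : i ≠ j) : Prime (X i - X j : MvPolynomial σ k) := by
  refine ⟨sub_ne_zero' h, ?_, ?_⟩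
  · intro hu
    have := (dvd_iff i j (1 : MvPolynomial σ k)).1 hu.dvd
    rw [map_one] at this
    exact one_ne_zero this
  · intro a b hab
    rw [dvd_iff, map_mul, mul_eq_zero] at hab
    rcases hab with h | h
    · exact Or.inl ((dvd_iff i j a).2 h)
    · exact Or.inr ((dvd_iff i j b).2 h)

theorem col_swap {i j : σ} (h : i ≠ j) (f : MvPolynomial σ k) :
    col i j (rename (Equiv.swap i j) f) = col i j f := by
  have h1 : (col (k := k) i j).comp (rename (Equiv.swap i j)) = col i j := by
    apply MvPolynomial.algHom_ext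
    intro l
    rw [AlgHom.comp_apply, rename_X, col_X, col_X]
    rcases eq_or_ne l i with rfl | h1
    · rw [Equiv.swap_apply_left]
      simp [h.symm]
    · rcases eq_or_ne l j with rfl | h2
      · rw [Equiv.swap_apply_right]
        simp [h1]
      · rw [Equiv.swap_apply_of_ne_of_ne h1 h2]
  rw [← AlgHom.comp_apply, h1]

theorem dvd_of_anti [CharZero k] {i j : σ} (h : i ≠ j) {f : MvPolynomial σ k}
    (hf : rename (Equiv.swap i j) f = -f) : (X i - X j) ∣ f := by
  rw [dvd_iff]
  have h1 := col_swap h f
  rw [hf, map_neg] at h1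
  have h2 : (2 : MvPolynomial σ k) * col i j f = 0 := by
    linear_combination -h1
  rcases mul_eq_zero.1 h2 with h3 | h3
  · exact absurd h3 two_ne_zero
  · exact h3

theorem cube_dvd [CharZero k] {i j : σ} (h : i ≠ j) {p : MvPolynomial σ k}
    (hp : rename (Equiv.swap i j) p = -p) (hd : (X i - X j) ∣ pderiv i p) :
    (X i - X j) ^ 3 ∣ p := by
  obtain ⟨q, hq⟩ := dvd_of_anti h hp
  have hq1 : (X i - X j) ∣ q := by
    have h1 : pderiv i p = q + (X i - X j) * pderiv i q := by
      rw [hq, pderiv_mul, map_sub, pderiv_X_self, pderiv_X_of_ne h.symm, sub_zero, one_mul]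
    rw [h1] at hd
    exact (dvd_add_left (dvd_mul_right _ _)).1 hd
  obtain ⟨r, hr⟩ := hq1
  have hr1 : rename (Equiv.swap i j) r = -r := by
    have h2 : rename (Equiv.swap i j) p = (X i - X j) ^ 2 * rename (Equiv.swap i j) r := by
      rw [hq, hr, map_mul, map_mul, map_sub, rename_X, rename_X, Equiv.swap_apply_left,
        Equiv.swap_apply_right]
      ring
    rw [hp, hq, hr] at h2
    have h3 : (X i - X j : MvPolynomial σ k) ^ 2 ≠ 0 := pow_ne_zero _ (sub_ne_zero' h)
    apply mul_left_cancel₀ h3
    rw [← h2]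
    ring
  obtain ⟨t, ht⟩ := dvd_of_anti h hr1
  exact ⟨t, by rw [hq, hr, ht]; ring⟩

end

variable {N : ℕ} {k : Type*} [Field k]

/-- the pairs `i < j` -/
def pairs (N : ℕ) : Finset (Fin N × Fin N) := Finset.univ.filter fun x => x.1 < x.2

/-- the Laughlin polynomial `∏_{i<j} (z_i - z_j)^3` -/
noncomputable def laughlin (N : ℕ) (k : Type*) [Field k] : MvPolynomial (Fin N) k :=
  ∏ x ∈ pairs N, (X x.1 - X x.2) ^ 3

theorem laughlin_ne_zero : laughlin N k ≠ 0 := by
  unfold laughlin
  rw [Finset.prod_ne_zero_iff]
  intro x hx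
  simp only [pairs, Finset.mem_filter, Finset.mem_univ, true_and] at hx
  exact pow_ne_zero _ (sub_ne_zero' hx.ne)

theorem laughlin_dvd [CharZero k] {p : MvPolynomial (Fin N) k}
    (hp : ∀ i j, i < j → rename (Equiv.swap i j) p = -p)
    (hd : ∀ i j, i < j → (X i - X j) ∣ pderiv i p) : laughlin N k ∣ p := by
  unfold laughlin
  refine Finset.prod_dvd_of_isRelPrime ?_ ?_
  · intro x hx y hy hxy
    simp only [pairs, Finset.coe_filter, Finset.mem_univ, true_and, Set.mem_setOf_eq] at hx hy
    show IsRelPrime ((X x.1 - X x.2 : MvPolynomial (Fin N) k) ^ 3) ((X y.1 - X y.2) ^ 3)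
    refine IsRelPrime.pow ?_
    rw [(prime_sub hx.ne).irreducible.isRelPrime_iff_not_dvd, dvd_iff, map_sub, col_X, col_X,
      sub_eq_zero]
    intro h
    split_ifs at h with h1 h2 h2
    · rw [h1, h2] at hy
      exact lt_irrefl _ hy
    · have h3 := X_injective h
      exact hxy (Prod.ext h1.symm h3)
    · have h3 := X_injective h
      have h4 : x.2 < x.1 := by
        rw [← h3, ← h2]
        exact hy
      exact lt_irrefl _ (h4.trans hx)
    · exact hy.ne (X_injective h)
  · intro x hx
    simp only [pairs, Finset.mem_filter, Finset.mem_univ, true_and] at hx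
    exact cube_dvd hx.ne (hp _ _ hx) (hd _ _ hx)

theorem one_le_degreeOf {i j : Fin N} (h : i ≠ j) :
    1 ≤ degreeOf i (X i - X j : MvPolynomial (Fin N) k) := by
  have h1 : coeff (Finsupp.single i 1) (X i - X j : MvPolynomial (Fin N) k) = 1 := by
    rw [coeff_sub, coeff_X', coeff_X', if_pos rfl, if_neg, sub_zero]
    intro hh
    exact h (Finsupp.single_left_injective one_ne_zero hh).symm
  have h2 : Finsupp.single i 1 ∈ (X i - X j : MvPolynomial (Fin N) k).support := by
    rw [mem_support_iff, h1]
    exact one_ne_zero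
  have h3 := le_degreeOf_of_mem_support i h2
  simpa using h3

theorem degreeOf_laughlin (i : Fin N) : 3 * (N - 1) ≤ degreeOf i (laughlin N k) := by
  unfold laughlin
  rw [degreeOf_prod_eq]
  swap
  · intro x hx
    simp only [pairs, Finset.mem_filter, Finset.mem_univ, true_and] at hx
    exact pow_ne_zero _ (sub_ne_zero' hx.ne)
  set f : Fin N → Fin N × Fin N := fun j => (min i j, max i j) with hf
  have hinj : Set.InjOn f ((Finset.univ.erase i : Finset (Fin N)) : Set (Fin N)) := by
    intro a ha b hb hab
    simp only [Finset.coe_erase, Finset.coe_univ, Set.mem_diff, Set.mem_univ,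
      Set.mem_singleton_iff, true_and] at ha hb
    simp only [hf, Prod.mk.injEq] at hab
    obtain ⟨h1, h2⟩ := hab
    rcases lt_or_gt_of_ne ha with h3 | h3 <;> rcases lt_or_gt_of_ne hb with h4 | h4
    · rw [min_eq_right h3.le, min_eq_right h4.le] at h1
      exact h1
    · rw [min_eq_right h3.le, min_eq_left h4.le] at h1
      exact absurd h1 ha
    · rw [min_eq_left h3.le, min_eq_right h4.le] at h1
      exact absurd h1.symm hb
    · rw [max_eq_right h3.le, max_eq_right h4.le] at h2
      exact h2
  have hsub : (Finset.univ.erase i).image f ⊆ pairs N := by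
    intro x hx
    rw [Finset.mem_image] at hx
    obtain ⟨j, hj, rfl⟩ := hx
    simp only [pairs, Finset.mem_filter, Finset.mem_univ, true_and, hf]
    rw [Finset.mem_erase] at hj
    rcases lt_or_gt_of_ne hj.1 with h3 | h3
    · rw [min_eq_right h3.le, max_eq_left h3.le]; exact h3
    · rw [min_eq_left h3.le, max_eq_right h3.le]; exact h3
  calc 3 * (N - 1) = ∑ x ∈ (Finset.univ.erase i).image f, 3 := by
        rw [Finset.sum_const, Finset.card_image_of_injOn hinj, Finset.card_erase_of_mem
          (Finset.mem_univ i), Finset.card_univ, Fintype.card_fin, smul_eq_mul, mul_comm]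
    _ ≤ ∑ x ∈ (Finset.univ.erase i).image f,
        degreeOf i ((X x.1 - X x.2 : MvPolynomial (Fin N) k) ^ 3) := by
        refine Finset.sum_le_sum fun x hx => ?_
        have hx' := hsub hx
        simp only [pairs, Finset.mem_filter, Finset.mem_univ, true_and] at hx'
        rw [degreeOf_pow_eq _ _ _ (sub_ne_zero' hx'.ne)]
        have h1 : 1 ≤ degreeOf i (X x.1 - X x.2 : MvPolynomial (Fin N) k) := by
          rw [Finset.mem_image] at hx
          obtain ⟨j, hj, rfl⟩ := hx
          rw [Finset.mem_erase] at hj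
          rcases lt_or_gt_of_ne hj.1 with h3 | h3
          · simp only [hf]
            rw [min_eq_right h3.le, max_eq_left h3.le, ← neg_sub, degreeOf_neg]
            exact one_le_degreeOf hj.1.symm
          · simp only [hf]
            rw [min_eq_left h3.le, max_eq_right h3.le]
            exact one_le_degreeOf hj.1.symm
        omega
    _ ≤ _ := Finset.sum_le_sum_of_subset hsub

/-- the only antisymmetric polynomials of degree `≤ 3(N-1)` in each variable whose derivatives
`∂_i p` vanish on `z_i = z_j` are the multiples of the Laughlin polynomial -/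
theorem eq_laughlin [CharZero k] {p : MvPolynomial (Fin N) k}
    (hp : ∀ i j, i < j → rename (Equiv.swap i j) p = -p)
    (hd : ∀ i j, i < j → (X i - X j) ∣ pderiv i p)
    (hdeg : ∀ i, degreeOf i p ≤ 3 * (N - 1)) : ∃ c : k, p = C c * laughlin N k := by
  obtain ⟨r, hr⟩ := laughlin_dvd hp hd
  rcases eq_or_ne p 0 with h0 | h0
  · exact ⟨0, by rw [h0]; simp⟩
  have hr0 : r ≠ 0 := by
    rintro rfl
    exact h0 (by rw [hr, mul_zero])
  have hdr : ∀ i, degreeOf i r = 0 := by
    intro i
    have h1 := hdeg i
    rw [hr, degreeOf_mul_eq laughlin_ne_zero hr0] at h1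
    have h2 := degreeOf_laughlin (k := k) i
    omega
  have hv : r.vars = ∅ := by
    rw [Finset.eq_empty_iff_forall_notMem]
    intro i hi
    have := hdr i
    rw [mem_vars] at hi
    obtain ⟨d, hd1, hd2⟩ := hi
    rw [Finsupp.mem_support_iff] at hd2
    have h3 := le_degreeOf_of_mem_support i hd1
    omega
  rw [vars_eq_empty_iff_eq_C] at hv
  exact ⟨r.coeff 0, by rw [hr, mul_comm]; congr 1⟩

/-- the Laughlin polynomial is a zero state -/
theorem laughlin_pderiv {i j : Fin N} (h : i < j) :
    (X i - X j) ∣ pderiv i (laughlin N k) := by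
  have h1 : (X i - X j : MvPolynomial (Fin N) k) ^ 3 ∣ laughlin N k := by
    have hm : (i, j) ∈ pairs N := by simp [pairs, h]
    have := Finset.dvd_prod_of_mem
      (fun x : Fin N × Fin N => (X x.1 - X x.2 : MvPolynomial (Fin N) k) ^ 3) hm
    simp only at this
    unfold laughlin
    exact this
  obtain ⟨q, hq⟩ := h1
  rw [hq, pderiv_mul, pderiv_pow]
  refine dvd_add ?_ ?_
  · refine Dvd.dvd.mul_right ?_ _
    refine Dvd.dvd.mul_right ?_ _
    refine Dvd.dvd.mul_left ?_ _
    exact dvd_pow_self _ (by norm_num)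
  · refine Dvd.dvd.mul_right ?_ _
    exact dvd_pow_self _ (by norm_num)

end Ker

end Vale.Agent.P359
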