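import Vale.Agent.P359.Bridge

/-!
# P359, piece K: the kernel at `Q = 3 (N - 1)` is the Laughlin line
-/

open scoped BigOperators InnerProductSpace
open MvPolynomial

namespace Vale.Agent.P359

variable {N Q : ℕ}

/-- exponent vector of a configuration -/
noncomputable def ex (m : Conf N Q) : Fin N →₀ ℕ :=
  Finsupp.equivFunOnFinite.symm fun l => (m l : ℕ)

theorem ex_apply (m : Conf N Q) (l : Fin N) : ex m l = m l := rfl

theorem ex_inj : Function.Injective (ex : Conf N Q → Fin N →₀ ℕ) := by
  intro m m' h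
  funext l
  have := DFunLike.congr_fun h l
  rw [ex_apply, ex_apply] at this
  exact Fin.ext this

/-- product of the normalisations -/
noncomputable def GG (m : Conf N Q) : ℝ := ∏ l, g Q (m l)

theorem GG_pos (m : Conf N Q) : 0 < GG m := Finset.prod_pos fun l _ => g_pos (by omega)

/-- the polynomial (in `z = u/v`) of a state -/
noncomputable def poly (ψ : St N Q) : MvPolynomial (Fin N) ℂ :=
  ∑ m : Conf N Q, monomial (ex m) (ψ m * (GG m : ℂ))

theorem coeff_poly (ψ : St N Q) (m : Conf N Q) : coeff (ex m) (poly ψ) = ψ m * (GG m : ℂ) := by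
  unfold poly
  rw [coeff_sum, Finset.sum_eq_single m]
  · rw [coeff_monomial, if_pos rfl]
  · intro m' _ hm'
    rw [coeff_monomial, if_neg fun h => hm' (ex_inj h)]
  · intro h; exact absurd (Finset.mem_univ _) h

theorem coeff_poly_of_not (ψ : St N Q) (d : Fin N →₀ ℕ) (h : ∀ m : Conf N Q, ex m ≠ d) :
    coeff d (poly ψ) = 0 := by
  unfold poly
  rw [coeff_sum]
  refine Finset.sum_eq_zero fun m _ => ?_
  rw [coeff_monomial, if_neg (h m)]

theorem degreeOf_poly (ψ : St N Q) (i : Fin N) : degreeOf i (poly ψ) ≤ Q := by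
  rw [degreeOf_le_iff]
  intro d hd
  by_contra hcon
  have h1 : coeff d (poly ψ) = 0 := by
    apply coeff_poly_of_not
    rintro m rfl
    rw [ex_apply] at hcon
    omega
  exact (mem_support_iff.1 hd) h1

theorem poly_inj {ψ φ : St N Q} (h : poly ψ = poly φ) : ψ = φ := by
  ext m
  have h1 := congrArg (coeff (ex m)) h
  rw [coeff_poly, coeff_poly] at h1
  have h2 : (GG m : ℂ) ≠ 0 := by exact_mod_cast (GG_pos m).ne'
  exact mul_right_cancel₀ h2 h1

/-- precomposition with a transposition -/
def sw (i j : Fin N) : Conf N Q ≃ Conf N Q :=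
  Function.Involutive.toPerm (fun m => m ∘ Equiv.swap i j) fun m => by
    funext l
    simp

theorem sw_apply (i j : Fin N) (m : Conf N Q) : sw i j m = m ∘ Equiv.swap i j := rfl

theorem GG_perm (σ : Equiv.Perm (Fin N)) (m : Conf N Q) : GG (m ∘ σ) = GG m := by
  unfold GG
  exact Equiv.prod_comp σ (fun l => g Q (m l))

theorem Anti.swap {ψ : St N Q} (hψ : ψ ∈ Anti N Q) {i j : Fin N} (h : i ≠ j) (m : Conf N Q) :
    ψ (sw i j m) = -ψ m := by
  have := hψ (Equiv.swap i j) m
  rw [Equiv.Perm.sign_swap h] at this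
  rw [sw_apply, this]
  simp

theorem mapDomain_ex (σ : Equiv.Perm (Fin N)) (m : Conf N Q) :
    Finsupp.mapDomain σ (ex m) = ex (m ∘ σ.symm) := by
  ext l
  rw [Finsupp.mapDomain_equiv_apply]
  rfl

theorem rename_poly {ψ : St N Q} (hψ : ψ ∈ Anti N Q) {i j : Fin N} (h : i ≠ j) :
    rename (Equiv.swap i j) (poly ψ) = -poly ψ := by
  unfold poly
  rw [map_sum, ← Finset.sum_neg_distrib, ← Equiv.sum_comp (sw i j)]
  refine Finset.sum_congr rfl fun m _ => ?_
  rw [rename_monomial, mapDomain_ex, Anti.swap hψ h, sw_apply, GG_perm]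
  have e : (m ∘ ⇑(Equiv.swap i j)) ∘ ⇑(Equiv.symm (Equiv.swap i j)) = m := by
    funext l
    simp only [Function.comp_apply, Equiv.symm_swap, Equiv.swap_apply_self]
  rw [e, ← map_neg]
  congr 1
  ring

/-! ### the diagonal restriction of the derivative -/

/-- exponent after restriction -/
noncomputable def tau (i j : Fin N) (f : Fin N → ℕ) (s : ℕ) : Fin N →₀ ℕ :=
  Finsupp.equivFunOnFinite.symm fun l => if l = i then 0 else if l = j then s else f l

theorem col_eq_rename (i j : Fin N) (f : MvPolynomial (Fin N) ℂ) :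
    Ker.col i j f = rename (fun l => if l = i then j else l) f := by
  have : Ker.col i j = rename (R := ℂ) (fun l : Fin N => if l = i then j else l) := by
    apply MvPolynomial.algHom_ext
    intro l
    rw [Ker.col_X, rename_X]
    split_ifs <;> rfl
  rw [this]

theorem mapDomain_tau {i j : Fin N} (h : i ≠ j) (d : Fin N →₀ ℕ) :
    Finsupp.mapDomain (fun l => if l = i then j else l) d = tau i j d (d i + d j) := by
  ext l
  rw [Finsupp.mapDomain, Finsupp.sum_fintype _ _ (fun a => by simp), Finsupp.finset_sum_apply]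
  simp only [Finsupp.single_apply]
  show _ = if l = i then 0 else if l = j then d i + d j else d l
  by_cases hli : l = i
  · subst hli
    rw [if_pos rfl]
    refine Finset.sum_eq_zero fun x _ => ?_
    rw [if_neg]
    by_cases h1 : x = l
    · rw [if_pos h1]; exact h.symm
    · rw [if_neg h1]; exact h1
  · rw [if_neg hli]
    by_cases hlj : l = j
    · subst hlj
      rw [if_pos rfl, Finset.sum_eq_add i l h]
      · simp [hli]
      · intro c _ hc
        simp [hc.1, hc.2]
      · intro h; exact absurd (Finset.mem_univ _) h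
      · intro h; exact absurd (Finset.mem_univ _) h
    · rw [if_neg hlj, Finset.sum_eq_single l]
      · simp [hli]
      · intro b _ hb
        by_cases hbi : b = i
        · simp [hbi, Ne.symm hlj]
        · simp [hbi, hb]
      · intro h; exact absurd (Finset.mem_univ _) h

theorem col_pderiv_monomial {i j : Fin N} (h : i ≠ j) (m : Conf N Q) (c : ℂ) :
    Ker.col i j (pderiv i (monomial (ex m) c)) =
      monomial (tau i j (fun l => m l) ((m i : ℕ) + m j - 1)) (c * (m i : ℂ)) := by
  rw [pderiv_monomial, col_eq_rename, rename_monomial, mapDomain_tau h, ex_apply]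
  rcases Nat.eq_zero_or_pos (m i : ℕ) with h0 | h0
  · rw [h0]
    simp
  · congr 2
    · have e1 : (ex m - Finsupp.single i 1 : Fin N →₀ ℕ) i +
          (ex m - Finsupp.single i 1 : Fin N →₀ ℕ) j =
          (m i : ℕ) + m j - 1 := by
        rw [Finsupp.tsub_apply, Finsupp.tsub_apply, Finsupp.single_eq_same,
          Finsupp.single_eq_of_ne h.symm, ex_apply, ex_apply]
        omega
      rw [e1]
      ext l
      show (if l = i then 0 else if l = j then _ else (ex m - Finsupp.single i 1 : Fin N →₀ ℕ) l) =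
        (if l = i then 0 else if l = j then _ else _)
      by_cases hli : l = i
      · simp [hli]
      · rw [if_neg hli, if_neg hli]
        by_cases hlj : l = j
        · simp [hlj]
        · rw [if_neg hlj, if_neg hlj, Finsupp.tsub_apply, Finsupp.single_eq_of_ne hli, ex_apply]
          simp

/-- the coefficients of the restricted derivative -/
noncomputable def KK (i j : Fin N) (ψ : St N Q) (e : Fin N →₀ ℕ) : ℂ :=
  ∑ m : Conf N Q, if tau i j (fun l => m l) ((m i : ℕ) + m j - 1) = e then
    ψ m * (GG m : ℂ) * (m i : ℂ) else 0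

theorem coeff_col {i j : Fin N} (h : i ≠ j) (ψ : St N Q) (e : Fin N →₀ ℕ) :
    coeff e (Ker.col i j (pderiv i (poly ψ))) = KK i j ψ e := by
  unfold poly KK
  rw [map_sum, map_sum, coeff_sum]
  refine Finset.sum_congr rfl fun m _ => ?_
  rw [col_pderiv_monomial h, coeff_monomial]

theorem dvd_iff_KK {i j : Fin N} (h : i ≠ j) (ψ : St N Q) :
    (X i - X j) ∣ pderiv i (poly ψ) ↔ ∀ e, KK i j ψ e = 0 := by
  rw [Ker.dvd_iff]
  constructor
  · intro h0 e
    rw [← coeff_col h, h0, coeff_zero]
  · intro h0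
    ext e
    rw [coeff_col h, h0 e, coeff_zero]

theorem tau_sw {i j : Fin N} (m : Conf N Q) :
    tau i j (fun l => (sw i j m) l) (((sw i j m) i : ℕ) + (sw i j m) j - 1) =
      tau i j (fun l => m l) ((m i : ℕ) + m j - 1) := by
  ext l
  show (if l = i then 0 else if l = j then _ else _) = (if l = i then 0 else if l = j then _ else _)
  by_cases hli : l = i
  · simp [hli]
  · by_cases hlj : l = j
    · subst hlj
      rw [if_neg hli, if_neg hli, if_pos rfl, if_pos rfl]
      simp only [sw_apply, Function.comp_apply, Equiv.swap_apply_left, Equiv.swap_apply_right]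
      omega
    · rw [if_neg hli, if_neg hli, if_neg hlj, if_neg hlj]
      simp only [sw_apply, Function.comp_apply, Equiv.swap_apply_of_ne_of_ne hli hlj]

theorem two_KK {i j : Fin N} (h : i ≠ j) {ψ : St N Q} (hψ : ψ ∈ Anti N Q) (e : Fin N →₀ ℕ) :
    2 * KK i j ψ e = ∑ m : Conf N Q, if tau i j (fun l => m l) ((m i : ℕ) + m j - 1) = e then
      ψ m * (GG m : ℂ) * ((m i : ℂ) - m j) else 0 := by
  have h1 : KK i j ψ e = ∑ m : Conf N Q, if tau i j (fun l => m l) ((m i : ℕ) + m j - 1) = e then
      -(ψ m * (GG m : ℂ) * (m j : ℂ)) else 0 := by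
    unfold KK
    rw [← Equiv.sum_comp (sw i j)]
    refine Finset.sum_congr rfl fun m _ => ?_
    rw [tau_sw]
    split_ifs with h2
    · rw [Anti.swap hψ h, sw_apply, GG_perm, Function.comp_apply, Equiv.swap_apply_left]
      ring
    · rfl
  rw [two_mul]
  nth_rewrite 2 [h1]
  unfold KK
  rw [← Finset.sum_add_distrib]
  refine Finset.sum_congr rfl fun m _ => ?_
  split_ifs
  · ring
  · ring

/-- product of the spectators' normalisations -/
noncomputable def GR (i j : Fin N) (m : Conf N Q) : ℝ :=
  ∏ l ∈ (Finset.univ.erase i).erase j, g Q (m l)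

theorem GR_pos (i j : Fin N) (m : Conf N Q) : 0 < GR i j m :=
  Finset.prod_pos fun l _ => g_pos (by omega)

theorem GG_pr {i j : Fin N} (h : i ≠ j) (m : Conf N Q) (a b : Fin (Q + 1)) :
    GG (pr i j m a b) = GR i j m * (g Q a * g Q b) := by
  unfold GG GR
  rw [← Finset.mul_prod_erase _ _ (Finset.mem_univ i),
    ← Finset.mul_prod_erase _ _ (Finset.mem_erase.2 ⟨h.symm, Finset.mem_univ j⟩), pr_left h, pr_right]
  have : ∏ l ∈ (Finset.univ.erase i).erase j, g Q (pr i j m a b l) =
      ∏ l ∈ (Finset.univ.erase i).erase j, g Q (m l) := by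
    refine Finset.prod_congr rfl fun l hl => ?_
    rw [Finset.mem_erase, Finset.mem_erase] at hl
    rw [pr_other hl.2.1 hl.1]
  rw [this]
  ring

theorem KK_class {i j : Fin N} (h : i ≠ j) {ψ : St N Q} (hψ : ψ ∈ Anti N Q) (m : Conf N Q)
    {s : ℕ} (hs : 1 ≤ s) : 2 * KK i j ψ (tau i j (fun l => m l) (s - 1)) =
      (GR i j m : ℂ) * ∑ x ∈ prs Q s, (vv Q x.1 x.2 : ℂ) * ψ (pr i j m x.1 x.2) := by
  rw [two_KK h hψ, ← Finset.sum_filter]
  have hinj : Set.InjOn (fun x : Fin (Q + 1) × Fin (Q + 1) => pr i j m x.1 x.2) (prs Q s) := by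
    intro x _ y _ hxy
    simp only at hxy
    have h1 := congrFun hxy i
    have h2 := congrFun hxy j
    rw [pr_left h, pr_left h] at h1
    rw [pr_right, pr_right] at h2
    exact Prod.ext h1 h2
  have hsub : (prs Q s).image (fun x : Fin (Q + 1) × Fin (Q + 1) => pr i j m x.1 x.2) ⊆
      Finset.univ.filter fun m' : Conf N Q =>
        tau i j (fun l => (m' l : ℕ)) ((m' i : ℕ) + m' j - 1) = tau i j (fun l => m l) (s - 1) := by
    intro m' hm'
    rw [Finset.mem_image] at hm'
    obtain ⟨x, hx, rfl⟩ := hm'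
    rw [mem_prs] at hx
    rw [Finset.mem_filter]
    refine ⟨Finset.mem_univ _, ?_⟩
    rw [pr_left h, pr_right, hx]
    ext l
    show (if l = i then 0 else if l = j then _ else _) =
      (if l = i then 0 else if l = j then _ else _)
    by_cases hli : l = i
    · simp [hli]
    · by_cases hlj : l = j
      · simp [hlj]
      · rw [if_neg hli, if_neg hli, if_neg hlj, if_neg hlj]
        simp only [pr_other hli hlj]
  rw [← Finset.sum_subset hsub, Finset.sum_image hinj, Finset.mul_sum]
  · refine Finset.sum_congr rfl fun x _ => ?_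
    rw [GG_pr h, pr_left h, pr_right]
    unfold vv
    push_cast
    ring
  · intro m' hm' hm''
    rw [Finset.mem_filter] at hm'
    have h1 := hm'.2
    have hj : (m' i : ℕ) + m' j - 1 = s - 1 := by
      have := DFunLike.congr_fun h1 j
      simpa [tau, h.symm] using this
    have hl : ∀ l, l ≠ i → l ≠ j → m' l = m l := by
      intro l hli hlj
      have := DFunLike.congr_fun h1 l
      have h3 : (m' l : ℕ) = m l := by simpa [tau, hli, hlj] using this
      exact Fin.ext h3
    rcases Nat.eq_zero_or_pos ((m' i : ℕ) + m' j) with h0 | h0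
    · have e1 : (m' i : ℕ) = 0 := by omega
      have e2 : (m' j : ℕ) = 0 := by omega
      rw [e1, e2]
      simp
    · exfalso
      apply hm''
      rw [Finset.mem_image]
      refine ⟨(m' i, m' j), mem_prs.2 (by simp only; omega), ?_⟩
      funext l
      by_cases hli : l = i
      · subst hli; exact pr_left h _ _ _
      · by_cases hlj : l = j
        · subst hlj; exact pr_right _ _ _ _ _
        · simp only
          rw [pr_other hli hlj, hl l hli hlj]

theorem P1_zero_iff_dvd (hQ : 1 ≤ Q) {i j : Fin N} (h : i ≠ j) {ψ : St N Q}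
    (hψ : ψ ∈ Anti N Q) : P1 i j ψ = 0 ↔ (X i - X j) ∣ pderiv i (poly ψ) := by
  rw [P1_eq_zero_iff hQ h, dvd_iff_KK h]
  constructor
  · intro h0 e
    by_cases hex : ∃ m : Conf N Q, tau i j (fun l => (m l : ℕ)) ((m i : ℕ) + m j - 1) = e
    · obtain ⟨m, hm⟩ := hex
      have h1 : e = tau i j (fun l => (m l : ℕ)) (max ((m i : ℕ) + m j) 1 - 1) := by
        rw [← hm]
        congr 1
        omega
      have h2 := KK_class h hψ m (s := max ((m i : ℕ) + m j) 1) (le_max_right _ _)
      rw [← h1, h0, mul_zero] at h2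
      exact (mul_eq_zero.1 h2).resolve_left two_ne_zero
    · unfold KK
      refine Finset.sum_eq_zero fun m _ => ?_
      rw [if_neg fun hh => hex ⟨m, hh⟩]
  · intro h0 m s
    rcases Nat.eq_zero_or_pos s with hs | hs
    · subst hs
      refine Finset.sum_eq_zero fun x hx => ?_
      rw [mem_prs] at hx
      have e1 : (x.1 : ℕ) = 0 := by omega
      have e2 : (x.2 : ℕ) = 0 := by omega
      rw [e1, e2]
      simp [vv]
    · have h2 := KK_class h hψ m hs
      rw [h0, mul_zero] at h2
      have h3 : (GR i j m : ℂ) ≠ 0 := by exact_mod_cast (GR_pos i j m).ne'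
      exact (mul_eq_zero.1 h2.symm).resolve_left h3

/-! ### the Laughlin polynomial -/

theorem degreeOf_laughlin_le (i : Fin N) : degreeOf i (Ker.laughlin N ℂ) ≤ 3 * (N - 1) := by
  have hfac : ∀ x ∈ Ker.pairs N, degreeOf i ((X x.1 - X x.2 : MvPolynomial (Fin N) ℂ) ^ 3) ≤
      if x.1 = i ∨ x.2 = i then 3 else 0 := by
    intro x hx
    simp only [Ker.pairs, Finset.mem_filter, Finset.mem_univ, true_and] at hx
    have h1 : degreeOf i (X x.1 - X x.2 : MvPolynomial (Fin N) ℂ) ≤
        if x.1 = i ∨ x.2 = i then 1 else 0 := by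
      refine (degreeOf_sub_le i _ _).trans ?_
      rw [degreeOf_X, degreeOf_X]
      split_ifs with h1 h2 h3 h4 h5 h6 h7 <;> simp_all
    refine (degreeOf_pow_le i _ 3).trans ?_
    split_ifs at h1 ⊢ <;> omega
  have hinj : ∀ x ∈ (Ker.pairs N).filter (fun x => x.1 = i ∨ x.2 = i), True := fun _ _ => trivial
  calc degreeOf i (Ker.laughlin N ℂ) ≤ ∑ x ∈ Ker.pairs N,
        degreeOf i ((X x.1 - X x.2 : MvPolynomial (Fin N) ℂ) ^ 3) := degreeOf_prod_le _ _ _
    _ ≤ ∑ x ∈ Ker.pairs N, if x.1 = i ∨ x.2 = i then 3 else 0 := Finset.sum_le_sum hfac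
    _ = ((Ker.pairs N).filter (fun x => x.1 = i ∨ x.2 = i)).card * 3 := by
        rw [← Finset.sum_filter, Finset.sum_const, smul_eq_mul]
    _ ≤ (N - 1) * 3 := by
        refine Nat.mul_le_mul_right 3 ?_
        have h1 : ((Ker.pairs N).filter (fun x => x.1 = i ∨ x.2 = i)).card ≤
            (Finset.univ.erase i : Finset (Fin N)).card := by
          refine Finset.card_le_card_of_injOn (fun x => if x.1 = i then x.2 else x.1) ?_ ?_
          · intro x hx
            simp only [Ker.pairs, Finset.coe_filter, Finset.mem_filter, Finset.mem_univ,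
              true_and, Set.mem_setOf_eq] at hx
            simp only [Finset.coe_erase, Finset.coe_univ, Set.mem_diff, Set.mem_univ,
              Set.mem_singleton_iff, true_and]
            split_ifs with h2
            · rw [← h2]; exact hx.1.ne'
            · exact h2
          · intro x hx y hy hxy
            simp only [Ker.pairs, Finset.coe_filter, Finset.mem_filter, Finset.mem_univ,
              true_and, Set.mem_setOf_eq] at hx hy
            simp only at hxy
            split_ifs at hxy with h2 h3 h3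
            · exact Prod.ext (h2.trans h3.symm) hxy
            · exfalso
              have h4 : y.2 = i := hy.2.resolve_left h3
              have h5 := hx.1
              have h6 := hy.1
              rw [h2, hxy] at h5
              rw [h4] at h6
              exact lt_asymm h5 h6
            · exfalso
              have h4 : x.2 = i := hx.2.resolve_left h2
              have h5 := hx.1
              have h6 := hy.1
              rw [h3, ← hxy] at h6
              rw [h4] at h5
              exact lt_asymm h5 h6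
            · exact Prod.ext hxy ((hx.2.resolve_left h2).trans (hy.2.resolve_left h3).symm)
        rwa [Finset.card_erase_of_mem (Finset.mem_univ i), Finset.card_univ,
          Fintype.card_fin] at h1
    _ = _ := mul_comm _ _

theorem laughlin_det : Ker.laughlin N ℂ =
    (∏ _x ∈ Ker.pairs N, (-1 : MvPolynomial (Fin N) ℂ)) *
      (Matrix.vandermonde (fun l : Fin N => (X l : MvPolynomial (Fin N) ℂ))).det ^ 3 := by
  rw [Matrix.det_vandermonde]
  have h1 : (∏ i : Fin N, ∏ j ∈ Finset.Ioi i, ((X j : MvPolynomial (Fin N) ℂ) - X i)) =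
      ∏ x ∈ Ker.pairs N, (X x.2 - X x.1) := by
    rw [Finset.prod_sigma']
    refine Finset.prod_bij' (fun p _ => (p.1, p.2)) (fun p _ => ⟨p.1, p.2⟩) ?_ ?_ ?_ ?_ ?_
    · rintro ⟨a, b⟩ hab
      simpa [Ker.pairs] using hab
    · rintro ⟨a, b⟩ hab
      simpa [Ker.pairs] using hab
    · rintro ⟨a, b⟩ _; rfl
    · rintro ⟨a, b⟩ _; rfl
    · rintro ⟨a, b⟩ _; rfl
  rw [h1]
  unfold Ker.laughlin
  rw [← Finset.prod_pow, ← Finset.prod_mul_distrib]
  refine Finset.prod_congr rfl fun x _ => ?_
  ring

theorem rename_laughlin (σ : Equiv.Perm (Fin N)) :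
    rename σ (Ker.laughlin N ℂ) =
      ((Equiv.Perm.sign σ : ℤ) : MvPolynomial (Fin N) ℂ) * Ker.laughlin N ℂ := by
  have h1 : rename σ (Matrix.vandermonde (fun l : Fin N => (X l : MvPolynomial (Fin N) ℂ))).det =
      ((Equiv.Perm.sign σ : ℤ) : MvPolynomial (Fin N) ℂ) *
        (Matrix.vandermonde (fun l : Fin N => (X l : MvPolynomial (Fin N) ℂ))).det := by
    rw [AlgHom.map_det]
    have h2 : (AlgHom.mapMatrix (rename σ))
        (Matrix.vandermonde (fun l : Fin N => (X l : MvPolynomial (Fin N) ℂ))) =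
        (Matrix.vandermonde (fun l : Fin N => (X l : MvPolynomial (Fin N) ℂ))).submatrix σ id := by
      ext i j : 2
      simp [Matrix.vandermonde_apply, Matrix.submatrix_apply]
    rw [h2, Matrix.det_permute]
  rw [laughlin_det, map_mul, map_pow, h1, map_prod, mul_pow]
  have h3 : ((Equiv.Perm.sign σ : ℤ) : MvPolynomial (Fin N) ℂ) ^ 3 =
      ((Equiv.Perm.sign σ : ℤ) : MvPolynomial (Fin N) ℂ) := by
    rcases Int.units_eq_one_or (Equiv.Perm.sign σ) with h | h
    · rw [h]; simp
    · rw [h]
      push_cast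
      ring
  rw [h3]
  simp only [map_neg, map_one]
  ring

/-- the Laughlin vector `∏_{i<j} (u_i v_j - u_j v_i)^3` in the orthonormal basis: its coordinate
at `m` is the coefficient of `∏ u_i^{m_i} v_i^{Q-m_i}`, i.e. of `z^m` in `∏_{i<j} (z_i - z_j)^3`,
divided by `∏ sqrt (binom Q m_i)` -/
noncomputable def Laughlin (N : ℕ) : St N (3 * (N - 1)) :=
  WithLp.toLp 2 fun m => coeff (ex m) (Ker.laughlin N ℂ) / (GG m : ℂ)

theorem Laughlin_apply (m : Conf N (3 * (N - 1))) :
    Laughlin N m = coeff (ex m) (Ker.laughlin N ℂ) / (GG m : ℂ) := rfl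

theorem poly_Laughlin : poly (Laughlin N) = Ker.laughlin N ℂ := by
  ext d
  by_cases hd : ∃ m : Conf N (3 * (N - 1)), ex m = d
  · obtain ⟨m, rfl⟩ := hd
    rw [coeff_poly, Laughlin_apply]
    have h2 : (GG m : ℂ) ≠ 0 := by exact_mod_cast (GG_pos m).ne'
    field_simp
  · rw [coeff_poly_of_not _ _ fun m hm => hd ⟨m, hm⟩]
    by_contra hne
    apply hd
    have h1 : d ∈ (Ker.laughlin N ℂ).support := mem_support_iff.2 (Ne.symm hne)
    have h2 : ∀ l, d l ≤ 3 * (N - 1) := fun l =>
      (le_degreeOf_of_mem_support l h1).trans (degreeOf_laughlin_le l)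
    refine ⟨fun l => ⟨d l, by have := h2 l; omega⟩, ?_⟩
    ext l
    rfl

theorem Laughlin_ne_zero : Laughlin N ≠ 0 := by
  intro h
  have h1 := poly_Laughlin (N := N)
  rw [h] at h1
  have h2 : poly (0 : St N (3 * (N - 1))) = 0 := by
    unfold poly
    refine Finset.sum_eq_zero fun m _ => ?_
    simp
  rw [h2] at h1
  exact Ker.laughlin_ne_zero h1.symm

theorem Laughlin_anti : Laughlin N ∈ Anti N (3 * (N - 1)) := by
  intro σ m
  rw [Laughlin_apply, Laughlin_apply, GG_perm]
  have h1 := congrArg (coeff (ex m)) (rename_laughlin σ)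
  have h2 : coeff (ex m) (rename σ (Ker.laughlin N ℂ)) =
      coeff (ex (m ∘ σ)) (Ker.laughlin N ℂ) := by
    have e : ex m = Finsupp.mapDomain σ (ex (m ∘ σ)) := by
      rw [mapDomain_ex]
      congr 1
      funext l
      simp
    rw [e, coeff_rename_mapDomain _ σ.injective]
  rw [h2] at h1
  have h3 : ((Equiv.Perm.sign σ : ℤ) : MvPolynomial (Fin N) ℂ) =
      C ((Equiv.Perm.sign σ : ℤ) : ℂ) := by simp
  rw [h3, coeff_C_mul] at h1
  rw [h1]
  ring

theorem Ham_Laughlin (hN : 2 ≤ N) : Ham N (3 * (N - 1)) (Laughlin N) = 0 := by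
  rw [Ham_eq_zero_iff]
  intro i j hij
  rw [P1_zero_iff_dvd (by omega) hij.ne Laughlin_anti, poly_Laughlin]
  exact Ker.laughlin_pderiv hij

/-- piece (K): the zero states at filling `1/3` are the multiples of the Laughlin vector -/
theorem kernel (hN : 2 ≤ N) {ψ : St N (3 * (N - 1))} (hψ : ψ ∈ Anti N (3 * (N - 1)))
    (h : Ham N (3 * (N - 1)) ψ = 0) : ∃ c : ℂ, ψ = c • Laughlin N := by
  rw [Ham_eq_zero_iff] at h
  obtain ⟨c, hc⟩ := Ker.eq_laughlin (p := poly ψ)
    (fun i j hij => rename_poly hψ hij.ne)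
    (fun i j hij => (P1_zero_iff_dvd (by omega) hij.ne hψ).1 (h i j hij))
    (fun i => degreeOf_poly ψ i)
  refine ⟨c, ?_⟩
  apply poly_inj
  rw [hc, ← poly_Laughlin]
  unfold poly
  rw [Finset.mul_sum]
  refine Finset.sum_congr rfl fun m _ => ?_
  rw [C_mul_monomial]
  congr 1
  simp
  ring

end Vale.Agent.P359
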