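import Mathlib

/-!
# P359: the model (definitions used in the statement of the hand-ins)
-/

namespace Vale.Agent.P359.Model

/-- Configurations: particle `i` sits in the orbital `m i ∈ {0, …, Q}`. -/
abbrev Conf (N Q : ℕ) := Fin N → Fin (Q + 1)

/-- Vectors of the `N`-particle space `U_Q^{⊗ N}`, given by their coordinates in the product of the
orthonormal bases `e_m = √(binom Q m) u^m v^(Q-m)`, `m = 0, …, Q`, of the factors `U_Q`. -/
abbrev Vec (N Q : ℕ) := Conf N Q → ℂ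

variable {N Q : ℕ}

/-- The inner product `⟨φ, ψ⟩` of `U_Q^{⊗ N}` (conjugate linear in `φ`). -/
noncomputable def dot (φ ψ : Vec N Q) : ℂ := ∑ m, (starRingEnd ℂ) (φ m) * ψ m

/-- The squared norm `‖ψ‖²`. -/
noncomputable def normSq (ψ : Vec N Q) : ℝ := ∑ m, ‖ψ m‖ ^ 2

/-- `a ↦ a - 1` (on orbitals). -/
def orbDown (a : Fin (Q + 1)) : Fin (Q + 1) := ⟨a - 1, by omega⟩

/-- `a ↦ a + 1` (on orbitals, cut off at `Q`). -/
def orbUp (a : Fin (Q + 1)) : Fin (Q + 1) := ⟨min (a + 1) Q, by omega⟩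

/-- The spin raising operator of particle `i`: `J₊ e_m = √((Q - m)(m + 1)) e_{m+1}`. -/
noncomputable def spinPlus (i : Fin N) (ψ : Vec N Q) : Vec N Q := fun m =>
  ((√((m i : ℝ) * (Q + 1 - (m i : ℝ))) : ℝ) : ℂ) * ψ (Function.update m i (orbDown (m i)))

/-- The spin lowering operator of particle `i`: `J₋ e_m = √(m (Q + 1 - m)) e_{m-1}`. -/
noncomputable def spinMinus (i : Fin N) (ψ : Vec N Q) : Vec N Q := fun m =>
  ((√(((m i : ℝ) + 1) * (Q - (m i : ℝ))) : ℝ) : ℂ) * ψ (Function.update m i (orbUp (m i)))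

/-- The third spin component of particle `i`: `J_z e_m = (m - Q/2) e_m`. -/
noncomputable def spinZ (i : Fin N) (ψ : Vec N Q) : Vec N Q := fun m => ((m i : ℂ) - Q / 2) * ψ m

/-- `J₊` of the pair `i`, `j`. -/
noncomputable def pairPlus (i j : Fin N) (ψ : Vec N Q) : Vec N Q := fun m =>
  spinPlus i ψ m + spinPlus j ψ m

/-- `J₋` of the pair `i`, `j`. -/
noncomputable def pairMinus (i j : Fin N) (ψ : Vec N Q) : Vec N Q := fun m =>
  spinMinus i ψ m + spinMinus j ψ m

/-- `J_z` of the pair `i`, `j`. -/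
noncomputable def pairZ (i j : Fin N) (ψ : Vec N Q) : Vec N Q := fun m =>
  spinZ i ψ m + spinZ j ψ m

/-- The square `J² = J₋ J₊ + J_z² + J_z` of the total spin of the pair `i`, `j`. -/
noncomputable def pairSpinSq (i j : Fin N) (ψ : Vec N Q) : Vec N Q := fun m =>
  pairMinus i j (pairPlus i j ψ) m + pairZ i j (pairZ i j ψ) m + pairZ i j ψ m

theorem pairSpinSq_add (i j : Fin N) (ψ φ : Vec N Q) (m : Conf N Q) :
    pairSpinSq i j (fun m => ψ m + φ m) m = pairSpinSq i j ψ m + pairSpinSq i j φ m := by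
  simp only [pairSpinSq, pairMinus, pairPlus, pairZ, spinMinus, spinPlus, spinZ]
  ring

theorem pairSpinSq_smul (i j : Fin N) (c : ℂ) (ψ : Vec N Q) (m : Conf N Q) :
    pairSpinSq i j (fun m => c * ψ m) m = c * pairSpinSq i j ψ m := by
  simp only [pairSpinSq, pairMinus, pairPlus, pairZ, spinMinus, spinPlus, spinZ]
  ring

/-- The particles `i`, `j` have total spin `Q - 1` in the state `ψ`: `J² ψ = (Q - 1) Q ψ`. -/
def HasPairSpin (i j : Fin N) (ψ : Vec N Q) : Prop :=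
  ∀ m, pairSpinSq i j ψ m = ((Q : ℂ) - 1) * Q * ψ m

/-- The subspace of the vectors in which the particles `i`, `j` have total spin `Q - 1`. -/
def pairSpace (N Q : ℕ) (i j : Fin N) : Submodule ℂ (EuclideanSpace ℂ (Conf N Q)) where
  carrier := {x | HasPairSpin i j (WithLp.ofLp x)}
  add_mem' {x y} hx hy m := by
    refine (pairSpinSq_add i j (WithLp.ofLp x) (WithLp.ofLp y) m).trans ?_
    rw [hx m, hy m]
    exact (mul_add _ _ _).symm
  zero_mem' m := by
    have h := pairSpinSq_smul i j 0 (0 : Vec N Q) m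
    simp only [zero_mul] at h
    exact h.trans (mul_zero _).symm
  smul_mem' c x hx m := by
    refine (pairSpinSq_smul i j c (WithLp.ofLp x) m).trans ?_
    rw [hx m]
    exact mul_left_comm _ _ _

/-- The orthogonal projection `P^(1)_{ij}` onto that subspace. -/
noncomputable def pairProj (i j : Fin N) (ψ : Vec N Q) : Vec N Q :=
  WithLp.ofLp ((pairSpace N Q i j).starProjection (WithLp.toLp 2 ψ))

/-- The Hamiltonian `H_{N,Q} = ∑_{i<j} P^(1)_{ij}`. -/
noncomputable def hamiltonian (ψ : Vec N Q) : Vec N Q := fun m =>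
  ∑ x : Fin N × Fin N with x.1 < x.2, pairProj x.1 x.2 ψ m

/-- `ψ ∈ ⋀^N U_Q`: `ψ` is totally antisymmetric. -/
def Antisymmetric (ψ : Vec N Q) : Prop := ∀ (σ : Equiv.Perm (Fin N)) (m : Conf N Q),
  ψ (m ∘ σ) = ((Equiv.Perm.sign σ : ℤ) : ℂ) * ψ m

/-- The Laughlin polynomial in `z = u / v`: `∏_{i<j} (z_i - z_j)^3`. -/
noncomputable def laughlinZ (N : ℕ) : MvPolynomial (Fin N) ℂ :=
  ∏ x : Fin N × Fin N with x.1 < x.2, (MvPolynomial.X x.1 - MvPolynomial.X x.2) ^ 3

/-- The Laughlin vector `∏_{i<j} (u_i v_j - u_j v_i)^3`: its coordinate at the configuration `m`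
is the coefficient of `∏ z_i^{m_i}` in `∏_{i<j} (z_i - z_j)^3`, divided by `∏ √(binom Q m_i)`,
`Q = 3(N-1)`. -/
noncomputable def laughlin (N : ℕ) : Vec N (3 * (N - 1)) := fun m =>
  MvPolynomial.coeff (Finsupp.equivFunOnFinite.symm fun i => (m i : ℕ)) (laughlinZ N) /
    ((∏ i, √(((3 * (N - 1)).choose (m i) : ℕ) : ℝ) : ℝ) : ℂ)

/-- The polynomial of a vector in the spinor variables `u_i = X (i, 0)`, `v_i = X (i, 1)`: the basis
vector of the configuration `m` is `∏_i √(binom Q m_i) u_i^(m_i) v_i^(Q - m_i)`. -/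
noncomputable def wave (ψ : Vec N Q) : MvPolynomial (Fin N × Fin 2) ℂ :=
  ∑ m : Conf N Q, MvPolynomial.C (ψ m) * ∏ i : Fin N,
    (MvPolynomial.C ((√(Q.choose (m i)) : ℝ) : ℂ) *
      MvPolynomial.X (i, 0) ^ (m i : ℕ) * MvPolynomial.X (i, 1) ^ (Q - (m i : ℕ)))

/-- The Laughlin polynomial `∏_{i<j} (u_i v_j - u_j v_i)^3`. -/
noncomputable def laughlinPoly (N : ℕ) : MvPolynomial (Fin N × Fin 2) ℂ :=
  ∏ p : Fin N × Fin N with p.1 < p.2,
    (MvPolynomial.X (p.1, 0) * MvPolynomial.X (p.2, 1) -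
      MvPolynomial.X (p.2, 0) * MvPolynomial.X (p.1, 1)) ^ 3

end Vale.Agent.P359.Model
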