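import Vale.Agent.P359.Model
import Vale.Agent.P359.Wave
import Vale.Agent.P359.Final

/-! # P359: the definitions of `Model.lean` agree with the ones used in the proof -/

open scoped InnerProductSpace

namespace Vale.Agent.P359.Model

variable {N Q : ℕ}

/-- the vector of `St` with the given coordinates -/
def up (ψ : Vec N Q) : Vale.Agent.P359.St N Q := WithLp.toLp 2 ψ

theorem up_apply (ψ : Vec N Q) (m : Conf N Q) : up ψ m = ψ m := rfl

theorem up_inj {ψ φ : Vec N Q} (h : up ψ = up φ) : ψ = φ := by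
  funext m
  have := congrArg (fun x : Vale.Agent.P359.St N Q => x m) h
  exact this

theorem cas_eq (i j : Fin N) (ψ : Vec N Q) (m : Conf N Q) :
    Vale.Agent.P359.Cas i j (up ψ) m = pairSpinSq i j ψ m := rfl

theorem pairSpace_eq (i j : Fin N) : pairSpace N Q i j = Vale.Agent.P359.spinSpace i j := by
  ext x
  constructor
  · intro h
    rw [Vale.Agent.P359.spinSpace, LinearMap.mem_ker, LinearMap.sub_apply, sub_eq_zero]
    ext m
    exact h m
  · intro h m
    rw [Vale.Agent.P359.spinSpace, LinearMap.mem_ker, LinearMap.sub_apply, sub_eq_zero] at h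
    have := congrArg (fun x : Vale.Agent.P359.St N Q => x m) h
    exact this

theorem pairProj_eq (i j : Fin N) (ψ : Vec N Q) (m : Conf N Q) :
    pairProj i j ψ m = Vale.Agent.P359.P1 i j (up ψ) m := by
  have : (pairSpace N Q i j).starProjection = (Vale.Agent.P359.spinSpace i j).starProjection := by
    congr 1
    exact pairSpace_eq i j
  unfold pairProj Vale.Agent.P359.P1
  rw [this]
  rfl

theorem hamiltonian_eq (ψ : Vec N Q) : up (hamiltonian ψ) = Vale.Agent.P359.Ham N Q (up ψ) := by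
  ext m
  rw [up_apply, Vale.Agent.P359.Ham_apply]
  unfold hamiltonian
  exact Finset.sum_congr rfl fun x _ => pairProj_eq _ _ _ _

theorem antisymmetric_iff (ψ : Vec N Q) :
    Antisymmetric ψ ↔ up ψ ∈ Vale.Agent.P359.Anti N Q := Iff.rfl

theorem laughlin_eq (N : ℕ) : up (laughlin N) = Vale.Agent.P359.Laughlin N := rfl

theorem wave_eq (ψ : Vec N Q) : wave ψ = Vale.Agent.P359.wave (up ψ) := rfl

theorem laughlinPoly_eq (N : ℕ) : laughlinPoly N = Vale.Agent.P359.laughlinPoly N := rfl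

theorem dot_eq (φ ψ : Vec N Q) : dot φ ψ = ⟪up φ, up ψ⟫_ℂ := by
  rw [PiLp.inner_apply]
  unfold dot
  refine Finset.sum_congr rfl fun m _ => ?_
  rw [RCLike.inner_apply, mul_comm]
  rfl

theorem normSq_eq (ψ : Vec N Q) : normSq ψ = ‖up ψ‖ ^ 2 := by
  rw [EuclideanSpace.norm_sq_eq]
  rfl

/-- the distance to a line -/
theorem dist_line {E : Type*} [NormedAddCommGroup E] [InnerProductSpace ℂ E] (L ψ : E)
    (hL : L ≠ 0) :
    ‖ψ - (Submodule.span ℂ {L}).starProjection ψ‖ ^ 2 = ‖ψ‖ ^ 2 - ‖⟪L, ψ⟫_ℂ‖ ^ 2 / ‖L‖ ^ 2 := by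
  have hL2 : ‖L‖ ^ 2 ≠ 0 := by
    have := norm_pos_iff.2 hL
    positivity
  have e1 := Submodule.norm_sq_eq_add_norm_sq_starProjection ψ (Submodule.span ℂ {L})
  rw [Submodule.starProjection_orthogonal_val] at e1
  have e3 : (Submodule.span ℂ {L}).starProjection ψ = (⟪L, ψ⟫_ℂ / ((‖L‖ ^ 2 : ℝ) : ℂ)) • L := by
    rw [Submodule.starProjection_singleton]
    rfl
  have e2 : ‖(Submodule.span ℂ {L}).starProjection ψ‖ ^ 2 = ‖⟪L, ψ⟫_ℂ‖ ^ 2 / ‖L‖ ^ 2 := by
    rw [e3, norm_smul, norm_div, Complex.norm_real, Real.norm_eq_abs,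
      abs_of_nonneg (by positivity), mul_pow, div_pow]
    field_simp
  rw [← e2, e1]
  ring

end Vale.Agent.P359.Model
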