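import Vale.Agent.P359.Cert
import Mathlib

/-!
# P359: the planar numerics, computable part
-/

namespace Vale.Agent.P359.Pl

/-- coefficients of `(a + c z) * l`, `prev` is the coefficient below the first one -/
def mulAux (a c prev : ℚ) : List ℚ → List ℚ
  | [] => [c * prev]
  | x :: xs => (a * x + c * prev) :: mulAux a c x xs

/-- coefficients of `(b-z)^m` -/
def powL (b : ℚ) : ℕ → List ℚ
  | 0 => [1]
  | m + 1 => mulAux b (-1) 0 (powL b m)

/-- coefficients of `(a+z)^K (b-z)^m` -/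
def kapL (a b : ℚ) (m : ℕ) : ℕ → List ℚ
  | 0 => powL b m
  | K + 1 => mulAux a 1 0 (kapL a b m K)

/-- entry `i` is `c * (ab)^(n+i) (n+i)! (J-(n+i))! x_i y_i` -/
def entAux (ab c : ℚ) (J : ℕ) : List ℚ → List ℚ → ℕ → List ℚ
  | [], _, _ => []
  | _ :: _, [], _ => []
  | x :: xs, y :: ys, n =>
    (c * (ab ^ n * (n.factorial : ℚ) * ((J - n).factorial : ℚ)) * (x * y)) ::
      entAux ab c J xs ys (n + 1)

/-- the coefficients of `rho_n` in `c * p K m K' m'` -/
def ent (a b c : ℚ) (K m K' m' : ℕ) : List ℚ :=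
  entAux (a * b) (c / ((a + b) ^ (K + m) * ((K.factorial : ℚ) * (m.factorial : ℚ) *
    (K'.factorial : ℚ) * (m'.factorial : ℚ)))) (K + m) (kapL a b m K) (kapL a b m' K') 0

/-- pointwise sum -/
def addL : List ℚ → List ℚ → List ℚ
  | [], l => l
  | x :: xs, [] => x :: xs
  | x :: xs, y :: ys => (x + y) :: addL xs ys

/-- multiplicity of an entry -/
def mlt (e : ℕ × ℕ × ℕ × ℕ × ℤ) : ℚ :=
  (if e.1 = e.2.2.1 ∧ e.2.1 = e.2.2.2.1 then 1 else 2) * (e.2.2.2.2 : ℚ) / 1000000

/-- the sum over a list of entries -/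
def sumE (a b : ℚ) : List (ℕ × ℕ × ℕ × ℕ × ℤ) → List ℚ
  | [] => []
  | e :: es => addL (ent a b (mlt e) e.1 e.2.1 e.2.2.1 e.2.2.2.1) (sumE a b es)

/-- the three-body part of the energy, `K = 1..n`, with a minus sign -/
def enP : ℕ → List ℚ
  | 0 => []
  | K + 1 => addL (addL (ent 2 1 (-(((K + 1).factorial : ℚ) / 2 ^ (K + 1) * (K : ℚ))) 0 (K + 1) (K + 1) 0)
      (ent 2 1 (((K + 1).factorial : ℚ) / 2 ^ (K + 1) * ((K : ℚ) + 2)) 0 (K + 2) (K + 1) 1)) (enP K)

/-- the four-body part of the energy, `K = 1..n`, with a minus sign -/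
def enQ : ℕ → List ℚ
  | 0 => []
  | K + 1 => addL (ent 2 2 (-(((K + 1).factorial : ℚ) / 2 ^ (K + 1))) 0 (K + 1) 0 (K + 1)) (enQ K)

/-- Pauli multipliers -/
def muL : List (ℕ × ℚ) := [(22, 1860 / 1000000), (25, 2199 / 1000000), (34, 3914 / 100000000),
  (46, 28 / 100000000), (61, 2 / 100000000000)]

/-- the Pauli side with a minus sign -/
def muE : List (ℕ × ℚ) → List ℚ
  | [] => []
  | e :: es => addL (ent 2 1 (-(e.2 * (e.1.factorial : ℚ))) 0 e.1 0 e.1) (muE es)

/-- all coefficients with a non exempt index are nonpositive -/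
def chk (ex : ℕ → Bool) : List ℚ → ℕ → Bool
  | [], _ => true
  | x :: xs, n => (ex n || decide (x ≤ 0)) && chk ex xs (n + 1)

/-- indices with `rho_n = 0` for the three-body array -/
def exP (n : ℕ) : Bool := n == 0 || n == 1 || n == 3

/-- indices with `rho_n = 0` for the four-body array -/
def exQ (n : ℕ) : Bool := decide (n < 4) || n % 2 == 1

theorem chkQ_ok : chk exQ (addL (sumE 2 2 certQ) (enQ 60)) 0 = true := by decide +kernel

theorem chkP_ok : chk exP (addL (addL (sumE 2 1 certR) (enP 60)) (muE muL)) 0 = true := by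
  decide +kernel

end Vale.Agent.P359.Pl
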