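import Mathlib

/-!
# A kernel-checked certificate for positive semidefiniteness

`M` and `G` are integer matrices given by the lists of their rows, `s > 0` is an integer.  If
`s * M - G * Gᵀ` is symmetric and diagonally dominant (exact integer arithmetic, `psdCheck`), then
the quadratic form of `M` is nonnegative.
-/

namespace Vale.Agent.P359

/-- The entry `(i, j)` of a matrix given by its list of rows (`0` outside). -/
def ent (M : List (List ℤ)) (i j : ℕ) : ℤ := (M.getD i []).getD j 0

/-- Sum of the products of the entries of two lists (as long as the shorter one). -/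
def dotL : List ℤ → List ℤ → ℤ
  | a :: l, b :: m => a * b + dotL l m
  | _, _ => 0

/-- The entry `(i, j)` of `s * M - G * Gᵀ`. -/
def resE (s : ℤ) (M G : List (List ℤ)) (i j : ℕ) : ℤ :=
  s * ent M i j - dotL (G.getD i []) (G.getD j [])

/-- The sum of `f j`, `j < n`. -/
def sumTo (f : ℕ → ℤ) : ℕ → ℤ
  | 0 => 0
  | n + 1 => sumTo f n + f n

/-- `f j` holds for all `j < n`. -/
def allTo (f : ℕ → Bool) : ℕ → Bool
  | 0 => true
  | n + 1 => allTo f n && f n

/-- Absolute value of an integer, as an integer. -/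
def absZ (a : ℤ) : ℤ := (a.natAbs : ℤ)

/-- The certificate check: `s > 0`, `M` symmetric, `s * M - G * Gᵀ` diagonally dominant. -/
def psdCheck (n : ℕ) (s : ℤ) (M G : List (List ℤ)) : Bool :=
  decide (0 < s) && allTo (fun i => allTo (fun j => decide (ent M i j = ent M j i)) n) n &&
    allTo (fun i =>
      decide (sumTo (fun j => absZ (resE s M G i j)) n ≤ 2 * resE s M G i i)) n

theorem allTo_iff (f : ℕ → Bool) (n : ℕ) : allTo f n = true ↔ ∀ j < n, f j = true := by
  induction n with
  | zero => simp [allTo]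
  | succ n ih =>
    simp only [allTo, Bool.and_eq_true, ih]
    constructor
    · rintro ⟨h1, h2⟩ j hj
      rcases Nat.lt_succ_iff_lt_or_eq.mp hj with h | h
      · exact h1 j h
      · rw [h]; exact h2
    · intro h
      exact ⟨fun j hj => h j (by omega), h n (by omega)⟩

theorem sumTo_eq (f : ℕ → ℤ) (n : ℕ) : sumTo f n = ∑ j ∈ Finset.range n, f j := by
  induction n with
  | zero => simp [sumTo]
  | succ n ih => rw [sumTo, ih, Finset.sum_range_succ]

theorem dotL_eq (l m : List ℤ) (N : ℕ) (hl : l.length ≤ N) :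
    (dotL l m : ℤ) = ∑ k ∈ Finset.range N, l.getD k 0 * m.getD k 0 := by
  induction l generalizing m N with
  | nil => simp [dotL]
  | cons a l ih =>
    cases m with
    | nil => simp [dotL]
    | cons b m =>
      obtain ⟨N, rfl⟩ : ∃ N', N = N' + 1 := ⟨N - 1, by simp at hl; omega⟩
      rw [dotL, ih m N (by simpa using hl), Finset.sum_range_succ']
      simp [add_comm]

theorem resE_symm {n : ℕ} {s : ℤ} {M G : List (List ℤ)}
    (h : ∀ i < n, ∀ j < n, ent M i j = ent M j i) {i j : ℕ} (hi : i < n) (hj : j < n) :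
    resE s M G i j = resE s M G j i := by
  unfold resE
  rw [h i hi j hj]
  congr 1
  rw [dotL_eq _ _ (max (G.getD i []).length (G.getD j []).length) (le_max_left _ _),
    dotL_eq _ _ (max (G.getD i []).length (G.getD j []).length) (le_max_right _ _)]
  exact Finset.sum_congr rfl fun k _ => mul_comm _ _

/-- A real symmetric diagonally dominant kernel is positive semidefinite. -/
theorem dd_nonneg (n : ℕ) (E : ℕ → ℕ → ℝ) (hs : ∀ i < n, ∀ j < n, E i j = E j i)
    (hd : ∀ i < n, ∑ j ∈ Finset.range n, |E i j| ≤ 2 * E i i) (x : ℕ → ℝ) :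
    0 ≤ ∑ i ∈ Finset.range n, ∑ j ∈ Finset.range n, E i j * x i * x j := by
  -- `E i j x i x j ≥ - |E i j| (x i ^ 2 + x j ^ 2) / 2`, equality on the diagonal is corrected
  have key : ∀ i ∈ Finset.range n, ∀ j ∈ Finset.range n,
      -(|E i j| * (x i ^ 2 + x j ^ 2) / 2) + (if i = j then 2 * E i i * x i ^ 2 else 0) ≤
        E i j * x i * x j := by
    intro i hi j hj
    by_cases hij : i = j
    · subst hij
      rw [if_pos rfl]
      have hpos : 0 ≤ E i i := by
        have h1 := hd i (Finset.mem_range.mp hi)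
        have h2 : 0 ≤ ∑ j ∈ Finset.range n, |E i j| := Finset.sum_nonneg fun _ _ => abs_nonneg _
        linarith
      rw [abs_of_nonneg hpos]
      nlinarith
    · rw [if_neg hij, add_zero]
      have h1 : -(|E i j| * (|x i| * |x j|)) ≤ E i j * x i * x j := by
        have := neg_abs_le (E i j * x i * x j)
        rwa [abs_mul, abs_mul, mul_assoc] at this
      have h2 : |x i| * |x j| ≤ (x i ^ 2 + x j ^ 2) / 2 := by
        have := sq_nonneg (|x i| - |x j|)
        have h3 := sq_abs (x i)
        have h4 := sq_abs (x j)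
        nlinarith
      have h3 := mul_le_mul_of_nonneg_left h2 (abs_nonneg (E i j))
      linarith [h1, h3]
  have hsum := Finset.sum_le_sum fun i hi => Finset.sum_le_sum (key i hi)
  refine le_trans ?_ hsum
  have e1 : ∑ i ∈ Finset.range n, ∑ j ∈ Finset.range n,
      (-(|E i j| * (x i ^ 2 + x j ^ 2) / 2) + (if i = j then 2 * E i i * x i ^ 2 else 0)) =
      ∑ i ∈ Finset.range n, (2 * E i i - ∑ j ∈ Finset.range n, |E i j|) * x i ^ 2 := by
    simp only [Finset.sum_add_distrib]
    have h1 : ∑ i ∈ Finset.range n, ∑ j ∈ Finset.range n,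
        (if i = j then 2 * E i i * x i ^ 2 else 0) =
        ∑ i ∈ Finset.range n, 2 * E i i * x i ^ 2 := by
      refine Finset.sum_congr rfl fun i hi => ?_
      rw [Finset.sum_ite_eq, if_pos hi]
    have h2 : ∑ i ∈ Finset.range n, ∑ j ∈ Finset.range n, |E i j| * x j ^ 2 =
        ∑ i ∈ Finset.range n, ∑ j ∈ Finset.range n, |E i j| * x i ^ 2 := by
      rw [Finset.sum_comm]
      refine Finset.sum_congr rfl fun i hi => Finset.sum_congr rfl fun j hj => ?_
      rw [hs j (Finset.mem_range.mp hj) i (Finset.mem_range.mp hi)]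
    have h3 : ∑ i ∈ Finset.range n, ∑ j ∈ Finset.range n,
        -(|E i j| * (x i ^ 2 + x j ^ 2) / 2) =
        -(∑ i ∈ Finset.range n, ∑ j ∈ Finset.range n, |E i j| * x i ^ 2) := by
      have : ∑ i ∈ Finset.range n, ∑ j ∈ Finset.range n,
          -(|E i j| * (x i ^ 2 + x j ^ 2) / 2) =
          -((∑ i ∈ Finset.range n, ∑ j ∈ Finset.range n, |E i j| * x i ^ 2) +
            ∑ i ∈ Finset.range n, ∑ j ∈ Finset.range n, |E i j| * x j ^ 2) / 2 := by
        rw [← Finset.sum_add_distrib, ← Finset.sum_neg_distrib, Finset.sum_div]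
        refine Finset.sum_congr rfl fun i _ => ?_
        rw [← Finset.sum_add_distrib, ← Finset.sum_neg_distrib, Finset.sum_div]
        refine Finset.sum_congr rfl fun j _ => ?_
        ring
      rw [this, h2]
      ring
    rw [h1, h3, ← Finset.sum_neg_distrib, ← Finset.sum_add_distrib]
    refine Finset.sum_congr rfl fun i _ => ?_
    rw [sub_mul, Finset.sum_mul]
    ring
  rw [e1]
  refine Finset.sum_nonneg fun i hi => mul_nonneg ?_ (sq_nonneg _)
  linarith [hd i (Finset.mem_range.mp hi)]

/-- **Soundness of the certificate.** -/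
theorem psd_of_check {n : ℕ} {s : ℤ} {M G : List (List ℤ)} (h : psdCheck n s M G = true)
    (x : ℕ → ℝ) :
    0 ≤ ∑ i ∈ Finset.range n, ∑ j ∈ Finset.range n, (ent M i j : ℝ) * x i * x j := by
  simp only [psdCheck, Bool.and_eq_true, decide_eq_true_eq, allTo_iff, sumTo_eq] at h
  obtain ⟨⟨hs, hsym⟩, hdd⟩ := h
  have hE := dd_nonneg n (fun i j => (resE s M G i j : ℝ))
    (fun i hi j hj => by rw [resE_symm hsym hi hj])
    (fun i hi => by
      have := hdd i hi
      have h2 : ((∑ j ∈ Finset.range n, absZ (resE s M G i j) : ℤ) : ℝ) ≤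
          ((2 * resE s M G i i : ℤ) : ℝ) := by exact_mod_cast this
      push_cast [absZ] at h2
      simpa using h2) x
  -- the common length of the rows of `G`
  obtain ⟨N, hN⟩ : ∃ N, ∀ i < n, (G.getD i []).length ≤ N :=
    ⟨∑ i ∈ Finset.range n, (G.getD i []).length, fun i hi =>
      Finset.single_le_sum (f := fun i => (G.getD i []).length) (fun _ _ => Nat.zero_le _)
        (Finset.mem_range.mpr hi)⟩
  have hG : 0 ≤ ∑ i ∈ Finset.range n, ∑ j ∈ Finset.range n,
      ((dotL (G.getD i []) (G.getD j []) : ℤ) : ℝ) * x i * x j := by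
    have e : ∑ i ∈ Finset.range n, ∑ j ∈ Finset.range n,
        ((dotL (G.getD i []) (G.getD j []) : ℤ) : ℝ) * x i * x j =
        ∑ k ∈ Finset.range N, (∑ i ∈ Finset.range n, (((G.getD i []).getD k 0 : ℤ) : ℝ) * x i) ^ 2
        := by
      have e1 : ∀ i ∈ Finset.range n, ∀ j ∈ Finset.range n,
          ((dotL (G.getD i []) (G.getD j []) : ℤ) : ℝ) * x i * x j =
          ∑ k ∈ Finset.range N, ((((G.getD i []).getD k 0 : ℤ) : ℝ) * x i) *
            ((((G.getD j []).getD k 0 : ℤ) : ℝ) * x j) := by
        intro i hi j _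
        rw [dotL_eq _ _ N (hN i (Finset.mem_range.mp hi))]
        push_cast
        rw [Finset.sum_mul, Finset.sum_mul]
        refine Finset.sum_congr rfl fun k _ => ?_
        ring
      rw [Finset.sum_congr rfl fun i hi => Finset.sum_congr rfl (e1 i hi)]
      have e2 : ∀ i ∈ Finset.range n, ∑ j ∈ Finset.range n, ∑ k ∈ Finset.range N,
          ((((G.getD i []).getD k 0 : ℤ) : ℝ) * x i) *
            ((((G.getD j []).getD k 0 : ℤ) : ℝ) * x j) =
          ∑ k ∈ Finset.range N, ((((G.getD i []).getD k 0 : ℤ) : ℝ) * x i) *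
            ∑ j ∈ Finset.range n, ((((G.getD j []).getD k 0 : ℤ) : ℝ) * x j) := by
        intro i _
        rw [Finset.sum_comm]
        refine Finset.sum_congr rfl fun k _ => ?_
        rw [Finset.mul_sum]
      rw [Finset.sum_congr rfl e2, Finset.sum_comm]
      refine Finset.sum_congr rfl fun k _ => ?_
      rw [← Finset.sum_mul, sq]
    rw [e]
    exact Finset.sum_nonneg fun k _ => sq_nonneg _
  have hs' : (0 : ℝ) < s := by exact_mod_cast hs
  have htot : (s : ℝ) * ∑ i ∈ Finset.range n, ∑ j ∈ Finset.range n,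
      (ent M i j : ℝ) * x i * x j =
      (∑ i ∈ Finset.range n, ∑ j ∈ Finset.range n, (resE s M G i j : ℝ) * x i * x j) +
      ∑ i ∈ Finset.range n, ∑ j ∈ Finset.range n,
        ((dotL (G.getD i []) (G.getD j []) : ℤ) : ℝ) * x i * x j := by
    rw [← Finset.sum_add_distrib, Finset.mul_sum]
    refine Finset.sum_congr rfl fun i _ => ?_
    rw [← Finset.sum_add_distrib, Finset.mul_sum]
    refine Finset.sum_congr rfl fun j _ => ?_
    unfold resE
    push_cast
    ring
  have : 0 ≤ (s : ℝ) * ∑ i ∈ Finset.range n, ∑ j ∈ Finset.range n,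
      (ent M i j : ℝ) * x i * x j := by
    rw [htot]; exact add_nonneg hE hG
  exact nonneg_of_mul_nonneg_right this hs'

end Vale.Agent.P359
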