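import Vale.Agent.P359.SpecA
import Vale.Agent.P359.FockIp

/-!
# P359, pieces D2, D3: invariance of the eigenspaces and of the traces
-/

namespace Vale.Agent.P359.SpecB

open Finset

/-! ### closure -/

theorem an_mem_Sup {Q : ℕ} (m : ℕ) {ψ : Fk} (h : ψ ∈ Sup Q) : an m ψ ∈ Sup Q := by
  intro U hU
  simp only [an, LinearMap.coe_mk, AddHom.coe_mk]
  split_ifs with hm
  · rfl
  · rw [h _ fun h' => hU ((Finset.subset_insert _ _).trans h'), mul_zero]

theorem an_high {Q : ℕ} {m : ℕ} (hm : Q < m) {ψ : Fk} (h : ψ ∈ Sup Q) : an m ψ = 0 := by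
  funext U
  simp only [an, LinearMap.coe_mk, AddHom.coe_mk, Pi.zero_apply]
  split_ifs with hmU
  · rfl
  · rw [h _ fun h' => ?_, mul_zero]
    have := Finset.mem_range.mp (h' (Finset.mem_insert_self m U))
    omega

theorem bh_mem_Sup {Q : ℕ} (K : ℕ) {ψ : Fk} (h : ψ ∈ Sup Q) : bh K ψ ∈ Sup Q := by
  simp only [bh, LinearMap.sum_apply, LinearMap.smul_apply, Module.End.mul_apply]
  exact Submodule.sum_mem _ fun a _ => Submodule.smul_mem _ _ (an_mem_Sup _ (an_mem_Sup _ h))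

theorem bh_high {Q : ℕ} {K : ℕ} (hK : 2 * Q ≤ K + 1) {ψ : Fk} (h : ψ ∈ Sup Q) :
    bh K ψ = 0 := by
  simp only [bh, LinearMap.sum_apply, LinearMap.smul_apply, Module.End.mul_apply]
  refine Finset.sum_eq_zero fun a ha => ?_
  have h1 := (Finset.mem_filter.mp ha).2
  rw [an_high (Q := Q) (m := K + 1 - a) (by omega) (an_mem_Sup _ h), smul_zero]

theorem El_apply (ψ : Fk) (U : Finset ℕ) : El ψ U =
    ∑ m ∈ U, if m + 1 ∈ U then 0 else ((m : ℝ) + 1) * ψ (insert (m + 1) (U.erase m)) := rfl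

theorem Fl_apply (Q : ℕ) (ψ : Fk) (U : Finset ℕ) : Fl Q ψ U =
    ∑ m ∈ U, if m = 0 ∨ m - 1 ∈ U then 0 else
      ((Q : ℝ) - m + 1) * ψ (insert (m - 1) (U.erase m)) := rfl

theorem El_mem_Sup {Q : ℕ} {ψ : Fk} (h : ψ ∈ Sup Q) : El ψ ∈ Sup Q := by
  intro U hU
  rw [El_apply]
  refine Finset.sum_eq_zero fun m hm => ?_
  split_ifs with h1
  · rfl
  · rw [h _ fun h' => hU fun x hx => ?_, mul_zero]
    by_cases hxm : x = m
    · subst hxm
      have := Finset.mem_range.mp (h' (Finset.mem_insert_self (x + 1) _))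
      exact Finset.mem_range.mpr (by omega)
    · exact h' (Finset.mem_insert_of_mem (Finset.mem_erase.mpr ⟨hxm, hx⟩))

theorem Fl_mem_Sup {Q : ℕ} {ψ : Fk} (h : ψ ∈ Sup Q) : Fl Q ψ ∈ Sup Q := by
  intro U hU
  rw [Fl_apply]
  refine Finset.sum_eq_zero fun m hm => ?_
  split_ifs with h1
  · rfl
  · by_cases hmQ : m = Q + 1
    · subst hmQ; push_cast; ring_nf
    rw [h _ fun h' => hU fun x hx => ?_, mul_zero]
    by_cases hxm : x = m
    · subst hxm
      have := Finset.mem_range.mp (h' (Finset.mem_insert_self (x - 1) _))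
      exact Finset.mem_range.mpr (by omega)
    · exact h' (Finset.mem_insert_of_mem (Finset.mem_erase.mpr ⟨hxm, hx⟩))

theorem El_mem_Sec {Q N : ℕ} {ψ : Fk} (h : ψ ∈ Sec Q N) : El ψ ∈ Sec Q N := by
  intro U hU
  rw [El_apply]
  refine Finset.sum_eq_zero fun m hm => ?_
  split_ifs with h1
  · rfl
  · rw [h _ fun h' => hU ⟨fun x hx => ?_, ?_⟩, mul_zero]
    · by_cases hxm : x = m
      · subst hxm
        have := Finset.mem_range.mp (h'.1 (Finset.mem_insert_self (x + 1) _))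
        exact Finset.mem_range.mpr (by omega)
      · exact h'.1 (Finset.mem_insert_of_mem (Finset.mem_erase.mpr ⟨hxm, hx⟩))
    · have h2 := h'.2
      rw [Finset.card_insert_of_notMem (fun h3 => h1 (Finset.mem_of_mem_erase h3)),
        Finset.card_erase_of_mem hm] at h2
      have := Finset.card_pos.mpr ⟨m, hm⟩
      omega

theorem Fl_mem_Sec {Q N : ℕ} {ψ : Fk} (h : ψ ∈ Sec Q N) : Fl Q ψ ∈ Sec Q N := by
  intro U hU
  rw [Fl_apply]
  refine Finset.sum_eq_zero fun m hm => ?_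
  split_ifs with h1
  · rfl
  · by_cases hmQ : m = Q + 1
    · subst hmQ; push_cast; ring_nf
    push Not at h1
    rw [h _ fun h' => hU ⟨fun x hx => ?_, ?_⟩, mul_zero]
    · by_cases hxm : x = m
      · subst hxm
        have := Finset.mem_range.mp (h'.1 (Finset.mem_insert_self (x - 1) _))
        exact Finset.mem_range.mpr (by omega)
      · exact h'.1 (Finset.mem_insert_of_mem (Finset.mem_erase.mpr ⟨hxm, hx⟩))
    · have h2 := h'.2
      rw [Finset.card_insert_of_notMem (fun h3 => h1.2 (Finset.mem_of_mem_erase h3)),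
        Finset.card_erase_of_mem hm] at h2
      have := Finset.card_pos.mpr ⟨m, hm⟩
      omega

theorem Lz_apply (ψ : Fk) (U : Finset ℕ) : Lz ψ U = ((∑ m ∈ U, m : ℕ) : ℝ) * ψ U := rfl

theorem Lz_mem_Sec {Q N : ℕ} {ψ : Fk} (h : ψ ∈ Sec Q N) : Lz ψ ∈ Sec Q N := by
  intro U hU
  rw [Lz_apply, h U hU, mul_zero]

theorem Lz_mem_Sup {Q : ℕ} {ψ : Fk} (h : ψ ∈ Sup Q) : Lz ψ ∈ Sup Q := by
  intro U hU
  rw [Lz_apply, h U hU, mul_zero]

theorem ip_Lz (Q : ℕ) (φ ψ : Fk) : ip Q (Lz φ) ψ = ip Q φ (Lz ψ) := by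
  simp only [ip, Lz_apply]
  exact Finset.sum_congr rfl fun U _ => by ring

theorem ip_Fl {Q : ℕ} {φ ψ : Fk} (_h : φ ∈ Sup Q) (h' : ψ ∈ Sup Q) :
    ip Q (Fl Q φ) ψ = ip Q φ (El ψ) := (FockA.ip_El Q φ h').symm

theorem ip_El {Q : ℕ} {φ ψ : Fk} (h : φ ∈ Sup Q) (_h' : ψ ∈ Sup Q) :
    ip Q (El φ) ψ = ip Q φ (Fl Q ψ) := (FockA.ip_Fl Q ψ h).symm

/-! ### momentum -/

theorem an_Lz (m : ℕ) : an m * Lz = Lz * an m + (m : ℝ) • an m := by
  ext ψ U
  simp only [Module.End.mul_apply, LinearMap.add_apply, LinearMap.smul_apply, Pi.add_apply,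
    Pi.smul_apply, smul_eq_mul, Lz_apply]
  simp only [an, LinearMap.coe_mk, AddHom.coe_mk, Lz_apply]
  by_cases h : m ∈ U
  · simp [h]
  · simp only [if_neg h, Finset.sum_insert h]
    push_cast
    ring

theorem bh_Lz (K : ℕ) : bh K * Lz = Lz * bh K + ((K : ℝ) + 1) • bh K := by
  have key : ∀ a ∈ (range (K + 1)).filter (fun a => a < K + 1 - a),
      an (K + 1 - a) * an a * Lz =
        Lz * (an (K + 1 - a) * an a) + ((K : ℝ) + 1) • (an (K + 1 - a) * an a) := by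
    intro a ha
    have h1 := (Finset.mem_filter.mp ha).2
    rw [mul_assoc, an_Lz, mul_add, ← mul_assoc, an_Lz, add_mul, mul_smul_comm, smul_mul_assoc,
      mul_assoc, add_assoc, ← add_smul]
    congr 2
    rw [Nat.cast_sub (by omega)]
    push_cast
    ring
  simp only [bh, Finset.sum_mul, Finset.mul_sum, Finset.smul_sum, ← Finset.sum_add_distrib]
  refine Finset.sum_congr rfl fun a ha => ?_
  rw [smul_mul_assoc, key a ha, smul_add, mul_smul_comm, smul_comm]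

/-! ### the Hamiltonian form -/

theorem bh_Fl (Q K : ℕ) :
    bh (K + 1) * Fl Q = Fl Q * bh (K + 1) + (2 * (Q : ℝ) - 2 - K) • bh K := by
  rw [FockA.bh_Fl_succ]
  congr 2
  ring

theorem hf_El {Q : ℕ} {φ ψ : Fk} (hφ : φ ∈ Sup Q) (hψ : ψ ∈ Sup Q) :
    hf Q φ (El ψ) = hf Q (Fl Q φ) ψ := by
  have e1 : ∀ K, ip Q (bh K φ) (bh K (El ψ)) =
      ip Q (bh K φ) (El (bh K ψ)) + ((K : ℝ) + 1) * ip Q (bh K φ) (bh (K + 1) ψ) := by
    intro K
    have h := congrArg (fun T : Op => T ψ) (FockA.bh_El K)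
    simp only [Module.End.mul_apply, LinearMap.add_apply, LinearMap.smul_apply] at h
    rw [h, ip_add_right, ip_smul_right]
  have e2 : ∀ K, ip Q (bh (K + 1) (Fl Q φ)) (bh (K + 1) ψ) =
      ip Q (bh (K + 1) φ) (El (bh (K + 1) ψ)) +
        (2 * (Q : ℝ) - 2 - K) * ip Q (bh K φ) (bh (K + 1) ψ) := by
    intro K
    have h := congrArg (fun T : Op => T φ) (bh_Fl Q K)
    simp only [Module.End.mul_apply, LinearMap.add_apply, LinearMap.smul_apply] at h
    rw [h, ip_add_left, ip_smul_left, ip_Fl (bh_mem_Sup _ hφ) (bh_mem_Sup _ hψ)]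
  have e3 : ip Q (bh 0 (Fl Q φ)) (bh 0 ψ) = ip Q (bh 0 φ) (El (bh 0 ψ)) := by
    have h := congrArg (fun T : Op => T φ) (FockA.bh_Fl_zero Q)
    simp only [Module.End.mul_apply] at h
    rw [h, ip_Fl (bh_mem_Sup _ hφ) (bh_mem_Sup _ hψ)]
  simp only [hf]
  obtain _ | Q := Q
  · simp
  have hr : 2 * (Q + 1) - 1 = 2 * Q + 1 := by omega
  rw [hr]
  have L1 : ∑ K ∈ range (2 * Q + 1), hc (Q + 1) K * ip (Q + 1) (bh K φ) (bh K (El ψ)) =
      ∑ K ∈ range (2 * Q + 1), hc (Q + 1) K * ip (Q + 1) (bh K φ) (El (bh K ψ)) +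
      ∑ K ∈ range (2 * Q), hc (Q + 1) K * (((K : ℝ) + 1) *
        ip (Q + 1) (bh K φ) (bh (K + 1) ψ)) := by
    have : ∑ K ∈ range (2 * Q + 1), hc (Q + 1) K * (((K : ℝ) + 1) *
        ip (Q + 1) (bh K φ) (bh (K + 1) ψ)) = ∑ K ∈ range (2 * Q), hc (Q + 1) K *
        (((K : ℝ) + 1) * ip (Q + 1) (bh K φ) (bh (K + 1) ψ)) := by
      rw [Finset.sum_range_succ, bh_high (Q := Q + 1) (K := 2 * Q + 1) (by omega) hψ,
        ip_zero_right]
      ring
    rw [← this, ← Finset.sum_add_distrib]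
    refine Finset.sum_congr rfl fun K _ => ?_
    rw [e1, mul_add]
  have L2 : ∑ K ∈ range (2 * Q + 1), hc (Q + 1) K * ip (Q + 1) (bh K (Fl (Q + 1) φ)) (bh K ψ) =
      ∑ K ∈ range (2 * Q + 1), hc (Q + 1) K * ip (Q + 1) (bh K φ) (El (bh K ψ)) +
      ∑ K ∈ range (2 * Q), hc (Q + 1) (K + 1) * ((2 * ((Q + 1 : ℕ) : ℝ) - 2 - K) *
        ip (Q + 1) (bh K φ) (bh (K + 1) ψ)) := by
    rw [Finset.sum_range_succ', Finset.sum_range_succ' _ (2 * Q), e3]
    have : ∑ K ∈ range (2 * Q), hc (Q + 1) (K + 1) *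
        ip (Q + 1) (bh (K + 1) (Fl (Q + 1) φ)) (bh (K + 1) ψ) =
        ∑ K ∈ range (2 * Q), hc (Q + 1) (K + 1) *
        ip (Q + 1) (bh (K + 1) φ) (El (bh (K + 1) ψ)) + ∑ K ∈ range (2 * Q),
        hc (Q + 1) (K + 1) * ((2 * ((Q + 1 : ℕ) : ℝ) - 2 - K) *
        ip (Q + 1) (bh K φ) (bh (K + 1) ψ)) := by
      rw [← Finset.sum_add_distrib]
      refine Finset.sum_congr rfl fun K _ => ?_
      rw [e2, mul_add]
    rw [this]
    ring
  rw [L1, L2]
  congr 1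
  refine Finset.sum_congr rfl fun K hK => ?_
  have hK' := Finset.mem_range.mp hK
  rw [← mul_assoc, ← mul_assoc]
  congr 1
  simp only [hc]
  have h2 : 2 * (Q + 1) - 2 = 2 * Q := by omega
  rw [h2]
  have c1 : (0 : ℝ) < ((2 * Q).choose K : ℝ) := by
    exact_mod_cast Nat.choose_pos (by omega)
  have c2 : (0 : ℝ) < ((2 * Q).choose (K + 1) : ℝ) := by
    exact_mod_cast Nat.choose_pos (by omega)
  have c3 : ((2 * Q).choose (K + 1) : ℝ) * (K + 1) = ((2 * Q).choose K : ℝ) * (2 * Q - K) := by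
    have := Nat.choose_succ_right_eq (2 * Q) K
    have h4 : ((2 * Q - K : ℕ) : ℝ) = 2 * (Q : ℝ) - K := by
      rw [Nat.cast_sub (by omega)]; push_cast; ring
    rw [← h4]
    exact_mod_cast this
  have c4 : (0 : ℝ) < ((Q + 1 : ℕ) : ℝ) := by positivity
  have c5 : 2 * ((Q + 1 : ℕ) : ℝ) - 2 - K = 2 * (Q : ℝ) - K := by push_cast; ring
  rw [c5]
  field_simp
  linarith [c3]

theorem hf_comm (Q : ℕ) (φ ψ : Fk) : hf Q φ ψ = hf Q ψ φ := by
  simp only [hf]
  exact Finset.sum_congr rfl fun K _ => by rw [ip_comm]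

theorem hf_Fl {Q : ℕ} {φ ψ : Fk} (hφ : φ ∈ Sup Q) (hψ : ψ ∈ Sup Q) :
    hf Q φ (Fl Q ψ) = hf Q (El φ) ψ := by
  rw [hf_comm, ← hf_El hψ hφ, hf_comm]

theorem hf_Lz (Q : ℕ) (φ ψ : Fk) : hf Q φ (Lz ψ) = hf Q (Lz φ) ψ := by
  simp only [hf]
  refine Finset.sum_congr rfl fun K _ => ?_
  have h := fun θ : Fk => congrArg (fun T : Op => T θ) (bh_Lz K)
  simp only [Module.End.mul_apply, LinearMap.add_apply, LinearMap.smul_apply] at h
  rw [h φ, h ψ, ip_add_left, ip_add_right, ip_smul_left, ip_smul_right, ip_Lz]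

theorem El_mem_Eig {Q N : ℕ} {lam : ℝ} {ψ : Fk} (h : ψ ∈ Eig Q N lam) :
    El ψ ∈ Eig Q N lam := by
  refine ⟨El_mem_Sec h.1, fun φ hφ => ?_⟩
  have hφ' := Sec_le_Sup _ _ hφ
  have hψ' := Sec_le_Sup _ _ h.1
  rw [hf_El hφ' hψ', h.2 _ (Fl_mem_Sec hφ), ip_Fl hφ' hψ']

theorem Fl_mem_Eig {Q N : ℕ} {lam : ℝ} {ψ : Fk} (h : ψ ∈ Eig Q N lam) :
    Fl Q ψ ∈ Eig Q N lam := by
  refine ⟨Fl_mem_Sec h.1, fun φ hφ => ?_⟩
  have hφ' := Sec_le_Sup _ _ hφ
  have hψ' := Sec_le_Sup _ _ h.1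
  rw [hf_Fl hφ' hψ', h.2 _ (El_mem_Sec hφ), ip_El hφ' hψ']

theorem Lz_mem_Eig {Q N : ℕ} {lam : ℝ} {ψ : Fk} (h : ψ ∈ Eig Q N lam) :
    Lz ψ ∈ Eig Q N lam := by
  refine ⟨Lz_mem_Sec h.1, fun φ hφ => ?_⟩
  rw [hf_Lz, h.2 _ (Lz_mem_Sec hφ), ip_Lz]

/-! ### the trace form -/

section trace

variable {Q : ℕ} {W : Submodule ℝ Fk} {n : ℕ} {e : Fin n → Fk}

theorem tr_shift (hF : Fam Q W n e) {T T' : Op} (hT : ∀ ψ ∈ W, T ψ ∈ W)
    (hT' : ∀ ψ ∈ W, T' ψ ∈ W) (had : ∀ φ ∈ W, ∀ ψ ∈ W, ip Q (T φ) ψ = ip Q φ (T' ψ))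
    (F G : Op) : tr Q e (F * T) G = tr Q e F (G * T') := by
  simp only [tr, Module.End.mul_apply]
  have h1 : ∀ i, ip Q (F (T (e i))) (G (e i)) =
      ∑ j, ip Q (e j) (T (e i)) * ip Q (F (e j)) (G (e i)) := by
    intro i
    conv_lhs => rw [hF.span _ (hT _ (hF.mem i))]
    simp only [map_sum, map_smul, ip_sum_left, ip_smul_left]
  have h2 : ∀ j, ip Q (F (e j)) (G (T' (e j))) =
      ∑ i, ip Q (e i) (T' (e j)) * ip Q (F (e j)) (G (e i)) := by
    intro j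
    conv_lhs => rw [hF.span _ (hT' _ (hF.mem j))]
    simp only [map_sum, map_smul, ip_sum_right, ip_smul_right]
  simp only [h1, h2]
  rw [Finset.sum_comm]
  refine Finset.sum_congr rfl fun j _ => Finset.sum_congr rfl fun i _ => ?_
  rw [← had _ (hF.mem i) _ (hF.mem j), ip_comm]

theorem tr_add_left (F F' G : Op) : tr Q e (F + F') G = tr Q e F G + tr Q e F' G := by
  simp only [tr, LinearMap.add_apply, ip_add_left, Finset.sum_add_distrib]

theorem tr_add_right (F G G' : Op) : tr Q e F (G + G') = tr Q e F G + tr Q e F G' := by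
  simp only [tr, LinearMap.add_apply, ip_add_right, Finset.sum_add_distrib]

theorem tr_smul_left (r : ℝ) (F G : Op) : tr Q e (r • F) G = r * tr Q e F G := by
  simp only [tr, LinearMap.smul_apply, ip_smul_left, Finset.mul_sum]

theorem tr_smul_right (r : ℝ) (F G : Op) : tr Q e F (r • G) = r * tr Q e F G := by
  simp only [tr, LinearMap.smul_apply, ip_smul_right, Finset.mul_sum]

theorem tr_comm (F G : Op) : tr Q e F G = tr Q e G F := by
  simp only [tr]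
  exact Finset.sum_congr rfl fun i _ => ip_comm _ _ _

theorem tr_self_nonneg (F : Op) : 0 ≤ tr Q e F F :=
  Finset.sum_nonneg fun i _ => ip_self_nonneg Q _

theorem tr_zero_left (G : Op) : tr Q e 0 G = 0 := by
  simp [tr, ip_zero_left]

theorem tr_zero_right (F : Op) : tr Q e F 0 = 0 := by
  simp [tr, ip_zero_right]

theorem tr_sum_left {ι : Type*} (s : Finset ι) (F : ι → Op) (G : Op) :
    tr Q e (∑ i ∈ s, F i) G = ∑ i ∈ s, tr Q e (F i) G := by
  simp only [tr, LinearMap.sum_apply, ip_sum_left]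
  exact Finset.sum_comm

theorem tr_sum_right {ι : Type*} (s : Finset ι) (F : Op) (G : ι → Op) :
    tr Q e F (∑ i ∈ s, G i) = ∑ i ∈ s, tr Q e F (G i) := by
  simp only [tr, LinearMap.sum_apply, ip_sum_right]
  exact Finset.sum_comm

/-- positivity of the Gram array of a finite family of operators -/
theorem tr_gram {ι : Type*} (s : Finset ι) (v : ι → ℝ) (A : ι → Op) :
    0 ≤ ∑ p ∈ s, ∑ q ∈ s, v p * v q * tr Q e (A p) (A q) := by
  have h := tr_self_nonneg (Q := Q) (e := e) (∑ p ∈ s, v p • A p)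
  rw [tr_sum_left] at h
  simp only [tr_sum_right, tr_smul_left, tr_smul_right] at h
  refine h.trans (le_of_eq ?_)
  exact Finset.sum_congr rfl fun p _ => Finset.sum_congr rfl fun q _ => by ring

/-- Cauchy-Schwarz -/
theorem tr_cs (F G : Op) : tr Q e F G ^ 2 ≤ tr Q e F F * tr Q e G G := by
  have h : ∀ x : ℝ, 0 ≤ tr Q e G G * (x * x) + (-2 * tr Q e F G) * x + tr Q e F F := by
    intro x
    have := tr_self_nonneg (Q := Q) (e := e) (F + (-x) • G)
    rw [tr_add_left, tr_add_right, tr_add_right, tr_smul_left, tr_smul_left, tr_smul_right,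
      tr_smul_right, tr_comm G F] at this
    nlinarith [this]
  have := discrim_le_zero h
  rw [discrim] at this
  nlinarith [this]

theorem tr_abs_le (F G : Op) : |tr Q e F G| ≤ (tr Q e F F + tr Q e G G) / 2 := by
  have h1 := tr_self_nonneg (Q := Q) (e := e) (F + (-1 : ℝ) • G)
  have h2 := tr_self_nonneg (Q := Q) (e := e) (F + G)
  simp only [tr_add_left, tr_add_right, tr_smul_left, tr_smul_right] at h1 h2
  rw [tr_comm G F] at h1 h2
  rw [abs_le]
  constructor <;> linarith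

/-- the derivation rule: `tr (F_-) G = tr F (G_+)` -/
theorem tr_deriv (hF : Fam Q W n e) (hW : W ≤ Sup Q) (hE : ∀ ψ ∈ W, El ψ ∈ W)
    (hFl : ∀ ψ ∈ W, Fl Q ψ ∈ W) {F F' G G' : Op} (hFs : ∀ ψ ∈ W, F ψ ∈ Sup Q)
    (hGs : ∀ ψ ∈ W, G ψ ∈ Sup Q)
    (h1 : F * Fl Q = Fl Q * F + F') (h2 : G * El = El * G + G') :
    tr Q e F' G = tr Q e F G' := by
  have a1 : tr Q e (F * Fl Q) G = tr Q e F (G * El) :=
    tr_shift hF hFl hE (fun φ hφ ψ hψ => ip_Fl (hW hφ) (hW hψ)) F G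
  have a2 : tr Q e (Fl Q * F) G = tr Q e F (El * G) := by
    simp only [tr, Module.End.mul_apply]
    exact Finset.sum_congr rfl fun i _ => ip_Fl (hFs _ (hF.mem i)) (hGs _ (hF.mem i))
  rw [h1, h2, tr_add_left, tr_add_right, a2] at a1
  linarith

/-- weights: operators lowering the momentum by different amounts are orthogonal -/
theorem tr_weight (hF : Fam Q W n e) (hL : ∀ ψ ∈ W, Lz ψ ∈ W) {F G : Op} {f g : ℝ}
    (h1 : F * Lz = Lz * F + f • F) (h2 : G * Lz = Lz * G + g • G) (hne : f ≠ g) :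
    tr Q e F G = 0 := by
  have a1 : tr Q e (F * Lz) G = tr Q e F (G * Lz) :=
    tr_shift hF hL hL (fun φ _ ψ _ => ip_Lz Q φ ψ) F G
  have a2 : tr Q e (Lz * F) G = tr Q e F (Lz * G) := by
    simp only [tr, Module.End.mul_apply]
    exact Finset.sum_congr rfl fun i _ => ip_Lz Q _ _
  rw [h1, h2, tr_add_left, tr_add_right, a2, tr_smul_left, tr_smul_right] at a1
  have : (f - g) * tr Q e F G = 0 := by linarith
  rcases mul_eq_zero.mp this with h | h
  · exact absurd (sub_eq_zero.mp h) hne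
  · exact h

end trace

end Vale.Agent.P359.SpecB
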