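import Vale.Agent.P359.SpecA
import Vale.Agent.P359.FockIp
import Vale.Agent.P359.SpecB

/-! # P359: spectral families, invariance, traces -/

namespace Vale.Agent.P359

open Finset

theorem eig_El {Q N : ℕ} {lam : ℝ} (_hQ : 1 ≤ Q) {ψ : Fk} (h : ψ ∈ Eig Q N lam) :
    El ψ ∈ Eig Q N lam := SpecB.El_mem_Eig h
theorem eig_Fl {Q N : ℕ} {lam : ℝ} (_hQ : 1 ≤ Q) {ψ : Fk} (h : ψ ∈ Eig Q N lam) :
    Fl Q ψ ∈ Eig Q N lam := SpecB.Fl_mem_Eig h
theorem eig_Lz {Q N : ℕ} {lam : ℝ} (_hQ : 1 ≤ Q) {ψ : Fk} (h : ψ ∈ Eig Q N lam) :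
    Lz ψ ∈ Eig Q N lam := SpecB.Lz_mem_Eig h

section
variable {Q : ℕ} {n : ℕ} (e : Fin n → Fk)

theorem tr_comm (F G : Op) : tr Q e F G = tr Q e G F := SpecB.tr_comm F G
theorem tr_add_left (F F' G : Op) : tr Q e (F + F') G = tr Q e F G + tr Q e F' G :=
  SpecB.tr_add_left F F' G
theorem tr_add_right (F G G' : Op) : tr Q e F (G + G') = tr Q e F G + tr Q e F G' :=
  SpecB.tr_add_right F G G'
theorem tr_smul_left (c : ℝ) (F G : Op) : tr Q e (c • F) G = c * tr Q e F G :=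
  SpecB.tr_smul_left c F G
theorem tr_smul_right (c : ℝ) (F G : Op) : tr Q e F (c • G) = c * tr Q e F G :=
  SpecB.tr_smul_right c F G
theorem tr_sum_left {ι : Type*} (s : Finset ι) (F : ι → Op) (G : Op) :
    tr Q e (∑ i ∈ s, F i) G = ∑ i ∈ s, tr Q e (F i) G := SpecB.tr_sum_left s F G
theorem tr_sum_right {ι : Type*} (s : Finset ι) (F : Op) (G : ι → Op) :
    tr Q e F (∑ i ∈ s, G i) = ∑ i ∈ s, tr Q e F (G i) := SpecB.tr_sum_right s F G
theorem tr_self_nonneg (F : Op) : 0 ≤ tr Q e F F := SpecB.tr_self_nonneg F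
theorem tr_cs (F G : Op) : tr Q e F G ^ 2 ≤ tr Q e F F * tr Q e G G := SpecB.tr_cs F G

end

section
variable {Q N : ℕ} {lam : ℝ} {n : ℕ} {e : Fin n → Fk}

theorem Eig_le_Sup (Q N : ℕ) (lam : ℝ) : Eig Q N lam ≤ Sup Q :=
  (Eig_le_Sec Q N lam).trans (Sec_le_Sup Q N)

theorem tr_El (_hQ : 1 ≤ Q) (he : Fam Q (Eig Q N lam) n e) (F G : Op) :
    tr Q e (F * Fl Q) G = tr Q e F (G * El) :=
  SpecB.tr_shift he (fun _ h => SpecB.Fl_mem_Eig h) (fun _ h => SpecB.El_mem_Eig h)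
    (fun _ hφ _ hψ => SpecB.ip_Fl (Eig_le_Sup Q N lam hφ) (Eig_le_Sup Q N lam hψ)) F G

theorem tr_Lz (_hQ : 1 ≤ Q) (he : Fam Q (Eig Q N lam) n e) (F G : Op) :
    tr Q e (F * Lz) G = tr Q e F (G * Lz) :=
  SpecB.tr_shift he (fun _ h => SpecB.Lz_mem_Eig h) (fun _ h => SpecB.Lz_mem_Eig h)
    (fun _ _ _ _ => SpecB.ip_Lz Q _ _) F G

theorem tr_bh_succ (he : Fam Q (Eig Q N lam) n e) (K : ℕ) :
    (2 * (Q : ℝ) - 2 - K) * tr Q e (bh K) (bh K) =
      ((K : ℝ) + 1) * tr Q e (bh (K + 1)) (bh (K + 1)) := by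
  have h := SpecB.tr_deriv (F := bh (K + 1)) (F' := (2 * (Q : ℝ) - 2 - K) • bh K)
    (G := bh K) (G' := ((K : ℝ) + 1) • bh (K + 1)) he (Eig_le_Sup Q N lam)
    (fun _ h => SpecB.El_mem_Eig h) (fun _ h => SpecB.Fl_mem_Eig h)
    (fun _ h => SpecB.bh_mem_Sup _ (Eig_le_Sup Q N lam h))
    (fun _ h => SpecB.bh_mem_Sup _ (Eig_le_Sup Q N lam h))
    (SpecB.bh_Fl Q K) (FockA.bh_El K)
  rwa [SpecB.tr_smul_left, SpecB.tr_smul_right] at h

theorem tr_bh (hQ : 1 ≤ Q) (he : Fam Q (Eig Q N lam) n e) (K : ℕ) :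
    tr Q e (bh K) (bh K) = ((2 * Q - 2).choose K : ℝ) * tr Q e (bh 0) (bh 0) := by
  induction K with
  | zero => simp
  | succ K ih =>
    rcases Nat.lt_or_ge K (2 * Q - 2) with hK | hK
    · have h := tr_bh_succ he K
      have h2 : ((2 * Q - 2).choose (K + 1) : ℝ) * ((K : ℝ) + 1) =
          ((2 * Q - 2).choose K : ℝ) * (2 * (Q : ℝ) - 2 - K) := by
        have h3 := Nat.choose_succ_right_eq (2 * Q - 2) K
        have h4 : (((2 * Q - 2 - K : ℕ)) : ℝ) = 2 * (Q : ℝ) - 2 - K := by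
          rw [Nat.cast_sub (by omega), Nat.cast_sub (by omega)]; push_cast; ring
        rw [← h4]
        exact_mod_cast h3
      have h5 : ((K : ℝ) + 1) ≠ 0 := by positivity
      refine mul_left_cancel₀ h5 ?_
      rw [← h, ih]
      linear_combination (-(tr Q e (bh 0) (bh 0))) * h2
    · have h1 : (2 * Q - 2).choose (K + 1) = 0 := Nat.choose_eq_zero_of_lt (by omega)
      rw [h1]
      have h2 : tr Q e (bh (K + 1)) (bh (K + 1)) = 0 := by
        simp only [tr]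
        refine Finset.sum_eq_zero fun i _ => ?_
        rw [SpecB.bh_high (Q := Q) (by omega) (Eig_le_Sup Q N lam (he.mem i)), ip_zero_left]
      rw [h2]
      simp

theorem tr_hf (he : Fam Q (Eig Q N lam) n e) :
    ∑ K ∈ range (2 * Q - 1), hc Q K * tr Q e (bh K) (bh K) = lam * n := by
  have h : ∀ i, hf Q (e i) (e i) = lam := by
    intro i
    rw [(he.mem i).2 _ (he.mem i).1, he.orth i i, if_pos rfl, mul_one]
  have h2 : ∑ i, hf Q (e i) (e i) = lam * n := by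
    rw [Finset.sum_congr rfl fun i _ => h i]
    simp [mul_comm]
  rw [← h2]
  simp only [hf, tr, Finset.mul_sum]
  exact Finset.sum_comm

theorem tr_bh0_pos (hQ : 1 ≤ Q) (he : Fam Q (Eig Q N lam) n e) (hn : 0 < n) (hlam : 0 < lam) :
    0 < tr Q e (bh 0) (bh 0) := by
  have h0 := SpecB.tr_self_nonneg (Q := Q) (e := e) (bh 0)
  refine lt_of_le_of_ne h0 fun hz => ?_
  have h := tr_hf he
  have h1 : ∑ K ∈ range (2 * Q - 1), hc Q K * tr Q e (bh K) (bh K) = 0 := by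
    refine Finset.sum_eq_zero fun K _ => ?_
    rw [tr_bh hQ he K, ← hz, mul_zero, mul_zero]
  rw [h1] at h
  have : 0 < lam * n := mul_pos hlam (by exact_mod_cast hn)
  linarith

/-! ### weights of the local operators -/

theorem three_Lz (K m : ℕ) :
    (an m * bh K) * Lz = Lz * (an m * bh K) + ((K : ℝ) + 1 + m) • (an m * bh K) := by
  rw [mul_assoc, SpecB.bh_Lz, mul_add, ← mul_assoc, SpecB.an_Lz, add_mul, mul_smul_comm,
    smul_mul_assoc, mul_assoc, add_assoc, ← add_smul]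
  congr 2
  ring

theorem four_Lz (K L : ℕ) :
    (bh L * bh K) * Lz = Lz * (bh L * bh K) + ((K : ℝ) + L + 2) • (bh L * bh K) := by
  rw [mul_assoc, SpecB.bh_Lz, mul_add, ← mul_assoc, SpecB.bh_Lz, add_mul, mul_smul_comm,
    smul_mul_assoc, mul_assoc, add_assoc, ← add_smul]
  congr 2
  ring

theorem tr3_off (he : Fam Q (Eig Q N lam) n e) {K m K' m' : ℕ} (h : K + m ≠ K' + m') :
    tr Q e (an m * bh K) (an m' * bh K') = 0 := by
  refine SpecB.tr_weight he (fun _ h => SpecB.Lz_mem_Eig h) (three_Lz K m) (three_Lz K' m')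
    fun hh => h ?_
  have : ((K + m : ℕ) : ℝ) = ((K' + m' : ℕ) : ℝ) := by push_cast; linarith
  exact_mod_cast this

theorem tr4_off (he : Fam Q (Eig Q N lam) n e) {K m K' m' : ℕ} (h : K + m ≠ K' + m') :
    tr Q e (bh m * bh K) (bh m' * bh K') = 0 := by
  refine SpecB.tr_weight he (fun _ h => SpecB.Lz_mem_Eig h) (four_Lz K m) (four_Lz K' m')
    fun hh => h ?_
  have : ((K + m : ℕ) : ℝ) = ((K' + m' : ℕ) : ℝ) := by push_cast; linarith
  exact_mod_cast this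

theorem arrp_off (_hQ : 1 ≤ Q) (he : Fam Q (Eig Q N lam) n e) (_hn : 0 < n) (_hlam : 0 < lam)
    (K m K' m' : ℕ) (h : K + m ≠ K' + m') : arrp Q e K m K' m' = 0 := by
  rw [arrp, tr3_off he h, zero_div]
theorem arrq_off (_hQ : 1 ≤ Q) (he : Fam Q (Eig Q N lam) n e) (_hn : 0 < n) (_hlam : 0 < lam)
    (K m K' m' : ℕ) (h : K + m ≠ K' + m') : arrq Q e K m K' m' = 0 := by
  rw [arrq, tr4_off he h, zero_div]

theorem arrp_symm (hQ : 1 ≤ Q) (he : Fam Q (Eig Q N lam) n e) (hn : 0 < n) (hlam : 0 < lam)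
    (K m K' m' : ℕ) : arrp Q e K m K' m' = arrp Q e K' m' K m := by
  by_cases h : K + m = K' + m'
  · rw [arrp, arrp, SpecB.tr_comm, h]
  · rw [arrp_off hQ he hn hlam _ _ _ _ h, arrp_off hQ he hn hlam _ _ _ _ (Ne.symm h)]
theorem arrq_symm (hQ : 1 ≤ Q) (he : Fam Q (Eig Q N lam) n e) (hn : 0 < n) (hlam : 0 < lam)
    (K m K' m' : ℕ) : arrq Q e K m K' m' = arrq Q e K' m' K m := by
  by_cases h : K + m = K' + m'
  · rw [arrq, arrq, SpecB.tr_comm, add_assoc, add_assoc, h]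
  · rw [arrq_off hQ he hn hlam _ _ _ _ h, arrq_off hQ he hn hlam _ _ _ _ (Ne.symm h)]

/-! ### the recursions -/

/-- the lowering part of `an m * bh K` -/
noncomputable def dm3 (Q K m : ℕ) : Op :=
  (if K = 0 then 0 else (2 * (Q : ℝ) - 1 - K) • (an m * bh (K - 1))) +
  (if m = 0 then 0 else ((Q : ℝ) - m + 1) • (an (m - 1) * bh K))

theorem bh_Fl' (Q K : ℕ) : bh K * Fl Q = Fl Q * bh K +
    (if K = 0 then 0 else (2 * (Q : ℝ) - 1 - K) • bh (K - 1)) := by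
  cases K with
  | zero => simp [FockA.bh_Fl_zero]
  | succ K =>
    rw [SpecB.bh_Fl]
    simp only [Nat.add_eq_zero_iff, one_ne_zero, and_false, if_false, Nat.add_sub_cancel]
    congr 2
    push_cast
    ring

theorem three_Fl (Q K m : ℕ) : (an m * bh K) * Fl Q = Fl Q * (an m * bh K) + dm3 Q K m := by
  rw [mul_assoc, bh_Fl', mul_add, ← mul_assoc, FockA.an_Fl, add_mul, mul_assoc, add_assoc, dm3]
  congr 1
  rw [add_comm]
  congr 1
  · split_ifs
    · simp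
    · rw [mul_smul_comm]
  · split_ifs
    · simp
    · rw [smul_mul_assoc]

theorem three_El (K m : ℕ) : (an m * bh K) * El = El * (an m * bh K) +
    (((K : ℝ) + 1) • (an m * bh (K + 1)) + ((m : ℝ) + 1) • (an (m + 1) * bh K)) := by
  rw [mul_assoc, FockA.bh_El, mul_add, ← mul_assoc, FockA.an_El, add_mul, mul_assoc, add_assoc]
  congr 1
  rw [add_comm, mul_smul_comm, smul_mul_assoc]

/-- the lowering part of `bh m * bh K` -/
noncomputable def dm4 (Q K m : ℕ) : Op :=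
  (if K = 0 then 0 else (2 * (Q : ℝ) - 1 - K) • (bh m * bh (K - 1))) +
  (if m = 0 then 0 else (2 * (Q : ℝ) - 1 - m) • (bh (m - 1) * bh K))

theorem four_Fl (Q K m : ℕ) : (bh m * bh K) * Fl Q = Fl Q * (bh m * bh K) + dm4 Q K m := by
  rw [mul_assoc, bh_Fl', mul_add, ← mul_assoc, bh_Fl', add_mul, mul_assoc, add_assoc, dm4]
  congr 1
  rw [add_comm]
  congr 1
  · split_ifs
    · simp
    · rw [mul_smul_comm]
  · split_ifs
    · simp
    · rw [smul_mul_assoc]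

theorem four_El (K m : ℕ) : (bh m * bh K) * El = El * (bh m * bh K) +
    (((K : ℝ) + 1) • (bh m * bh (K + 1)) + ((m : ℝ) + 1) • (bh (m + 1) * bh K)) := by
  rw [mul_assoc, FockA.bh_El, mul_add, ← mul_assoc, FockA.bh_El, add_mul, mul_assoc, add_assoc]
  congr 1
  rw [add_comm, mul_smul_comm, smul_mul_assoc]

theorem three_mem {K m : ℕ} {ψ : Fk} (h : ψ ∈ Sup Q) : (an m * bh K) ψ ∈ Sup Q :=
  SpecB.an_mem_Sup _ (SpecB.bh_mem_Sup _ h)

theorem four_mem {K m : ℕ} {ψ : Fk} (h : ψ ∈ Sup Q) : (bh m * bh K) ψ ∈ Sup Q :=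
  SpecB.bh_mem_Sup _ (SpecB.bh_mem_Sup _ h)

theorem tr3_rec (he : Fam Q (Eig Q N lam) n e) (K m K' m' : ℕ) :
    (if K = 0 then 0 else
      (2 * (Q : ℝ) - 1 - K) * tr Q e (an m * bh (K - 1)) (an m' * bh K')) +
    (if m = 0 then 0 else ((Q : ℝ) - m + 1) * tr Q e (an (m - 1) * bh K) (an m' * bh K')) =
    ((K' : ℝ) + 1) * tr Q e (an m * bh K) (an m' * bh (K' + 1)) +
    ((m' : ℝ) + 1) * tr Q e (an m * bh K) (an (m' + 1) * bh K') := by
  have h := SpecB.tr_deriv (F := an m * bh K) (F' := dm3 Q K m) (G := an m' * bh K') he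
    (Eig_le_Sup Q N lam)
    (fun _ h => SpecB.El_mem_Eig h) (fun _ h => SpecB.Fl_mem_Eig h)
    (fun _ h => three_mem (Eig_le_Sup Q N lam h))
    (fun _ h => three_mem (Eig_le_Sup Q N lam h)) (three_Fl Q K m) (three_El K' m')
  rw [dm3, SpecB.tr_add_left, SpecB.tr_add_right, SpecB.tr_smul_right, SpecB.tr_smul_right] at h
  rw [← h]
  congr 1
  · split_ifs
    · rw [SpecB.tr_zero_left]
    · rw [SpecB.tr_smul_left]
  · split_ifs
    · rw [SpecB.tr_zero_left]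
    · rw [SpecB.tr_smul_left]

theorem tr4_rec (he : Fam Q (Eig Q N lam) n e) (K m K' m' : ℕ) :
    (if K = 0 then 0 else
      (2 * (Q : ℝ) - 1 - K) * tr Q e (bh m * bh (K - 1)) (bh m' * bh K')) +
    (if m = 0 then 0 else
      (2 * (Q : ℝ) - 1 - m) * tr Q e (bh (m - 1) * bh K) (bh m' * bh K')) =
    ((K' : ℝ) + 1) * tr Q e (bh m * bh K) (bh m' * bh (K' + 1)) +
    ((m' : ℝ) + 1) * tr Q e (bh m * bh K) (bh (m' + 1) * bh K') := by
  have h := SpecB.tr_deriv (F := bh m * bh K) (F' := dm4 Q K m) (G := bh m' * bh K') he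
    (Eig_le_Sup Q N lam)
    (fun _ h => SpecB.El_mem_Eig h) (fun _ h => SpecB.Fl_mem_Eig h)
    (fun _ h => four_mem (Eig_le_Sup Q N lam h))
    (fun _ h => four_mem (Eig_le_Sup Q N lam h)) (four_Fl Q K m) (four_El K' m')
  rw [dm4, SpecB.tr_add_left, SpecB.tr_add_right, SpecB.tr_smul_right, SpecB.tr_smul_right] at h
  rw [← h]
  congr 1
  · split_ifs
    · rw [SpecB.tr_zero_left]
    · rw [SpecB.tr_smul_left]
  · split_ifs
    · rw [SpecB.tr_zero_left]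
    · rw [SpecB.tr_smul_left]

theorem arrp_rec (hQ : 1 ≤ Q) (he : Fam Q (Eig Q N lam) n e) (hn : 0 < n) (hlam : 0 < lam)
    (K m K' m' : ℕ) (h : K + m = K' + m' + 1) :
    (if K = 0 then 0 else (2 - (1 + (K : ℝ)) / Q) * arrp Q e (K - 1) m K' m') +
      (if m = 0 then 0 else (1 - ((m : ℝ) - 1) / Q) * arrp Q e K (m - 1) K' m') =
    ((K' : ℝ) + 1) * arrp Q e K m (K' + 1) m' + ((m' : ℝ) + 1) * arrp Q e K m K' (m' + 1) := by
  have hr := tr3_rec he K m K' m'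
  have hQ' : (0 : ℝ) < (Q : ℝ) := by exact_mod_cast hQ
  have hp := tr_bh0_pos hQ he hn hlam
  obtain ⟨J, hJ⟩ : ∃ J, K + m = J + 1 := ⟨K' + m', h⟩
  have e1 : (if K = 0 then 0 else (2 - (1 + (K : ℝ)) / Q) * arrp Q e (K - 1) m K' m') =
      (if K = 0 then 0 else
        (2 * (Q : ℝ) - 1 - K) * tr Q e (an m * bh (K - 1)) (an m' * bh K')) /
        (tr Q e (bh 0) (bh 0) * (Q : ℝ) ^ (J + 1)) := by
    split_ifs with hK
    · simp
    · rw [arrp, show K - 1 + m = J by omega]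
      field_simp
      ring
  have e2 : (if m = 0 then 0 else (1 - ((m : ℝ) - 1) / Q) * arrp Q e K (m - 1) K' m') =
      (if m = 0 then 0 else
        ((Q : ℝ) - m + 1) * tr Q e (an (m - 1) * bh K) (an m' * bh K')) /
        (tr Q e (bh 0) (bh 0) * (Q : ℝ) ^ (J + 1)) := by
    split_ifs with hm
    · simp
    · rw [arrp, show K + (m - 1) = J by omega]
      field_simp
      ring
  rw [e1, e2, ← add_div, hr, arrp, arrp, hJ, add_div, mul_div_assoc, mul_div_assoc]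

theorem arrq_rec (hQ : 1 ≤ Q) (he : Fam Q (Eig Q N lam) n e) (hn : 0 < n) (hlam : 0 < lam)
    (K m K' m' : ℕ) (h : K + m = K' + m' + 1) :
    (if K = 0 then 0 else (2 - (1 + (K : ℝ)) / Q) * arrq Q e (K - 1) m K' m') +
      (if m = 0 then 0 else (2 - (1 + (m : ℝ)) / Q) * arrq Q e K (m - 1) K' m') =
    ((K' : ℝ) + 1) * arrq Q e K m (K' + 1) m' + ((m' : ℝ) + 1) * arrq Q e K m K' (m' + 1) := by
  have hr := tr4_rec he K m K' m'
  have hQ' : (0 : ℝ) < (Q : ℝ) := by exact_mod_cast hQ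
  have hp := tr_bh0_pos hQ he hn hlam
  obtain ⟨J, hJ⟩ : ∃ J, K + m = J + 1 := ⟨K' + m', h⟩
  have e1 : (if K = 0 then 0 else (2 - (1 + (K : ℝ)) / Q) * arrq Q e (K - 1) m K' m') =
      (if K = 0 then 0 else
        (2 * (Q : ℝ) - 1 - K) * tr Q e (bh m * bh (K - 1)) (bh m' * bh K')) /
        (tr Q e (bh 0) (bh 0) * (Q : ℝ) ^ (1 + J + 1)) := by
    split_ifs with hK
    · simp
    · rw [arrq, show 1 + (K - 1) + m = 1 + J by omega]
      field_simp
      ring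
  have e2 : (if m = 0 then 0 else (2 - (1 + (m : ℝ)) / Q) * arrq Q e K (m - 1) K' m') =
      (if m = 0 then 0 else
        (2 * (Q : ℝ) - 1 - m) * tr Q e (bh (m - 1) * bh K) (bh m' * bh K')) /
        (tr Q e (bh 0) (bh 0) * (Q : ℝ) ^ (1 + J + 1)) := by
    split_ifs with hm
    · simp
    · rw [arrq, show 1 + K + (m - 1) = 1 + J by omega]
      field_simp
      ring
  rw [e1, e2, ← add_div, hr, arrq, arrq, show 1 + K + m = 1 + J + 1 by omega, add_div,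
    mul_div_assoc, mul_div_assoc]

end

end Vale.Agent.P359
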