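import Vale.Agent.P359.Defs

/-!
# P359, piece D1: orthonormal families for the level-`Q` inner product
-/

namespace Vale.Agent.P359

open Finset

theorem wt_pos {Q : ℕ} {U : Finset ℕ} (h : U ⊆ range (Q + 1)) : 0 < wt Q U := by
  unfold wt
  refine Finset.prod_pos fun a ha => ?_
  have h1 : a < Q + 1 := Finset.mem_range.mp (h ha)
  have h2 : 0 < Q.choose a := Nat.choose_pos (by omega)
  positivity

theorem wt_nonneg (Q : ℕ) (U : Finset ℕ) : 0 ≤ wt Q U := by
  unfold wt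
  exact Finset.prod_nonneg fun a _ => by positivity

theorem ip_add_left (Q : ℕ) (a b c : Fk) : ip Q (a + b) c = ip Q a c + ip Q b c := by
  simp only [ip, Pi.add_apply, add_mul, mul_add, Finset.sum_add_distrib]

theorem ip_add_right (Q : ℕ) (a b c : Fk) : ip Q a (b + c) = ip Q a b + ip Q a c := by
  simp only [ip, Pi.add_apply, mul_add, Finset.sum_add_distrib]

theorem ip_smul_left (Q : ℕ) (r : ℝ) (a b : Fk) : ip Q (r • a) b = r * ip Q a b := by
  simp only [ip, Pi.smul_apply, smul_eq_mul, Finset.mul_sum]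
  exact Finset.sum_congr rfl fun U _ => by ring

theorem ip_smul_right (Q : ℕ) (r : ℝ) (a b : Fk) : ip Q a (r • b) = r * ip Q a b := by
  simp only [ip, Pi.smul_apply, smul_eq_mul, Finset.mul_sum]
  exact Finset.sum_congr rfl fun U _ => by ring

theorem ip_comm (Q : ℕ) (a b : Fk) : ip Q a b = ip Q b a := by
  simp only [ip]
  exact Finset.sum_congr rfl fun U _ => by ring

theorem ip_self_nonneg (Q : ℕ) (a : Fk) : 0 ≤ ip Q a a := by
  simp only [ip]
  exact Finset.sum_nonneg fun U _ => mul_nonneg (wt_nonneg Q U) (mul_self_nonneg _)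

/-- `ip` as a bilinear map. -/
noncomputable def ipL (Q : ℕ) : Fk →ₗ[ℝ] Fk →ₗ[ℝ] ℝ :=
  LinearMap.mk₂ ℝ (ip Q) (ip_add_left Q) (ip_smul_left Q) (ip_add_right Q) (ip_smul_right Q)

@[simp] theorem ipL_apply (Q : ℕ) (a b : Fk) : ipL Q a b = ip Q a b := rfl

theorem ip_zero_left (Q : ℕ) (b : Fk) : ip Q 0 b = 0 := (ipL Q).map_zero₂ b

theorem ip_zero_right (Q : ℕ) (b : Fk) : ip Q b 0 = 0 := by
  rw [ip_comm, ip_zero_left]

theorem ip_sub_left (Q : ℕ) (a b c : Fk) : ip Q (a - b) c = ip Q a c - ip Q b c :=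
  (ipL Q).map_sub₂ a b c

theorem ip_sub_right (Q : ℕ) (a b c : Fk) : ip Q a (b - c) = ip Q a b - ip Q a c := by
  rw [ip_comm, ip_sub_left, ip_comm Q b, ip_comm Q c]

theorem ip_neg_left (Q : ℕ) (a b : Fk) : ip Q (-a) b = - ip Q a b := by
  have := ip_smul_left Q (-1) a b
  simpa using this

theorem ip_neg_right (Q : ℕ) (a b : Fk) : ip Q a (-b) = - ip Q a b := by
  rw [ip_comm, ip_neg_left, ip_comm]

theorem ip_sum_left (Q : ℕ) {ι : Type*} (s : Finset ι) (f : ι → Fk) (b : Fk) :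
    ip Q (∑ i ∈ s, f i) b = ∑ i ∈ s, ip Q (f i) b := by
  have h := congrArg (fun g : Fk →ₗ[ℝ] ℝ => g b) (map_sum (ipL Q) f s)
  simp only [LinearMap.sum_apply] at h
  exact h

theorem ip_sum_right (Q : ℕ) {ι : Type*} (s : Finset ι) (f : ι → Fk) (b : Fk) :
    ip Q b (∑ i ∈ s, f i) = ∑ i ∈ s, ip Q b (f i) := by
  rw [ip_comm, ip_sum_left]
  exact Finset.sum_congr rfl fun i _ => ip_comm _ _ _

theorem ip_self_pos {Q : ℕ} {a : Fk} (ha : a ∈ Sup Q) (h : a ≠ 0) : 0 < ip Q a a := by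
  obtain ⟨U, hU⟩ : ∃ U, a U ≠ 0 := by
    by_contra hc
    exact h (funext fun U => by_contra fun hU => hc ⟨U, hU⟩)
  have hs : U ⊆ range (Q + 1) := by
    by_contra hn
    exact hU (ha U hn)
  simp only [ip]
  refine Finset.sum_pos' (fun V _ => mul_nonneg (wt_nonneg Q V) (mul_self_nonneg _))
    ⟨U, Finset.mem_powerset.mpr hs, mul_pos (wt_pos hs) (mul_self_pos.mpr hU)⟩

theorem ip_self_eq_zero {Q : ℕ} {a : Fk} (ha : a ∈ Sup Q) (h : ip Q a a = 0) : a = 0 := by
  by_contra hn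
  exact absurd h (ip_self_pos ha hn).ne'

theorem Sec_le_Sup (Q N : ℕ) : Sec Q N ≤ Sup Q := fun _ hψ U hU => hψ U fun h => hU h.1

theorem Eig_le_Sec (Q N : ℕ) (lam : ℝ) : Eig Q N lam ≤ Sec Q N := fun _ hψ => hψ.1

section fam

/-- the isometry of `Sup Q` with a Euclidean space -/
noncomputable def toE (Q : ℕ) : Fk →ₗ[ℝ] EuclideanSpace ℝ (range (Q + 1)).powerset where
  toFun ψ := WithLp.toLp 2 fun U => √(wt Q U.1) * ψ U.1
  map_add' a b := by ext U; simp [mul_add]
  map_smul' c a := by ext U; simp [mul_left_comm]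

noncomputable def ofE (Q : ℕ) : EuclideanSpace ℝ (range (Q + 1)).powerset →ₗ[ℝ] Fk where
  toFun x U := if h : U ∈ (range (Q + 1)).powerset then (√(wt Q U))⁻¹ * x ⟨U, h⟩ else 0
  map_add' a b := by
    funext U; by_cases h : U ∈ (range (Q + 1)).powerset
    · simp only [dif_pos h, Pi.add_apply, PiLp.add_apply, mul_add]
    · simp only [dif_neg h, Pi.add_apply, add_zero]
  map_smul' c a := by
    funext U; by_cases h : U ∈ (range (Q + 1)).powerset
    · simp only [dif_pos h, Pi.smul_apply, PiLp.smul_apply, smul_eq_mul, RingHom.id_apply,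
        mul_left_comm]
    · simp only [dif_neg h, Pi.smul_apply, smul_zero]

theorem inner_toE (Q : ℕ) (a b : Fk) : inner ℝ (toE Q a) (toE Q b) = ip Q a b := by
  rw [PiLp.inner_apply]
  simp only [ip]
  rw [← Finset.sum_coe_sort (range (Q + 1)).powerset (fun U => wt Q U * (a U * b U))]
  refine Finset.sum_congr rfl fun U _ => ?_
  simp only [toE, LinearMap.coe_mk, AddHom.coe_mk, RCLike.inner_apply, conj_trivial]
  have := Real.mul_self_sqrt (wt_nonneg Q U.1)
  calc √(wt Q U.1) * b U.1 * (√(wt Q U.1) * a U.1)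
      = (√(wt Q U.1) * √(wt Q U.1)) * (a U.1 * b U.1) := by ring
    _ = _ := by rw [this]

theorem ofE_toE {Q : ℕ} {a : Fk} (ha : a ∈ Sup Q) : ofE Q (toE Q a) = a := by
  funext U
  simp only [ofE, toE, LinearMap.coe_mk, AddHom.coe_mk]
  by_cases h : U ∈ (range (Q + 1)).powerset
  · rw [dif_pos h]
    have h1 : 0 < √(wt Q U) := Real.sqrt_pos.mpr (wt_pos (Finset.mem_powerset.mp h))
    rw [← mul_assoc, inv_mul_cancel₀ h1.ne', one_mul]
  · rw [dif_neg h]
    exact (ha U fun h' => h (Finset.mem_powerset.mpr h')).symm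

theorem toE_ofE (Q : ℕ) (x : EuclideanSpace ℝ (range (Q + 1)).powerset) :
    toE Q (ofE Q x) = x := by
  ext U
  have h1 : 0 < √(wt Q U.1) := Real.sqrt_pos.mpr (wt_pos (Finset.mem_powerset.mp U.2))
  simp only [ofE, toE, LinearMap.coe_mk, AddHom.coe_mk]
  rw [dif_pos U.2, ← mul_assoc, mul_inv_cancel₀ h1.ne', one_mul]

/-- D1: every subspace of `Sup Q` has a complete orthonormal family. -/
theorem exists_fam (Q : ℕ) (W : Submodule ℝ Fk) (hW : W ≤ Sup Q) :
    ∃ (n : ℕ) (e : Fin n → Fk), Fam Q W n e := by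
  set W' : Submodule ℝ (EuclideanSpace ℝ (range (Q + 1)).powerset) := W.map (toE Q)
  set b := stdOrthonormalBasis ℝ W'
  refine ⟨_, fun i => ofE Q (b i : EuclideanSpace ℝ (range (Q + 1)).powerset), ?_, ?_, ?_⟩
  · intro i
    obtain ⟨ψ, hψ, h⟩ := (b i).2
    rw [← h, ofE_toE (hW hψ)]
    exact hψ
  · intro i j
    rw [← inner_toE, toE_ofE, toE_ofE, ← Submodule.coe_inner]
    exact orthonormal_iff_ite.mp b.orthonormal i j
  · intro ψ hψ
    have hm : toE Q ψ ∈ W' := Submodule.mem_map_of_mem hψ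
    have h1 := b.sum_repr' ⟨toE Q ψ, hm⟩
    have h2 := congrArg (fun x : W' => ofE Q (x : EuclideanSpace ℝ _)) h1
    simp only [Submodule.coe_sum, Submodule.coe_smul, map_sum, map_smul, ofE_toE (hW hψ)] at h2
    refine h2.symm.trans (Finset.sum_congr rfl fun i _ => ?_)
    congr 1
    rw [Submodule.coe_inner, ← inner_toE, toE_ofE]

end fam

end Vale.Agent.P359
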