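import Vale.Agent.P359.FockIp

/-!
# P359: weight conservation and recursions of the arrays, from the two trace identities
-/

open Finset

namespace Vale.Agent.P359

namespace SpecR

open FockA

theorem Lz_apply (ψ : Fk) (U : Finset ℕ) : Lz ψ U = ((∑ m ∈ U, m : ℕ) : ℝ) * ψ U := rfl

theorem an_Lz (m : ℕ) : an m * Lz = Lz * an m + (m : ℝ) • an m := by
  refine LinearMap.ext fun ψ => ?_
  funext U
  simp only [Module.End.mul_apply, LinearMap.add_apply, LinearMap.smul_apply, Pi.add_apply,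
    Pi.smul_apply, smul_eq_mul, Lz_apply, an_apply]
  by_cases h : m ∈ U
  · simp [h]
  · rw [if_neg h, if_neg h, Finset.sum_insert h]
    push_cast; ring

theorem bh_Lz (K : ℕ) : bh K * Lz = Lz * bh K + ((K : ℝ) + 1) • bh K := by
  rw [bh, Finset.sum_mul, Finset.mul_sum, Finset.smul_sum, ← Finset.sum_add_distrib]
  refine Finset.sum_congr rfl fun a ha => ?_
  simp only [mem_filter, mem_range] at ha
  have h : an (K + 1 - a) * an a * Lz = Lz * (an (K + 1 - a) * an a) +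
      ((K : ℝ) + 1) • (an (K + 1 - a) * an a) := by
    rw [mul_assoc, an_Lz, mul_add, ← mul_assoc, an_Lz, add_mul, mul_smul_comm, smul_mul_assoc,
      mul_assoc, add_assoc, ← add_smul]
    congr 2
    have : ((K + 1 - a : ℕ) : ℝ) = (K : ℝ) + 1 - a := by
      rw [Nat.cast_sub (by omega)]; push_cast; ring
    rw [this]; ring
  rw [smul_mul_assoc, h, smul_add, mul_smul_comm]
  congr 1
  rw [smul_smul, smul_smul, mul_comm]

theorem tr_add_left {Q n : ℕ} (e : Fin n → Fk) (F F' G : Op) :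
    tr Q e (F + F') G = tr Q e F G + tr Q e F' G := by
  unfold tr
  rw [← Finset.sum_add_distrib]
  exact Finset.sum_congr rfl fun i _ => by rw [LinearMap.add_apply, FockA.ip_add_left]

theorem tr_add_right {Q n : ℕ} (e : Fin n → Fk) (F G G' : Op) :
    tr Q e F (G + G') = tr Q e F G + tr Q e F G' := by
  unfold tr
  rw [← Finset.sum_add_distrib]
  exact Finset.sum_congr rfl fun i _ => by rw [LinearMap.add_apply, FockA.ip_add_right]

theorem tr_smul_left {Q n : ℕ} (e : Fin n → Fk) (c : ℝ) (F G : Op) :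
    tr Q e (c • F) G = c * tr Q e F G := by
  unfold tr
  rw [Finset.mul_sum]
  exact Finset.sum_congr rfl fun i _ => by rw [LinearMap.smul_apply, FockA.ip_smul_left]

theorem tr_smul_right {Q n : ℕ} (e : Fin n → Fk) (c : ℝ) (F G : Op) :
    tr Q e F (c • G) = c * tr Q e F G := by
  unfold tr
  rw [Finset.mul_sum]
  exact Finset.sum_congr rfl fun i _ => by rw [LinearMap.smul_apply, FockA.ip_smul_right]

theorem tr_zero_left {Q n : ℕ} (e : Fin n → Fk) (G : Op) : tr Q e 0 G = 0 := by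
  unfold tr
  exact Finset.sum_eq_zero fun i _ => by rw [LinearMap.zero_apply, FockA.ip_zero_left]

theorem tr_comm {Q n : ℕ} (e : Fin n → Fk) (F G : Op) : tr Q e F G = tr Q e G F := by
  unfold tr
  exact Finset.sum_congr rfl fun i _ => FockA.ip_comm _ _ _

section

variable {Q n : ℕ} {e : Fin n → Fk}

/-- abstract weight conservation -/
theorem off_abs (hLz : ∀ F G : Op, tr Q e (F * Lz) G = tr Q e F (G * Lz)) (F G : Op) (a b : ℝ)
    (hF : F * Lz = Lz * F + a • F) (hG : G * Lz = Lz * G + b • G) (hab : a ≠ b) :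
    tr Q e F G = 0 := by
  have h := hLz F G
  rw [hF, hG, tr_add_left, tr_add_right, tr_smul_left, tr_smul_right] at h
  have h2 : tr Q e (Lz * F) G = tr Q e F (Lz * G) := by
    unfold tr
    exact Finset.sum_congr rfl fun i _ => by
      rw [Module.End.mul_apply, Module.End.mul_apply, FockA.ip_Lz]
  have h3 : (a - b) * tr Q e F G = 0 := by linear_combination h - h2
  rcases mul_eq_zero.1 h3 with h4 | h4
  · exact absurd (sub_eq_zero.1 h4) hab
  · exact h4

theorem mul_Lz {F G : Op} {a b : ℝ} (hF : F * Lz = Lz * F + a • F)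
    (hG : G * Lz = Lz * G + b • G) : F * G * Lz = Lz * (F * G) + (a + b) • (F * G) := by
  rw [mul_assoc, hG, mul_add, ← mul_assoc, hF, add_mul, mul_smul_comm, smul_mul_assoc,
    mul_assoc, add_smul, add_assoc]

theorem arrp_off' (hLz : ∀ F G : Op, tr Q e (F * Lz) G = tr Q e F (G * Lz))
    (K m K' m' : ℕ) (h : K + m ≠ K' + m') : arrp Q e K m K' m' = 0 := by
  unfold arrp
  rw [off_abs hLz _ _ _ _ (mul_Lz (an_Lz m) (bh_Lz K)) (mul_Lz (an_Lz m') (bh_Lz K')), zero_div]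
  intro h1
  apply h
  have : ((m + K : ℕ) : ℝ) = ((m' + K' : ℕ) : ℝ) := by push_cast; linarith
  have := Nat.cast_injective this
  omega

theorem arrq_off' (hLz : ∀ F G : Op, tr Q e (F * Lz) G = tr Q e F (G * Lz))
    (K m K' m' : ℕ) (h : K + m ≠ K' + m') : arrq Q e K m K' m' = 0 := by
  unfold arrq
  rw [off_abs hLz _ _ _ _ (mul_Lz (bh_Lz m) (bh_Lz K)) (mul_Lz (bh_Lz m') (bh_Lz K')), zero_div]
  intro h1
  apply h
  have : ((m + K : ℕ) : ℝ) = ((m' + K' : ℕ) : ℝ) := by push_cast; linarith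
  have := Nat.cast_injective this
  omega

/-- abstract recursion -/
theorem rec_abs (hEl : ∀ F G : Op, tr Q e (F * Fl Q) G = tr Q e F (G * El))
    (he : ∀ i, e i ∈ Sup Q) (F G F' G' : Op) (hGS : ∀ ψ ∈ Sup Q, G ψ ∈ Sup Q)
    (hF : F * Fl Q = Fl Q * F + F') (hG : G * El = El * G + G') :
    tr Q e F' G = tr Q e F G' := by
  have h := hEl F G
  rw [hF, hG, tr_add_left, tr_add_right] at h
  have h2 : tr Q e (Fl Q * F) G = tr Q e F (El * G) := by
    unfold tr
    exact Finset.sum_congr rfl fun i _ => by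
      rw [Module.End.mul_apply, Module.End.mul_apply, FockA.ip_El Q _ (hGS _ (he i))]
  rw [h2] at h
  exact add_left_cancel h

theorem mul_comm_rule {X F G F' G' : Op} (hF : F * X = X * F + F') (hG : G * X = X * G + G') :
    F * G * X = X * (F * G) + (F' * G + F * G') := by
  rw [mul_assoc, hG, mul_add, ← mul_assoc, hF, add_mul, mul_assoc, add_assoc]

theorem bh_Fl' (Q K : ℕ) : bh K * Fl Q = Fl Q * bh K +
    (if K = 0 then 0 else (2 * (Q : ℝ) - 1 - K) • bh (K - 1)) := by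
  rcases Nat.eq_zero_or_pos K with rfl | h
  · rw [bh_Fl_zero]; simp
  · obtain ⟨k, rfl⟩ : ∃ k, K = k + 1 := ⟨K - 1, by omega⟩
    rw [bh_Fl_succ, if_neg (by omega)]
    congr 2
    push_cast; ring

theorem arrp_rec' (hQ : 1 ≤ Q) (hEl : ∀ F G : Op, tr Q e (F * Fl Q) G = tr Q e F (G * El))
    (he : ∀ i, e i ∈ Sup Q)
    (K m K' m' : ℕ) (h : K + m = K' + m' + 1) :
    (if K = 0 then 0 else (2 - (1 + (K : ℝ)) / Q) * arrp Q e (K - 1) m K' m') +
      (if m = 0 then 0 else (1 - ((m : ℝ) - 1) / Q) * arrp Q e K (m - 1) K' m') =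
    ((K' : ℝ) + 1) * arrp Q e K m (K' + 1) m' + ((m' : ℝ) + 1) * arrp Q e K m K' (m' + 1) := by
  have hQ0 : (Q : ℝ) ≠ 0 := by positivity
  have h1 := rec_abs hEl he (an m * bh K) (an m' * bh K')
    ((if m = 0 then 0 else ((Q : ℝ) - m + 1) • an (m - 1)) * bh K +
      an m * (if K = 0 then 0 else (2 * (Q : ℝ) - 1 - K) • bh (K - 1)))
    (((m' : ℝ) + 1) • an (m' + 1) * bh K' + an m' * (((K' : ℝ) + 1) • bh (K' + 1)))
    (fun ψ hψ => an_mem_Sup _ (bh_mem_Sup _ hψ))
    (mul_comm_rule (an_Fl Q m) (bh_Fl' Q K)) (mul_comm_rule (an_El m') (bh_El K'))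
  rw [tr_add_left, tr_add_right, smul_mul_assoc, mul_smul_comm, tr_smul_right,
    tr_smul_right] at h1
  have e1 : tr Q e ((if m = 0 then 0 else ((Q : ℝ) - m + 1) • an (m - 1)) * bh K)
        (an m' * bh K') / (tr Q e (bh 0) (bh 0) * (Q : ℝ) ^ (K + m)) =
      (if m = 0 then 0 else (1 - ((m : ℝ) - 1) / Q) * arrp Q e K (m - 1) K' m') := by
    by_cases hm : m = 0
    · rw [if_pos hm, if_pos hm, zero_mul, tr_zero_left, zero_div]
    · rw [if_neg hm, if_neg hm, smul_mul_assoc, tr_smul_left, arrp]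
      have e2 : (Q : ℝ) ^ (K + m) = (Q : ℝ) ^ (K + (m - 1)) * Q := by
        rw [← pow_succ]; congr 1; omega
      rw [e2]
      by_cases h0 : tr Q e (bh 0) (bh 0) = 0
      · rw [h0]; simp
      · field_simp
        ring
  have e2 : tr Q e (an m * (if K = 0 then 0 else (2 * (Q : ℝ) - 1 - K) • bh (K - 1)))
        (an m' * bh K') / (tr Q e (bh 0) (bh 0) * (Q : ℝ) ^ (K + m)) =
      (if K = 0 then 0 else (2 - (1 + (K : ℝ)) / Q) * arrp Q e (K - 1) m K' m') := by
    by_cases hK : K = 0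
    · rw [if_pos hK, if_pos hK, mul_zero, tr_zero_left, zero_div]
    · rw [if_neg hK, if_neg hK, mul_smul_comm, tr_smul_left, arrp]
      have e2 : (Q : ℝ) ^ (K + m) = (Q : ℝ) ^ (K - 1 + m) * Q := by
        rw [← pow_succ]; congr 1; omega
      rw [e2]
      by_cases h0 : tr Q e (bh 0) (bh 0) = 0
      · rw [h0]; simp
      · field_simp
        ring
  rw [← e1, ← e2]
  unfold arrp
  rw [← add_div, add_comm, h1]
  ring

theorem arrq_rec' (hQ : 1 ≤ Q) (hEl : ∀ F G : Op, tr Q e (F * Fl Q) G = tr Q e F (G * El))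
    (he : ∀ i, e i ∈ Sup Q)
    (K m K' m' : ℕ) (h : K + m = K' + m' + 1) :
    (if K = 0 then 0 else (2 - (1 + (K : ℝ)) / Q) * arrq Q e (K - 1) m K' m') +
      (if m = 0 then 0 else (2 - (1 + (m : ℝ)) / Q) * arrq Q e K (m - 1) K' m') =
    ((K' : ℝ) + 1) * arrq Q e K m (K' + 1) m' + ((m' : ℝ) + 1) * arrq Q e K m K' (m' + 1) := by
  have hQ0 : (Q : ℝ) ≠ 0 := by positivity
  have h1 := rec_abs hEl he (bh m * bh K) (bh m' * bh K')
    ((if m = 0 then 0 else (2 * (Q : ℝ) - 1 - m) • bh (m - 1)) * bh K +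
      bh m * (if K = 0 then 0 else (2 * (Q : ℝ) - 1 - K) • bh (K - 1)))
    (((m' : ℝ) + 1) • bh (m' + 1) * bh K' + bh m' * (((K' : ℝ) + 1) • bh (K' + 1)))
    (fun ψ hψ => bh_mem_Sup _ (bh_mem_Sup _ hψ))
    (mul_comm_rule (bh_Fl' Q m) (bh_Fl' Q K)) (mul_comm_rule (bh_El m') (bh_El K'))
  rw [tr_add_left, tr_add_right, smul_mul_assoc, mul_smul_comm, tr_smul_right,
    tr_smul_right] at h1
  have e1 : tr Q e ((if m = 0 then 0 else (2 * (Q : ℝ) - 1 - m) • bh (m - 1)) * bh K)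
        (bh m' * bh K') / (tr Q e (bh 0) (bh 0) * (Q : ℝ) ^ (1 + K + m)) =
      (if m = 0 then 0 else (2 - (1 + (m : ℝ)) / Q) * arrq Q e K (m - 1) K' m') := by
    by_cases hm : m = 0
    · rw [if_pos hm, if_pos hm, zero_mul, tr_zero_left, zero_div]
    · rw [if_neg hm, if_neg hm, smul_mul_assoc, tr_smul_left, arrq]
      have e2 : (Q : ℝ) ^ (1 + K + m) = (Q : ℝ) ^ (1 + K + (m - 1)) * Q := by
        rw [← pow_succ]; congr 1; omega
      rw [e2]
      by_cases h0 : tr Q e (bh 0) (bh 0) = 0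
      · rw [h0]; simp
      · field_simp
        ring
  have e2 : tr Q e (bh m * (if K = 0 then 0 else (2 * (Q : ℝ) - 1 - K) • bh (K - 1)))
        (bh m' * bh K') / (tr Q e (bh 0) (bh 0) * (Q : ℝ) ^ (1 + K + m)) =
      (if K = 0 then 0 else (2 - (1 + (K : ℝ)) / Q) * arrq Q e (K - 1) m K' m') := by
    by_cases hK : K = 0
    · rw [if_pos hK, if_pos hK, mul_zero, tr_zero_left, zero_div]
    · rw [if_neg hK, if_neg hK, mul_smul_comm, tr_smul_left, arrq]
      have e2 : (Q : ℝ) ^ (1 + K + m) = (Q : ℝ) ^ (1 + (K - 1) + m) * Q := by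
        rw [← pow_succ]; congr 1; omega
      rw [e2]
      by_cases h0 : tr Q e (bh 0) (bh 0) = 0
      · rw [h0]; simp
      · field_simp
        ring
  rw [← e1, ← e2]
  unfold arrq
  rw [← add_div, add_comm, h1]
  ring

theorem choose_rec (Q K : ℕ) (hQ : 1 ≤ Q) :
    ((K : ℝ) + 1) * ((2 * Q - 2).choose (K + 1) : ℝ) =
      (2 * (Q : ℝ) - K - 2) * ((2 * Q - 2).choose K : ℝ) := by
  rcases le_or_gt K (2 * Q - 2) with h | h
  · have h1 := Nat.choose_succ_right_eq (2 * Q - 2) K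
    have h2 : ((2 * Q - 2 - K : ℕ) : ℝ) = 2 * (Q : ℝ) - K - 2 := by
      rw [Nat.cast_sub h, Nat.cast_sub (by omega)]; push_cast; ring
    rw [← h2]
    have h3 : (((2 * Q - 2).choose (K + 1) * (K + 1) : ℕ) : ℝ) =
        (((2 * Q - 2).choose K * (2 * Q - 2 - K) : ℕ) : ℝ) := by rw [h1]
    push_cast at h3 ⊢
    linarith
  · rw [Nat.choose_eq_zero_of_lt h, Nat.choose_eq_zero_of_lt (by omega)]
    simp

theorem tr_bh' (hQ : 1 ≤ Q) (hEl : ∀ F G : Op, tr Q e (F * Fl Q) G = tr Q e F (G * El))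
    (he : ∀ i, e i ∈ Sup Q) (K : ℕ) :
    tr Q e (bh K) (bh K) = ((2 * Q - 2).choose K : ℝ) * tr Q e (bh 0) (bh 0) := by
  induction K with
  | zero => simp
  | succ K ih =>
    have h := rec_abs hEl he (bh (K + 1)) (bh K) ((2 * (Q : ℝ) - K - 2) • bh K)
      (((K : ℝ) + 1) • bh (K + 1)) (fun ψ hψ => bh_mem_Sup _ hψ) (bh_Fl_succ Q K) (bh_El K)
    rw [tr_smul_left, tr_smul_right, ih] at h
    have h2 := choose_rec Q K hQ
    have hK : ((K : ℝ) + 1) ≠ 0 := by positivity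
    apply mul_left_cancel₀ hK
    rw [← h, ← mul_assoc, ← mul_assoc, h2]

theorem arrp_symm' (hLz : ∀ F G : Op, tr Q e (F * Lz) G = tr Q e F (G * Lz))
    (K m K' m' : ℕ) : arrp Q e K m K' m' = arrp Q e K' m' K m := by
  rcases eq_or_ne (K + m) (K' + m') with h | h
  · unfold arrp
    rw [tr_comm, h]
  · rw [arrp_off' hLz K m K' m' h, arrp_off' hLz K' m' K m h.symm]

theorem arrq_symm' (hLz : ∀ F G : Op, tr Q e (F * Lz) G = tr Q e F (G * Lz))
    (K m K' m' : ℕ) : arrq Q e K m K' m' = arrq Q e K' m' K m := by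
  rcases eq_or_ne (K + m) (K' + m') with h | h
  · unfold arrq
    rw [tr_comm, add_assoc, h, add_assoc]
  · rw [arrq_off' hLz K m K' m' h, arrq_off' hLz K' m' K m h.symm]

end

end SpecR

end Vale.Agent.P359
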