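import Vale.Agent.P359.Defs

/-!
# P359: transfer of a window inequality to all spectators and to finite `Q`
-/

namespace Vale.Agent.P359

open Finset

namespace Tr

/-- The spectators `T` are added. -/
noncomputable def slice (T : Finset ℕ) : Op where
  toFun ψ U := ψ (U ∪ T)
  map_add' _ _ := rfl
  map_smul' _ _ := rfl

theorem slice_apply (T : Finset ℕ) (ψ : Fk) (U : Finset ℕ) : slice T ψ U = ψ (U ∪ T) := rfl

/-- The grading by the total momentum. -/
noncomputable def gr (r : ℝ) : Op where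
  toFun ψ U := r ^ (∑ a ∈ U, a) * ψ U
  map_add' φ ψ := by funext U; simp [mul_add]
  map_smul' c ψ := by funext U; simp [mul_left_comm]

theorem gr_apply (r : ℝ) (ψ : Fk) (U : Finset ℕ) : gr r ψ U = r ^ (∑ a ∈ U, a) * ψ U := rfl

theorem an_apply (m : ℕ) (ψ : Fk) (U : Finset ℕ) :
    an m ψ U = if m ∈ U then 0 else sg m U * ψ (insert m U) := rfl

/-- `A` only sees the window. -/
def Loc (A : Op) : Prop :=
  ∀ T : Finset ℕ, (∀ a ∈ T, 9 ≤ a) → slice T * A = A * slice T

/-- `A` removes the momentum `J`. -/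
def Grd (J : ℕ) (A : Op) : Prop := ∀ r : ℝ, A * gr r = r ^ J • (gr r * A)

theorem loc_an {m : ℕ} (hm : m < 9) : Loc (an m) := by
  intro T hT
  refine LinearMap.ext fun ψ => funext fun U => ?_
  change an m ψ (U ∪ T) = an m (slice T ψ) U
  have h1 : m ∉ T := fun h => by have := hT m h; omega
  have h2 : (U ∪ T).filter (· < m) = U.filter (· < m) := by
    rw [filter_union]
    have : T.filter (· < m) = ∅ := by
      rw [filter_eq_empty_iff]
      intro a ha
      have := hT a ha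
      omega
    rw [this, union_empty]
  rw [an_apply, an_apply, slice_apply, insert_union]
  simp only [mem_union, h1, or_false, sg, h2]

theorem Loc.mul {A B : Op} (hA : Loc A) (hB : Loc B) : Loc (A * B) := by
  intro T hT
  rw [← mul_assoc, hA T hT, mul_assoc, hB T hT, mul_assoc]

theorem Loc.sum {ι : Type*} (s : Finset ι) (A : ι → Op) (h : ∀ i ∈ s, Loc (A i)) :
    Loc (∑ i ∈ s, A i) := by
  intro T hT
  rw [Finset.mul_sum, Finset.sum_mul]
  exact Finset.sum_congr rfl fun i hi => h i hi T hT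

theorem Loc.smul {A : Op} (c : ℝ) (h : Loc A) : Loc (c • A) := by
  intro T hT
  rw [mul_smul_comm, smul_mul_assoc, h T hT]

theorem loc_bh {K : ℕ} (hK : K < 8) : Loc (bh K) := by
  unfold bh
  refine Loc.sum _ _ fun a ha => Loc.smul _ ?_
  rw [mem_filter, mem_range] at ha
  exact (loc_an (by omega)).mul (loc_an (by omega))

theorem grd_an (m : ℕ) : Grd m (an m) := by
  intro r
  refine LinearMap.ext fun ψ => funext fun U => ?_
  change an m (gr r ψ) U = r ^ m * gr r (an m ψ) U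
  rw [gr_apply, an_apply, an_apply]
  by_cases h : m ∈ U
  · rw [if_pos h, if_pos h]; ring
  · rw [if_neg h, if_neg h, gr_apply, sum_insert h, pow_add]
    ring

theorem Grd.mul {A B : Op} {J J' : ℕ} (hA : Grd J A) (hB : Grd J' B) : Grd (J + J') (A * B) := by
  intro r
  rw [mul_assoc, hB r, mul_smul_comm, ← mul_assoc, hA r, smul_mul_assoc, smul_smul, mul_assoc,
    pow_add, mul_comm (r ^ J')]

theorem Grd.sum {J : ℕ} {ι : Type*} (s : Finset ι) (A : ι → Op) (h : ∀ i ∈ s, Grd J (A i)) :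
    Grd J (∑ i ∈ s, A i) := by
  intro r
  rw [Finset.sum_mul, Finset.mul_sum, Finset.smul_sum]
  exact Finset.sum_congr rfl fun i hi => h i hi r

theorem Grd.smul {J : ℕ} {A : Op} (c : ℝ) (h : Grd J A) : Grd J (c • A) := by
  intro r
  rw [smul_mul_assoc, h r, mul_smul_comm, smul_comm]

theorem grd_bh (K : ℕ) : Grd (K + 1) (bh K) := by
  unfold bh
  refine Grd.sum _ _ fun a ha => Grd.smul _ ?_
  rw [mem_filter, mem_range] at ha
  have h := (grd_an (K + 1 - a)).mul (grd_an a)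
  rwa [show K + 1 - a + a = K + 1 by omega] at h

/-- A term of a window form. -/
structure Tm where
  c : ℝ
  A : Op
  B : Op
  J : ℕ

/-- The term only involves the window and preserves the momentum. -/
structure Tm.Good (t : Tm) : Prop where
  locA : Loc t.A
  locB : Loc t.B
  grA : Grd (t.J + 1) t.A
  grB : Grd (t.J + 1) t.B

/-- The window form. -/
noncomputable def win (L : List Tm) (f : Fk) : ℝ :=
  ∑ U ∈ (range 9).powerset, (∏ a ∈ U, (a.factorial : ℝ)) *
    (L.map fun t => t.c * (t.A f U * t.B f U)).sum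

/-! ### weights -/

/-- `∏ a! / Q^(∑ a)` -/
noncomputable def cw (Q : ℕ) (U : Finset ℕ) : ℝ := ∏ a ∈ U, (a.factorial : ℝ) / (Q : ℝ) ^ a

theorem abs_list_sum_le (l : List ℝ) : |l.sum| ≤ (l.map fun x => |x|).sum := by
  induction l with
  | nil => simp
  | cons a l ih =>
    simp only [List.map_cons, List.sum_cons]
    exact le_trans (abs_add_le _ _) (add_le_add le_rfl ih)

theorem wt_pos {Q : ℕ} {U : Finset ℕ} (hU : ∀ a ∈ U, a ≤ Q) : 0 < wt Q U :=
  Finset.prod_pos fun a ha => inv_pos.mpr (by exact_mod_cast Nat.choose_pos (hU a ha))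

theorem wt_nonneg (Q : ℕ) (U : Finset ℕ) : 0 ≤ wt Q U :=
  Finset.prod_nonneg fun a _ => inv_nonneg.mpr (Nat.cast_nonneg _)

theorem cw_nonneg (Q : ℕ) (U : Finset ℕ) : 0 ≤ cw Q U :=
  Finset.prod_nonneg fun a _ => by positivity

/-- `a! / Q^a ≤ 1 / C(Q,a)` -/
theorem fac_le {Q a : ℕ} (hQ : 0 < Q) (ha : a ≤ Q) :
    (a.factorial : ℝ) / (Q : ℝ) ^ a ≤ ((Q.choose a : ℝ))⁻¹ := by
  have h1 : (0 : ℝ) < (Q.choose a : ℝ) := by exact_mod_cast Nat.choose_pos ha
  have hQ' : (0 : ℝ) < (Q : ℝ) := by exact_mod_cast hQ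
  rw [le_inv_comm₀ (by positivity) h1, inv_div]
  exact Nat.choose_le_pow_div a Q

/-- `(1 - 8/Q)^a / C(Q,a) ≤ a! / Q^a` for `a ≤ 8`. -/
theorem le_fac {Q a : ℕ} (hQ : 9 ≤ Q) (ha : a ≤ 8) :
    (1 - 8 / (Q : ℝ)) ^ a * ((Q.choose a : ℝ))⁻¹ ≤ (a.factorial : ℝ) / (Q : ℝ) ^ a := by
  have h1 : (0 : ℝ) < (Q.choose a : ℝ) := by exact_mod_cast Nat.choose_pos (by omega)
  have hQ' : (0 : ℝ) < (Q : ℝ) := by
    have : (9 : ℝ) ≤ (Q : ℝ) := by exact_mod_cast hQ
    linarith
  rw [← div_eq_mul_inv, div_le_div_iff₀ h1 (by positivity), ← mul_pow]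
  have h2 : (1 - 8 / (Q : ℝ)) * (Q : ℝ) = (Q : ℝ) - 8 := by field_simp
  rw [h2]
  have h3 : ((Q - 8 : ℕ) : ℝ) = (Q : ℝ) - 8 := by
    rw [Nat.cast_sub (by omega)]; norm_num
  rw [← h3]
  have h4 : (Q - 8) ^ a ≤ a.factorial * Q.choose a := by
    rw [← Nat.descFactorial_eq_factorial_mul_choose]
    exact le_trans (Nat.pow_le_pow_left (by omega) a) (Nat.pow_sub_le_descFactorial Q a)
  exact_mod_cast h4

theorem cw_le_wt {Q : ℕ} (hQ : 9 ≤ Q) {U : Finset ℕ} (hU : U ⊆ range 9) : cw Q U ≤ wt Q U := by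
  refine Finset.prod_le_prod (fun _ _ => by positivity) fun a ha => ?_
  have := mem_range.mp (hU ha)
  exact fac_le (by omega) (by omega)

theorem wt_le_cw {Q : ℕ} (hQ : 9 ≤ Q) {U : Finset ℕ} (hU : U ⊆ range 9) :
    (1 - 288 / (Q : ℝ)) * wt Q U ≤ cw Q U := by
  have hQ' : (9 : ℝ) ≤ (Q : ℝ) := by exact_mod_cast hQ
  have h8 : (0 : ℝ) ≤ 1 - 8 / (Q : ℝ) := by
    rw [sub_nonneg, div_le_one (by linarith)]; linarith
  have h81 : 1 - 8 / (Q : ℝ) ≤ 1 := by
    have : (0 : ℝ) ≤ 8 / (Q : ℝ) := by positivity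
    linarith
  have h1 : (∏ a ∈ U, (1 - 8 / (Q : ℝ)) ^ a) * wt Q U ≤ cw Q U := by
    unfold wt cw
    rw [← Finset.prod_mul_distrib]
    refine Finset.prod_le_prod (fun a _ => by positivity) fun a ha => ?_
    exact le_fac hQ (by have := mem_range.mp (hU ha); omega)
  refine le_trans ?_ h1
  refine mul_le_mul_of_nonneg_right ?_ (wt_nonneg Q U)
  rw [Finset.prod_pow_eq_pow_sum]
  have h2 : ∑ a ∈ U, a ≤ 36 :=
    le_trans (Finset.sum_le_sum_of_subset hU) (by decide)
  have h3 : (1 - 8 / (Q : ℝ)) ^ 36 ≤ (1 - 8 / (Q : ℝ)) ^ (∑ a ∈ U, a) :=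
    pow_le_pow_of_le_one h8 h81 h2
  refine le_trans ?_ h3
  have h4 := one_add_mul_le_pow (a := -(8 / (Q : ℝ))) (by linarith) 36
  have e1 : 1 + ((36 : ℕ) : ℝ) * -(8 / (Q : ℝ)) = 1 - 288 / (Q : ℝ) := by
    push_cast; ring
  have e2 : 1 + -(8 / (Q : ℝ)) = 1 - 8 / (Q : ℝ) := by ring
  rw [e1, e2] at h4
  exact h4

/-! ### decomposition of the inner product -/

/-- The spectator sets at level `Q`. -/
def spec (Q : ℕ) : Finset (Finset ℕ) := (Ico 9 (Q + 1)).powerset

theorem mem_spec {Q : ℕ} {T : Finset ℕ} (hT : T ∈ spec Q) : ∀ a ∈ T, 9 ≤ a := by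
  intro a ha
  exact (mem_Ico.mp (mem_powerset.mp hT ha)).1

theorem sum_split {Q : ℕ} (hQ : 9 ≤ Q) (h : Finset ℕ → ℝ) :
    ∑ V ∈ (range (Q + 1)).powerset, h V =
      ∑ T ∈ spec Q, ∑ U ∈ (range 9).powerset, h (U ∪ T) := by
  rw [← Finset.sum_product']
  refine Finset.sum_bij' (fun V _ => (V.filter (9 ≤ ·), V.filter (· < 9)))
    (fun p _ => p.2 ∪ p.1) ?_ ?_ ?_ ?_ ?_
  · intro V hV
    rw [mem_powerset] at hV
    rw [mem_product, spec, mem_powerset, mem_powerset]
    constructor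
    · intro a ha
      rw [mem_filter] at ha
      rw [mem_Ico]
      exact ⟨ha.2, mem_range.mp (hV ha.1)⟩
    · intro a ha
      rw [mem_filter] at ha
      rw [mem_range]
      exact ha.2
  · intro p hp
    rw [mem_product, spec, mem_powerset, mem_powerset] at hp
    rw [mem_powerset]
    intro a ha
    rw [mem_union] at ha
    rw [mem_range]
    rcases ha with ha | ha
    · have := mem_range.mp (hp.2 ha); omega
    · exact (mem_Ico.mp (hp.1 ha)).2
  · intro V _
    ext a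
    simp only [mem_union, mem_filter]
    constructor
    · rintro (h | h)
      · exact h.1
      · exact h.1
    · intro h
      rcases lt_or_ge a 9 with h9 | h9
      · exact Or.inl ⟨h, h9⟩
      · exact Or.inr ⟨h, h9⟩
  · intro p hp
    rw [mem_product, spec, mem_powerset, mem_powerset] at hp
    refine Prod.ext ?_ ?_
    · ext a
      simp only [mem_union, mem_filter]
      constructor
      · rintro ⟨h | h, h9⟩
        · have := mem_range.mp (hp.2 h); omega
        · exact h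
      · intro h
        exact ⟨Or.inr h, (mem_Ico.mp (hp.1 h)).1⟩
    · ext a
      simp only [mem_union, mem_filter]
      constructor
      · rintro ⟨h | h, h9⟩
        · exact h
        · have := (mem_Ico.mp (hp.1 h)).1; omega
      · intro h
        exact ⟨Or.inl h, mem_range.mp (hp.2 h)⟩
  · intro V _
    congr 1
    ext a
    simp only [mem_union, mem_filter]
    constructor
    · intro h
      rcases lt_or_ge a 9 with h9 | h9
      · exact Or.inl ⟨h, h9⟩
      · exact Or.inr ⟨h, h9⟩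
    · rintro (h | h)
      · exact h.1
      · exact h.1

theorem wt_union {Q : ℕ} {U T : Finset ℕ} (hU : U ⊆ range 9) (hT : ∀ a ∈ T, 9 ≤ a) :
    wt Q (U ∪ T) = wt Q U * wt Q T := by
  unfold wt
  refine Finset.prod_union ?_
  rw [Finset.disjoint_left]
  intro a h1 h2
  have := mem_range.mp (hU h1)
  have := hT a h2
  omega

theorem ip_split {Q : ℕ} (hQ : 9 ≤ Q) (φ ψ : Fk) :
    ip Q φ ψ = ∑ T ∈ spec Q, wt Q T *
      ∑ U ∈ (range 9).powerset, wt Q U * (slice T φ U * slice T ψ U) := by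
  unfold ip
  rw [sum_split hQ]
  refine Finset.sum_congr rfl fun T hT => ?_
  rw [Finset.mul_sum]
  refine Finset.sum_congr rfl fun U hU => ?_
  rw [wt_union (mem_powerset.mp hU) (mem_spec hT), slice_apply, slice_apply]
  ring

/-! ### the transfer -/

theorem win_gr {L : List Tm} (hL : ∀ t ∈ L, t.Good) {Q : ℕ} (hQ : 0 < Q) (f : Fk) :
    (Q : ℝ) * win L (gr (Real.sqrt ((Q : ℝ)⁻¹)) f) =
      ∑ U ∈ (range 9).powerset, cw Q U *
        (L.map fun t => t.c * ((Q : ℝ)⁻¹ ^ t.J * (t.A f U * t.B f U))).sum := by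
  unfold win
  rw [Finset.mul_sum]
  refine Finset.sum_congr rfl fun U _ => ?_
  have hQ' : (0 : ℝ) < (Q : ℝ) := by exact_mod_cast hQ
  set r := Real.sqrt ((Q : ℝ)⁻¹) with hr
  have hr2 : r ^ 2 = (Q : ℝ)⁻¹ := Real.sq_sqrt (by positivity)
  have key : ∀ t ∈ L, t.c * (t.A (gr r f) U * t.B (gr r f) U) =
      ((Q : ℝ)⁻¹ * (Q : ℝ)⁻¹ ^ (∑ a ∈ U, a)) *
        (t.c * ((Q : ℝ)⁻¹ ^ t.J * (t.A f U * t.B f U))) := by
    intro t ht
    have hA : t.A (gr r f) U = r ^ (t.J + 1) * (r ^ (∑ a ∈ U, a) * t.A f U) := by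
      have := congrFun (LinearMap.congr_fun ((hL t ht).grA r) f) U
      exact this
    have hB : t.B (gr r f) U = r ^ (t.J + 1) * (r ^ (∑ a ∈ U, a) * t.B f U) := by
      have := congrFun (LinearMap.congr_fun ((hL t ht).grB r) f) U
      exact this
    rw [hA, hB, ← hr2]
    ring
  have e1 : (L.map fun t => t.c * (t.A (gr r f) U * t.B (gr r f) U)).sum =
      ((Q : ℝ)⁻¹ * (Q : ℝ)⁻¹ ^ (∑ a ∈ U, a)) *
        (L.map fun t => t.c * ((Q : ℝ)⁻¹ ^ t.J * (t.A f U * t.B f U))).sum := by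
    rw [← List.sum_map_mul_left]
    exact congrArg List.sum (List.map_congr_left key)
  rw [e1]
  have e2 : cw Q U = (∏ a ∈ U, (a.factorial : ℝ)) * (Q : ℝ)⁻¹ ^ (∑ a ∈ U, a) := by
    unfold cw
    rw [Finset.prod_div_distrib, Finset.prod_pow_eq_pow_sum, inv_pow, div_eq_mul_inv]
  rw [e2]
  field_simp

/-- **The transfer.** -/
theorem transfer {L : List Tm} (hL : ∀ t ∈ L, t.Good) (hw : ∀ f : Fk, 0 ≤ win L f)
    {Q : ℕ} (hQ : 9 ≤ Q) (ψ : Fk) :
    0 ≤ (L.map fun t => t.c * ((Q : ℝ)⁻¹ ^ t.J * ip Q (t.A ψ) (t.B ψ))).sum +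
      288 / (Q : ℝ) * (L.map fun t => |t.c| * ((Q : ℝ)⁻¹ ^ t.J *
        ((ip Q (t.A ψ) (t.A ψ) + ip Q (t.B ψ) (t.B ψ)) / 2))).sum := by
  have hQ0 : 0 < Q := by omega
  have hQ' : (0 : ℝ) < (Q : ℝ) := by exact_mod_cast hQ0
  -- the inequality for each spectator set
  have hT : ∀ T ∈ spec Q, 0 ≤ ∑ U ∈ (range 9).powerset, cw Q U *
      (L.map fun t => t.c * ((Q : ℝ)⁻¹ ^ t.J * (slice T (t.A ψ) U * slice T (t.B ψ) U))).sum := by
    intro T hT
    have h1 := hw (gr (Real.sqrt ((Q : ℝ)⁻¹)) (slice T ψ))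
    have h2 := mul_nonneg hQ'.le h1
    rw [win_gr hL hQ0] at h2
    refine le_of_le_of_eq h2 (Finset.sum_congr rfl fun U _ => ?_)
    congr 1
    refine congrArg List.sum (List.map_congr_left fun t ht => ?_)
    have hA := congrFun (LinearMap.congr_fun ((hL t ht).locA T (mem_spec hT)) ψ) U
    have hB := congrFun (LinearMap.congr_fun ((hL t ht).locB T (mem_spec hT)) ψ) U
    change slice T (t.A ψ) U = t.A (slice T ψ) U at hA
    change slice T (t.B ψ) U = t.B (slice T ψ) U at hB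
    rw [hA, hB]
  -- list sums and finite sums commute
  have hswap : ∀ (S : Finset (Finset ℕ)) (g : Tm → Finset ℕ → ℝ) (M : List Tm),
      ∑ V ∈ S, (M.map fun t => g t V).sum = (M.map fun t => ∑ V ∈ S, g t V).sum := by
    intro S g M
    induction M with
    | nil => simp
    | cons t M ih => simp only [List.map_cons, List.sum_cons, Finset.sum_add_distrib, ih]
  -- the main sums in split form
  have e1 : (L.map fun t => t.c * ((Q : ℝ)⁻¹ ^ t.J * ip Q (t.A ψ) (t.B ψ))).sum =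
      ∑ T ∈ spec Q, wt Q T * ∑ U ∈ (range 9).powerset, wt Q U *
        (L.map fun t => t.c * ((Q : ℝ)⁻¹ ^ t.J *
          (slice T (t.A ψ) U * slice T (t.B ψ) U))).sum := by
    have : ∀ T ∈ spec Q, wt Q T * ∑ U ∈ (range 9).powerset, wt Q U *
        (L.map fun t => t.c * ((Q : ℝ)⁻¹ ^ t.J *
          (slice T (t.A ψ) U * slice T (t.B ψ) U))).sum =
        (L.map fun t => t.c * ((Q : ℝ)⁻¹ ^ t.J * (wt Q T * ∑ U ∈ (range 9).powerset, wt Q U *
          (slice T (t.A ψ) U * slice T (t.B ψ) U)))).sum := by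
      intro T _
      have h3 : ∀ U ∈ (range 9).powerset, wt Q U *
          (L.map fun t => t.c * ((Q : ℝ)⁻¹ ^ t.J *
            (slice T (t.A ψ) U * slice T (t.B ψ) U))).sum =
          (L.map fun t => wt Q U * (t.c * ((Q : ℝ)⁻¹ ^ t.J *
            (slice T (t.A ψ) U * slice T (t.B ψ) U)))).sum := by
        intro U _
        rw [List.sum_map_mul_left]
      rw [Finset.sum_congr rfl h3, hswap, ← List.sum_map_mul_left]
      refine congrArg List.sum (List.map_congr_left fun t _ => ?_)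
      rw [Finset.mul_sum, Finset.mul_sum, Finset.mul_sum, Finset.mul_sum]
      refine Finset.sum_congr rfl fun U _ => ?_
      ring
    rw [Finset.sum_congr rfl this, hswap]
    refine congrArg List.sum (List.map_congr_left fun t _ => ?_)
    rw [ip_split hQ, Finset.mul_sum, Finset.mul_sum]
  have e2 : (L.map fun t => |t.c| * ((Q : ℝ)⁻¹ ^ t.J *
        ((ip Q (t.A ψ) (t.A ψ) + ip Q (t.B ψ) (t.B ψ)) / 2))).sum =
      ∑ T ∈ spec Q, wt Q T * ∑ U ∈ (range 9).powerset, wt Q U *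
        (L.map fun t => |t.c| * ((Q : ℝ)⁻¹ ^ t.J *
          ((slice T (t.A ψ) U ^ 2 + slice T (t.B ψ) U ^ 2) / 2))).sum := by
    have : ∀ T ∈ spec Q, wt Q T * ∑ U ∈ (range 9).powerset, wt Q U *
        (L.map fun t => |t.c| * ((Q : ℝ)⁻¹ ^ t.J *
          ((slice T (t.A ψ) U ^ 2 + slice T (t.B ψ) U ^ 2) / 2))).sum =
        (L.map fun t => |t.c| * ((Q : ℝ)⁻¹ ^ t.J * (wt Q T * ∑ U ∈ (range 9).powerset, wt Q U *
          ((slice T (t.A ψ) U ^ 2 + slice T (t.B ψ) U ^ 2) / 2)))).sum := by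
      intro T _
      have h3 : ∀ U ∈ (range 9).powerset, wt Q U *
          (L.map fun t => |t.c| * ((Q : ℝ)⁻¹ ^ t.J *
            ((slice T (t.A ψ) U ^ 2 + slice T (t.B ψ) U ^ 2) / 2))).sum =
          (L.map fun t => wt Q U * (|t.c| * ((Q : ℝ)⁻¹ ^ t.J *
            ((slice T (t.A ψ) U ^ 2 + slice T (t.B ψ) U ^ 2) / 2)))).sum := by
        intro U _
        rw [List.sum_map_mul_left]
      rw [Finset.sum_congr rfl h3, hswap, ← List.sum_map_mul_left]
      refine congrArg List.sum (List.map_congr_left fun t _ => ?_)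
      rw [Finset.mul_sum, Finset.mul_sum, Finset.mul_sum, Finset.mul_sum]
      refine Finset.sum_congr rfl fun U _ => ?_
      ring
    rw [Finset.sum_congr rfl this, hswap]
    refine congrArg List.sum (List.map_congr_left fun t _ => ?_)
    rw [ip_split hQ, ip_split hQ, ← Finset.sum_add_distrib, ← Finset.mul_sum, ← Finset.mul_sum]
    congr 2
    rw [Finset.sum_div]
    refine Finset.sum_congr rfl fun T _ => ?_
    rw [← mul_add, ← Finset.sum_add_distrib, mul_div_assoc, Finset.sum_div]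
    congr 1
    refine Finset.sum_congr rfl fun U _ => ?_
    ring
  rw [e1, e2, Finset.mul_sum, ← Finset.sum_add_distrib]
  refine Finset.sum_nonneg fun T hTs => ?_
  rw [mul_left_comm, ← mul_add]
  refine mul_nonneg (wt_nonneg Q T) ?_
  refine le_trans (hT T hTs) ?_
  rw [Finset.mul_sum, ← Finset.sum_add_distrib]
  refine Finset.sum_le_sum fun U hU => ?_
  have hc1 := cw_le_wt hQ (mem_powerset.mp hU)
  have hc2 := wt_le_cw hQ (mem_powerset.mp hU)
  set X := (L.map fun t => t.c * ((Q : ℝ)⁻¹ ^ t.J *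
    (slice T (t.A ψ) U * slice T (t.B ψ) U))).sum with hX
  set Y := (L.map fun t => |t.c| * ((Q : ℝ)⁻¹ ^ t.J *
    ((slice T (t.A ψ) U ^ 2 + slice T (t.B ψ) U ^ 2) / 2))).sum with hY
  have hXY : |X| ≤ Y := by
    rw [hX, hY]
    refine le_trans (abs_list_sum_le _) ?_
    rw [List.map_map]
    refine List.sum_le_sum fun t _ => ?_
    simp only [Function.comp]
    rw [abs_mul, abs_mul, abs_of_nonneg (by positivity : (0 : ℝ) ≤ (Q : ℝ)⁻¹ ^ t.J)]
    refine mul_le_mul_of_nonneg_left ?_ (abs_nonneg _)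
    refine mul_le_mul_of_nonneg_left ?_ (by positivity)
    rw [abs_mul]
    have := sq_nonneg (|slice T (t.A ψ) U| - |slice T (t.B ψ) U|)
    have h3 := sq_abs (slice T (t.A ψ) U)
    have h4 := sq_abs (slice T (t.B ψ) U)
    nlinarith
  have hd0 : 0 ≤ wt Q U - cw Q U := by linarith
  have hd1 : wt Q U - cw Q U ≤ 288 / (Q : ℝ) * wt Q U := by
    have : (1 - 288 / (Q : ℝ)) * wt Q U = wt Q U - 288 / (Q : ℝ) * wt Q U := by ring
    linarith
  have hY0 : 0 ≤ Y := le_trans (abs_nonneg _) hXY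
  have h5 : -(wt Q U - cw Q U) * X ≤ (wt Q U - cw Q U) * Y := by
    have := neg_abs_le X
    nlinarith
  have h6 : (wt Q U - cw Q U) * Y ≤ 288 / (Q : ℝ) * wt Q U * Y :=
    mul_le_mul_of_nonneg_right hd1 hY0
  have h7 : cw Q U * X = wt Q U * X + -(wt Q U - cw Q U) * X := by ring
  rw [h7]
  linarith

end Tr

end Vale.Agent.P359
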