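import Vale.Agent.P359.WinSpec

/-!
# P359, window certificate: kernel checks of the sectors, particle number 0, 1 and 10 to 13
-/

namespace Vale.Agent.P359.Win

set_option maxRecDepth 100000

theorem e0 : ((List.range 60).all fun i => chk 0 i) = true := by decide +kernel

theorem all0 (L : ℕ) (hL : L < 60) : chk 0 L = true :=
  List.all_eq_true.mp e0 L (List.mem_range.mpr hL)

theorem e1 : ((List.range 60).all fun i => chk 1 i) = true := by decide +kernel

theorem all1 (L : ℕ) (hL : L < 60) : chk 1 L = true :=
  List.all_eq_true.mp e1 L (List.mem_range.mpr hL)

theorem e10 : ((List.range 60).all fun i => chk 10 i) = true := by decide +kernel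

theorem all10 (L : ℕ) (hL : L < 60) : chk 10 L = true :=
  List.all_eq_true.mp e10 L (List.mem_range.mpr hL)

theorem e11 : ((List.range 60).all fun i => chk 11 i) = true := by decide +kernel

theorem all11 (L : ℕ) (hL : L < 60) : chk 11 L = true :=
  List.all_eq_true.mp e11 L (List.mem_range.mpr hL)

theorem e12 : ((List.range 60).all fun i => chk 12 i) = true := by decide +kernel

theorem all12 (L : ℕ) (hL : L < 60) : chk 12 L = true :=
  List.all_eq_true.mp e12 L (List.mem_range.mpr hL)

theorem e13 : ((List.range 60).all fun i => chk 13 i) = true := by decide +kernel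

theorem all13 (L : ℕ) (hL : L < 60) : chk 13 L = true :=
  List.all_eq_true.mp e13 L (List.mem_range.mpr hL)

theorem sec_nodup_chk : ((List.range 14).all fun N => (List.range 60).all fun L =>
    decide (sec N L).Nodup) = true := by decide +kernel

theorem tab_perm : tab.flatten.flatten.Perm (List.range 512) := by decide +kernel

end Vale.Agent.P359.Win
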