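import Vale.Agent.P359.WinSpec

/-!
# P359, window certificate: kernel checks of the sectors, particle number 2
-/

namespace Vale.Agent.P359.Win

set_option maxRecDepth 100000

theorem lo2 : ((List.range 1).all fun i => chk 2 i) = true := by decide +kernel

theorem hi2 : ((List.range 44).all fun i => chk 2 (16 + i)) = true := by
  decide +kernel

theorem q2_1 : chk 2 1 = true := by decide +kernel

theorem q2_2 : chk 2 2 = true := by decide +kernel

theorem q2_3 : chk 2 3 = true := by decide +kernel

theorem q2_4 : chk 2 4 = true := by decide +kernel

theorem q2_5 : chk 2 5 = true := by decide +kernel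

theorem q2_6 : chk 2 6 = true := by decide +kernel

theorem q2_7 : chk 2 7 = true := by decide +kernel

theorem q2_8 : chk 2 8 = true := by decide +kernel

theorem q2_9 : chk 2 9 = true := by decide +kernel

theorem q2_10 : chk 2 10 = true := by decide +kernel

theorem q2_11 : chk 2 11 = true := by decide +kernel

theorem q2_12 : chk 2 12 = true := by decide +kernel

theorem q2_13 : chk 2 13 = true := by decide +kernel

theorem q2_14 : chk 2 14 = true := by decide +kernel

theorem q2_15 : chk 2 15 = true := by decide +kernel

theorem all2 (L : ℕ) (hL : L < 60) : chk 2 L = true := by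
  rcases Nat.lt_or_ge L 1 with h | h
  · exact List.all_eq_true.mp lo2 L (List.mem_range.mpr h)
  rcases Nat.lt_or_ge 15 L with h2 | h2
  · have h3 := List.all_eq_true.mp hi2 (L - 16) (List.mem_range.mpr (by omega))
    rwa [show 16 + (L - 16) = L by omega] at h3
  · clear hL
    interval_cases L
    · exact q2_1
    · exact q2_2
    · exact q2_3
    · exact q2_4
    · exact q2_5
    · exact q2_6
    · exact q2_7
    · exact q2_8
    · exact q2_9
    · exact q2_10
    · exact q2_11
    · exact q2_12
    · exact q2_13
    · exact q2_14
    · exact q2_15

end Vale.Agent.P359.Win
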