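import Vale.Agent.P359.WinSpec

/-!
# P359, window certificate: kernel checks of the sectors, particle number 3
-/

namespace Vale.Agent.P359.Win

set_option maxRecDepth 100000

theorem lo3 : ((List.range 3).all fun i => chk 3 i) = true := by decide +kernel

theorem hi3 : ((List.range 38).all fun i => chk 3 (22 + i)) = true := by
  decide +kernel

theorem q3_3 : chk 3 3 = true := by decide +kernel

theorem q3_4 : chk 3 4 = true := by decide +kernel

theorem q3_5 : chk 3 5 = true := by decide +kernel

theorem q3_6 : chk 3 6 = true := by decide +kernel

theorem q3_7 : chk 3 7 = true := by decide +kernel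

theorem q3_8 : chk 3 8 = true := by decide +kernel

theorem q3_9 : chk 3 9 = true := by decide +kernel

theorem q3_10 : chk 3 10 = true := by decide +kernel

theorem q3_11 : chk 3 11 = true := by decide +kernel

theorem q3_12 : chk 3 12 = true := by decide +kernel

theorem q3_13 : chk 3 13 = true := by decide +kernel

theorem q3_14 : chk 3 14 = true := by decide +kernel

theorem q3_15 : chk 3 15 = true := by decide +kernel

theorem q3_16 : chk 3 16 = true := by decide +kernel

theorem q3_17 : chk 3 17 = true := by decide +kernel

theorem q3_18 : chk 3 18 = true := by decide +kernel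

theorem q3_19 : chk 3 19 = true := by decide +kernel

theorem q3_20 : chk 3 20 = true := by decide +kernel

theorem q3_21 : chk 3 21 = true := by decide +kernel

theorem all3 (L : ℕ) (hL : L < 60) : chk 3 L = true := by
  rcases Nat.lt_or_ge L 3 with h | h
  · exact List.all_eq_true.mp lo3 L (List.mem_range.mpr h)
  rcases Nat.lt_or_ge 21 L with h2 | h2
  · have h3 := List.all_eq_true.mp hi3 (L - 22) (List.mem_range.mpr (by omega))
    rwa [show 22 + (L - 22) = L by omega] at h3
  · clear hL
    interval_cases L
    · exact q3_3
    · exact q3_4
    · exact q3_5
    · exact q3_6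
    · exact q3_7
    · exact q3_8
    · exact q3_9
    · exact q3_10
    · exact q3_11
    · exact q3_12
    · exact q3_13
    · exact q3_14
    · exact q3_15
    · exact q3_16
    · exact q3_17
    · exact q3_18
    · exact q3_19
    · exact q3_20
    · exact q3_21

end Vale.Agent.P359.Win
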