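import Vale.Agent.P359.WinSpec

/-!
# P359, window certificate: kernel checks of the sectors, particle number 4
-/

namespace Vale.Agent.P359.Win

set_option maxRecDepth 100000

theorem lo4 : ((List.range 6).all fun i => chk 4 i) = true := by decide +kernel

theorem hi4 : ((List.range 33).all fun i => chk 4 (27 + i)) = true := by
  decide +kernel

theorem q4_6 : chk 4 6 = true := by decide +kernel

theorem q4_7 : chk 4 7 = true := by decide +kernel

theorem q4_8 : chk 4 8 = true := by decide +kernel

theorem q4_9 : chk 4 9 = true := by decide +kernel

theorem q4_10 : chk 4 10 = true := by decide +kernel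

theorem q4_11 : chk 4 11 = true := by decide +kernel

theorem q4_12 : chk 4 12 = true := by decide +kernel

theorem q4_13 : chk 4 13 = true := by decide +kernel

theorem q4_14 : chk 4 14 = true := by decide +kernel

theorem q4_15 : chk 4 15 = true := by decide +kernel

theorem q4_16 : chk 4 16 = true := by decide +kernel

theorem q4_17 : chk 4 17 = true := by decide +kernel

theorem q4_18 : chk 4 18 = true := by decide +kernel

theorem q4_19 : chk 4 19 = true := by decide +kernel

theorem q4_20 : chk 4 20 = true := by decide +kernel

theorem q4_21 : chk 4 21 = true := by decide +kernel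

theorem q4_22 : chk 4 22 = true := by decide +kernel

theorem q4_23 : chk 4 23 = true := by decide +kernel

theorem q4_24 : chk 4 24 = true := by decide +kernel

theorem q4_25 : chk 4 25 = true := by decide +kernel

theorem q4_26 : chk 4 26 = true := by decide +kernel

theorem all4 (L : ℕ) (hL : L < 60) : chk 4 L = true := by
  rcases Nat.lt_or_ge L 6 with h | h
  · exact List.all_eq_true.mp lo4 L (List.mem_range.mpr h)
  rcases Nat.lt_or_ge 26 L with h2 | h2
  · have h3 := List.all_eq_true.mp hi4 (L - 27) (List.mem_range.mpr (by omega))
    rwa [show 27 + (L - 27) = L by omega] at h3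
  · clear hL
    interval_cases L
    · exact q4_6
    · exact q4_7
    · exact q4_8
    · exact q4_9
    · exact q4_10
    · exact q4_11
    · exact q4_12
    · exact q4_13
    · exact q4_14
    · exact q4_15
    · exact q4_16
    · exact q4_17
    · exact q4_18
    · exact q4_19
    · exact q4_20
    · exact q4_21
    · exact q4_22
    · exact q4_23
    · exact q4_24
    · exact q4_25
    · exact q4_26

end Vale.Agent.P359.Win
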