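import Vale.Agent.P359.WinSpec

/-!
# P359, window certificate: kernel checks of the sectors, particle number 5
-/

namespace Vale.Agent.P359.Win

set_option maxRecDepth 100000

theorem lo5 : ((List.range 10).all fun i => chk 5 i) = true := by decide +kernel

theorem hi5 : ((List.range 29).all fun i => chk 5 (31 + i)) = true := by
  decide +kernel

theorem q5_10 : chk 5 10 = true := by decide +kernel

theorem q5_11 : chk 5 11 = true := by decide +kernel

theorem q5_12 : chk 5 12 = true := by decide +kernel

theorem q5_13 : chk 5 13 = true := by decide +kernel

theorem q5_14 : chk 5 14 = true := by decide +kernel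

theorem q5_15 : chk 5 15 = true := by decide +kernel

theorem q5_16 : chk 5 16 = true := by decide +kernel

theorem q5_17 : chk 5 17 = true := by decide +kernel

theorem q5_18 : chk 5 18 = true := by decide +kernel

theorem q5_19 : chk 5 19 = true := by decide +kernel

theorem q5_20 : chk 5 20 = true := by decide +kernel

theorem q5_21 : chk 5 21 = true := by decide +kernel

theorem q5_22 : chk 5 22 = true := by decide +kernel

theorem q5_23 : chk 5 23 = true := by decide +kernel

theorem q5_24 : chk 5 24 = true := by decide +kernel

theorem q5_25 : chk 5 25 = true := by decide +kernel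

theorem q5_26 : chk 5 26 = true := by decide +kernel

theorem q5_27 : chk 5 27 = true := by decide +kernel

theorem q5_28 : chk 5 28 = true := by decide +kernel

theorem q5_29 : chk 5 29 = true := by decide +kernel

theorem q5_30 : chk 5 30 = true := by decide +kernel

theorem all5 (L : ℕ) (hL : L < 60) : chk 5 L = true := by
  rcases Nat.lt_or_ge L 10 with h | h
  · exact List.all_eq_true.mp lo5 L (List.mem_range.mpr h)
  rcases Nat.lt_or_ge 30 L with h2 | h2
  · have h3 := List.all_eq_true.mp hi5 (L - 31) (List.mem_range.mpr (by omega))
    rwa [show 31 + (L - 31) = L by omega] at h3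
  · clear hL
    interval_cases L
    · exact q5_10
    · exact q5_11
    · exact q5_12
    · exact q5_13
    · exact q5_14
    · exact q5_15
    · exact q5_16
    · exact q5_17
    · exact q5_18
    · exact q5_19
    · exact q5_20
    · exact q5_21
    · exact q5_22
    · exact q5_23
    · exact q5_24
    · exact q5_25
    · exact q5_26
    · exact q5_27
    · exact q5_28
    · exact q5_29
    · exact q5_30

end Vale.Agent.P359.Win
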