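import Vale.Agent.P359.WinSpec

/-!
# P359, window certificate: kernel checks of the sectors, particle number 6
-/

namespace Vale.Agent.P359.Win

set_option maxRecDepth 100000

theorem lo6 : ((List.range 15).all fun i => chk 6 i) = true := by decide +kernel

theorem hi6 : ((List.range 26).all fun i => chk 6 (34 + i)) = true := by
  decide +kernel

theorem q6_15 : chk 6 15 = true := by decide +kernel

theorem q6_16 : chk 6 16 = true := by decide +kernel

theorem q6_17 : chk 6 17 = true := by decide +kernel

theorem q6_18 : chk 6 18 = true := by decide +kernel

theorem q6_19 : chk 6 19 = true := by decide +kernel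

theorem q6_20 : chk 6 20 = true := by decide +kernel

theorem q6_21 : chk 6 21 = true := by decide +kernel

theorem q6_22 : chk 6 22 = true := by decide +kernel

theorem q6_23 : chk 6 23 = true := by decide +kernel

theorem q6_24 : chk 6 24 = true := by decide +kernel

theorem q6_25 : chk 6 25 = true := by decide +kernel

theorem q6_26 : chk 6 26 = true := by decide +kernel

theorem q6_27 : chk 6 27 = true := by decide +kernel

theorem q6_28 : chk 6 28 = true := by decide +kernel

theorem q6_29 : chk 6 29 = true := by decide +kernel

theorem q6_30 : chk 6 30 = true := by decide +kernel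

theorem q6_31 : chk 6 31 = true := by decide +kernel

theorem q6_32 : chk 6 32 = true := by decide +kernel

theorem q6_33 : chk 6 33 = true := by decide +kernel

theorem all6 (L : ℕ) (hL : L < 60) : chk 6 L = true := by
  rcases Nat.lt_or_ge L 15 with h | h
  · exact List.all_eq_true.mp lo6 L (List.mem_range.mpr h)
  rcases Nat.lt_or_ge 33 L with h2 | h2
  · have h3 := List.all_eq_true.mp hi6 (L - 34) (List.mem_range.mpr (by omega))
    rwa [show 34 + (L - 34) = L by omega] at h3
  · clear hL
    interval_cases L
    · exact q6_15
    · exact q6_16
    · exact q6_17
    · exact q6_18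
    · exact q6_19
    · exact q6_20
    · exact q6_21
    · exact q6_22
    · exact q6_23
    · exact q6_24
    · exact q6_25
    · exact q6_26
    · exact q6_27
    · exact q6_28
    · exact q6_29
    · exact q6_30
    · exact q6_31
    · exact q6_32
    · exact q6_33

end Vale.Agent.P359.Win
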