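import Vale.Agent.P359.WinSpec

/-!
# P359, window certificate: kernel checks of the sectors, particle number 7
-/

namespace Vale.Agent.P359.Win

set_option maxRecDepth 100000

theorem lo7 : ((List.range 21).all fun i => chk 7 i) = true := by decide +kernel

theorem hi7 : ((List.range 24).all fun i => chk 7 (36 + i)) = true := by
  decide +kernel

theorem q7_21 : chk 7 21 = true := by decide +kernel

theorem q7_22 : chk 7 22 = true := by decide +kernel

theorem q7_23 : chk 7 23 = true := by decide +kernel

theorem q7_24 : chk 7 24 = true := by decide +kernel

theorem q7_25 : chk 7 25 = true := by decide +kernel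

theorem q7_26 : chk 7 26 = true := by decide +kernel

theorem q7_27 : chk 7 27 = true := by decide +kernel

theorem q7_28 : chk 7 28 = true := by decide +kernel

theorem q7_29 : chk 7 29 = true := by decide +kernel

theorem q7_30 : chk 7 30 = true := by decide +kernel

theorem q7_31 : chk 7 31 = true := by decide +kernel

theorem q7_32 : chk 7 32 = true := by decide +kernel

theorem q7_33 : chk 7 33 = true := by decide +kernel

theorem q7_34 : chk 7 34 = true := by decide +kernel

theorem q7_35 : chk 7 35 = true := by decide +kernel

theorem all7 (L : ℕ) (hL : L < 60) : chk 7 L = true := by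
  rcases Nat.lt_or_ge L 21 with h | h
  · exact List.all_eq_true.mp lo7 L (List.mem_range.mpr h)
  rcases Nat.lt_or_ge 35 L with h2 | h2
  · have h3 := List.all_eq_true.mp hi7 (L - 36) (List.mem_range.mpr (by omega))
    rwa [show 36 + (L - 36) = L by omega] at h3
  · clear hL
    interval_cases L
    · exact q7_21
    · exact q7_22
    · exact q7_23
    · exact q7_24
    · exact q7_25
    · exact q7_26
    · exact q7_27
    · exact q7_28
    · exact q7_29
    · exact q7_30
    · exact q7_31
    · exact q7_32
    · exact q7_33
    · exact q7_34
    · exact q7_35

end Vale.Agent.P359.Win
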