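import Vale.Agent.P359.WinSpec

/-!
# P359, window certificate: kernel checks of the sectors, particle number 8
-/

namespace Vale.Agent.P359.Win

set_option maxRecDepth 100000

theorem lo8 : ((List.range 28).all fun i => chk 8 i) = true := by decide +kernel

theorem hi8 : ((List.range 23).all fun i => chk 8 (37 + i)) = true := by
  decide +kernel

theorem q8_28 : chk 8 28 = true := by decide +kernel

theorem q8_29 : chk 8 29 = true := by decide +kernel

theorem q8_30 : chk 8 30 = true := by decide +kernel

theorem q8_31 : chk 8 31 = true := by decide +kernel

theorem q8_32 : chk 8 32 = true := by decide +kernel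

theorem q8_33 : chk 8 33 = true := by decide +kernel

theorem q8_34 : chk 8 34 = true := by decide +kernel

theorem q8_35 : chk 8 35 = true := by decide +kernel

theorem q8_36 : chk 8 36 = true := by decide +kernel

theorem all8 (L : ℕ) (hL : L < 60) : chk 8 L = true := by
  rcases Nat.lt_or_ge L 28 with h | h
  · exact List.all_eq_true.mp lo8 L (List.mem_range.mpr h)
  rcases Nat.lt_or_ge 36 L with h2 | h2
  · have h3 := List.all_eq_true.mp hi8 (L - 37) (List.mem_range.mpr (by omega))
    rwa [show 37 + (L - 37) = L by omega] at h3
  · clear hL
    interval_cases L
    · exact q8_28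
    · exact q8_29
    · exact q8_30
    · exact q8_31
    · exact q8_32
    · exact q8_33
    · exact q8_34
    · exact q8_35
    · exact q8_36

end Vale.Agent.P359.Win
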