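import Vale.Agent.P359.WinSpec

/-!
# P359, window certificate: kernel checks of the sectors, particle number 9
-/

namespace Vale.Agent.P359.Win

set_option maxRecDepth 100000

theorem lo9 : ((List.range 36).all fun i => chk 9 i) = true := by decide +kernel

theorem hi9 : ((List.range 23).all fun i => chk 9 (37 + i)) = true := by
  decide +kernel

theorem q9_36 : chk 9 36 = true := by decide +kernel

theorem all9 (L : ℕ) (hL : L < 60) : chk 9 L = true := by
  rcases Nat.lt_or_ge L 36 with h | h
  · exact List.all_eq_true.mp lo9 L (List.mem_range.mpr h)
  rcases Nat.lt_or_ge 36 L with h2 | h2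
  · have h3 := List.all_eq_true.mp hi9 (L - 37) (List.mem_range.mpr (by omega))
    rwa [show 37 + (L - 37) = L by omega] at h3
  · clear hL
    interval_cases L
    · exact q9_36

end Vale.Agent.P359.Win
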