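import Vale.Agent.P359.WinSum
import Vale.Agent.P359.WinK0
import Vale.Agent.P359.WinK2
import Vale.Agent.P359.WinK3
import Vale.Agent.P359.WinK4
import Vale.Agent.P359.WinK5
import Vale.Agent.P359.WinK6
import Vale.Agent.P359.WinK7
import Vale.Agent.P359.WinK8
import Vale.Agent.P359.WinK9

/-!
# P359: the planar window certificate
-/

namespace Vale.Agent.P359

open Finset

theorem Win.chk_all (N L : ℕ) (hN : N < 14) (hL : L < 60) : Win.chk N L = true := by
  rcases Nat.lt_or_ge N 7 with h | h
  · rcases Nat.lt_or_ge N 3 with h3 | h3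
    · obtain rfl | rfl | rfl : N = 0 ∨ N = 1 ∨ N = 2 := by omega
      · exact Win.all0 L hL
      · exact Win.all1 L hL
      · exact Win.all2 L hL
    · obtain rfl | rfl | rfl | rfl : N = 3 ∨ N = 4 ∨ N = 5 ∨ N = 6 := by omega
      · exact Win.all3 L hL
      · exact Win.all4 L hL
      · exact Win.all5 L hL
      · exact Win.all6 L hL
  · rcases Nat.lt_or_ge N 10 with h3 | h3
    · obtain rfl | rfl | rfl : N = 7 ∨ N = 8 ∨ N = 9 := by omega
      · exact Win.all7 L hL
      · exact Win.all8 L hL
      · exact Win.all9 L hL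
    · obtain rfl | rfl | rfl | rfl : N = 10 ∨ N = 11 ∨ N = 12 ∨ N = 13 := by omega
      · exact Win.all10 L hL
      · exact Win.all11 L hL
      · exact Win.all12 L hL
      · exact Win.all13 L hL

theorem Win.sec_nodup (N L : ℕ) (hN : N < 14) (hL : L < 60) : (Win.sec N L).Nodup := by
  have h1 := List.all_eq_true.mp Win.sec_nodup_chk N (List.mem_range.mpr hN)
  have h2 := List.all_eq_true.mp h1 L (List.mem_range.mpr hL)
  exact of_decide_eq_true h2

theorem window (f : Fk) :
    0 ≤ XS (fun K => ewp K * wip (bh K f) (bh K f))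
      + LS certR (fun K m K' m' => wip (an m (bh K f)) (an m' (bh K' f)))
      + LS certQ (fun K₁ K₂ K₁' K₂' => wip (bh K₂ (bh K₁ f)) (bh K₂' (bh K₁' f))) :=
  Win.window_of Win.tab_perm Win.sec_nodup Win.chk_all f

end Vale.Agent.P359
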