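import Vale.Agent.P359.WinRow
import Vale.Agent.P359.WinData
import Vale.Agent.P359.Cert

/-!
# P359, window certificate: the block matrices
-/

namespace Vale.Agent.P359.Win

/-- Coefficient of the mask `X`. -/
def coef (X : ℕ) : Row → ℤ
  | [] => 0
  | p :: l => cond (Nat.beq p.2 X) (p.1 + coef X l) (coef X l)

/-- Dense vector of a row (`[]` for the empty row). -/
def dns (Xs : List ℕ) : Row → List ℤ
  | [] => []
  | p :: l => Xs.map (fun X => coef X (p :: l))

/-- All masks of the row belong to `Xs`. -/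
def inX (Xs : List ℕ) (r : Row) : Bool := r.all (fun p => Xs.any (fun X => Nat.beq X p.2))

/-- Sector lookup. -/
def sec (n l : ℕ) : List ℕ := (tab.getD n []).getD l []

/-- Add the entries of a group. -/
def addE (w : ℤ) (ds : List (List ℤ)) : List (ℕ × ℕ × ℤ) → List (List ℤ) → List (List ℤ)
  | [], M => M
  | e :: es, M =>
    addE w ds es (upd (cond (Nat.beq e.1 e.2.1) (w * e.2.2) (2 * (w * e.2.2)))
      (ds.getD e.1 []) (ds.getD e.2.1 []) M)

/-- Rows of the group `J`. -/
def rows3 (J u : ℕ) : List Row :=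
  (List.range 8).map (fun K => if K ≤ J ∧ J ≤ K + 8 then row3 K (J - K) u else [])

def rows4 (s u : ℕ) : List Row :=
  (List.range 8).map (fun K => if K ≤ s ∧ s ≤ K + 7 then row4 K (s - K) u else [])

def fct (K : ℕ) : ℤ := (K.factorial * 2 ^ (7 - K) : ℕ)

/-- Contributions to the block with states `Xs`. -/
def blk2 (Xs : List ℕ) (K : ℕ) : List ℕ → List (List ℤ) → List (List ℤ)
  | [], M => M
  | u :: us, M => blk2 Xs K us
      (upd (certX.getD K 0 * fct K * wm 9 u) (dns Xs (row2 K u)) (dns Xs (row2 K u)) M)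

def blk3 (Xs : List ℕ) (J : ℕ) : List ℕ → List (List ℤ) → List (List ℤ)
  | [], M => M
  | u :: us, M => blk3 Xs J us
      (addE (128 * wm 9 u) ((rows3 J u).map (dns Xs)) (gR.getD J []) M)

def blk4 (Xs : List ℕ) (s : ℕ) : List ℕ → List (List ℤ) → List (List ℤ)
  | [], M => M
  | u :: us, M => blk4 Xs s us
      (addE (128 * wm 9 u) ((rows4 s u).map (dns Xs)) (gQ.getD s []) M)

/-- Loop over the groups. -/
def loop (f : ℕ → List (List ℤ) → List (List ℤ)) : ℕ → List (List ℤ) → List (List ℤ)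
  | 0, M => M
  | n + 1, M => loop f n (f n M)

/-- The block matrix of the sector `(N, L)`. -/
def block (N L : ℕ) : List (List ℤ) :=
  loop (fun s M => if 4 ≤ N ∧ s + 2 ≤ L then blk4 (sec N L) s (sec (N - 4) (L - (s + 2))) M
    else M) 15
  (loop (fun J M => if 3 ≤ N ∧ J + 1 ≤ L then blk3 (sec N L) J (sec (N - 3) (L - (J + 1))) M
    else M) 16
  (loop (fun K M => if 2 ≤ N ∧ K + 1 ≤ L then blk2 (sec N L) K (sec (N - 2) (L - (K + 1))) M
    else M) 8 (zm (sec N L).length)))

end Vale.Agent.P359.Win
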