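import Mathlib

/-!
# P359, window certificate: integer quadratic forms in upper triangular list form

`qfU M x = ∑_i M_ii x_i^2 + 2 ∑_{i<j} M_ij x_i x_j`; `psd` is exact symmetric elimination
(no division), it accepts singular matrices.
-/

namespace Vale.Agent.P359.Win

/-- Dot product. -/
def dot : List ℤ → List ℝ → ℝ
  | a :: v, x :: xs => a * x + dot v xs
  | _, _ => 0

/-- Quadratic form of an upper triangular list of rows. -/
def qfU : List (List ℤ) → List ℝ → ℝ
  | (a :: v) :: M, x :: xs => a * x ^ 2 + 2 * x * dot v xs + qfU M xs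
  | _, _ => 0

/-- Shape predicate: `n` rows of lengths `n, n-1, ..., 1`. -/
def Sh : List (List ℤ) → Prop
  | [] => True
  | (_ :: v) :: M => v.length = M.length ∧ Sh M
  | [] :: _ => False

/-- `a m - p q` entrywise. -/
def row1 (a p : ℤ) : List ℤ → List ℤ → List ℤ
  | m :: r, q :: v => (a * m - p * q) :: row1 a p r v
  | _, _ => []

/-- Scaled Schur complement. -/
def schur (a : ℤ) : List ℤ → List (List ℤ) → List (List ℤ)
  | p :: v, r :: M => row1 a p r (p :: v) :: schur a v M
  | _, _ => []

/-- Exact elimination. -/
def psd : ℕ → List (List ℤ) → Bool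
  | _, [] => true
  | 0, _ :: _ => false
  | _ + 1, [] :: _ => false
  | k + 1, (a :: v) :: M =>
    match a with
    | .negSucc _ => false
    | .ofNat 0 => v.all (fun z => z == 0) && psd k M
    | .ofNat (b + 1) => psd k (schur (.ofNat (b + 1)) v M)

lemma row1_length (a p : ℤ) : ∀ (r v : List ℤ), r.length = v.length →
    (row1 a p r v).length = v.length
  | [], [], _ => rfl
  | m :: r, q :: v, h => by
    have h' : r.length = v.length := by simpa using h
    simp [row1, row1_length a p r v h']
  | [], _ :: _, h => by simp at h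
  | _ :: _, [], h => by simp at h

lemma schur_length (a : ℤ) : ∀ (v : List ℤ) (M : List (List ℤ)), v.length = M.length →
    (schur a v M).length = M.length
  | [], [], _ => rfl
  | p :: v, r :: M, h => by
    have h' : v.length = M.length := by simpa using h
    simp [schur, schur_length a v M h']
  | [], _ :: _, h => by simp at h
  | _ :: _, [], h => by simp at h

lemma schur_sh (a : ℤ) : ∀ (v : List ℤ) (M : List (List ℤ)), v.length = M.length → Sh M →
    Sh (schur a v M)
  | [], [], _, _ => trivial
  | p :: v, (m :: r) :: M, h, hM => by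
    have h' : v.length = M.length := by simpa using h
    simp only [Sh] at hM
    simp only [schur, row1, Sh]
    refine ⟨?_, schur_sh a v M h' hM.2⟩
    rw [row1_length a p r v (hM.1.trans h'.symm), schur_length a v M h', h']
  | p :: v, [] :: M, _, hM => by simp [Sh] at hM
  | [], _ :: _, h, _ => by simp at h
  | _ :: _, [], h, _ => by simp at h

lemma dot_row1 (a p : ℤ) : ∀ (r v : List ℤ) (xs : List ℝ), r.length = v.length →
    dot (row1 a p r v) xs = a * dot r xs - p * dot v xs
  | [], [], xs, _ => by simp [row1, dot]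
  | m :: r, q :: v, [], _ => by simp [row1, dot]
  | m :: r, q :: v, x :: xs, h => by
    have h' : r.length = v.length := by simpa using h
    simp only [row1, dot, dot_row1 a p r v xs h']
    push_cast
    ring
  | [], _ :: _, _, h => by simp at h
  | _ :: _, [], _, h => by simp at h

lemma qfU_schur (a : ℤ) : ∀ (v : List ℤ) (M : List (List ℤ)) (xs : List ℝ),
    v.length = M.length → Sh M → xs.length = M.length →
    qfU (schur a v M) xs = a * qfU M xs - dot v xs ^ 2
  | [], [], xs, _, _, _ => by simp [schur, qfU, dot]
  | p :: v, (m :: r) :: M, x :: xs, h, hM, hx => by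
    have h' : v.length = M.length := by simpa using h
    have hx' : xs.length = M.length := by simpa using hx
    simp only [Sh] at hM
    simp only [schur, row1, qfU, dot]
    rw [qfU_schur a v M xs h' hM.2 hx', dot_row1 a p r v xs (hM.1.trans h'.symm)]
    push_cast
    ring
  | p :: v, [] :: M, _, _, hM, _ => by simp [Sh] at hM
  | _ :: _, _ :: _, [], _, _, hx => by simp at hx
  | [], _ :: _, _, h, _, _ => by simp at h
  | _ :: _, [], _, h, _, _ => by simp at h

lemma dot_zero : ∀ (v : List ℤ) (xs : List ℝ), v.all (fun z => z == 0) = true → dot v xs = 0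
  | [], xs, _ => by simp [dot]
  | a :: v, [], _ => by simp [dot]
  | a :: v, x :: xs, h => by
    simp only [List.all_cons, Bool.and_eq_true, beq_iff_eq] at h
    simp [dot, h.1, dot_zero v xs h.2]

/-- Correctness of exact elimination. -/
theorem psd_sound : ∀ (k : ℕ) (M : List (List ℤ)) (xs : List ℝ), Sh M → xs.length = M.length →
    psd k M = true → 0 ≤ qfU M xs
  | _, [], xs, _, _, _ => by simp [qfU]
  | 0, _ :: _, _, _, _, h => by simp [psd] at h
  | k + 1, [] :: _, _, hM, _, _ => by simp [Sh] at hM
  | k + 1, (a :: v) :: M, [], _, hx, _ => by simp at hx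
  | k + 1, (a :: v) :: M, x :: xs, hM, hx, h => by
    have hx' : xs.length = M.length := by simpa using hx
    simp only [Sh] at hM
    match a, h with
    | .negSucc _, h => simp [psd] at h
    | .ofNat 0, h =>
      simp only [psd, Bool.and_eq_true] at h
      have h1 := psd_sound k M xs hM.2 hx' h.2
      simp only [qfU, dot_zero v xs h.1]
      simpa using h1
    | .ofNat (b + 1), h =>
      simp only [psd] at h
      have h1 := psd_sound k _ xs (schur_sh _ v M hM.1 hM.2)
        (by rw [schur_length _ v M hM.1, hx']) h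
      rw [qfU_schur _ v M xs hM.1 hM.2 hx'] at h1
      simp only [qfU]
      have ha : (0 : ℝ) < ((Int.ofNat (b + 1) : ℤ) : ℝ) := by
        simp only [Int.ofNat_eq_natCast]
        push_cast
        positivity
      set A : ℝ := ((Int.ofNat (b + 1) : ℤ) : ℝ) with hA
      set d := dot v xs
      set q := qfU M xs
      have h2 : 0 ≤ A * (A * x ^ 2 + 2 * x * d + q) := by
        have : A * (A * x ^ 2 + 2 * x * d + q) = (A * x + d) ^ 2 + (A * q - d ^ 2) := by ring
        rw [this]
        positivity
      exact nonneg_of_mul_nonneg_right h2 ha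

/-- `v_j + α e_j + β d_j`. -/
def addr (α β : ℤ) : List ℤ → List ℤ → List ℤ → List ℤ
  | z :: v, e :: es, d :: ds => (z + α * e + β * d) :: addr α β v es ds
  | _, _, _ => []

/-- Add `c (d·x)(e·x)` (times two) to the form. -/
def upd (c : ℤ) : List ℤ → List ℤ → List (List ℤ) → List (List ℤ)
  | p :: d, q :: e, (a :: v) :: M =>
    (match p, q with
    | .ofNat 0, .ofNat 0 => (a :: v)
    | _, _ => (a + 2 * (c * p * q)) :: addr (c * p) (c * q) v e d) :: upd c d e M
  | _, _, M => M

lemma addr_length (α β : ℤ) : ∀ (v e d : List ℤ), e.length = v.length → d.length = v.length →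
    (addr α β v e d).length = v.length
  | [], [], [], _, _ => rfl
  | z :: v, e :: es, d :: ds, h, h' => by
    have h1 : es.length = v.length := by simpa using h
    have h2 : ds.length = v.length := by simpa using h'
    simp [addr, addr_length α β v es ds h1 h2]
  | [], _ :: _, _, h, _ => by simp at h
  | [], [], _ :: _, _, h => by simp at h
  | _ :: _, [], _, h, _ => by simp at h
  | _ :: _, _ :: _, [], _, h => by simp at h

lemma dot_addr (α β : ℤ) : ∀ (v e d : List ℤ) (xs : List ℝ), e.length = v.length →
    d.length = v.length →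
    dot (addr α β v e d) xs = dot v xs + α * dot e xs + β * dot d xs
  | [], [], [], xs, _, _ => by simp [addr, dot]
  | z :: v, e :: es, d :: ds, [], h, h' => by simp [addr, dot]
  | z :: v, e :: es, d :: ds, x :: xs, h, h' => by
    have h1 : es.length = v.length := by simpa using h
    have h2 : ds.length = v.length := by simpa using h'
    simp only [addr, dot, dot_addr α β v es ds xs h1 h2]
    push_cast
    ring
  | [], _ :: _, _, _, h, _ => by simp at h
  | [], [], _ :: _, _, _, h => by simp at h
  | _ :: _, [], _, _, h, _ => by simp at h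
  | _ :: _, _ :: _, [], _, _, h => by simp at h

lemma upd_cons (c p q : ℤ) (d e v : List ℤ) (a : ℤ) (M : List (List ℤ)) :
    ∃ b : List ℤ, upd c (p :: d) (q :: e) ((a :: v) :: M) = b :: upd c d e M ∧
      (b = (a :: v) ∧ p = 0 ∧ q = 0 ∨
        b = (a + 2 * (c * p * q)) :: addr (c * p) (c * q) v e d) := by
  simp only [upd]
  split
  · rename_i h1 h2
    exact ⟨_, rfl, Or.inl ⟨rfl, rfl, rfl⟩⟩
  · exact ⟨_, rfl, Or.inr rfl⟩

lemma upd_length (c : ℤ) : ∀ (d e : List ℤ) (M : List (List ℤ)), (upd c d e M).length = M.length
  | [], _, M => by simp [upd]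
  | _ :: _, [], M => by simp [upd]
  | _ :: _, _ :: _, [] => by simp [upd]
  | _ :: _, _ :: _, [] :: _ => by simp [upd]
  | p :: d, q :: e, (a :: v) :: M => by
    obtain ⟨b, hb, _⟩ := upd_cons c p q d e v a M
    rw [hb]
    simp [upd_length c d e M]

lemma upd_sh (c : ℤ) : ∀ (d e : List ℤ) (M : List (List ℤ)), d.length = M.length →
    e.length = M.length → Sh M → Sh (upd c d e M)
  | [], _, M, _, _, hM => by simpa [upd] using hM
  | _ :: _, [], M, _, _, hM => by simpa [upd] using hM
  | _ :: _, _ :: _, [], _, _, hM => by simp [upd, Sh]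
  | _ :: _, _ :: _, [] :: _, _, _, hM => by simp [Sh] at hM
  | p :: d, q :: e, (a :: v) :: M, hd, he, hM => by
    have hd' : d.length = M.length := by simpa using hd
    have he' : e.length = M.length := by simpa using he
    simp only [Sh] at hM
    obtain ⟨b, hb, hb'⟩ := upd_cons c p q d e v a M
    rw [hb]
    rcases hb' with ⟨rfl, _, _⟩ | rfl
    · simp only [Sh]
      exact ⟨by rw [upd_length]; exact hM.1, upd_sh c d e M hd' he' hM.2⟩
    · simp only [Sh]
      refine ⟨?_, upd_sh c d e M hd' he' hM.2⟩
      rw [addr_length _ _ _ _ _ (he'.trans hM.1.symm) (hd'.trans hM.1.symm), upd_length]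
      exact hM.1

lemma qfU_upd (c : ℤ) : ∀ (d e : List ℤ) (M : List (List ℤ)) (xs : List ℝ),
    d.length = M.length → e.length = M.length → xs.length = M.length → Sh M →
    qfU (upd c d e M) xs = qfU M xs + 2 * (c * (dot d xs * dot e xs))
  | [], [], [], [], _, _, _, _ => by simp [upd, dot, qfU]
  | [], _, _ :: _, _, hd, _, _, _ => by simp at hd
  | _ :: _, _, [], _, hd, _, _, _ => by simp at hd
  | [], _ :: _, [], _, _, he, _, _ => by simp at he
  | _ :: _, [], _ :: _, _, _, he, _, _ => by simp at he
  | [], [], [], _ :: _, _, _, hx, _ => by simp at hx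
  | _ :: _, _ :: _, _ :: _, [], _, _, hx, _ => by simp at hx
  | _ :: _, _ :: _, [] :: _, _ :: _, _, _, _, hM => by simp [Sh] at hM
  | p :: d, q :: e, (a :: v) :: M, x :: xs, hd, he, hx, hM => by
    have hd' : d.length = M.length := by simpa using hd
    have he' : e.length = M.length := by simpa using he
    have hx' : xs.length = M.length := by simpa using hx
    simp only [Sh] at hM
    obtain ⟨b, hb, hb'⟩ := upd_cons c p q d e v a M
    rw [hb]
    rcases hb' with ⟨rfl, rfl, rfl⟩ | rfl
    · simp only [qfU, dot, qfU_upd c d e M xs hd' he' hx' hM.2]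
      push_cast
      ring
    · simp only [qfU, dot, qfU_upd c d e M xs hd' he' hx' hM.2,
        dot_addr _ _ _ _ _ xs (he'.trans hM.1.symm) (hd'.trans hM.1.symm)]
      push_cast
      ring

/-- The zero matrix of size `n`. -/
def zm : ℕ → List (List ℤ)
  | 0 => []
  | n + 1 => (List.replicate (n + 1) 0) :: zm n

lemma zm_length : ∀ n, (zm n).length = n
  | 0 => rfl
  | n + 1 => by simp [zm, zm_length n]

lemma zm_sh : ∀ n, Sh (zm n)
  | 0 => trivial
  | n + 1 => by simp [zm, List.replicate_succ, Sh, zm_length, zm_sh n]

lemma dot_replicate : ∀ (n : ℕ) (xs : List ℝ), dot (List.replicate n 0) xs = 0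
  | 0, xs => by simp [dot]
  | n + 1, [] => by simp [List.replicate_succ, dot]
  | n + 1, x :: xs => by simp [List.replicate_succ, dot, dot_replicate n xs]

lemma qfU_zm : ∀ (n : ℕ) (xs : List ℝ), qfU (zm n) xs = 0
  | 0, xs => by simp [zm, qfU]
  | n + 1, [] => by simp [zm, List.replicate_succ, qfU]
  | n + 1, x :: xs => by simp [zm, List.replicate_succ, qfU, dot_replicate, qfU_zm n xs]

end Vale.Agent.P359.Win
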