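import Vale.Agent.P359.Defs
import Vale.Agent.P359.WinPsd

/-!
# P359, window certificate: sparse functionals on bit masks

`ms u` is the subset of `{0,…,8}` coded by the mask `u`; a `Row` is a list of pairs
`(coefficient, mask)`, read as the functional `f ↦ ∑ c f(ms u)`.
-/

namespace Vale.Agent.P359.Win

open Finset

/-- The subset coded by a mask. -/
def ms (u : ℕ) : Finset ℕ := (range 9).filter (fun i => u.testBit i = true)

lemma mem_ms (u i : ℕ) : i ∈ ms u ↔ i < 9 ∧ u.testBit i = true := by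
  simp [ms]

/-- Sign of a mask. -/
def sgm : ℕ → ℕ → ℤ
  | 0, _ => 1
  | m + 1, u => if u.testBit m then - sgm m u else sgm m u

lemma sg_ms (u : ℕ) : ∀ m, m ≤ 9 → sg m (ms u) = (sgm m u : ℝ)
  | 0, _ => by simp [sg, sgm]
  | m + 1, hm => by
    have h := sg_ms u m (by omega)
    have hm9 : m < 9 := by omega
    unfold sg at h ⊢
    by_cases hb : u.testBit m = true
    · have h1 : (ms u).filter (· < m + 1) = insert m ((ms u).filter (· < m)) := by
        ext i
        simp only [mem_filter, mem_insert, mem_ms]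
        constructor
        · rintro ⟨⟨h1, h2⟩, h3⟩
          rcases Nat.lt_succ_iff_lt_or_eq.mp h3 with h4 | h4
          · exact Or.inr ⟨⟨h1, h2⟩, h4⟩
          · exact Or.inl h4
        · rintro (rfl | ⟨⟨h1, h2⟩, h3⟩)
          · exact ⟨⟨hm9, hb⟩, by omega⟩
          · exact ⟨⟨h1, h2⟩, by omega⟩
      rw [h1, card_insert_of_notMem (by simp), pow_succ, h]
      simp [sgm, hb]
    · have h1 : (ms u).filter (· < m + 1) = (ms u).filter (· < m) := by
        ext i
        simp only [mem_filter, mem_ms]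
        constructor
        · rintro ⟨⟨h1, h2⟩, h3⟩
          refine ⟨⟨h1, h2⟩, ?_⟩
          rcases Nat.lt_succ_iff_lt_or_eq.mp h3 with h4 | h4
          · exact h4
          · exact absurd (h4 ▸ h2) hb
        · rintro ⟨⟨h1, h2⟩, h3⟩
          exact ⟨⟨h1, h2⟩, by omega⟩
      rw [h1, h]
      simp [sgm, hb]

lemma ms_insert (u m : ℕ) (hm : m < 9) : insert m (ms u) = ms (u ||| 2 ^ m) := by
  ext i
  simp only [mem_insert, mem_ms, Nat.testBit_or, Nat.testBit_two_pow, Bool.or_eq_true,
    decide_eq_true_eq]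
  constructor
  · rintro (rfl | ⟨h1, h2⟩)
    · exact ⟨hm, Or.inr rfl⟩
    · exact ⟨h1, Or.inl h2⟩
  · rintro ⟨h1, h2 | h2⟩
    · exact Or.inr ⟨h1, h2⟩
    · exact Or.inl h2.symm

/-- Sparse functionals. -/
abbrev Row := List (ℤ × ℕ)

/-- Evaluation of a functional. -/
def ev (F : ℕ → ℝ) : Row → ℝ
  | [] => 0
  | p :: l => (p.1 : ℝ) * F p.2 + ev F l

lemma ev_append (F : ℕ → ℝ) : ∀ l l' : Row, ev F (l ++ l') = ev F l + ev F l'
  | [], l' => by simp [ev]
  | p :: l, l' => by simp [ev, ev_append F l l', add_assoc]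

/-- Scaling. -/
def scR (k : ℤ) : Row → Row
  | [] => []
  | p :: l => (k * p.1, p.2) :: scR k l

lemma ev_scR (F : ℕ → ℝ) (k : ℤ) : ∀ l, ev F (scR k l) = k * ev F l
  | [] => by simp [ev, scR]
  | p :: l => by simp [ev, scR, ev_scR F k l]; ring

/-- Transpose of the annihilator. -/
def anR (m : ℕ) : Row → Row
  | [] => []
  | p :: l => if p.2.testBit m then anR m l else (p.1 * sgm m p.2, p.2 ||| 2 ^ m) :: anR m l

lemma ev_anR (f : Fk) (m : ℕ) (hm : m < 9) : ∀ l,
    ev (fun u => an m f (ms u)) l = ev (fun u => f (ms u)) (anR m l)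
  | [] => by simp [ev, anR]
  | p :: l => by
    have hmem : m ∈ ms p.2 ↔ p.2.testBit m = true := by simp [mem_ms, hm]
    have hun : an m f (ms p.2) = if m ∈ ms p.2 then 0 else sg m (ms p.2) * f (insert m (ms p.2)) :=
      rfl
    by_cases hb : p.2.testBit m = true
    · simp only [ev, anR, hb, if_true, hun, hmem, ev_anR f m hm l]
      simp
    · have hmem' : m ∉ ms p.2 := fun h => hb (hmem.mp h)
      simp only [ev, anR, hb, if_false, hun, hmem', ev_anR f m hm l, sg_ms p.2 m hm.le,
        ms_insert p.2 m hm, Bool.false_eq_true]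
      push_cast
      ring

/-- Transpose of `bh K`, terms `a < n`. -/
def bhA (K : ℕ) : ℕ → Row → Row
  | 0, _ => []
  | a + 1, l =>
    if a < K + 1 - a then
      scR ((K + 1 - a : ℕ) - (a : ℤ)) (anR a (anR (K + 1 - a) l)) ++ bhA K a l
    else bhA K a l

/-- Transpose of `bh K`. -/
def bhR (K : ℕ) (l : Row) : Row := bhA K (K + 1) l

lemma ev_sum {ι : Type*} (s : Finset ι) (G : ι → ℕ → ℝ) : ∀ l,
    ev (fun u => ∑ i ∈ s, G i u) l = ∑ i ∈ s, ev (G i) l
  | [] => by simp [ev]
  | p :: l => by simp [ev, ev_sum s G l, Finset.mul_sum, Finset.sum_add_distrib]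

lemma ev_smul (F : ℕ → ℝ) (c : ℝ) : ∀ l, ev (fun u => c * F u) l = c * ev F l
  | [] => by simp [ev]
  | p :: l => by simp [ev, ev_smul F c l]; ring

lemma bh_apply (K : ℕ) (f : Fk) (U : Finset ℕ) :
    bh K f U = ∑ a ∈ (range (K + 1)).filter (fun a => a < K + 1 - a),
      (((K + 1 - a : ℕ) : ℝ) - a) * an (K + 1 - a) (an a f) U := by
  simp [bh, LinearMap.sum_apply, Finset.sum_apply]

lemma ev_bhA (f : Fk) (K : ℕ) (hK : K < 8) (l : Row) : ∀ n, n ≤ K + 1 →
    ∑ a ∈ (range n).filter (fun a => a < K + 1 - a),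
      (((K + 1 - a : ℕ) : ℝ) - a) * ev (fun u => an (K + 1 - a) (an a f) (ms u)) l =
    ev (fun u => f (ms u)) (bhA K n l)
  | 0, _ => by simp [bhA, ev]
  | n + 1, hn => by
    have ih := ev_bhA f K hK l n (by omega)
    rw [range_add_one, filter_insert]
    by_cases h : n < K + 1 - n
    · rw [if_pos h, sum_insert (by simp), ih, bhA, if_pos h, ev_append, ev_scR]
      rw [ev_anR (an n f) (K + 1 - n) (by omega), ev_anR f n (by omega)]
      push_cast
      ring
    · rw [if_neg h, ih, bhA, if_neg h]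

lemma ev_bhR (f : Fk) (K : ℕ) (hK : K < 8) (l : Row) :
    ev (fun u => bh K f (ms u)) l = ev (fun u => f (ms u)) (bhR K l) := by
  simp only [bh_apply]
  rw [ev_sum]
  simp only [ev_smul]
  exact ev_bhA f K hK l (K + 1) le_rfl

/-- Rows of the window operators. -/
def row2 (K u : ℕ) : Row := bhR K [(1, u)]

def row3 (K m u : ℕ) : Row := bhR K (anR m [(1, u)])

def row4 (K L u : ℕ) : Row := bhR K (bhR L [(1, u)])

lemma row2_eq (f : Fk) (K u : ℕ) (hK : K < 8) :
    bh K f (ms u) = ev (fun u => f (ms u)) (row2 K u) := by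
  have := ev_bhR f K hK [(1, u)]
  simpa [ev, row2] using this

lemma row3_eq (f : Fk) (K m u : ℕ) (hK : K < 8) (hm : m < 9) :
    an m (bh K f) (ms u) = ev (fun u => f (ms u)) (row3 K m u) := by
  have h1 := ev_anR (bh K f) m hm [(1, u)]
  rw [ev_bhR f K hK] at h1
  simpa [ev, row3] using h1

lemma row4_eq (f : Fk) (K L u : ℕ) (hK : K < 8) (hL : L < 8) :
    bh L (bh K f) (ms u) = ev (fun u => f (ms u)) (row4 K L u) := by
  have h1 := ev_bhR (bh K f) L hL [(1, u)]
  rw [ev_bhR f K hK] at h1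
  simpa [ev, row4] using h1

/-- Mask weight `∏ a!`. -/
def wm : ℕ → ℕ → ℕ
  | 0, _ => 1
  | m + 1, u => if u.testBit m then m.factorial * wm m u else wm m u

lemma wm_ms (u : ℕ) : ∏ a ∈ ms u, (a.factorial : ℝ) = (wm 9 u : ℝ) := by
  have key : ∀ n, ∏ a ∈ (range n).filter (fun i => u.testBit i = true), (a.factorial : ℝ)
      = (wm n u : ℝ) := by
    intro n
    induction n with
    | zero => simp [wm]
    | succ n ih =>
      rw [range_add_one, filter_insert]
      by_cases h : u.testBit n = true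
      · rw [if_pos h, prod_insert (by simp), ih]
        simp [wm, h]
      · rw [if_neg h, ih]
        simp [wm, h]
  exact key 9

lemma ms_injOn : Set.InjOn ms (range 512 : Set ℕ) := by
  intro u hu v hv h
  simp only [coe_range, Set.mem_Iio] at hu hv
  apply Nat.eq_of_testBit_eq
  intro i
  by_cases hi : i < 9
  · have h1 : i ∈ ms u ↔ i ∈ ms v := by rw [h]
    simp only [mem_ms, hi, true_and] at h1
    cases hu' : u.testBit i <;> cases hv' : v.testBit i <;> simp_all
  · have h9 : 2 ^ 9 ≤ 2 ^ i := Nat.pow_le_pow_right (by norm_num) (by omega)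
    have hu2 : u < 2 ^ i := lt_of_lt_of_le (by norm_num at *; omega) h9
    have hv2 : v < 2 ^ i := lt_of_lt_of_le (by norm_num at *; omega) h9
    rw [Nat.testBit_lt_two_pow hu2, Nat.testBit_lt_two_pow hv2]

lemma image_ms : (range 512).image ms = (range 9).powerset := by
  apply eq_of_subset_of_card_le
  · intro s hs
    obtain ⟨u, _, rfl⟩ := mem_image.mp hs
    rw [mem_powerset]
    intro i hi
    exact mem_range.mpr ((mem_ms u i).mp hi).1
  · rw [card_image_of_injOn ms_injOn, card_powerset]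
    simp

lemma sum_powerset (g : Finset ℕ → ℝ) :
    ∑ U ∈ (range 9).powerset, g U = ∑ u ∈ range 512, g (ms u) := by
  rw [← image_ms, sum_image]
  intro a ha b hb hab
  exact ms_injOn ha hb hab

end Vale.Agent.P359.Win
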