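import Vale.Agent.P359.WinCheck

/-!
# P359, window certificate: what the block matrices compute
-/

namespace Vale.Agent.P359.Win

open Finset

lemma dot_map (Xs : List ℕ) (g : ℕ → ℤ) (F : ℕ → ℝ) :
    dot (Xs.map g) (Xs.map F) = (Xs.map (fun X => (g X : ℝ) * F X)).sum := by
  induction Xs with
  | nil => simp [dot]
  | cons X Xs ih => simp [dot, ih]

lemma sum_single (F : ℕ → ℝ) (c : ℝ) (Y : ℕ) : ∀ (Xs : List ℕ), Xs.Nodup → Y ∈ Xs →
    (Xs.map (fun X => if Y = X then c * F X else 0)).sum = c * F Y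
  | [], _, h => by simp at h
  | X :: Xs, hn, h => by
    rw [List.nodup_cons] at hn
    by_cases hX : Y = X
    · subst hX
      have h0 : (Xs.map (fun X => if Y = X then c * F X else 0)).sum = 0 := by
        apply List.sum_eq_zero
        intro z hz
        obtain ⟨Z, hZ, rfl⟩ := List.mem_map.mp hz
        rw [if_neg]
        rintro rfl
        exact hn.1 hZ
      simp [h0]
    · have hY : Y ∈ Xs := by
        rcases List.mem_cons.mp h with h | h
        · exact absurd h hX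
        · exact h
      simp [hX, sum_single F c Y Xs hn.2 hY]

lemma coef_cons (X : ℕ) (p : ℤ × ℕ) (l : Row) :
    coef X (p :: l) = (if p.2 = X then p.1 else 0) + coef X l := by
  by_cases h : p.2 = X
  · simp [coef, h]
  · have : Nat.beq p.2 X = false := by
      cases hb : Nat.beq p.2 X
      · rfl
      · exact absurd (Nat.eq_of_beq_eq_true hb) h
    simp [coef, this, h]

lemma inX_cons (Xs : List ℕ) (p : ℤ × ℕ) (l : Row) (h : inX Xs (p :: l) = true) :
    p.2 ∈ Xs ∧ inX Xs l = true := by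
  simp only [inX, List.all_cons, Bool.and_eq_true, List.any_eq_true] at h
  obtain ⟨⟨X, hX, hb⟩, h2⟩ := h
  have := Nat.eq_of_beq_eq_true hb
  subst this
  exact ⟨hX, h2⟩

lemma dot_coef (Xs : List ℕ) (hn : Xs.Nodup) (F : ℕ → ℝ) : ∀ (l : Row), inX Xs l = true →
    dot (Xs.map (fun X => coef X l)) (Xs.map F) = ev F l
  | [], _ => by
    rw [dot_map]
    simp [coef, ev]
  | p :: l, h => by
    obtain ⟨h1, h2⟩ := inX_cons Xs p l h
    have ih := dot_coef Xs hn F l h2
    rw [dot_map] at ih ⊢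
    simp only [coef_cons, ev]
    rw [← ih, ← sum_single F (p.1 : ℝ) p.2 Xs hn h1, ← List.sum_map_add]
    congr 1
    apply List.map_congr_left
    intro X _
    by_cases hX : p.2 = X
    · simp [hX, add_mul]
    · simp [hX]

/-- `d` represents the value `y`. -/
def Good (Xs : List ℕ) (F : ℕ → ℝ) (d : List ℤ) (y : ℝ) : Prop :=
  (d = [] ∧ y = 0) ∨ (d.length = Xs.length ∧ dot d (Xs.map F) = y)

lemma good_dns (Xs : List ℕ) (hn : Xs.Nodup) (F : ℕ → ℝ) (l : Row) (h : inX Xs l = true) :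
    Good Xs F (dns Xs l) (ev F l) := by
  cases l with
  | nil => exact Or.inl ⟨rfl, rfl⟩
  | cons p l =>
    refine Or.inr ⟨by simp [dns], ?_⟩
    exact dot_coef Xs hn F (p :: l) h

/-- `φ` adds `2a` to the form. -/
def Adds (Xs : List ℕ) (F : ℕ → ℝ) (φ : List (List ℤ) → List (List ℤ)) (a : ℝ) : Prop :=
  ∀ M, Sh M → M.length = Xs.length →
    Sh (φ M) ∧ (φ M).length = Xs.length ∧
      qfU (φ M) (Xs.map F) = qfU M (Xs.map F) + 2 * a

lemma adds_id (Xs : List ℕ) (F : ℕ → ℝ) : Adds Xs F (fun M => M) 0 := by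
  intro M h1 h2
  exact ⟨h1, h2, by ring⟩

lemma Adds.comp {Xs : List ℕ} {F : ℕ → ℝ} {φ ψ : List (List ℤ) → List (List ℤ)} {a b : ℝ}
    (h1 : Adds Xs F φ a) (h2 : Adds Xs F ψ b) : Adds Xs F (fun M => ψ (φ M)) (a + b) := by
  intro M hM hl
  obtain ⟨s1, l1, q1⟩ := h1 M hM hl
  obtain ⟨s2, l2, q2⟩ := h2 _ s1 l1
  exact ⟨s2, l2, by rw [q2, q1]; ring⟩

lemma adds_upd {Xs : List ℕ} {F : ℕ → ℝ} {d e : List ℤ} {y z : ℝ} (c : ℤ)
    (hd : Good Xs F d y) (he : Good Xs F e z) : Adds Xs F (upd c d e) (c * (y * z)) := by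
  intro M hM hl
  rcases hd with ⟨rfl, rfl⟩ | ⟨hd1, rfl⟩
  · have : upd c [] e M = M := by simp [upd]
    rw [this]
    exact ⟨hM, hl, by ring⟩
  · rcases he with ⟨rfl, rfl⟩ | ⟨he1, rfl⟩
    · have : upd c d [] M = M := by cases d <;> simp [upd]
      rw [this]
      exact ⟨hM, hl, by ring⟩
    · refine ⟨upd_sh c d e M (hd1.trans hl.symm) (he1.trans hl.symm) hM,
        by rw [upd_length, hl], ?_⟩
      rw [qfU_upd c d e M _ (hd1.trans hl.symm) (he1.trans hl.symm) (by simp [hl]) hM]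

lemma adds_loop {Xs : List ℕ} {F : ℕ → ℝ} (f : ℕ → List (List ℤ) → List (List ℤ))
    (a : ℕ → ℝ) : ∀ n, (∀ i < n, Adds Xs F (f i) (a i)) →
      Adds Xs F (loop f n) (∑ i ∈ range n, a i)
  | 0, _ => by
    simp only [range_zero, sum_empty]
    exact adds_id Xs F
  | n + 1, h => by
    have h1 := adds_loop f a n (fun i hi => h i (by omega))
    have h2 := (h n (by omega)).comp h1
    have e : ∑ i ∈ range (n + 1), a i = a n + ∑ i ∈ range n, a i := by
      rw [sum_range_succ]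
      exact add_comm _ _
    rw [e]
    exact h2

/-- Value of a group of entries. -/
def valE (w : ℤ) (y : ℕ → ℝ) : List (ℕ × ℕ × ℤ) → ℝ
  | [] => 0
  | e :: es => (cond (Nat.beq e.1 e.2.1) (w * e.2.2) (2 * (w * e.2.2)) : ℤ) *
      (y e.1 * y e.2.1) + valE w y es

lemma adds_addE {Xs : List ℕ} {F : ℕ → ℝ} (w : ℤ) (ds : List (List ℤ)) (y : ℕ → ℝ)
    (hg : ∀ K, Good Xs F (ds.getD K []) (y K)) : ∀ es : List (ℕ × ℕ × ℤ),
      Adds Xs F (addE w ds es) (valE w y es)
  | [] => adds_id Xs F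
  | e :: es => (adds_upd _ (hg e.1) (hg e.2.1)).comp (adds_addE w ds y hg es)

/-- Values. -/
def A2 (F : ℕ → ℝ) (K u : ℕ) : ℝ :=
  (certX.getD K 0 * fct K * wm 9 u : ℤ) * (ev F (row2 K u) * ev F (row2 K u))

/-- Value of the row number `K` in a list of rows. -/
def yv (F : ℕ → ℝ) (rs : List Row) (K : ℕ) : ℝ := ev F (rs.getD K [])

def A3 (F : ℕ → ℝ) (J u : ℕ) : ℝ := valE (128 * wm 9 u) (yv F (rows3 J u)) (gR.getD J [])

def A4 (F : ℕ → ℝ) (s u : ℕ) : ℝ := valE (128 * wm 9 u) (yv F (rows4 s u)) (gQ.getD s [])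

lemma getD_map_dns (Xs : List ℕ) (rs : List Row) (K : ℕ) :
    (rs.map (dns Xs)).getD K [] = dns Xs (rs.getD K []) := by
  simp only [List.getD_eq_getElem?_getD, List.getElem?_map]
  cases rs[K]? <;> simp [dns]

lemma good_rows {Xs : List ℕ} (hn : Xs.Nodup) (F : ℕ → ℝ) (rs : List Row)
    (h : rs.all (inX Xs) = true) (K : ℕ) :
    Good Xs F ((rs.map (dns Xs)).getD K []) (yv F rs K) := by
  rw [getD_map_dns]
  apply good_dns Xs hn F
  rw [List.all_eq_true] at h
  rw [List.getD_eq_getElem?_getD]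
  cases hK : rs[K]? with
  | none => simp [inX]
  | some r => exact h r (List.mem_of_getElem? hK)

lemma adds_blk2 {Xs : List ℕ} (hn : Xs.Nodup) (F : ℕ → ℝ) (K : ℕ) : ∀ us : List ℕ,
    (us.all (fun u => inX Xs (row2 K u)) = true) →
      Adds Xs F (blk2 Xs K us) (us.map (A2 F K)).sum
  | [], _ => adds_id Xs F
  | u :: us, h => by
    simp only [List.all_cons, Bool.and_eq_true] at h
    have h1 := good_dns Xs hn F (row2 K u) h.1
    simp only [List.map_cons, List.sum_cons]
    exact (adds_upd (certX.getD K 0 * fct K * wm 9 u) h1 h1).comp (adds_blk2 hn F K us h.2)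

lemma adds_blk3 {Xs : List ℕ} (hn : Xs.Nodup) (F : ℕ → ℝ) (J : ℕ) : ∀ us : List ℕ,
    (us.all (fun u => (rows3 J u).all (inX Xs)) = true) →
      Adds Xs F (blk3 Xs J us) (us.map (A3 F J)).sum
  | [], _ => adds_id Xs F
  | u :: us, h => by
    simp only [List.all_cons, Bool.and_eq_true] at h
    simp only [List.map_cons, List.sum_cons]
    exact (adds_addE (128 * wm 9 u) _ (yv F (rows3 J u)) (good_rows hn F _ h.1) _).comp
      (adds_blk3 hn F J us h.2)

lemma adds_blk4 {Xs : List ℕ} (hn : Xs.Nodup) (F : ℕ → ℝ) (s : ℕ) : ∀ us : List ℕ,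
    (us.all (fun u => (rows4 s u).all (inX Xs)) = true) →
      Adds Xs F (blk4 Xs s us) (us.map (A4 F s)).sum
  | [], _ => adds_id Xs F
  | u :: us, h => by
    simp only [List.all_cons, Bool.and_eq_true] at h
    simp only [List.map_cons, List.sum_cons]
    exact (adds_addE (128 * wm 9 u) _ (yv F (rows4 s u)) (good_rows hn F _ h.1) _).comp
      (adds_blk4 hn F s us h.2)

/-- All the checks for one sector. -/
def chk (N L : ℕ) : Bool :=
  ((List.range 8).all fun K => if 2 ≤ N ∧ K + 1 ≤ L then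
      (sec (N - 2) (L - (K + 1))).all (fun u => inX (sec N L) (row2 K u)) else true) &&
  ((List.range 16).all fun J => if 3 ≤ N ∧ J + 1 ≤ L then
      (sec (N - 3) (L - (J + 1))).all (fun u => (rows3 J u).all (inX (sec N L))) else true) &&
  ((List.range 15).all fun s => if 4 ≤ N ∧ s + 2 ≤ L then
      (sec (N - 4) (L - (s + 2))).all (fun u => (rows4 s u).all (inX (sec N L))) else true) &&
  psd 12 (block N L)

/-- The value of the block form. -/
def Bv (F : ℕ → ℝ) (N L : ℕ) : ℝ :=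
  (∑ K ∈ range 8, if 2 ≤ N ∧ K + 1 ≤ L then
      ((sec (N - 2) (L - (K + 1))).map (A2 F K)).sum else 0) +
  (∑ J ∈ range 16, if 3 ≤ N ∧ J + 1 ≤ L then
      ((sec (N - 3) (L - (J + 1))).map (A3 F J)).sum else 0) +
  (∑ s ∈ range 15, if 4 ≤ N ∧ s + 2 ≤ L then
      ((sec (N - 4) (L - (s + 2))).map (A4 F s)).sum else 0)

lemma adds_ite {Xs : List ℕ} {F : ℕ → ℝ} {φ : List (List ℤ) → List (List ℤ)} {a : ℝ}
    (p : Prop) [Decidable p] (h : p → Adds Xs F φ a) :
    Adds Xs F (fun M => if p then φ M else M) (if p then a else 0) := by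
  by_cases hp : p
  · simpa [hp] using h hp
  · simpa [hp] using adds_id Xs F

/-- A sector form is nonnegative. -/
theorem Bv_nonneg (F : ℕ → ℝ) (N L : ℕ) (hn : (sec N L).Nodup) (h : chk N L = true) :
    0 ≤ Bv F N L := by
  simp only [chk, Bool.and_eq_true, List.all_eq_true, List.mem_range] at h
  obtain ⟨⟨⟨h2, h3⟩, h4⟩, hp⟩ := h
  have a2 := adds_loop (Xs := sec N L) (F := F)
    (fun K M => if 2 ≤ N ∧ K + 1 ≤ L then
      blk2 (sec N L) K (sec (N - 2) (L - (K + 1))) M else M)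
    (fun K => if 2 ≤ N ∧ K + 1 ≤ L then ((sec (N - 2) (L - (K + 1))).map (A2 F K)).sum else 0) 8
    (fun K hK => adds_ite _ (fun hc => adds_blk2 hn F K _ (by
      have := h2 K hK
      rw [if_pos hc] at this
      exact this)))
  have a3 := adds_loop (Xs := sec N L) (F := F)
    (fun J M => if 3 ≤ N ∧ J + 1 ≤ L then
      blk3 (sec N L) J (sec (N - 3) (L - (J + 1))) M else M)
    (fun J => if 3 ≤ N ∧ J + 1 ≤ L then ((sec (N - 3) (L - (J + 1))).map (A3 F J)).sum else 0) 16
    (fun J hJ => adds_ite _ (fun hc => adds_blk3 hn F J _ (by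
      have := h3 J hJ
      rw [if_pos hc] at this
      exact this)))
  have a4 := adds_loop (Xs := sec N L) (F := F)
    (fun s M => if 4 ≤ N ∧ s + 2 ≤ L then
      blk4 (sec N L) s (sec (N - 4) (L - (s + 2))) M else M)
    (fun s => if 4 ≤ N ∧ s + 2 ≤ L then ((sec (N - 4) (L - (s + 2))).map (A4 F s)).sum else 0) 15
    (fun s hs => adds_ite _ (fun hc => adds_blk4 hn F s _ (by
      have := h4 s hs
      rw [if_pos hc] at this
      exact this)))
  obtain ⟨s1, l1, q1⟩ := (a2.comp a3).comp a4 (zm (sec N L).length) (zm_sh _) (zm_length _)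
  rw [qfU_zm, zero_add] at q1
  have hps := psd_sound 12 (block N L) ((sec N L).map F) s1 (by rw [List.length_map]; exact l1.symm) hp
  have : qfU (block N L) ((sec N L).map F) = 2 * Bv F N L := q1
  rw [this] at hps
  linarith

end Vale.Agent.P359.Win
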