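import Vale.Agent.P359.WinSpec
import Vale.Agent.P359.Data

/-!
# P359, window certificate: from the sectors to the window form
-/

namespace Vale.Agent.P359.Win

open Finset

/-! ### the certificate lists, grouped -/

/-- Ungroup one group. -/
def ung (J : ℕ) (l : List (ℕ × ℕ × ℤ)) : List (ℕ × ℕ × ℕ × ℕ × ℤ) :=
  l.map (fun e => (e.1, J - e.1, e.2.1, J - e.2.1, e.2.2))

set_option maxRecDepth 100000 in
lemma certR_eq : certR = ((List.range 16).map fun J => ung J (gR.getD J [])).flatten := by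
  decide +kernel

set_option maxRecDepth 100000 in
lemma certQ_eq : certQ = ((List.range 15).map fun s => ung s (gQ.getD s [])).flatten := by
  decide +kernel

/-- Bounds inside the groups. -/
def okR (J : ℕ) (l : List (ℕ × ℕ × ℤ)) : Bool :=
  l.all fun e => decide (e.1 < 8) && decide (e.1 ≤ J) && decide (J ≤ e.1 + 8) &&
    decide (e.2.1 < 8) && decide (e.2.1 ≤ J) && decide (J ≤ e.2.1 + 8)

def okQ (J : ℕ) (l : List (ℕ × ℕ × ℤ)) : Bool :=
  l.all fun e => decide (e.1 < 8) && decide (e.1 ≤ J) && decide (J ≤ e.1 + 7) &&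
    decide (e.2.1 < 8) && decide (e.2.1 ≤ J) && decide (J ≤ e.2.1 + 7)

set_option maxRecDepth 100000 in
lemma okR_all : ((List.range 16).all fun J => okR J (gR.getD J [])) = true := by
  decide +kernel

set_option maxRecDepth 100000 in
lemma okQ_all : ((List.range 15).all fun J => okQ J (gQ.getD J [])) = true := by
  decide +kernel

/-! ### pointwise identity -/

/-- The pointwise window integrand (times `2^7 · 10^6`). -/
noncomputable def PW (f : Fk) (U : Finset ℕ) : ℝ :=
  XS (fun K => ewp K * (bh K f U * bh K f U))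
    + LS certR (fun K m K' m' => an m (bh K f) U * an m' (bh K' f) U)
    + LS certQ (fun K₁ K₂ K₁' K₂' => bh K₂ (bh K₁ f) U * bh K₂' (bh K₁' f) U)

lemma LS_append (L L' : List (ℕ × ℕ × ℕ × ℕ × ℤ)) (g : ℕ → ℕ → ℕ → ℕ → ℝ) :
    LS (L ++ L') g = LS L g + LS L' g := by
  simp [LS]

lemma LS_flatten (g : ℕ → ℕ → ℕ → ℕ → ℝ) (h : ℕ → List (ℕ × ℕ × ℕ × ℕ × ℤ)) : ∀ n,
    LS ((List.range n).map h).flatten g = ∑ J ∈ range n, LS (h J) g
  | 0 => by simp [LS]
  | n + 1 => by
    rw [List.range_succ, List.map_append, List.flatten_append, LS_append, LS_flatten g h n,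
      sum_range_succ]
    simp

lemma LS_ung (w : ℕ) (J : ℕ) (g : ℕ → ℕ → ℕ → ℕ → ℝ) (y : ℕ → ℝ) :
    ∀ l : List (ℕ × ℕ × ℤ),
    (∀ e ∈ l, e.1 ≤ J ∧ e.2.1 ≤ J ∧ g e.1 (J - e.1) e.2.1 (J - e.2.1) = y e.1 * y e.2.1) →
    valE (128 * w : ℤ) y l = 128 * 10 ^ 6 * (w : ℝ) * LS (ung J l) g
  | [], _ => by simp [valE, ung, LS]
  | e :: l, h => by
    have ih := LS_ung w J g y l (fun e he => h e (List.mem_cons_of_mem _ he))
    obtain ⟨h1, h2, h3⟩ := h e List.mem_cons_self
    have hL : LS (ung J (e :: l)) g = ((e.2.2 : ℤ) : ℝ) / 10 ^ 6 *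
        (if e.1 = e.2.1 ∧ J - e.1 = J - e.2.1 then 1 else 2) * (y e.1 * y e.2.1)
        + LS (ung J l) g := by
      simp [LS, ung, h3]
    rw [hL, valE, ih]
    by_cases he : e.1 = e.2.1
    · have hb : Nat.beq e.1 e.2.1 = true := by rw [he]; exact Nat.beq_refl _
      rw [hb]
      simp only [cond_true, he, true_and, if_true]
      push_cast
      ring
    · have hb : Nat.beq e.1 e.2.1 = false := by
        cases hb : Nat.beq e.1 e.2.1
        · rfl
        · exact absurd (Nat.eq_of_beq_eq_true hb) he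
      rw [hb]
      simp only [cond_false, he, false_and, if_false]
      push_cast
      ring

lemma getD_rows3 (J u K : ℕ) (hK : K < 8) (h1 : K ≤ J) (h2 : J ≤ K + 8) :
    (rows3 J u).getD K [] = row3 K (J - K) u := by
  rw [rows3, List.getD_eq_getElem?_getD, List.getElem?_map, List.getElem?_range hK]
  simp [h1, h2]

lemma getD_rows4 (J u K : ℕ) (hK : K < 8) (h1 : K ≤ J) (h2 : J ≤ K + 7) :
    (rows4 J u).getD K [] = row4 K (J - K) u := by
  rw [rows4, List.getD_eq_getElem?_getD, List.getElem?_map, List.getElem?_range hK]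
  simp [h1, h2]

lemma A3_eq (f : Fk) (J u : ℕ) (hJ : J < 16) :
    A3 (fun u => f (ms u)) J u = 128 * 10 ^ 6 * (wm 9 u : ℝ) *
      LS (ung J (gR.getD J []))
        (fun K m K' m' => an m (bh K f) (ms u) * an m' (bh K' f) (ms u)) := by
  have hok := List.all_eq_true.mp okR_all J (List.mem_range.mpr hJ)
  rw [okR, List.all_eq_true] at hok
  unfold A3
  refine LS_ung (wm 9 u) J _ (yv (fun u => f (ms u)) (rows3 J u)) _ ?_
  intro e he
  have h := hok e he
  simp only [Bool.and_eq_true, decide_eq_true_eq] at h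
  obtain ⟨⟨⟨⟨⟨h1, h2⟩, h3⟩, h4⟩, h5⟩, h6⟩ := h
  refine ⟨h2, h5, ?_⟩
  rw [row3_eq f e.1 (J - e.1) u h1 (by omega), row3_eq f e.2.1 (J - e.2.1) u h4 (by omega)]
  simp only [yv, getD_rows3 J u e.1 h1 h2 h3, getD_rows3 J u e.2.1 h4 h5 h6]

lemma A4_eq (f : Fk) (J u : ℕ) (hJ : J < 15) :
    A4 (fun u => f (ms u)) J u = 128 * 10 ^ 6 * (wm 9 u : ℝ) *
      LS (ung J (gQ.getD J []))
        (fun K₁ K₂ K₁' K₂' => bh K₂ (bh K₁ f) (ms u) * bh K₂' (bh K₁' f) (ms u)) := by
  have hok := List.all_eq_true.mp okQ_all J (List.mem_range.mpr hJ)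
  rw [okQ, List.all_eq_true] at hok
  unfold A4
  refine LS_ung (wm 9 u) J _ (yv (fun u => f (ms u)) (rows4 J u)) _ ?_
  intro e he
  have h := hok e he
  simp only [Bool.and_eq_true, decide_eq_true_eq] at h
  obtain ⟨⟨⟨⟨⟨h1, h2⟩, h3⟩, h4⟩, h5⟩, h6⟩ := h
  refine ⟨h2, h5, ?_⟩
  rw [row4_eq f e.1 (J - e.1) u h1 (by omega), row4_eq f e.2.1 (J - e.2.1) u h4 (by omega)]
  simp only [yv, getD_rows4 J u e.1 h1 h2 h3, getD_rows4 J u e.2.1 h4 h5 h6]

lemma A2_eq (f : Fk) (K u : ℕ) (hK : K < 8) :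
    A2 (fun u => f (ms u)) K u = 128 * 10 ^ 6 * (wm 9 u : ℝ) *
      (((certX.getD K 0 : ℤ) : ℝ) / 10 ^ 6 *
        (ewp K * (bh K f (ms u) * bh K f (ms u)))) := by
  unfold A2
  rw [row2_eq f K u hK]
  have h : (fct K : ℝ) = 128 * ewp K := by
    unfold fct ewp
    have h7 : (2 : ℝ) ^ 7 = 2 ^ (7 - K) * 2 ^ K := by
      rw [← pow_add]; congr 1; omega
    have h2 : (2 : ℝ) ^ K ≠ 0 := by positivity
    push_cast
    field_simp
    rw [show (128 : ℝ) = 2 ^ 7 by norm_num, h7]
  push_cast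
  rw [h]
  ring

/-- The pointwise value. -/
noncomputable def AA (F : ℕ → ℝ) (u : ℕ) : ℝ :=
  (∑ K ∈ range 8, A2 F K u) + (∑ J ∈ range 16, A3 F J u) + (∑ s ∈ range 15, A4 F s u)

lemma AA_eq (f : Fk) (u : ℕ) :
    AA (fun u => f (ms u)) u = 128 * 10 ^ 6 * ((wm 9 u : ℝ) * PW f (ms u)) := by
  unfold AA PW
  have h2 : ∑ K ∈ range 8, A2 (fun u => f (ms u)) K u = 128 * 10 ^ 6 * (wm 9 u : ℝ) *
      XS (fun K => ewp K * (bh K f (ms u) * bh K f (ms u))) := by
    unfold XS
    rw [mul_sum]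
    exact sum_congr rfl fun K hK => A2_eq f K u (mem_range.mp hK)
  have h3 : ∑ J ∈ range 16, A3 (fun u => f (ms u)) J u = 128 * 10 ^ 6 * (wm 9 u : ℝ) *
      LS certR (fun K m K' m' => an m (bh K f) (ms u) * an m' (bh K' f) (ms u)) := by
    rw [certR_eq, LS_flatten, mul_sum]
    exact sum_congr rfl fun J hJ => A3_eq f J u (mem_range.mp hJ)
  have h4 : ∑ J ∈ range 15, A4 (fun u => f (ms u)) J u = 128 * 10 ^ 6 * (wm 9 u : ℝ) *
      LS certQ (fun K₁ K₂ K₁' K₂' => bh K₂ (bh K₁ f) (ms u) * bh K₂' (bh K₁' f) (ms u)) := by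
    rw [certQ_eq, LS_flatten, mul_sum]
    exact sum_congr rfl fun J hJ => A4_eq f J u (mem_range.mp hJ)
  rw [h2, h3, h4]
  ring

/-! ### regrouping -/

lemma shift1 (k n n' : ℕ) (hn : n + k ≤ n') (h : ℕ → ℝ) (h0 : ∀ i, n ≤ i → h i = 0) :
    ∑ i ∈ range n, h i = ∑ N ∈ range n', if k ≤ N then h (N - k) else 0 := by
  rw [← sum_filter]
  have h1 : ∑ i ∈ range n, h i = ∑ i ∈ range (n' - k), h i := by
    apply sum_subset
    · intro i hi
      rw [mem_range] at hi ⊢
      omega
    · intro i _ hi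
      rw [mem_range] at hi
      exact h0 i (by omega)
  rw [h1]
  refine sum_nbij' (fun i => i + k) (fun N => N - k) ?_ ?_ ?_ ?_ ?_
  · intro i hi
    rw [mem_range] at hi
    rw [mem_filter, mem_range]
    omega
  · intro N hN
    rw [mem_filter, mem_range] at hN
    rw [mem_range]
    omega
  · intro i _
    simp
  · intro N hN
    rw [mem_filter, mem_range] at hN
    show N - k + k = N
    omega
  · intro i _
    simp

lemma shift2 (k d : ℕ) (hk : k ≤ 4) (hd : d ≤ 17) (h : ℕ → ℕ → ℝ)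
    (h0 : ∀ n l, 10 ≤ n → h n l = 0) (h0' : ∀ n l, 37 ≤ l → h n l = 0) :
    ∑ n ∈ range 10, ∑ l ∈ range 37, h n l =
      ∑ N ∈ range 14, ∑ L ∈ range 60, if k ≤ N ∧ d ≤ L then h (N - k) (L - d) else 0 := by
  rw [shift1 k 10 14 (by omega) (fun n => ∑ l ∈ range 37, h n l)
    (fun i hi => sum_eq_zero fun l _ => h0 i l hi)]
  refine sum_congr rfl fun N _ => ?_
  by_cases hN : k ≤ N
  · simp only [hN, if_true, true_and]
    exact shift1 d 37 60 (by omega) (fun l => h (N - k) l) (fun i hi => h0' _ i hi)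
  · simp [hN]

lemma tab_length : tab.length = 10 := by decide +kernel

lemma tab_row_length : (tab.all fun r => r.length == 37) = true := by decide +kernel

lemma sec_ge_n (n l : ℕ) (hn : 10 ≤ n) : sec n l = [] := by
  unfold sec
  rw [List.getD_eq_default tab [] (by rw [tab_length]; exact hn)]
  simp

lemma sec_ge_l (n l : ℕ) (hl : 37 ≤ l) : sec n l = [] := by
  unfold sec
  by_cases hn : n < 10
  · have h1 : (tab.getD n []).length = 37 := by
      have hlt : n < tab.length := by rw [tab_length]; exact hn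
      rw [List.getD_eq_getElem _ _ hlt]
      have := List.all_eq_true.mp tab_row_length _ (List.getElem_mem hlt)
      simpa using this
    rw [List.getD_eq_default _ [] (by omega)]
  · rw [List.getD_eq_default tab [] (by rw [tab_length]; omega)]
    simp

lemma sum_getD {α : Type*} (G : α → ℝ) (d : α) : ∀ (L : List α),
    (L.map G).sum = ∑ i ∈ range L.length, G (L.getD i d)
  | [] => by simp
  | a :: L => by
    rw [List.map_cons, List.sum_cons, sum_getD G d L, List.length_cons, sum_range_succ']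
    simp [add_comm]

lemma sum_range512 (hperm : tab.flatten.flatten.Perm (List.range 512)) (g : ℕ → ℝ) :
    ∑ u ∈ range 512, g u = ∑ n ∈ range 10, ∑ l ∈ range 37, ((sec n l).map g).sum := by
  have h1 : ∑ u ∈ range 512, g u = ((List.range 512).map g).sum := by
    rw [sum_getD g 0 (List.range 512), List.length_range]
    refine sum_congr rfl fun u hu => ?_
    rw [List.getD_eq_getElem _ _ (by simpa using hu)]
    simp
  rw [h1, ← (hperm.map g).sum_eq, List.map_flatten, List.sum_flatten, List.map_map,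
    List.map_flatten, List.sum_flatten, List.map_map, sum_getD _ [] tab, tab_length]
  refine sum_congr rfl fun n hn => ?_
  have hlt : n < tab.length := by rw [tab_length]; exact mem_range.mp hn
  have hlen : (tab.getD n []).length = 37 := by
    rw [List.getD_eq_getElem _ _ hlt]
    have := List.all_eq_true.mp tab_row_length _ (List.getElem_mem hlt)
    simpa using this
  simp only [Function.comp_apply]
  rw [sum_getD _ [] (tab.getD n []), hlen]
  refine sum_congr rfl fun l _ => ?_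
  simp only [sec, Function.comp_apply]

/-- The window form is the sum of the sector forms. -/
lemma sum_AA (hperm : tab.flatten.flatten.Perm (List.range 512)) (F : ℕ → ℝ) :
    ∑ u ∈ range 512, AA F u = ∑ N ∈ range 14, ∑ L ∈ range 60, Bv F N L := by
  have key : ∀ (k d : ℕ) (hk : k ≤ 4) (hd : d ≤ 17) (a : ℕ → ℝ),
      ∑ u ∈ range 512, a u = ∑ N ∈ range 14, ∑ L ∈ range 60,
        if k ≤ N ∧ d ≤ L then ((sec (N - k) (L - d)).map a).sum else 0 := by
    intro k d hk hd a
    rw [sum_range512 hperm a]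
    exact shift2 k d hk hd (fun n l => ((sec n l).map a).sum)
      (fun n l hn => by simp only [sec_ge_n n l hn]; simp)
      (fun n l hl => by simp only [sec_ge_l n l hl]; simp)
  have gen : ∀ (k c n : ℕ) (hk : k ≤ 4) (hc : n + c ≤ 18) (A : ℕ → ℕ → ℝ),
      ∑ u ∈ range 512, ∑ K ∈ range n, A K u = ∑ N ∈ range 14, ∑ L ∈ range 60, ∑ K ∈ range n,
        if k ≤ N ∧ K + c ≤ L then ((sec (N - k) (L - (K + c))).map (A K)).sum else 0 := by
    intro k c n hk hc A
    rw [sum_comm]
    rw [sum_congr rfl fun K hK => key k (K + c) hk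
      (by have := mem_range.mp hK; omega) (A K)]
    rw [sum_comm]
    refine sum_congr rfl fun N _ => ?_
    rw [sum_comm]
  have e2 := gen 2 1 8 (by omega) (by omega) (A2 F)
  have e3 := gen 3 1 16 (by omega) (by omega) (A3 F)
  have e4 := gen 4 2 15 (by omega) (by omega) (A4 F)
  have eL : ∑ u ∈ range 512, AA F u = ∑ u ∈ range 512, ∑ K ∈ range 8, A2 F K u +
      ∑ u ∈ range 512, ∑ J ∈ range 16, A3 F J u + ∑ u ∈ range 512, ∑ s ∈ range 15, A4 F s u := by
    unfold AA
    rw [sum_add_distrib, sum_add_distrib]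
  rw [eL, e2, e3, e4, ← sum_add_distrib, ← sum_add_distrib]
  refine sum_congr rfl fun N _ => ?_
  rw [← sum_add_distrib, ← sum_add_distrib]
  refine sum_congr rfl fun L _ => ?_
  unfold Bv
  rfl

lemma LS_wip (L : List (ℕ × ℕ × ℕ × ℕ × ℤ)) (G : ℕ → ℕ → Fk) :
    LS L (fun K m K' m' => wip (G K m) (G K' m')) =
      ∑ U ∈ (range 9).powerset, (∏ a ∈ U, (a.factorial : ℝ)) *
        LS L (fun K m K' m' => G K m U * G K' m' U) := by
  induction L with
  | nil => simp [LS]
  | cons t L ih =>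
    have h1 : ∀ g : ℕ → ℕ → ℕ → ℕ → ℝ, LS (t :: L) g = ((t.2.2.2.2 : ℤ) : ℝ) / 10 ^ 6 *
        (if t.1 = t.2.2.1 ∧ t.2.1 = t.2.2.2.1 then 1 else 2) *
          g t.1 t.2.1 t.2.2.1 t.2.2.2.1 + LS L g := by
      intro g
      simp [LS]
    rw [h1, ih]
    simp only [h1]
    simp only [mul_add, sum_add_distrib]
    congr 1
    unfold wip
    rw [mul_sum]
    exact sum_congr rfl fun U _ => by ring

/-- The window form as one sum. -/
lemma window_eq (f : Fk) :
    XS (fun K => ewp K * wip (bh K f) (bh K f))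
      + LS certR (fun K m K' m' => wip (an m (bh K f)) (an m' (bh K' f)))
      + LS certQ (fun K₁ K₂ K₁' K₂' => wip (bh K₂ (bh K₁ f)) (bh K₂' (bh K₁' f))) =
    ∑ U ∈ (range 9).powerset, (∏ a ∈ U, (a.factorial : ℝ)) * PW f U := by
  have h1 : XS (fun K => ewp K * wip (bh K f) (bh K f)) =
      ∑ U ∈ (range 9).powerset, (∏ a ∈ U, (a.factorial : ℝ)) *
        XS (fun K => ewp K * (bh K f U * bh K f U)) := by
    unfold XS wip
    simp only [mul_sum]
    rw [sum_comm]
    exact sum_congr rfl fun U _ => sum_congr rfl fun K _ => by ring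
  have h2 := LS_wip certR (fun K m => an m (bh K f))
  have h3 := LS_wip certQ (fun K₁ K₂ => bh K₂ (bh K₁ f))
  rw [h1, h2, h3, ← sum_add_distrib, ← sum_add_distrib]
  exact sum_congr rfl fun U _ => by unfold PW; ring

/-- Nonnegativity of the window form from the sector checks. -/
theorem window_of (hperm : tab.flatten.flatten.Perm (List.range 512))
    (hnd : ∀ N L, N < 14 → L < 60 → (sec N L).Nodup)
    (hchk : ∀ N L, N < 14 → L < 60 → chk N L = true) (f : Fk) :
    0 ≤ XS (fun K => ewp K * wip (bh K f) (bh K f))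
      + LS certR (fun K m K' m' => wip (an m (bh K f)) (an m' (bh K' f)))
      + LS certQ (fun K₁ K₂ K₁' K₂' => wip (bh K₂ (bh K₁ f)) (bh K₂' (bh K₁' f))) := by
  rw [window_eq, sum_powerset]
  have h1 : ∑ u ∈ range 512, AA (fun u => f (ms u)) u =
      128 * 10 ^ 6 * ∑ u ∈ range 512, (∏ a ∈ ms u, (a.factorial : ℝ)) * PW f (ms u) := by
    rw [mul_sum]
    exact sum_congr rfl fun u _ => by rw [AA_eq, wm_ms]
  have h2 : 0 ≤ ∑ u ∈ range 512, AA (fun u => f (ms u)) u := by
    rw [sum_AA hperm]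
    exact sum_nonneg fun N hN => sum_nonneg fun L hL =>
      Bv_nonneg _ N L (hnd N L (mem_range.mp hN) (mem_range.mp hL))
        (hchk N L (mem_range.mp hN) (mem_range.mp hL))
  rw [h1] at h2
  linarith

end Vale.Agent.P359.Win
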